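import Vale.Agent.P087.UpDefs

/-!
# [U] Lower bound of the non-microstates entropy from bounds of the Fisher information (P087)
-/

namespace Vale.Agent.P087

open scoped InnerProductSpace ENNReal Topology
open MeasureTheory Filter ProbabilityTheory

namespace ChiStarAux

open Set Real

/-- the main integral -/
theorem main_int {ε : ℝ} (h0 : 0 < ε) (h1 : ε ≤ 1) :
    IntegrableOn (fun t : ℝ => 1 / (1 + t) - 1 / (ε + t)) (Ioi 0) ∧
      ∫ t in Ioi (0 : ℝ), (1 / (1 + t) - 1 / (ε + t)) = log ε := by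
  have hd : ∀ t ∈ Ici (0 : ℝ), HasDerivAt (fun t => log (1 + t) - log (ε + t))
      (1 / (1 + t) - 1 / (ε + t)) t := by
    intro t ht
    have ht' : (0 : ℝ) ≤ t := ht
    have a1 : HasDerivAt (fun t : ℝ => 1 + t) 1 t := (hasDerivAt_id t).const_add 1
    have a2 : HasDerivAt (fun t : ℝ => ε + t) 1 t := (hasDerivAt_id t).const_add ε
    exact (a1.log (by positivity)).sub (a2.log (by positivity))
  have hneg : ∀ t ∈ Ioi (0 : ℝ), 1 / (1 + t) - 1 / (ε + t) ≤ 0 := by
    intro t ht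
    have ht' : (0 : ℝ) < t := ht
    have := one_div_le_one_div_of_le (show 0 < ε + t by positivity) (show ε + t ≤ 1 + t by linarith)
    linarith
  have hlim : Tendsto (fun t : ℝ => log (1 + t) - log (ε + t)) atTop (𝓝 0) := by
    have e : ∀ᶠ t : ℝ in atTop, log (1 + (1 - ε) / (ε + t)) = log (1 + t) - log (ε + t) := by
      filter_upwards [eventually_gt_atTop (0 : ℝ)] with t ht
      rw [← log_div (by positivity) (by positivity)]
      congr 1
      field_simp
      ring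
    refine Tendsto.congr' e ?_
    have b1 : Tendsto (fun t : ℝ => (1 - ε) / (ε + t)) atTop (𝓝 0) :=
      Tendsto.div_atTop tendsto_const_nhds (tendsto_atTop_add_const_left _ _ tendsto_id)
    have b2 : Tendsto (fun t : ℝ => 1 + (1 - ε) / (ε + t)) atTop (𝓝 (1 + 0)) :=
      tendsto_const_nhds.add b1
    rw [add_zero] at b2
    have b3 := (Real.continuousAt_log (one_ne_zero)).tendsto.comp b2
    rwa [log_one] at b3
  refine ⟨integrableOn_Ioi_deriv_of_nonpos' hd hneg hlim, ?_⟩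
  rw [integral_Ioi_of_hasDerivAt_of_nonpos' hd hneg hlim]
  simp

/-- the gain at large times -/
theorem gain_int {T : ℝ} (hT : 0 < T) (c : ℝ) :
    IntegrableOn (fun t : ℝ => (Ici T).indicator (fun t => c / (1 + t) ^ 2) t) (Ioi 0) ∧
      ∫ t in Ioi (0 : ℝ), (Ici T).indicator (fun t => c / (1 + t) ^ 2) t = c / (1 + T) := by
  have hd : ∀ t ∈ Ici T, HasDerivAt (fun t : ℝ => -(1 + t)⁻¹) (1 / (1 + t) ^ 2) t := by
    intro t ht
    have ht' : T ≤ t := ht
    have a1 : HasDerivAt (fun t : ℝ => 1 + t) 1 t := (hasDerivAt_id t).const_add 1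
    have a2 := (a1.inv (by linarith : (1 + t : ℝ) ≠ 0)).neg
    have e : -(-1 / (1 + t) ^ 2) = 1 / (1 + t) ^ 2 := by ring
    rw [e] at a2
    exact a2
  have hpos : ∀ t ∈ Ioi T, (0 : ℝ) ≤ 1 / (1 + t) ^ 2 := fun t _ => by positivity
  have hlim : Tendsto (fun t : ℝ => -(1 + t)⁻¹) atTop (𝓝 0) := by
    have b1 : Tendsto (fun t : ℝ => (1 + t)⁻¹) atTop (𝓝 0) :=
      tendsto_inv_atTop_zero.comp (tendsto_atTop_add_const_left _ _ tendsto_id)
    simpa using b1.neg
  have hi := integrableOn_Ioi_deriv_of_nonneg' hd hpos hlim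
  have hv := integral_Ioi_of_hasDerivAt_of_nonneg' hd hpos hlim
  have hsub : Ioi (0 : ℝ) ∩ Ici T = Ici T := by
    ext t
    simp only [mem_inter_iff, mem_Ioi, mem_Ici, and_iff_right_iff_imp]
    intro h; linarith
  have hc : (fun t : ℝ => c / (1 + t) ^ 2) = fun t => c * (1 / (1 + t) ^ 2) := by
    ext t; rw [mul_one_div]
  constructor
  · rw [IntegrableOn, integrable_indicator_iff measurableSet_Ici, IntegrableOn,
      Measure.restrict_restrict measurableSet_Ici, inter_comm, hsub]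
    change IntegrableOn _ (Ici T)
    rw [integrableOn_Ici_iff_integrableOn_Ioi, hc]
    exact hi.const_mul c
  · rw [setIntegral_indicator measurableSet_Ici, hsub, integral_Ici_eq_integral_Ioi, hc,
      integral_const_mul, hv]
    rw [zero_sub, neg_neg, div_eq_mul_inv]

/-- comparison of the difference of the two Lebesgue integrals with a real integral -/
theorem compare {h g : ℝ → ℝ} {φ : ℝ → ℝ≥0∞} {s : Set ℝ} (hs : MeasurableSet s)
    (hh : ∀ t ∈ s, 0 ≤ h t) (hg : ∀ t ∈ s, 0 ≤ g t)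
    (hφ : ∀ t ∈ s, φ t ≤ ENNReal.ofReal (g t)) (hi : IntegrableOn (fun t => h t - g t) s) :
    ((∫ t in s, (h t - g t) : ℝ) : EReal) ≤
      ((∫⁻ t in s, (ENNReal.ofReal (h t) - φ t) : ℝ≥0∞) : EReal) -
        ((∫⁻ t in s, (φ t - ENNReal.ofReal (h t)) : ℝ≥0∞) : EReal) := by
  have h1 : ∫⁻ t in s, ENNReal.ofReal (h t - g t) ≤ ∫⁻ t in s, (ENNReal.ofReal (h t) - φ t) := by
    refine setLIntegral_mono' hs fun t ht => ?_
    rw [ENNReal.ofReal_sub _ (hg t ht)]
    exact tsub_le_tsub_left (hφ t ht) _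
  have h2 : ∫⁻ t in s, (φ t - ENNReal.ofReal (h t)) ≤ ∫⁻ t in s, ENNReal.ofReal (-(h t - g t)) := by
    refine setLIntegral_mono' hs fun t ht => ?_
    rw [neg_sub, ENNReal.ofReal_sub _ (hh t ht)]
    exact tsub_le_tsub_right (hφ t ht) _
  have hP : ∫⁻ t in s, ENNReal.ofReal (h t - g t) ≠ ⊤ := hi.lintegral_lt_top.ne
  have hN : ∫⁻ t in s, ENNReal.ofReal (-(h t - g t)) ≠ ⊤ := hi.neg.lintegral_lt_top.ne
  have e := integral_eq_lintegral_pos_part_sub_lintegral_neg_part hi
  rw [e, EReal.coe_sub]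
  refine EReal.sub_le_sub ?_ ?_
  · have := EReal.coe_ennreal_le_coe_ennreal_iff.mpr h1
    rw [← EReal.coe_ennreal_toReal hP] at this
    exact this
  · have := EReal.coe_ennreal_le_coe_ennreal_iff.mpr h2
    rw [← EReal.coe_ennreal_toReal hN] at this
    exact this

end ChiStarAux

open ChiStarAux Set Real in
/-- purely analytic part -/
theorem chiStar_ge_of_phi {H : Type} [NormedAddCommGroup H] [InnerProductSpace ℂ H]
    {a : ℕ} (ha : 11 ≤ a) (Ω : H) (W S : Fin (a + 1) → H →L[ℂ] H)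
    (h1 : ∀ t : ℝ, 0 < t → phiStar Ω (fun j => W j + ((√t : ℝ) : ℂ) • S j) ≤
      ENNReal.ofReal (∑ j, 1 / (bW a j ^ 2 + t)))
    (h2 : ∀ t : ℝ, 11 * √(a : ℝ) ≤ t → phiStar Ω (fun j => W j + ((√t : ℝ) : ℂ) • S j) ≤
      ENNReal.ofReal ((∑ j, 1 / (bW a j ^ 2 + t)) -
        a * (1 / (a : ℝ) - (1 / (a : ℝ)) ^ 2 * (20 * √(a : ℝ))) / (1 + t) ^ 2)) :
    ((Llow a : ℝ) : EReal) ≤ chiStar Ω W S := by
  have ha0 : (0 : ℝ) < a := by
    have : 0 < a := by omega
    exact_mod_cast this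
  have ha1 : (1 : ℝ) ≤ a := by
    have : 1 ≤ a := by omega
    exact_mod_cast this
  have hsum : ∀ t : ℝ, ∑ j, 1 / (bW a j ^ 2 + t) = 1 / (1 / (a : ℝ) ^ 4 + t) + a * (1 / (1 + t)) := by
    intro t
    rw [Fin.sum_univ_succ]
    have e0 : bW a 0 = 1 / (a : ℝ) ^ 2 := rfl
    have e1 : ∀ i : Fin a, bW a i.succ = 1 := fun i => rfl
    simp only [e0, e1, one_pow, Finset.sum_const, Finset.card_univ, Fintype.card_fin,
      nsmul_eq_mul]
    congr 2
    rw [div_pow, one_pow, ← pow_mul]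
  set ε : ℝ := 1 / (a : ℝ) ^ 4 with hε
  have hε0 : 0 < ε := by positivity
  have hε1 : ε ≤ 1 := by
    rw [hε, div_le_one (by positivity)]
    exact one_le_pow₀ ha1
  set T : ℝ := 11 * √(a : ℝ) with hT
  have hT0 : 0 < T := by positivity
  set c : ℝ := a * (1 / (a : ℝ) - (1 / (a : ℝ)) ^ 2 * (20 * √(a : ℝ))) with hc
  have hc1 : c ≤ 1 := by
    have e : c = 1 - (1 / (a : ℝ)) * (20 * √(a : ℝ)) := by
      rw [hc]; field_simp
    rw [e]
    have : 0 ≤ (1 / (a : ℝ)) * (20 * √(a : ℝ)) := by positivity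
    linarith
  let h : ℝ → ℝ := fun t => ((a + 1 : ℕ) : ℝ) / (1 + t)
  let g : ℝ → ℝ := fun t => (1 / (ε + t) + a * (1 / (1 + t))) -
    (Ici T).indicator (fun t => c / (1 + t) ^ 2) t
  have hdiff : ∀ t, h t - g t = (1 / (1 + t) - 1 / (ε + t)) +
      (Ici T).indicator (fun t => c / (1 + t) ^ 2) t := by
    intro t
    simp only [h, g]
    push_cast
    ring
  obtain ⟨i1, v1⟩ := main_int hε0 hε1
  obtain ⟨i2, v2⟩ := gain_int hT0 c
  have hint : IntegrableOn (fun t => h t - g t) (Ioi 0) := by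
    have : (fun t => h t - g t) = fun t => (1 / (1 + t) - 1 / (ε + t)) +
      (Ici T).indicator (fun t => c / (1 + t) ^ 2) t := funext hdiff
    rw [this]
    exact i1.add i2
  have hval : ∫ t in Ioi (0 : ℝ), (h t - g t) = log ε + c / (1 + T) := by
    simp only [hdiff]
    rw [integral_add i1 i2, v1, v2]
  have hh : ∀ t ∈ Ioi (0 : ℝ), 0 ≤ h t := by
    intro t ht
    have ht' : (0 : ℝ) < t := ht
    simp only [h]
    positivity
  have hg : ∀ t ∈ Ioi (0 : ℝ), 0 ≤ g t := by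
    intro t ht
    have ht' : (0 : ℝ) < t := ht
    simp only [g]
    by_cases hTt : t ∈ Ici T
    · rw [indicator_of_mem hTt]
      have b1 : c / (1 + t) ^ 2 ≤ 1 / (1 + t) ^ 2 := by gcongr
      have b2 : 1 / (1 + t) ^ 2 ≤ 1 / (1 + t) := by
        apply one_div_le_one_div_of_le (by positivity)
        nlinarith
      have b3 : 1 / (1 + t) ≤ a * (1 / (1 + t)) := by
        have : 0 ≤ 1 / (1 + t) := by positivity
        nlinarith
      have b4 : 0 < 1 / (ε + t) := by positivity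
      linarith
    · rw [indicator_of_notMem hTt, sub_zero]
      positivity
  have hφ : ∀ t ∈ Ioi (0 : ℝ), phiStar Ω (fun j => W j + ((√t : ℝ) : ℂ) • S j) ≤
      ENNReal.ofReal (g t) := by
    intro t ht
    simp only [g]
    by_cases hTt : t ∈ Ici T
    · rw [indicator_of_mem hTt, ← hsum]
      exact h2 t hTt
    · rw [indicator_of_notMem hTt, sub_zero, ← hsum]
      exact h1 t ht
  have key := compare measurableSet_Ioi hh hg hφ hint
  rw [hval] at key
  have hL : Llow a = 1 / 2 * (log ε + c / (1 + T)) +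
      ((a + 1 : ℕ) : ℝ) / 2 * log (2 * π * exp 1) := by
    unfold Llow
    have e1 : log (2 * π * exp 1 * (1 / (a : ℝ) ^ 4)) = log (2 * π * exp 1) + log ε := by
      rw [← hε, log_mul (by positivity) hε0.ne']
    rw [e1, hc, hT]
    push_cast
    ring
  rw [hL, EReal.coe_add, EReal.coe_mul]
  unfold chiStar
  refine add_le_add ?_ le_rfl
  refine mul_le_mul_of_nonneg_left ?_ ?_
  · exact key
  · exact_mod_cast (by norm_num : (0 : ℝ) ≤ 1 / 2)

end Vale.Agent.P087
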