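import Vale.Agent.P087.Defs2

/-! [K] convergence of the moments of the random matrix model -/

namespace Vale.Agent.P087

open scoped Topology
open Filter

namespace ConvAux

variable {a : ℕ} {C : Type} [DecidableEq C]

theorem mem_splits {ι : Type} [DecidableEq ι] {j : ι} {w : List ι} {p : List ι × List ι}
    (h : p ∈ splits j w) : w = p.1 ++ j :: p.2 := by
  induction w generalizing p with
  | nil => simp [splits] at h
  | cons i w ih =>
    rw [splits, List.mem_append] at h
    rcases h with h | h
    · split_ifs at h with hij
      · rw [List.mem_singleton] at h
        subst h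
        simp [hij]
      · simp at h
    · rw [List.mem_map] at h
      obtain ⟨p', hp', rfl⟩ := h
      simpa using ih hp'

/-- size of a word -/
def sz (w : List (Fin (a + 1) ⊕ C)) : ℕ := w.length + w.countP (fun y => y ≠ Sum.inl 0)

/-- size of a list of words -/
def mu (ws : List (List (Fin (a + 1) ⊕ C))) : ℕ := (ws.map fun w => sz w + 1).sum

theorem sz_append (u v : List (Fin (a + 1) ⊕ C)) : sz (u ++ v) = sz u + sz v := by
  simp only [sz, List.length_append, List.countP_append]
  omega

theorem sz_nil : sz ([] : List (Fin (a + 1) ⊕ C)) = 0 := rfl

theorem sz_cons_e (v : List (Fin (a + 1) ⊕ C)) : sz (.inl 0 :: v) = sz v + 1 := by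
  simp [sz]
  omega

theorem sz_cons_x (i : Fin a) (v : List (Fin (a + 1) ⊕ C)) : sz (.inl i.succ :: v) = sz v + 2 := by
  simp [sz]
  omega

theorem sz_cons_s (c : C) (v : List (Fin (a + 1) ⊕ C)) : sz (.inr c :: v) = sz v + 2 := by
  simp [sz]
  omega

theorem mu_nil : mu ([] : List (List (Fin (a + 1) ⊕ C))) = 0 := rfl

theorem mu_cons (w : List (Fin (a + 1) ⊕ C)) (ws : List (List (Fin (a + 1) ⊕ C))) :
    mu (w :: ws) = sz w + 1 + mu ws := by
  simp [mu]

theorem mu_erase (ws : List (List (Fin (a + 1) ⊕ C))) (l : Fin ws.length) :
    sz (ws.get l) + 1 + mu (ws.eraseIdx l) = mu ws := by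
  have h := (List.getElem_cons_eraseIdx_perm (l := ws) (n := l) l.2)
  have h2 : mu ((ws.get l) :: ws.eraseIdx l) = mu ws := by
    unfold mu
    exact (h.map _).sum_eq
  rw [← h2, mu_cons]

theorem splits_snoc_e (c : C) (P : List (Fin (a + 1) ⊕ C)) :
    splits (.inr c) (P ++ [.inl 0]) =
      (splits (.inr c) P).map fun p => (p.1, p.2 ++ [.inl 0]) := by
  induction P with
  | nil => simp [splits]
  | cons y P ih =>
    rw [List.cons_append, splits, ih, splits, List.map_append, List.map_map, List.map_map]
    congr 1
    split_ifs <;> simp

/-- the limit is an additive error of order `k⁻²` away -/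
theorem lim_err {a : ℕ} (ha : 1 ≤ a) (b : ℂ) (F : ℕ → ℂ) (L : ℂ) (hF : Tendsto F atTop (𝓝 L)) :
    Tendsto (fun q : ℕ => b * (((a * q : ℕ) : ℂ) ^ 2)⁻¹ * F q) atTop (𝓝 0) := by
  have h1 : Tendsto (fun q : ℕ => (((a * q : ℕ) : ℂ) ^ 2)⁻¹) atTop (𝓝 0) := by
    rw [tendsto_zero_iff_norm_tendsto_zero]
    have h2 : ∀ q : ℕ, ‖(((a * q : ℕ) : ℂ) ^ 2)⁻¹‖ = (((a * q : ℕ) : ℝ) ^ 2)⁻¹ := by
      intro q
      rw [norm_inv, norm_pow, Complex.norm_natCast]
    simp_rw [h2]
    apply Tendsto.inv_tendsto_atTop
    apply (tendsto_pow_atTop (by norm_num)).comp
    apply tendsto_natCast_atTop_atTop.comp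
    exact tendsto_id.const_mul_atTop' (by omega)
  have h3 := ((tendsto_const_nhds (x := b)).mul h1).mul hF
  simpa using h3

end ConvAux

open ConvAux

theorem matSys_tendsto {a : ℕ} (ha : 1 ≤ a) {C : Type} [DecidableEq C]
    (M : ℕ → List (List (Fin (a + 1) ⊕ C)) → ℂ)
    (hM : ∀ q, 1 ≤ q → MatSys (a * q) (M q)) (τ : List (Fin (a + 1) ⊕ C) → ℂ)
    (hτ : IsLaw (1 / (a : ℝ)) τ) (ws : List (List (Fin (a + 1) ⊕ C))) :
    Tendsto (fun q => M q ws) atTop (𝓝 (ws.map τ).prod) := by
  have hev : ∀ᶠ q : ℕ in atTop, 1 ≤ q := eventually_ge_atTop 1
  have hδ : ((1 / (a : ℝ) : ℝ) : ℂ) = (a : ℂ)⁻¹ := by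
    push_cast
    rw [one_div]
  have main : ∀ N, ∀ ws : List (List (Fin (a + 1) ⊕ C)), mu ws ≤ N →
      Tendsto (fun q => M q ws) atTop (𝓝 (ws.map τ).prod) := by
    intro N
    induction N with
    | zero =>
      intro ws hws
      cases ws with
      | nil =>
        refine Tendsto.congr' ?_ tendsto_const_nhds
        filter_upwards [hev] with q hq
        simp [(hM q hq).nilnil]
      | cons w ws => rw [mu_cons] at hws; omega
    | succ N ih =>
      intro ws hws
      cases ws with
      | nil =>
        refine Tendsto.congr' ?_ tendsto_const_nhds
        filter_upwards [hev] with q hq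
        simp [(hM q hq).nilnil]
      | cons w ws =>
        rw [mu_cons] at hws
        rw [List.map_cons, List.prod_cons]
        -- convergence for the error terms
        have herr : ∀ (y : Fin (a + 1) ⊕ C) (g : List (Fin (a + 1) ⊕ C) → List (Fin (a + 1) ⊕ C) →
            List (Fin (a + 1) ⊕ C)) (b : ℂ), (∀ u, sz (y :: u) = sz u + 2) →
            (∀ u v, sz (g u v) ≤ sz u + sz v + sz w + 2) →
            Tendsto (fun q : ℕ => b * (((a * q : ℕ) : ℂ) ^ 2)⁻¹ * ∑ l : Fin ws.length,
              ((splits y (ws.get l)).map fun p => M q ((g p.1 p.2) :: ws.eraseIdx l)).sum)
              atTop (𝓝 0) := by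
          intro y g b hy hg
          apply lim_err ha b _ (∑ l : Fin ws.length,
              ((splits y (ws.get l)).map fun p =>
                (((g p.1 p.2) :: ws.eraseIdx l).map τ).prod).sum)
          apply tendsto_finsetSum
          intro l _
          apply tendsto_list_sum
          intro p hp
          apply ih
          rw [mu_cons]
          have h1 := mu_erase ws l
          have h2 := mem_splits hp
          have h3 : sz (ws.get l) = sz p.1 + (sz p.2 + 2) := by
            rw [h2, sz_append, hy]
          have h4 := hg p.1 p.2
          omega
        match w, hws, herr with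
        | [], hws, _ =>
          rw [hτ.nil, one_mul]
          refine Tendsto.congr' ?_ (ih ws (by rw [sz_nil] at hws; omega))
          filter_upwards [hev] with q hq
          exact ((hM q hq).nil_cons ws).symm
        | .inr c :: Q, hws, herr =>
          rw [sz_cons_s] at hws
          have h1 : Tendsto (fun q => ((splits (.inr c) Q).map fun p =>
              M q (p.1 :: p.2 :: ws)).sum) atTop (𝓝 ((splits (.inr c) Q).map fun p =>
              ((p.1 :: p.2 :: ws).map τ).prod).sum) := by
            apply tendsto_list_sum
            intro p hp
            apply ih
            have h2 := mem_splits hp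
            have h3 : sz Q = sz p.1 + (sz p.2 + 2) := by
              rw [h2, sz_append, sz_cons_s]
            rw [mu_cons, mu_cons]
            omega
          have h2 := herr (.inr c) (fun u v => Q ++ v ++ u) 1 (fun u => sz_cons_s c u) (by
            intro u v
            rw [sz_append, sz_append, sz_cons_s]
            omega)
          have h3 := h1.add h2
          rw [add_zero] at h3
          have h4 : ((splits (.inr c) Q).map fun p => ((p.1 :: p.2 :: ws).map τ).prod).sum =
              τ (.inr c :: Q) * (ws.map τ).prod := by
            rw [hτ.s, ← List.sum_map_mul_right]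
            congr 1
            apply List.map_congr_left
            intro p _
            simp [mul_assoc]
          rw [h4] at h3
          refine Tendsto.congr' ?_ h3
          filter_upwards [hev] with q hq
          rw [(hM q hq).s, one_mul]
        | .inl j :: Q, hws, herr =>
          induction j using Fin.cases with
          | succ i =>
            rw [sz_cons_x] at hws
            have h1 : Tendsto (fun q => ((splits (.inl i.succ) Q).map fun p =>
                M q ((.inl 0 :: p.1) :: (.inl 0 :: p.2) :: ws)).sum) atTop
                (𝓝 ((splits (.inl i.succ) Q).map fun p =>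
                (((.inl 0 :: p.1) :: (.inl 0 :: p.2) :: ws).map τ).prod).sum) := by
              apply tendsto_list_sum
              intro p hp
              apply ih
              have h2 := mem_splits hp
              have h3 : sz Q = sz p.1 + (sz p.2 + 2) := by
                rw [h2, sz_append, sz_cons_x]
              rw [mu_cons, mu_cons, sz_cons_e, sz_cons_e]
              omega
            have h2 := herr (.inl i.succ) (fun u v => .inl 0 :: Q ++ .inl 0 :: v ++ u) (a : ℂ)
              (fun u => sz_cons_x i u) (by
              intro u v
              rw [sz_append, sz_append, sz_cons_e, sz_cons_e, sz_cons_x]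
              omega)
            have h3 := (h1.const_mul (a : ℂ)).add h2
            rw [add_zero] at h3
            have h4 : (a : ℂ) * ((splits (.inl i.succ) Q).map fun p =>
                (((.inl 0 :: p.1) :: (.inl 0 :: p.2) :: ws).map τ).prod).sum =
                τ (.inl i.succ :: Q) * (ws.map τ).prod := by
              rw [hτ.x, hδ, inv_inv, mul_assoc, ← List.sum_map_mul_right]
              congr 2
              apply List.map_congr_left
              intro p _
              simp [mul_assoc]
            rw [h4] at h3
            refine Tendsto.congr' ?_ h3
            filter_upwards [hev] with q hq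
            rw [(hM q hq).x]
          | zero =>
            match Q, hws with
            | [], hws =>
              rw [hτ.e, hδ]
              have h1 := (ih ws (by rw [sz_cons_e] at hws; omega)).const_mul (a : ℂ)⁻¹
              refine Tendsto.congr' ?_ h1
              filter_upwards [hev] with q hq
              exact ((hM q hq).e ws).symm
            | .inr c :: P, hws =>
              rw [sz_cons_e, sz_cons_s] at hws
              have hspl : splits (.inr c) (P ++ [.inl 0]) =
                  (splits (.inr c) P).map fun p => (p.1, p.2 ++ [.inl 0]) := splits_snoc_e c P
              have h1 : Tendsto (fun q => ((splits (.inr c) P).map fun p =>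
                  M q (p.1 :: (.inl 0 :: p.2) :: ws)).sum) atTop
                  (𝓝 ((splits (.inr c) P).map fun p =>
                  ((p.1 :: (.inl 0 :: p.2) :: ws).map τ).prod).sum) := by
                apply tendsto_list_sum
                intro p hp
                apply ih
                have h2 := mem_splits hp
                have h3 : sz P = sz p.1 + (sz p.2 + 2) := by
                  rw [h2, sz_append, sz_cons_s]
                rw [mu_cons, mu_cons, sz_cons_e]
                omega
              have h2 := herr (.inr c) (fun u v => (P ++ [.inl 0]) ++ v ++ u) 1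
                (fun u => sz_cons_s c u) (by
                intro u v
                rw [sz_append, sz_append, sz_append, sz_cons_e, sz_cons_e, sz_cons_s, sz_nil]
                omega)
              have h3 := h1.add h2
              rw [add_zero] at h3
              have h4 : ((splits (.inr c) P).map fun p =>
                  ((p.1 :: (.inl 0 :: p.2) :: ws).map τ).prod).sum =
                  τ (.inl 0 :: .inr c :: P) * (ws.map τ).prod := by
                rw [hτ.es, ← List.sum_map_mul_right]
                congr 1
                apply List.map_congr_left
                intro p _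
                simp [mul_assoc]
              rw [h4] at h3
              refine Tendsto.congr' ?_ h3
              filter_upwards [hev] with q hq
              have h5 := (hM q hq).rot [.inl 0] (.inr c :: P) ws
              rw [List.singleton_append, List.cons_append] at h5
              rw [h5, (hM q hq).s, one_mul, hspl, List.map_map]
              congr 2
              apply List.map_congr_left
              intro p _
              show M q (p.1 :: (.inl 0 :: p.2) :: ws) = M q (p.1 :: (p.2 ++ [.inl 0]) :: ws)
              have hsw : ∀ A B : List (Fin (a + 1) ⊕ C), M q (A :: B :: ws) = M q (B :: A :: ws) :=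
                fun A B => (hM q hq).perm _ _ (List.Perm.swap _ _ _)
              have h6 := (hM q hq).rot [.inl 0] p.2 (p.1 :: ws)
              rw [List.singleton_append] at h6
              rw [hsw, h6, hsw]
            | .inl j' :: P, hws =>
              induction j' using Fin.cases with
              | zero =>
                rw [hτ.ee]
                have h1 := ih ((.inl 0 :: P) :: ws) (by
                  rw [sz_cons_e] at hws
                  rw [mu_cons]
                  omega)
                rw [List.map_cons, List.prod_cons] at h1
                refine Tendsto.congr' ?_ h1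
                filter_upwards [hev] with q hq
                exact ((hM q hq).ee P ws).symm
              | succ i =>
                rw [hτ.ex]
                have h1 := ih ((.inl i.succ :: P) :: ws) (by
                  rw [sz_cons_e] at hws
                  rw [mu_cons]
                  omega)
                rw [List.map_cons, List.prod_cons] at h1
                refine Tendsto.congr' ?_ h1
                filter_upwards [hev] with q hq
                exact ((hM q hq).ex i P ws).symm
  exact main (mu ws) ws le_rfl

end Vale.Agent.P087
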