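import Mathlib

/-!
# Definitions for P087: microstates free entropy `χ` and non-microstates free entropy `χ*`

All definitions are the literal ones of Voiculescu, for a tuple of self-adjoint elements of a
von Neumann algebra acting on a Hilbert space `H`, whose faithful normal tracial state is the
vector state of a unit vector `Ω`.
-/

namespace Vale.Agent.P087

open scoped InnerProductSpace ENNReal
open MeasureTheory Filter

/-! ## Tracial von Neumann algebras and moments -/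

/-- A von Neumann algebra `M` on the Hilbert space `H` with a unit vector `Ω` such that
`τ(x) = ⟪Ω, x Ω⟫` is a faithful tracial state on `M` (normal, being a vector state). -/
structure TracialVN (H : Type) [NormedAddCommGroup H] [InnerProductSpace ℂ H]
    [CompleteSpace H] where
  /-- the von Neumann algebra -/
  M : VonNeumannAlgebra H
  /-- the trace vector -/
  Ω : H
  norm_Ω : ‖Ω‖ = 1
  tracial : ∀ x ∈ M, ∀ y ∈ M, ⟪Ω, (x * y) Ω⟫_ℂ = ⟪Ω, (y * x) Ω⟫_ℂ
  faithful : ∀ x ∈ M, ⟪Ω, (star x * x) Ω⟫_ℂ = 0 → x = 0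

variable {H : Type} [NormedAddCommGroup H] [InnerProductSpace ℂ H]

/-- The moment `τ(X_{w_1} ⋯ X_{w_p})` of the word `w = [w_1, …, w_p]`. -/
noncomputable def moment {ι : Type} (Ω : H) (X : ι → H →L[ℂ] H) (w : List ι) : ℂ :=
  ⟪Ω, (w.map X).prod Ω⟫_ℂ

/-! ## Non-microstates free entropy -/

/-- The free difference quotient `∂_j` on the monomial `x_w`: the list of all pairs `(w', w'')`
of words with `w = w' ++ j :: w''`. -/
def splits {ι : Type} [DecidableEq ι] (j : ι) : List ι → List (List ι × List ι)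
  | [] => []
  | i :: w => (if i = j then [([], w)] else []) ++ (splits j w).map fun p => (i :: p.1, p.2)

/-- `L²(W*(X), τ)`, realised inside `H` as the closure of `{P(X) Ω : P a polynomial}`. -/
def L2 {ι : Type} (Ω : H) (X : ι → H →L[ℂ] H) : Submodule ℂ H :=
  (Submodule.span ℂ (Set.range fun w : List ι => (w.map X).prod Ω)).topologicalClosure

/-- `ξ` is a system of conjugate variables of the self-adjoint tuple `X`:
`ξ_j ∈ L²(W*(X), τ)` and `τ(ξ_j P(X)) = (τ ⊗ τ)(∂_j P (X))` for every monomial (hence for every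
polynomial) `P = x_w`.  Here `τ(ξ_j P(X)) = ⟪P(X)* Ω, ξ_j⟫`, and `x_w(X)* = x_{reverse w}(X)`. -/
def IsConj {ι : Type} [DecidableEq ι] (Ω : H) (X : ι → H →L[ℂ] H) (ξ : ι → H) : Prop :=
  ∀ j, ξ j ∈ L2 Ω X ∧ ∀ w : List ι,
    ⟪(w.reverse.map X).prod Ω, ξ j⟫_ℂ =
      ((splits j w).map fun p => moment Ω X p.1 * moment Ω X p.2).sum

/-- The free Fisher information `Φ*(X) = ∑_j ‖ξ_j‖₂²` (`∞` if there are no conjugate variables). -/
noncomputable def phiStar {n : ℕ} (Ω : H) (X : Fin n → H →L[ℂ] H) : ℝ≥0∞ :=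
  ⨅ (ξ : Fin n → H) (_ : IsConj Ω X ξ), ∑ j, ENNReal.ofReal (‖ξ j‖ ^ 2)

/-- The non-microstates free entropy
`χ*(X) = (1/2) ∫_0^∞ (n/(1+t) - Φ*(X + √t S)) dt + (n/2) log (2 π e)`; the integral is the
difference of the integrals of the positive and of the negative part (the first one is always
finite), and `S` is a free semicircular family free from `X`. -/
noncomputable def chiStar {n : ℕ} (Ω : H) (X S : Fin n → H →L[ℂ] H) : EReal :=
  ((1 / 2 : ℝ) : EReal) *
    (((∫⁻ t in Set.Ioi (0 : ℝ), (ENNReal.ofReal (n / (1 + t)) -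
        phiStar Ω fun j => X j + ((√t : ℝ) : ℂ) • S j) : ℝ≥0∞) : EReal) -
      ((∫⁻ t in Set.Ioi (0 : ℝ), (phiStar Ω (fun j => X j + ((√t : ℝ) : ℂ) • S j) -
        ENNReal.ofReal (n / (1 + t))) : ℝ≥0∞) : EReal)) +
    ((n / 2 * Real.log (2 * Real.pi * Real.exp 1) : ℝ) : EReal)

/-! ## Free independence and semicircular elements -/

/-- Freeness of a family of sub-algebras `A i` of `B(H)` with respect to `⟪Ω, · Ω⟫`:
every nonempty alternating product of centred elements is centred. -/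
def FreeAlgs {ι : Type} (Ω : H) (A : ι → Subalgebra ℂ (H →L[ℂ] H)) : Prop :=
  ∀ w : List (ι × (H →L[ℂ] H)), w ≠ [] →
    (∀ p ∈ w, p.2 ∈ A p.1 ∧ ⟪Ω, p.2 Ω⟫_ℂ = 0) →
    w.IsChain (fun p q => p.1 ≠ q.1) →
    ⟪Ω, (w.map Prod.snd).prod Ω⟫_ℂ = 0

/-- `S` is a free family of semicircular elements of variance `1`, free from the tuple `X`:
the algebras generated by `X`, `S_0`, `S_1`, … are free, and each `S_j` is self-adjoint with the
moments of the semicircle law (the Catalan numbers). -/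
def FreeSemicirc {n : ℕ} [CompleteSpace H] (Ω : H) (X S : Fin n → H →L[ℂ] H) : Prop :=
  FreeAlgs Ω (fun o : Option (Fin n) =>
    o.elim (Algebra.adjoin ℂ (Set.range X)) fun j => Algebra.adjoin ℂ {S j}) ∧
  ∀ j, IsSelfAdjoint (S j) ∧
    ∀ p : ℕ, ⟪Ω, (S j ^ (2 * p)) Ω⟫_ℂ = catalan p ∧ ⟪Ω, (S j ^ (2 * p + 1)) Ω⟫_ℂ = 0

/-! ## Microstates free entropy -/

/-- The isometric linear parametrisation `ℝ^{k²} → M_k^{sa}` (for `⟨A,B⟩ = Tr(AB)`):
the diagonal entries are `c i i`, and the entry `(i,j)` with `i < j` is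
`(c i j + √-1 c j i)/√2`. -/
noncomputable def herm {k : ℕ} (c : Fin k → Fin k → ℝ) : Matrix (Fin k) (Fin k) ℂ :=
  fun i j =>
    if i = j then (c i i : ℂ)
    else if i < j then ((c i j : ℂ) + Complex.I * (c j i : ℂ)) / ((√2 : ℝ) : ℂ)
    else ((c j i : ℂ) - Complex.I * (c i j : ℂ)) / ((√2 : ℝ) : ℂ)

/-- The microstate space `Γ_R(X; m, k, ε)` (in the coordinates `herm`), for a tuple with moments
`μ`: the operator norms are at most `R`, and the moments of length `1 ≤ p ≤ m` are `ε`-close. -/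
def Gam {n : ℕ} (μ : List (Fin n) → ℂ) (R : ℝ) (m k : ℕ) (ε : ℝ) :
    Set (Fin n → Fin k → Fin k → ℝ) :=
  {c | (∀ j, ∀ v : EuclideanSpace ℂ (Fin k), ‖Matrix.toEuclideanLin (herm (c j)) v‖ ≤ R * ‖v‖) ∧
    ∀ w : List (Fin n), 1 ≤ w.length → w.length ≤ m →
      ‖(w.map fun j => herm (c j)).prod.trace / (k : ℂ) - μ w‖ < ε}

/-- `χ_R`, for a tuple with moments `μ`. -/
noncomputable def chiR {n : ℕ} (μ : List (Fin n) → ℂ) (R : ℝ) : EReal :=
  ⨅ (m : ℕ) (ε : ℝ) (_ : 0 < ε),
    limsup (fun k : ℕ => ENNReal.log (volume (Gam μ R m k ε)) / (((k : ℝ) ^ 2 : ℝ) : EReal) +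
      ((n / 2 * Real.log k : ℝ) : EReal)) atTop

/-- The microstates free entropy `χ(X)` of a tuple `X`. -/
noncomputable def chi {n : ℕ} (Ω : H) (X : Fin n → H →L[ℂ] H) : EReal :=
  ⨆ (R : ℝ) (_ : 0 < R), chiR (moment Ω X) R

end Vale.Agent.P087
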