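import Vale.Agent.P087.Defs

/-!
# Auxiliary definitions for the proof (P087)
-/

namespace Vale.Agent.P087

open scoped InnerProductSpace ENNReal
open MeasureTheory Filter ProbabilityTheory

variable {H : Type} [NormedAddCommGroup H] [InnerProductSpace ℂ H]

/-- Corner semicirculars: `vac v u` is the coefficient at the word `u` of the vector
`v_1 ⋯ v_p ξ_∅` in the full Fock space over `ℂ^a`, where the letter `0` acts as `1` and the letter
`i.succ` acts as `L_i + L_i†`. -/
def vac {a : ℕ} : List (Fin (a + 1)) → List (Fin a) → ℝ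
  | [] => fun u => if u = [] then 1 else 0
  | j :: v => Fin.cases (motive := fun _ => List (Fin a) → ℝ) (vac v)
      (fun i u => vac v (i :: u) +
        match u with
        | [] => 0
        | i' :: u' => if i' = i then vac v u' else 0) j

/-- squared Frobenius norm -/
noncomputable def frob {m n : ℕ} (A : Matrix (Fin m) (Fin n) ℂ) : ℝ := ∑ i, ∑ j, ‖A i j‖ ^ 2

/-- Fock relations of creation operators `l_c` over the variables `x_i` with vacuum `Ω`. -/
structure FockRel {ι C : Type} [DecidableEq C] [CompleteSpace H] (Ω : H)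
    (x : ι → H →L[ℂ] H) (l : C → H →L[ℂ] H) : Prop where
  norm_Ω : ‖Ω‖ = 1
  sa : ∀ i, IsSelfAdjoint (x i)
  rel : ∀ c d (u : List ι),
    star (l c) * (u.map x).prod * l d = if c = d then moment Ω x u • (1 : H →L[ℂ] H) else 0
  vac : ∀ c (u : List ι), star (l c) ((u.map x).prod Ω) = 0

/-- The law (moments of words) of: letter `inl 0` = a projection `e` of trace `δ`, letter
`inl i.succ` = free semicirculars of the corner `e M e` (variance one for the corner trace),
letters `inr c` = free standard semicirculars free from the previous ones. -/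
structure IsLaw {a : ℕ} {C : Type} [DecidableEq C] (δ : ℝ) (τ : List (Fin (a + 1) ⊕ C) → ℂ) :
    Prop where
  nil : τ [] = 1
  e : τ [.inl 0] = δ
  ee : ∀ P, τ (.inl 0 :: .inl 0 :: P) = τ (.inl 0 :: P)
  ex : ∀ (i : Fin a) P, τ (.inl 0 :: .inl i.succ :: P) = τ (.inl i.succ :: P)
  s : ∀ (c : C) P, τ (.inr c :: P) = ((splits (.inr c) P).map fun p => τ p.1 * τ p.2).sum
  es : ∀ (c : C) P, τ (.inl 0 :: .inr c :: P) =
    ((splits (.inr c) P).map fun p => τ p.1 * τ (.inl 0 :: p.2)).sum
  x : ∀ (i : Fin a) P, τ (.inl i.succ :: P) =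
    (δ : ℂ)⁻¹ * ((splits (.inl i.succ) P).map fun p => τ (.inl 0 :: p.1) * τ (.inl 0 :: p.2)).sum

/-- Recursions satisfied by `M ws = E ∏_{w ∈ ws} tr_k (w(matrices))` for the random matrix model
of size `k = a q` (`tr E = 1/a`). -/
structure MatSys {a : ℕ} {C : Type} [DecidableEq C] (k : ℕ)
    (M : List (List (Fin (a + 1) ⊕ C)) → ℂ) : Prop where
  nilnil : M [] = 1
  nil_cons : ∀ ws, M ([] :: ws) = M ws
  perm : ∀ ws ws', ws.Perm ws' → M ws = M ws'
  rot : ∀ u v ws, M ((u ++ v) :: ws) = M ((v ++ u) :: ws)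
  e : ∀ ws, M ([.inl 0] :: ws) = (a : ℂ)⁻¹ * M ws
  ee : ∀ P ws, M ((.inl 0 :: .inl 0 :: P) :: ws) = M ((.inl 0 :: P) :: ws)
  ex : ∀ (i : Fin a) P ws, M ((.inl 0 :: .inl i.succ :: P) :: ws) = M ((.inl i.succ :: P) :: ws)
  s : ∀ (c : C) Q ws, M ((.inr c :: Q) :: ws) =
    ((splits (.inr c) Q).map fun p => M (p.1 :: p.2 :: ws)).sum +
    ((k : ℂ) ^ 2)⁻¹ * ∑ l : Fin ws.length, ((splits (.inr c) (ws.get l)).map fun p =>
      M ((Q ++ p.2 ++ p.1) :: ws.eraseIdx l)).sum
  x : ∀ (i : Fin a) Q ws, M ((.inl i.succ :: Q) :: ws) =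
    (a : ℂ) * ((splits (.inl i.succ) Q).map fun p =>
      M ((.inl 0 :: p.1) :: (.inl 0 :: p.2) :: ws)).sum +
    (a : ℂ) * ((k : ℂ) ^ 2)⁻¹ * ∑ l : Fin ws.length,
      ((splits (.inl i.succ) (ws.get l)).map fun p =>
        M ((.inl 0 :: Q ++ .inl 0 :: p.2 ++ p.1) :: ws.eraseIdx l)).sum

/-- The random matrices: `inl 0` is the diagonal projection on the first `q` coordinates, `inl i.succ`
is `q^{-1/2}` times the corner of the Gaussian matrix, `inr c` is `k^{-1/2}` times a Gaussian matrix. -/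
noncomputable def Yv {a : ℕ} {C : Type} (q k : ℕ) (g : (Fin a ⊕ C) → Fin k → Fin k → ℝ) :
    Fin (a + 1) ⊕ C → Matrix (Fin k) (Fin k) ℂ
  | .inl j => Fin.cases (motive := fun _ => Matrix (Fin k) (Fin k) ℂ)
      (Matrix.diagonal fun r => if (r : ℕ) < q then 1 else 0)
      (fun i => herm fun r s => if (r : ℕ) < q ∧ (s : ℕ) < q then g (.inl i) r s / √(q : ℝ) else 0) j
  | .inr c => herm fun r s => g (.inr c) r s / √(k : ℝ)

/-- standard Gaussian measure on arrays -/
noncomputable def gaussArr (N : Type) [Fintype N] (k : ℕ) : Measure (N → Fin k → Fin k → ℝ) :=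
  Measure.pi fun _ => Measure.pi fun _ => Measure.pi fun _ => gaussianReal 0 1

/-- Expansion of a word in `W_j = x_j + b_j s_j` into words in `x` and `s`. -/
def expd {n : ℕ} {C : Type} (b : Fin n → ℝ) (f : Fin n → C) :
    List (Fin n) → List (ℝ × List (Fin n ⊕ C))
  | [] => [(1, [])]
  | j :: w => ((expd b f w).map fun p => (p.1, .inl j :: p.2)) ++
      ((expd b f w).map fun p => (b j * p.1, .inr (f j) :: p.2))

end Vale.Agent.P087
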