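import Vale.Agent.P087.Splits

/-! [B] Abstract Fock relations. -/

namespace Vale.Agent.P087

open scoped InnerProductSpace ENNReal Topology
open MeasureTheory Filter ProbabilityTheory

variable {H : Type} [NormedAddCommGroup H] [InnerProductSpace ℂ H]

variable [CompleteSpace H] {ι C : Type} [DecidableEq ι] [DecidableEq C]

set_option linter.unusedSectionVars false

/-- letters `x_i` and `s_c = l_c + l_c†` -/
noncomputable def lett (x : ι → H →L[ℂ] H) (l : C → H →L[ℂ] H) : ι ⊕ C → H →L[ℂ] H :=
  Sum.elim x fun c => l c + star (l c)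

namespace FockAbsAux

theorem decomp (w : List (ι ⊕ C)) :
    (∃ u : List ι, w = u.map Sum.inl) ∨
      ∃ (u : List ι) (d : C) (w₁ : List (ι ⊕ C)), w = u.map Sum.inl ++ .inr d :: w₁ := by
  induction w with
  | nil => exact Or.inl ⟨[], rfl⟩
  | cons z w ih =>
    rcases z with i | d
    · rcases ih with ⟨u, rfl⟩ | ⟨u, d, w₁, rfl⟩
      · exact Or.inl ⟨i :: u, rfl⟩
      · exact Or.inr ⟨i :: u, d, w₁, rfl⟩
    · exact Or.inr ⟨[], d, w, rfl⟩

theorem map_inl (x : ι → H →L[ℂ] H) (l : C → H →L[ℂ] H) (u : List ι) :
    ((u.map Sum.inl).map (lett x l)) = u.map x := by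
  rw [List.map_map]; rfl

theorem splits_inl (u : List ι) (c : C) :
    splits (Sum.inr c : ι ⊕ C) (u.map Sum.inl) = [] := by
  apply splits_eq_nil
  simp

theorem splits_pre (u : List ι) (c : C) (v : List (ι ⊕ C)) :
    (splits (Sum.inr c : ι ⊕ C) (u.map Sum.inl ++ v)).Perm
      ((splits (Sum.inr c) v).map fun p => (u.map Sum.inl ++ p.1, p.2)) := by
  have h := splits_append (Sum.inr c : ι ⊕ C) (u.map Sum.inl) v
  rwa [splits_inl, List.map_nil, List.nil_append] at h

theorem star_prod {ι : Type} {x : ι → H →L[ℂ] H} (hx : ∀ i, IsSelfAdjoint (x i)) (u : List ι) :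
    star (u.map x).prod = (u.reverse.map x).prod := by
  induction u with
  | nil => simp
  | cons i u ih =>
    rw [List.map_cons, List.prod_cons, star_mul, ih, (hx i).star_eq, List.reverse_cons,
      List.map_append, List.prod_append]
    simp

theorem list_sum_apply {α : Type} (L : List α) (f : α → H) (T : H →L[ℂ] H) :
    T (L.map f).sum = (L.map fun p => T (f p)).sum := by
  rw [map_list_sum, List.map_map]; rfl

theorem sum_perm {α β : Type} [AddCommMonoid β] {L L' : List α} (h : L.Perm L') (f : α → β) :
    (L.map f).sum = (L'.map f).sum := (h.map f).sum_eq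

/-- `⟪Ω, x_u s_d φ⟫` -/
theorem inner_xs {Ω : H} {x : ι → H →L[ℂ] H} {l : C → H →L[ℂ] H} (h : FockRel Ω x l)
    (u : List ι) (d : C) (φ : H) : ⟪Ω, (u.map x).prod (l d φ)⟫_ℂ = 0 := by
  have h1 : ⟪Ω, (u.map x).prod (l d φ)⟫_ℂ = ⟪star (l d) (star (u.map x).prod Ω), φ⟫_ℂ := by
    rw [ContinuousLinearMap.star_eq_adjoint, ContinuousLinearMap.star_eq_adjoint,
      ContinuousLinearMap.adjoint_inner_left, ContinuousLinearMap.adjoint_inner_left]
  rw [h1, star_prod h.sa, h.vac, inner_zero_left]

/-- the moment recursion, for words `y'` of length `< N` -/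
def MU (Ω : H) (x : ι → H →L[ℂ] H) (l : C → H →L[ℂ] H) (N : ℕ) : Prop :=
  ∀ (u : List ι) (d : C) (y : List (ι ⊕ C)), y.length < N →
    moment Ω (lett x l) (u.map Sum.inl ++ Sum.inr d :: y) =
      ((splits (.inr d) y).map fun q => moment Ω (lett x l) q.1 *
        moment Ω (lett x l) (u.map Sum.inl ++ q.2)).sum

theorem list_sum_smul {α : Type} (L : List α) (f : α → ℂ) (φ : H) :
    (L.map f).sum • φ = (L.map fun p => f p • φ).sum := by
  induction L with
  | nil => simp
  | cons a L ih => simp [add_smul, ih]

theorem list_smul_sum {α : Type} (L : List α) (f : α → H) (c : ℂ) :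
    c • (L.map f).sum = (L.map fun p => c • f p).sum := by
  induction L with
  | nil => simp
  | cons a L ih => simp [smul_add, ih]

theorem step {Ω : H} {x : ι → H →L[ℂ] H} {l : C → H →L[ℂ] H} (h : FockRel Ω x l)
    (ψ : H) (η : C → H) (hψ : ∀ c (u : List ι), star (l c) ((u.map x).prod ψ) = moment Ω x u • η c)
    (N : ℕ) (hMU : MU Ω x l N) :
    ∀ n : ℕ, n ≤ N → ∀ w : List (ι ⊕ C), w.length ≤ n → (∀ c, .inr c ∈ w → η c = 0) → ∀ c : C,
    star (l c) ((w.map (lett x l)).prod ψ) =
      ((splits (.inr c) w).map fun p => moment Ω (lett x l) p.1 • ((p.2.map (lett x l)).prod ψ)).sum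
        + moment Ω (lett x l) w • η c := by
  intro n
  induction n with
  | zero =>
    intro _ w hw _ c
    have : w = [] := List.length_eq_zero_iff.1 (Nat.le_zero.1 hw)
    subst this
    have := hψ c []
    simpa [splits, moment] using this
  | succ n ih =>
    intro hnN w hw hη c
    rcases decomp w with ⟨u, rfl⟩ | ⟨u, d, w₁, rfl⟩
    · rw [map_inl, splits_inl, hψ]
      simp [moment, List.map_map, Function.comp_def, lett]
    · have hlen : w₁.length ≤ n ∧ u.length + w₁.length ≤ n := by
        simp only [List.length_append, List.length_map, List.length_cons] at hw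
        omega
      have hη1 : ∀ c, .inr c ∈ w₁ → η c = 0 := fun c hc => hη c (by simp [hc])
      have hηd : η d = 0 := hη d (by simp)
      have ihw := ih (by omega) w₁ hlen.1 hη1 d
      rw [hηd, smul_zero, add_zero] at ihw
      -- the left side
      have e1 : ((u.map Sum.inl ++ Sum.inr d :: w₁).map (lett x l)).prod ψ =
          (u.map x).prod (l d ((w₁.map (lett x l)).prod ψ)) +
          (u.map x).prod (star (l d) ((w₁.map (lett x l)).prod ψ)) := by
        rw [List.map_append, map_inl, List.prod_append, List.map_cons, List.prod_cons]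
        simp [lett]
      have e2 : star (l c) ((u.map x).prod (l d ((w₁.map (lett x l)).prod ψ))) =
          if c = d then moment Ω x u • (w₁.map (lett x l)).prod ψ else 0 := by
        have := congrArg (fun T : H →L[ℂ] H => T ((w₁.map (lett x l)).prod ψ)) (h.rel c d u)
        simp only [mul_apply_eq_comp] at this
        rw [this]
        split_ifs <;> simp
      have e3 : star (l c) ((u.map x).prod (star (l d) ((w₁.map (lett x l)).prod ψ))) =
          ((splits (Sum.inr d) w₁).map fun p => moment Ω (lett x l) p.1 •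
            (star (l c) (((u.map Sum.inl ++ p.2).map (lett x l)).prod ψ))).sum := by
        rw [ihw, list_sum_apply, list_sum_apply]
        congr 1
        apply List.map_congr_left
        intro p _
        rw [map_smul, map_smul, List.map_append, map_inl, List.prod_append]
        simp
      have e4 : ∀ p ∈ splits (.inr d) w₁,
          star (l c) (((u.map Sum.inl ++ p.2).map (lett x l)).prod ψ) =
          ((splits (.inr c) p.2).map fun q => moment Ω (lett x l) (u.map Sum.inl ++ q.1) •
            ((q.2.map (lett x l)).prod ψ)).sum +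
            moment Ω (lett x l) (u.map Sum.inl ++ p.2) • η c := by
        intro p hp
        have hp2 : w₁ = p.1 ++ .inr d :: p.2 := mem_splits.1 hp
        have hl : (u.map Sum.inl ++ p.2 : List (ι ⊕ C)).length ≤ n := by
          have := congrArg List.length hp2
          simp only [List.length_append, List.length_map, List.length_cons] at this ⊢
          omega
        rw [ih (by omega) _ hl (fun c' hc' => hη1 c' (by
          rw [List.mem_append] at hc'
          rcases hc' with hc' | hc'
          · simp at hc'
          · rw [hp2]; simp [hc'])) c]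
        rw [sum_perm (splits_pre u c p.2), List.map_map]
        rfl
      rw [e1, map_add, e2, e3]
      rw [sum_perm (splits_pre u c (Sum.inr d :: w₁)), List.map_map]
      -- right side
      have r1 : splits (Sum.inr c : ι ⊕ C) (.inr d :: w₁) =
          (if (Sum.inr d : ι ⊕ C) = .inr c then [([], w₁)] else []) ++
            (splits (.inr c) w₁).map fun p => (.inr d :: p.1, p.2) := rfl
      rw [r1, List.map_append, List.sum_append, List.map_map]
      have r2 : (((if (Sum.inr d : ι ⊕ C) = .inr c then [([], w₁)] else []) :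
          List (List (ι ⊕ C) × List (ι ⊕ C))).map
          ((fun p => moment Ω (lett x l) p.1 • ((p.2.map (lett x l)).prod ψ)) ∘
            fun p => (u.map Sum.inl ++ p.1, p.2))).sum =
          if c = d then moment Ω x u • (w₁.map (lett x l)).prod ψ else 0 := by
        by_cases hcd : c = d
        · subst hcd
          simp [moment, List.map_map, Function.comp_def, lett]
        · have hcd' : ¬ d = c := fun h => hcd h.symm
          simp [hcd, hcd']
      rw [r2, add_assoc]
      congr 1
      -- moments
      have r3 : ∀ p ∈ splits (.inr c) w₁,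
          (((fun p : List (ι ⊕ C) × List (ι ⊕ C) =>
            moment Ω (lett x l) p.1 • ((p.2.map (lett x l)).prod ψ)) ∘
            (fun p => (u.map Sum.inl ++ p.1, p.2))) ∘ fun p => (Sum.inr d :: p.1, p.2)) p =
          ((splits (.inr d) p.1).map fun q => (moment Ω (lett x l) q.1 *
            moment Ω (lett x l) (u.map Sum.inl ++ q.2)) • ((p.2.map (lett x l)).prod ψ)).sum := by
        intro p hp
        have hp2 : w₁ = p.1 ++ .inr c :: p.2 := mem_splits.1 hp
        have hl : p.1.length < N := by
          have := congrArg List.length hp2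
          simp only [List.length_append, List.length_cons] at this
          omega
        simp only [Function.comp_apply]
        rw [hMU u d p.1 hl, list_sum_smul]
      have r4 := hMU u d w₁ (by omega)
      rw [r4, list_sum_smul]
      rw [List.map_congr_left r3]
      rw [← splits_assoc (Sum.inr d : ι ⊕ C) (Sum.inr c) w₁ (fun q1 q2 p2 => (moment Ω (lett x l) q1 *
            moment Ω (lett x l) (u.map Sum.inl ++ q2)) • ((p2.map (lett x l)).prod ψ))]
      rw [← List.sum_map_add]
      congr 1
      apply List.map_congr_left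
      intro p hp
      rw [e4 p hp, smul_add, list_smul_sum, smul_smul]
      congr 2
      apply List.map_congr_left
      intro q _
      rw [smul_smul]

theorem MU_all {Ω : H} {x : ι → H →L[ℂ] H} {l : C → H →L[ℂ] H} (h : FockRel Ω x l) (N : ℕ) :
    MU Ω x l N := by
  induction N with
  | zero => intro u d y hy; exact absurd hy (Nat.not_lt_zero _)
  | succ N ih =>
    intro u d y hy
    have hD := step h Ω (fun _ => 0) (fun c u => by rw [h.vac, smul_zero]) N ih N le_rfl y
      (by omega) (fun _ _ => rfl) d
    rw [smul_zero, add_zero] at hD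
    have e1 : ((u.map Sum.inl ++ Sum.inr d :: y).map (lett x l)).prod Ω =
          (u.map x).prod (l d ((y.map (lett x l)).prod Ω)) +
          (u.map x).prod (star (l d) ((y.map (lett x l)).prod Ω)) := by
        rw [List.map_append, map_inl, List.prod_append, List.map_cons, List.prod_cons]
        simp [lett]
    rw [moment, e1, inner_add_right, inner_xs h, zero_add, hD, list_sum_apply]
    rw [← innerSL_apply_apply ℂ, map_list_sum, List.map_map]
    congr 1
    apply List.map_congr_left
    intro p _
    simp only [Function.comp_apply, innerSL_apply_apply]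
    rw [map_smul, inner_smul_right]
    congr 1
    rw [moment, List.map_append, map_inl, List.prod_append]
    simp

end FockAbsAux

open FockAbsAux

/-- general D-formula, for a vacuum-like vector `ψ` -/
theorem FockRel.D_gen {Ω : H} {x : ι → H →L[ℂ] H} {l : C → H →L[ℂ] H} (h : FockRel Ω x l)
    (ψ : H) (η : C → H) (hψ : ∀ c (u : List ι), star (l c) ((u.map x).prod ψ) = moment Ω x u • η c)
    (w : List (ι ⊕ C)) (hw : ∀ c, .inr c ∈ w → η c = 0) (c : C) :
    star (l c) ((w.map (lett x l)).prod ψ) =
      ((splits (.inr c) w).map fun p => moment Ω (lett x l) p.1 • ((p.2.map (lett x l)).prod ψ)).sum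
        + moment Ω (lett x l) w • η c :=
  step h ψ η hψ w.length (MU_all h _) w.length le_rfl w le_rfl hw c

theorem FockRel.D {Ω : H} {x : ι → H →L[ℂ] H} {l : C → H →L[ℂ] H} (h : FockRel Ω x l)
    (w : List (ι ⊕ C)) (c : C) :
    star (l c) ((w.map (lett x l)).prod Ω) =
      ((splits (.inr c) w).map fun p =>
        moment Ω (lett x l) p.1 • ((p.2.map (lett x l)).prod Ω)).sum := by
  have := h.D_gen Ω (fun _ => 0) (fun c u => by rw [h.vac, smul_zero]) w (fun _ _ => rfl) c
  rwa [smul_zero, add_zero] at this

/-- enlarging the variables by some of the semicirculars -/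
theorem FockRel.extend {D : Type} [DecidableEq D] {Ω : H} {x : ι → H →L[ℂ] H}
    {l : C ⊕ D → H →L[ℂ] H} (h : FockRel Ω x l) :
    FockRel Ω (lett x fun c => l (.inl c)) (fun d => l (.inr d)) := by
  have hmap : ∀ u : List (ι ⊕ C), u.map (lett x fun c => l (.inl c)) =
      (u.map (Sum.map id Sum.inl : ι ⊕ C → ι ⊕ (C ⊕ D))).map (lett x l) := by
    intro u
    rw [List.map_map]
    apply List.map_congr_left
    intro z _
    rcases z with i | c <;> rfl
  have hmom : ∀ u : List (ι ⊕ C), moment Ω (lett x fun c => l (.inl c)) u =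
      moment Ω (lett x l) (u.map (Sum.map id Sum.inl : ι ⊕ C → ι ⊕ (C ⊕ D))) := by
    intro u
    rw [moment, moment, hmap]
  have hsp : ∀ (d : D) (u : List (ι ⊕ C)), splits (Sum.inr (Sum.inr d) : ι ⊕ (C ⊕ D))
      (u.map (Sum.map id Sum.inl)) = [] := by
    intro d u
    apply splits_eq_nil
    intro hmem
    rw [List.mem_map] at hmem
    obtain ⟨z, _, hz⟩ := hmem
    rcases z with i | c
    · simp at hz
    · simp at hz
  refine ⟨h.norm_Ω, ?_, ?_, ?_⟩
  · intro i
    rcases i with i | c
    · exact h.sa i
    · exact IsSelfAdjoint.add_star_self _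
  · intro d d' u
    ext φ
    have hψ : ∀ (c : C ⊕ D) (v : List ι), star (l c) ((v.map x).prod (l (.inr d') φ)) =
        moment Ω x v • (if c = .inr d' then φ else 0) := by
      intro c v
      have := congrArg (fun T : H →L[ℂ] H => T φ) (h.rel c (.inr d') v)
      simp only [mul_apply_eq_comp] at this
      rw [this]
      split_ifs <;> simp
    have hD := h.D_gen (l (.inr d') φ) (fun c => if c = .inr d' then φ else 0) hψ
      (u.map (Sum.map id Sum.inl)) (by
        intro c hc
        rw [List.mem_map] at hc
        obtain ⟨z, _, hz⟩ := hc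
        rcases z with i | c'
        · simp at hz
        · simp at hz
          subst hz
          simp) (.inr d)
    rw [hsp, List.map_nil, List.sum_nil, zero_add] at hD
    simp only [mul_apply_eq_comp]
    rw [hmap, hD, hmom]
    by_cases hdd : d = d'
    · subst hdd; simp
    · simp [hdd]
  · intro d u
    rw [hmap]
    have hD := h.D (u.map (Sum.map id Sum.inl)) (.inr d)
    rw [hsp, List.map_nil, List.sum_nil] at hD
    exact hD

/-- real orthonormal combinations of the creation operators -/
theorem FockRel.combine [Fintype C] {J : Type} [DecidableEq J] {Ω : H} {x : ι → H →L[ℂ] H}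
    {l : C → H →L[ℂ] H} (h : FockRel Ω x l) (A : J → C → ℝ)
    (hA : ∀ i j, ∑ c, A i c * A j c = if i = j then 1 else 0) :
    FockRel Ω x (fun j => ∑ c, ((A j c : ℝ) : ℂ) • l c) := by
  have hstar : ∀ j, star (∑ c, ((A j c : ℝ) : ℂ) • l c) = ∑ c, ((A j c : ℝ) : ℂ) • star (l c) := by
    intro j
    rw [star_sum]
    refine Finset.sum_congr rfl fun c _ => ?_
    rw [star_smul, RCLike.star_def, Complex.conj_ofReal]
  refine ⟨h.norm_Ω, h.sa, ?_, ?_⟩
  · intro i j u
    simp only [hstar, Finset.sum_mul, Finset.mul_sum]
    have e : ∀ c d : C, ((A i c : ℝ) : ℂ) • star (l c) * (u.map x).prod * ((A j d : ℝ) : ℂ) • l d =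
        (((A i c * A j d : ℝ) : ℂ)) • (if c = d then moment Ω x u • (1 : H →L[ℂ] H) else 0) := by
      intro c d
      rw [smul_mul_assoc, smul_mul_assoc, mul_smul_comm, smul_smul, h.rel]
      push_cast
      rfl
    rw [Finset.sum_comm]
    have e2 : ∀ c : C, ∑ d : C, ((A i c : ℝ) : ℂ) • star (l c) * (u.map x).prod *
        ((A j d : ℝ) : ℂ) • l d = (((A i c * A j c : ℝ) : ℂ)) • (moment Ω x u • (1 : H →L[ℂ] H)) := by
      intro c
      rw [Finset.sum_congr rfl fun d _ => e c d, Finset.sum_eq_single c]
      · simp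
      · intro d _ hd
        simp [Ne.symm hd]
      · simp
    rw [Finset.sum_congr rfl fun c _ => e2 c, ← Finset.sum_smul]
    rw [← Complex.ofReal_sum, hA]
    by_cases hij : i = j
    · simp [hij]
    · simp [hij]
  · intro j u
    rw [hstar, sum_apply]
    refine Finset.sum_eq_zero fun c _ => ?_
    rw [smul_apply, h.vac, smul_zero]

/-- moments of words of self-adjoint operators -/
theorem moment_reverse {Ω : H} {y : ι → H →L[ℂ] H} (hy : ∀ i, IsSelfAdjoint (y i)) (w : List ι) :
    moment Ω y w.reverse = (starRingEnd ℂ) (moment Ω y w) := by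
  rw [moment, moment, ← star_prod hy, inner_conj_symm, ContinuousLinearMap.star_eq_adjoint,
    ContinuousLinearMap.adjoint_inner_right]

theorem FockRel.star_mul_self {Ω : H} {x : ι → H →L[ℂ] H} {l : C → H →L[ℂ] H}
    (h : FockRel Ω x l) (c d : C) : star (l c) * l d = if c = d then 1 else 0 := by
  have h1 := h.rel c d []
  have h2 : moment Ω x [] = 1 := by
    simp [moment, h.norm_Ω, inner_self_eq_norm_sq_to_K]
  simpa [h2] using h1

theorem FockRel.norm_le_one {Ω : H} {x : ι → H →L[ℂ] H} {l : C → H →L[ℂ] H}
    (h : FockRel Ω x l) (c : C) : ‖l c‖ ≤ 1 := by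
  have h1 : star (l c) * l c = 1 := by
    rw [h.star_mul_self]; simp
  have h2 : ‖l c‖ * ‖l c‖ ≤ 1 := by
    rw [← CStarRing.norm_star_mul_self (x := l c), h1]
    exact ContinuousLinearMap.norm_id_le
  nlinarith [norm_nonneg (l c)]

namespace FockAbsAux

theorem D_Z_step {Ω : H} {x : ι → H →L[ℂ] H} {l : ι → H →L[ℂ] H} (h : FockRel Ω x l)
    (b : ι → ℝ) (Z : ι → H →L[ℂ] H)
    (hZ : Z = fun j => x j + ((b j : ℝ) : ℂ) • (l j + star (l j))) (n : ℕ) :
    ∀ v : List ι, v.length ≤ n → ∀ (u : List ι) (i : ι),
    star (l i) ((u.map x).prod ((v.map Z).prod Ω)) =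
      ((b i : ℝ) : ℂ) • ((splits i v).map fun p =>
        ⟪Ω, (u.map x).prod ((p.1.map Z).prod Ω)⟫_ℂ • ((p.2.map Z).prod Ω)).sum := by
  induction n with
  | zero =>
    intro v hv u i
    have : v = [] := List.length_eq_zero_iff.1 (Nat.le_zero.1 hv)
    subst this
    simpa [splits] using h.vac i u
  | succ n ih =>
    intro v hv u i
    rcases v with _ | ⟨j, v⟩
    · simpa [splits] using h.vac i u
    have hv' : v.length ≤ n := by simpa using hv
    have eZ : ∀ φ : H, (u.map x).prod (Z j φ) = ((u ++ [j]).map x).prod φ +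
        ((b j : ℝ) : ℂ) • (u.map x).prod (l j φ) +
        ((b j : ℝ) : ℂ) • (u.map x).prod (star (l j) φ) := by
      intro φ
      rw [hZ]
      simp [smul_add, add_assoc]
    have e0 : ∀ v : List ι, v.length ≤ n → star (l j) ((v.map Z).prod Ω) =
        ((b j : ℝ) : ℂ) • ((splits j v).map fun p => moment Ω Z p.1 •
          ((p.2.map Z).prod Ω)).sum := by
      intro v hv
      have := ih v hv [] j
      simpa [moment] using this
    have e1 : ((j :: v).map Z).prod Ω = Z j ((v.map Z).prod Ω) := by simp
    have e2 : star (l i) ((u.map x).prod (l j ((v.map Z).prod Ω))) =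
          if i = j then moment Ω x u • (v.map Z).prod Ω else 0 := by
      have := congrArg (fun T : H →L[ℂ] H => T ((v.map Z).prod Ω)) (h.rel i j u)
      simp only [mul_apply_eq_comp] at this
      rw [this]
      split_ifs <;> simp
    rw [e1, eZ, map_add, map_add, map_smul, map_smul, e2, ih v hv' (u ++ [j]) i, e0 v hv']
    have e3 : star (l i) ((u.map x).prod (((b j : ℝ) : ℂ) • ((splits j v).map fun p =>
        moment Ω Z p.1 • ((p.2.map Z).prod Ω)).sum)) =
        ((b j : ℝ) : ℂ) • ((splits j v).map fun p => moment Ω Z p.1 •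
          (((b i : ℝ) : ℂ) • ((splits i p.2).map fun q =>
            ⟪Ω, (u.map x).prod ((q.1.map Z).prod Ω)⟫_ℂ • ((q.2.map Z).prod Ω)).sum)).sum := by
      rw [map_smul, map_smul, list_sum_apply, list_sum_apply]
      congr 2
      apply List.map_congr_left
      intro p hp
      have hp2 : v = p.1 ++ j :: p.2 := mem_splits.1 hp
      have hl : p.2.length ≤ n := by
        have := congrArg List.length hp2
        simp only [List.length_append, List.length_cons] at this
        omega
      rw [map_smul, map_smul, ih _ hl]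
    rw [e3]
    have r1 : ∀ f : List ι × List ι → H, ((splits i (j :: v)).map f).sum =
        (((if j = i then [([], v)] else []) : List (List ι × List ι)).map f).sum +
          ((splits i v).map (f ∘ fun p => (j :: p.1, p.2))).sum := by
      intro f
      have : splits i (j :: v) = (if j = i then [([], v)] else []) ++
            (splits i v).map fun p => (j :: p.1, p.2) := rfl
      rw [this, List.map_append, List.sum_append, List.map_map]
    rw [r1, smul_add]
    have r2 : ((b i : ℝ) : ℂ) • (((if j = i then [([], v)] else []) :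
          List (List ι × List ι)).map (fun p =>
            ⟪Ω, (u.map x).prod ((p.1.map Z).prod Ω)⟫_ℂ • ((p.2.map Z).prod Ω))).sum =
          ((b j : ℝ) : ℂ) • (if i = j then moment Ω x u • (v.map Z).prod Ω else 0) := by
      by_cases hij : i = j
      · subst hij
        simp [moment]
      · have hij' : ¬ j = i := fun h => hij h.symm
        simp [hij, hij']
    have r3 : ∀ p ∈ splits i v,
        ((fun p : List ι × List ι => ⟪Ω, (u.map x).prod ((p.1.map Z).prod Ω)⟫_ℂ •
            ((p.2.map Z).prod Ω)) ∘ fun p => (j :: p.1, p.2)) p =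
        ⟪Ω, ((u ++ [j]).map x).prod ((p.1.map Z).prod Ω)⟫_ℂ • ((p.2.map Z).prod Ω) +
        ((b j : ℝ) : ℂ) • ((b j : ℝ) : ℂ) • ((splits j p.1).map fun q => (moment Ω Z q.1 *
          ⟪Ω, (u.map x).prod ((q.2.map Z).prod Ω)⟫_ℂ) • ((p.2.map Z).prod Ω)).sum := by
      intro p hp
      have hp2 : v = p.1 ++ i :: p.2 := mem_splits.1 hp
      have hl : p.1.length ≤ n := by
        have := congrArg List.length hp2
        simp only [List.length_append, List.length_cons] at this
        omega
      have e1' : ((j :: p.1).map Z).prod Ω = Z j ((p.1.map Z).prod Ω) := by simp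
      simp only [Function.comp_apply]
      rw [e1', eZ, e0 _ hl, inner_add_right, inner_add_right, inner_smul_right, inner_xs h,
        mul_zero, add_zero, inner_smul_right, add_smul]
      congr 1
      rw [map_smul, list_sum_apply, inner_smul_right]
      rw [← innerSL_apply_apply ℂ, map_list_sum, List.map_map, mul_smul, mul_smul, list_sum_smul]
      congr 3
      apply List.map_congr_left
      intro q _
      simp only [Function.comp_apply, innerSL_apply_apply]
      rw [map_smul, inner_smul_right]
    rw [r2, List.map_congr_left r3, List.sum_map_add, smul_add]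
    have r4 : ((b i : ℝ) : ℂ) • ((splits i v).map fun p => ((b j : ℝ) : ℂ) • ((b j : ℝ) : ℂ) •
        ((splits j p.1).map fun q => (moment Ω Z q.1 *
          ⟪Ω, (u.map x).prod ((q.2.map Z).prod Ω)⟫_ℂ) • ((p.2.map Z).prod Ω)).sum).sum =
        ((b j : ℝ) : ℂ) • ((b j : ℝ) : ℂ) • ((splits j v).map fun p => moment Ω Z p.1 •
          (((b i : ℝ) : ℂ) • ((splits i p.2).map fun q =>
            ⟪Ω, (u.map x).prod ((q.1.map Z).prod Ω)⟫_ℂ • ((q.2.map Z).prod Ω)).sum)).sum := by
      rw [← list_smul_sum, ← list_smul_sum]
      rw [← splits_assoc j i v (fun q1 q2 p2 => (moment Ω Z q1 *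
          ⟪Ω, (u.map x).prod ((q2.map Z).prod Ω)⟫_ℂ) • ((p2.map Z).prod Ω))]
      have : ∀ p : List ι × List ι, moment Ω Z p.1 •
          (((b i : ℝ) : ℂ) • ((splits i p.2).map fun q =>
            ⟪Ω, (u.map x).prod ((q.1.map Z).prod Ω)⟫_ℂ • ((q.2.map Z).prod Ω)).sum) =
          ((b i : ℝ) : ℂ) • ((splits i p.2).map fun q => (moment Ω Z p.1 *
          ⟪Ω, (u.map x).prod ((q.1.map Z).prod Ω)⟫_ℂ) • ((q.2.map Z).prod Ω)).sum := by
        intro p
        rw [smul_comm, list_smul_sum]
        simp only [smul_smul]
      simp only [this]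
      rw [← list_smul_sum]
      rw [smul_comm ((b i : ℝ) : ℂ) ((b j : ℝ) : ℂ)]
      congr 1
      rw [smul_comm]
    rw [r4]
    abel

end FockAbsAux

/-- D-formula for `Z_i = x_i + b_i (l_i + l_i†)` -/
theorem FockRel.D_Z {Ω : H} {x : ι → H →L[ℂ] H} {l : ι → H →L[ℂ] H} (h : FockRel Ω x l)
    (b : ι → ℝ) (v : List ι) (i : ι) :
    star (l i) ((v.map fun j => x j + ((b j : ℝ) : ℂ) • (l j + star (l j))).prod Ω) =
      ((b i : ℝ) : ℂ) • ((splits i v).map fun p =>
        moment Ω (fun j => x j + ((b j : ℝ) : ℂ) • (l j + star (l j))) p.1 •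
          (p.2.map fun j => x j + ((b j : ℝ) : ℂ) • (l j + star (l j))).prod Ω).sum := by
  have := FockAbsAux.D_Z_step h b _ rfl v.length v le_rfl [] i
  simpa [moment] using this

end Vale.Agent.P087
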