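import Vale.Agent.P087.FockAbs

/-! [B2] Freeness of the semicirculars in the abstract Fock setting. -/

namespace Vale.Agent.P087

open scoped InnerProductSpace ENNReal Topology
open MeasureTheory Filter

variable {H : Type} [NormedAddCommGroup H] [InnerProductSpace ℂ H]

variable [CompleteSpace H] {ι : Type} [DecidableEq ι]

set_option linter.unusedSectionVars false

namespace FreeAux

open FockAbsAux

theorem mem_adjoin {x : ι → H →L[ℂ] H} {b : H →L[ℂ] H}
    (hb : b ∈ Algebra.adjoin ℂ (Set.range x)) :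
    b ∈ Submodule.span ℂ (Set.range fun u : List ι => (u.map x).prod) := by
  have h1 : b ∈ Subalgebra.toSubmodule (Algebra.adjoin ℂ (Set.range x)) := hb
  rw [Algebra.adjoin_eq_span] at h1
  refine Submodule.span_mono ?_ h1
  rw [Submonoid.closure_eq_image_prod]
  rintro _ ⟨L, hL, rfl⟩
  simp only [Set.mem_ofPred_eq, Set.mem_range] at hL
  induction L with
  | nil => exact ⟨[], by simp⟩
  | cons y L ih =>
    obtain ⟨i, hi⟩ := hL y (by simp)
    obtain ⟨u, hu⟩ := ih (fun z hz => hL z (by simp [hz]))
    refine ⟨i :: u, ?_⟩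
    simp only at hu
    simp [hi, hu]

section one

variable {n : ℕ} {Ω : H} {x : ι → H →L[ℂ] H} {l : Fin n → H →L[ℂ] H}

theorem b_vac (h : FockRel Ω x l) {b : H →L[ℂ] H}
    (hb : b ∈ Submodule.span ℂ (Set.range fun u : List ι => (u.map x).prod))
    (k : Fin n) : star (l k) (b Ω) = 0 := by
  induction hb using Submodule.span_induction with
  | mem y hy => obtain ⟨u, rfl⟩ := hy; exact h.vac k u
  | zero => simp
  | add y z _ _ hy hz => rw [add_apply, map_add, hy, hz, add_zero]
  | smul c y _ hy => rw [smul_apply, map_smul, hy, smul_zero]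

theorem b_rel (h : FockRel Ω x l) {b : H →L[ℂ] H}
    (hb : b ∈ Submodule.span ℂ (Set.range fun u : List ι => (u.map x).prod))
    (k j : Fin n) (φ : H) : star (l k) (b (l j φ)) = if k = j then ⟪Ω, b Ω⟫_ℂ • φ else 0 := by
  induction hb using Submodule.span_induction with
  | mem y hy =>
    obtain ⟨u, rfl⟩ := hy
    have := congrArg (fun T : H →L[ℂ] H => T φ) (h.rel k j u)
    simp only [mul_apply_eq_comp] at this
    rw [this]
    split_ifs <;> simp [moment]
  | zero => simp
  | add y z _ _ hy hz =>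
    rw [add_apply, map_add, hy, hz]
    split_ifs
    · rw [add_apply, inner_add_right, add_smul]
    · simp
  | smul c y _ hy =>
    rw [smul_apply, map_smul, hy]
    split_ifs
    · rw [smul_apply, inner_smul_right, smul_smul]
    · simp

theorem b_inner (h : FockRel Ω x l) {b : H →L[ℂ] H}
    (hb : b ∈ Submodule.span ℂ (Set.range fun u : List ι => (u.map x).prod))
    (j : Fin n) (φ : H) : ⟪Ω, b (l j φ)⟫_ℂ = 0 := by
  induction hb using Submodule.span_induction with
  | mem y hy => obtain ⟨u, rfl⟩ := hy; exact inner_xs h u j φ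
  | zero => simp
  | add y z _ _ hy hz => rw [add_apply, inner_add_right, hy, hz, add_zero]
  | smul c y _ hy => rw [smul_apply, inner_smul_right, hy, mul_zero]

theorem sl (h : FockRel Ω x l) (k j : Fin n) (φ : H) :
    star (l k) (l j φ) = if k = j then φ else 0 := by
  have := congrArg (fun T : H →L[ℂ] H => T φ) (h.star_mul_self k j)
  simp only [mul_apply_eq_comp] at this
  rw [this]
  split_ifs <;> simp

/-- elements of the algebra generated by one semicircular, on vectors killed by `l†` -/
theorem semic_apply (h : FockRel Ω x l) (j : Fin n) {f : H →L[ℂ] H}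
    (hf : f ∈ Algebra.adjoin ℂ {l j + star (l j)}) :
    ∃ q : Polynomial ℂ, ∀ ψ : H, star (l j) ψ = 0 → f ψ = Polynomial.aeval (l j) q ψ := by
  rw [Algebra.adjoin_singleton_eq_range_aeval] at hf
  obtain ⟨p, rfl⟩ := hf
  induction p using Polynomial.induction_on' with
  | add p q hp hq =>
    obtain ⟨p', hp'⟩ := hp
    obtain ⟨q', hq'⟩ := hq
    refine ⟨p' + q', fun ψ hψ => ?_⟩
    rw [map_add, add_apply, map_add, add_apply, hp' ψ hψ, hq' ψ hψ]
  | monomial m c =>
    have key : ∀ m : ℕ, ∃ q : Polynomial ℂ, ∀ ψ : H, star (l j) ψ = 0 →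
        ((l j + star (l j)) ^ m) ψ = Polynomial.aeval (l j) q ψ := by
      intro m
      induction m with
      | zero => exact ⟨1, fun ψ _ => by simp⟩
      | succ m ih =>
        obtain ⟨q, hq⟩ := ih
        refine ⟨Polynomial.X * q + q.divX, fun ψ hψ => ?_⟩
        rw [pow_succ', mul_apply_eq_comp, hq ψ hψ, add_apply, map_add, map_mul,
          Polynomial.aeval_X, add_apply, mul_apply_eq_comp]
        congr 1
        conv_lhs => rw [← Polynomial.X_mul_divX_add q]
        rw [map_add, map_mul, Polynomial.aeval_X, Polynomial.aeval_C, add_apply,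
          mul_apply_eq_comp, map_add, sl h, if_pos rfl]
        rw [Algebra.algebraMap_eq_smul_one, smul_apply, one_apply_eq_self, map_smul, hψ,
          smul_zero, add_zero]
    obtain ⟨q, hq⟩ := key m
    refine ⟨Polynomial.C c * q, fun ψ hψ => ?_⟩
    have e1 : (Polynomial.aeval (l j + star (l j)) (Polynomial.monomial m c) : H →L[ℂ] H) =
        c • (l j + star (l j)) ^ m := by
      rw [Polynomial.aeval_monomial, Algebra.algebraMap_eq_smul_one, smul_mul_assoc, one_mul]
    have e2 : (Polynomial.aeval (l j) (Polynomial.C c * q) : H →L[ℂ] H) =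
        c • Polynomial.aeval (l j) q := by
      rw [map_mul, Polynomial.aeval_C, Algebra.algebraMap_eq_smul_one, smul_mul_assoc, one_mul]
    have e3 : ((Polynomial.aeval (l j + star (l j))).toRingHom (Polynomial.monomial m c)) =
      (Polynomial.aeval (l j + star (l j)) (Polynomial.monomial m c) : H →L[ℂ] H) := rfl
    rw [e3, e1, e2, smul_apply, smul_apply, hq ψ hψ]

theorem omega_l (h : FockRel Ω x l) (j : Fin n) (φ : H) : ⟪Ω, l j φ⟫_ℂ = 0 := by
  simpa using inner_xs h [] j φ

theorem semic_centred (h : FockRel Ω x l) (j : Fin n) {f : H →L[ℂ] H}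
    (hf : f ∈ Algebra.adjoin ℂ {l j + star (l j)}) (h0 : ⟪Ω, f Ω⟫_ℂ = 0) (ψ : H)
    (hψ : star (l j) ψ = 0) : ∃ φ, f ψ = l j φ := by
  obtain ⟨q, hq⟩ := semic_apply h j hf
  have hdec : ∀ ψ : H, Polynomial.aeval (l j) q ψ =
      l j (Polynomial.aeval (l j) q.divX ψ) + q.coeff 0 • ψ := by
    intro ψ
    conv_lhs => rw [← Polynomial.X_mul_divX_add q]
    rw [map_add, map_mul, Polynomial.aeval_X, Polynomial.aeval_C, add_apply,
      mul_apply_eq_comp, Algebra.algebraMap_eq_smul_one, smul_apply, one_apply_eq_self]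
  have hΩ : star (l j) Ω = 0 := by simpa using h.vac j []
  have hc : q.coeff 0 = 0 := by
    rw [hq Ω hΩ, hdec, inner_add_right, omega_l h, zero_add, inner_smul_right,
      inner_self_eq_norm_sq_to_K, h.norm_Ω] at h0
    simpa using h0
  refine ⟨Polynomial.aeval (l j) q.divX ψ, ?_⟩
  rw [hq ψ hψ, hdec, hc, zero_smul, add_zero]

/-- the invariant of the induction -/
def Good (Ω : H) (l : Fin n → H →L[ℂ] H) (o : Option (Fin n)) (φ : H) : Prop :=
  match o with
  | some j => ∃ φ', φ = l j φ'
  | none => (∀ k, star (l k) φ = 0) ∧ ⟪Ω, φ⟫_ℂ = 0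

theorem good_step (h : FockRel Ω x l) (X : Fin n → H →L[ℂ] H)
    (hX : ∀ j, X j ∈ Algebra.adjoin ℂ (Set.range x)) (w : List (Option (Fin n) × (H →L[ℂ] H)))
    (hw : ∀ p ∈ w, p.2 ∈ (fun o : Option (Fin n) =>
      o.elim (Algebra.adjoin ℂ (Set.range X)) fun j => Algebra.adjoin ℂ {l j + star (l j)}) p.1 ∧
      ⟪Ω, p.2 Ω⟫_ℂ = 0)
    (hc : w.IsChain (fun p q => p.1 ≠ q.1)) :
    match w with
    | [] => True
    | p :: w' => Good Ω l p.1 (((p :: w').map Prod.snd).prod Ω) := by
  have hsub : Algebra.adjoin ℂ (Set.range X) ≤ Algebra.adjoin ℂ (Set.range x) := by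
    refine Algebra.adjoin_le ?_
    rintro _ ⟨j, rfl⟩
    exact hX j
  have hΩ : ∀ k, star (l k) Ω = 0 := fun k => by simpa using h.vac k []
  induction w with
  | nil => trivial
  | cons p w ih =>
    obtain ⟨o, y⟩ := p
    have hy := hw (o, y) (by simp)
    have hw' : ∀ p ∈ w, p.2 ∈ (fun o : Option (Fin n) =>
      o.elim (Algebra.adjoin ℂ (Set.range X)) fun j => Algebra.adjoin ℂ {l j + star (l j)}) p.1 ∧
      ⟪Ω, p.2 Ω⟫_ℂ = 0 := fun p hp => hw p (by simp [hp])
    have hc' : w.IsChain (fun p q => p.1 ≠ q.1) := hc.tail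
    have ih' := ih hw' hc'
    simp only [List.map_cons, List.prod_cons, mul_apply_eq_comp]
    -- the possible forms of the tail
    have htail : (w.map Prod.snd).prod Ω = Ω ∨
        ∃ o' : Option (Fin n), o ≠ o' ∧ Good Ω l o' ((w.map Prod.snd).prod Ω) := by
      rcases w with _ | ⟨q, w⟩
      · left; simp
      · right
        refine ⟨q.1, ?_, ih'⟩
        rw [List.isChain_cons_cons] at hc
        exact hc.1
    rcases o with _ | j
    · -- in the algebra of `X`
      have hb := mem_adjoin (hsub hy.1)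
      rcases htail with ht | ⟨o', ho', hg⟩
      · rw [ht]
        exact ⟨fun k => b_vac h hb k, hy.2⟩
      · rcases o' with _ | j
        · exact absurd rfl ho'
        · obtain ⟨φ', hφ'⟩ := hg
          rw [hφ']
          refine ⟨fun k => ?_, b_inner h hb j φ'⟩
          rw [b_rel h hb, hy.2]
          simp
    · -- in the algebra of `S j`
      refine semic_centred h j hy.1 hy.2 _ ?_
      rcases htail with ht | ⟨o', ho', hg⟩
      · rw [ht]; exact hΩ j
      · rcases o' with _ | k
        · exact hg.1 j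
        · obtain ⟨φ', hφ'⟩ := hg
          have hjk : j ≠ k := fun e => ho' (by rw [e])
          rw [hφ', sl h, if_neg hjk]

/-! moments of one semicircular -/

theorem splits_replicate {κ : Type} [DecidableEq κ] {β : Type} [AddCommMonoid β] (z : κ) (m : ℕ)
    (f : List κ × List κ → β) :
    ((splits z (List.replicate m z)).map f).sum =
      ∑ i ∈ Finset.range m, f (List.replicate i z, List.replicate (m - 1 - i) z) := by
  induction m generalizing f with
  | zero => simp [splits]
  | succ m ih =>
    rw [List.replicate_succ]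
    have : splits z (z :: List.replicate m z) =
      (if z = z then [([], List.replicate m z)] else []) ++
        (splits z (List.replicate m z)).map fun p => (z :: p.1, p.2) := rfl
    rw [this, List.map_append, List.sum_append, List.map_map, ih, Finset.sum_range_succ']
    rw [if_pos rfl, add_comm]
    congr 1
    · refine Finset.sum_congr rfl fun i hi => ?_
      simp only [Function.comp_apply, List.replicate_succ]
      congr 3
      have := Finset.mem_range.1 hi
      omega
    · simp

theorem c_rec (h : FockRel Ω x l) (j : Fin n) (m : ℕ) :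
    ⟪Ω, ((l j + star (l j)) ^ (m + 1)) Ω⟫_ℂ = ∑ i ∈ Finset.range m,
      ⟪Ω, ((l j + star (l j)) ^ i) Ω⟫_ℂ * ⟪Ω, ((l j + star (l j)) ^ (m - 1 - i)) Ω⟫_ℂ := by
  have hrep : ∀ m : ℕ, ((List.replicate m (Sum.inr j : ι ⊕ Fin n)).map (lett x l)).prod =
      (l j + star (l j)) ^ m := by
    intro m
    rw [List.map_replicate, List.prod_replicate]
    rfl
  have hD := h.D (List.replicate m (Sum.inr j)) j
  rw [hrep, splits_replicate] at hD
  rw [pow_succ', mul_apply_eq_comp, add_apply, inner_add_right, omega_l h, zero_add, hD,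
    inner_sum]
  refine Finset.sum_congr rfl fun i _ => ?_
  rw [inner_smul_right, moment, hrep, hrep]

theorem sum_even_odd (F : ℕ → ℂ) (p : ℕ) :
    ∑ i ∈ Finset.range (2 * p + 1), F i =
      (∑ r ∈ Finset.range (p + 1), F (2 * r)) + ∑ r ∈ Finset.range p, F (2 * r + 1) := by
  induction p with
  | zero => simp
  | succ p ih =>
    rw [show 2 * (p + 1) + 1 = (2 * p + 1) + 1 + 1 by ring, Finset.sum_range_succ,
      Finset.sum_range_succ, ih, Finset.sum_range_succ (fun r => F (2 * r)) (p + 1),
      Finset.sum_range_succ (fun r => F (2 * r + 1)) p]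
    rw [show 2 * (p + 1) = 2 * p + 1 + 1 by ring]
    ring

theorem c_eq (h : FockRel Ω x l) (j : Fin n) : ∀ m : ℕ,
    (∀ p, m = 2 * p → ⟪Ω, ((l j + star (l j)) ^ m) Ω⟫_ℂ = catalan p) ∧
    (∀ p, m = 2 * p + 1 → ⟪Ω, ((l j + star (l j)) ^ m) Ω⟫_ℂ = 0) := by
  intro m
  induction m using Nat.strong_induction_on with
  | _ m ih =>
    rcases m with _ | m
    · refine ⟨fun p hp => ?_, fun p hp => by omega⟩
      have : p = 0 := by omega
      subst this
      simp [inner_self_eq_norm_sq_to_K, h.norm_Ω]
    · refine ⟨fun p hp => ?_, fun p hp => ?_⟩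
      · obtain ⟨p, rfl⟩ : ∃ p', p = p' + 1 := ⟨p - 1, by omega⟩
        have hm : m = 2 * p + 1 := by omega
        subst hm
        rw [c_rec h, sum_even_odd, catalan_succ]
        have h2 : ∑ r ∈ Finset.range p, ⟪Ω, ((l j + star (l j)) ^ (2 * r + 1)) Ω⟫_ℂ *
            ⟪Ω, ((l j + star (l j)) ^ (2 * p + 1 - 1 - (2 * r + 1))) Ω⟫_ℂ = 0 := by
          refine Finset.sum_eq_zero fun r hr => ?_
          have := Finset.mem_range.1 hr
          rw [(ih (2 * r + 1) (by omega)).2 r rfl, zero_mul]
        rw [h2, add_zero]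
        rw [Nat.cast_sum]
        simp only [Nat.cast_mul]
        rw [← Fin.sum_univ_eq_sum_range (fun r => ⟪Ω, ((l j + star (l j)) ^ (2 * r)) Ω⟫_ℂ *
            ⟪Ω, ((l j + star (l j)) ^ (2 * p + 1 - 1 - (2 * r))) Ω⟫_ℂ) (p + 1)]
        refine Finset.sum_congr rfl fun r _ => ?_
        have hr := r.2
        rw [(ih (2 * (r : ℕ)) (by omega)).1 r rfl,
          (ih (2 * p + 1 - 1 - (2 * (r : ℕ))) (by omega)).1 (p - r) (by omega)]
      · have hm : m = 2 * p := by omega
        subst hm
        rw [c_rec h]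
        refine Finset.sum_eq_zero fun i hi => ?_
        have := Finset.mem_range.1 hi
        rcases Nat.even_or_odd' i with ⟨r, hr | hr⟩
        · rw [(ih (2 * p - 1 - i) (by omega)).2 (p - 1 - r) (by omega), mul_zero]
        · rw [(ih i (by omega)).2 r hr, zero_mul]

end one

end FreeAux

open FreeAux in
/-- the semicirculars are free, and free from the algebra generated by `x` -/
theorem freeSemicirc_of_fock {n : ℕ} {Ω : H} {x : ι → H →L[ℂ] H} {l : Fin n → H →L[ℂ] H}
    (h : FockRel Ω x l) (X : Fin n → H →L[ℂ] H)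
    (hX : ∀ j, X j ∈ Algebra.adjoin ℂ (Set.range x)) :
    FreeSemicirc Ω X (fun j => l j + star (l j)) := by
  constructor
  · intro w hne hw hc
    have hg := good_step h X hX w hw hc
    rcases w with _ | ⟨p, w⟩
    · exact absurd rfl hne
    · obtain ⟨o, y⟩ := p
      rcases o with _ | j
      · exact hg.2
      · obtain ⟨φ', hφ'⟩ := hg
        rw [hφ']
        exact omega_l h j φ'
  · intro j
    refine ⟨IsSelfAdjoint.add_star_self _, fun p => ⟨?_, ?_⟩⟩
    · exact (c_eq h j (2 * p)).1 p rfl
    · exact (c_eq h j (2 * p + 1)).2 p rfl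

end Vale.Agent.P087
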