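import Vale.Agent.P087.Defs2

/-!
# The key inequality (P087)
-/

namespace Vale.Agent.P087

open scoped InnerProductSpace ENNReal

variable {H : Type} [NormedAddCommGroup H] [InnerProductSpace ℂ H]

namespace KeyIneqAux

variable [CompleteSpace H] {n : ℕ}

/-- adjoint of a word of self-adjoint operators -/
lemma star_word {ι : Type} {x : ι → H →L[ℂ] H} (hx : ∀ i, IsSelfAdjoint (x i)) (u : List ι) :
    star ((u.map x).prod) = (u.reverse.map x).prod := by
  induction u with
  | nil => simp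
  | cons i u ih =>
    rw [List.map_cons, List.prod_cons, star_mul, ih, (hx i).star_eq, List.reverse_cons,
      List.map_append, List.prod_append]
    simp

lemma inner_star (A : H →L[ℂ] H) (φ ψ : H) : ⟪φ, A ψ⟫_ℂ = ⟪star A φ, ψ⟫_ℂ := by
  rw [ContinuousLinearMap.star_eq_adjoint, ContinuousLinearMap.adjoint_inner_left]

/-- `z_i⁺ = x_i + s_i l_i` -/
noncomputable def zp (x l : Fin n → H →L[ℂ] H) (s : Fin n → ℝ) (j : Fin n) : H →L[ℂ] H :=
  x j + ((s j : ℝ) : ℂ) • l j

lemma zp_cons (x l : Fin n → H →L[ℂ] H) (s : Fin n → ℝ) (Ω : H) (j : Fin n) (v : List (Fin n)) :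
    (((j :: v).map (zp x l s)).prod) Ω = x j (((v.map (zp x l s)).prod) Ω) +
      ((s j : ℝ) : ℂ) • l j (((v.map (zp x l s)).prod) Ω) := by
  rw [List.map_cons, List.prod_cons]
  rfl

lemma word_append (x : Fin n → H →L[ℂ] H) (u : List (Fin n)) (j : Fin n) (φ : H) :
    ((u ++ [j]).map x).prod φ = (u.map x).prod (x j φ) := by
  rw [List.map_append, List.prod_append]; simp

lemma rel_apply {Ω : H} {x l : Fin n → H →L[ℂ] H} (h : FockRel Ω x l) (c d : Fin n)
    (u : List (Fin n)) (φ : H) :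
    star (l c) ((u.map x).prod (l d φ)) = if c = d then moment Ω x u • φ else 0 := by
  have := congrArg (fun T : H →L[ℂ] H => T φ) (h.rel c d u)
  simp only [mul_apply_eq_comp] at this
  rw [this]
  split_ifs <;> simp

/-- the span of the vectors `z_v⁺ Ω` -/
noncomputable def P (x l : Fin n → H →L[ℂ] H) (s : Fin n → ℝ) (Ω : H) : Submodule ℂ H :=
  Submodule.span ℂ (Set.range fun v : List (Fin n) => ((v.map (zp x l s)).prod) Ω)

lemma mem_P (x l : Fin n → H →L[ℂ] H) (s : Fin n → ℝ) (Ω : H) (v : List (Fin n)) :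
    ((v.map (zp x l s)).prod) Ω ∈ P x l s Ω := Submodule.subset_span ⟨v, rfl⟩

lemma star_mem {Ω : H} {x l : Fin n → H →L[ℂ] H} (h : FockRel Ω x l) (s : Fin n → ℝ) (j : Fin n)
    (v : List (Fin n)) : ∀ u : List (Fin n),
    star (l j) ((u.map x).prod (((v.map (zp x l s)).prod) Ω)) ∈ P x l s Ω := by
  induction v with
  | nil =>
    intro u
    simp only [List.map_nil, List.prod_nil, one_apply_eq_self]
    rw [h.vac]
    exact Submodule.zero_mem _
  | cons i v ih =>
    intro u
    rw [zp_cons, map_add, map_add, map_smul, map_smul, ← word_append, rel_apply h]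
    refine Submodule.add_mem _ (ih _) (Submodule.smul_mem _ _ ?_)
    split_ifs
    · exact Submodule.smul_mem _ _ (mem_P _ _ _ _ _)
    · exact Submodule.zero_mem _

lemma word_mem {Ω : H} {x l : Fin n → H →L[ℂ] H} (h : FockRel Ω x l) (s : Fin n → ℝ)
    (w : List (Fin n)) :
    (w.map fun j => x j + ((s j : ℝ) : ℂ) • (l j + star (l j))).prod Ω ∈ P x l s Ω := by
  induction w with
  | nil => simpa using mem_P x l s Ω []
  | cons j w ih =>
    rw [List.map_cons, List.prod_cons, mul_apply_eq_comp]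
    have key : ∀ φ ∈ P x l s Ω, (x j + ((s j : ℝ) : ℂ) • (l j + star (l j))) φ ∈ P x l s Ω := by
      intro φ hφ
      refine Submodule.span_induction (p := fun φ _ =>
        (x j + ((s j : ℝ) : ℂ) • (l j + star (l j))) φ ∈ P x l s Ω) ?_ ?_ ?_ ?_ hφ
      · rintro _ ⟨v, rfl⟩
        have e1 : (x j + ((s j : ℝ) : ℂ) • (l j + star (l j))) (((v.map (zp x l s)).prod) Ω) =
            (((j :: v).map (zp x l s)).prod) Ω +
              ((s j : ℝ) : ℂ) • star (l j) ((([] : List (Fin n)).map x).prod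
                (((v.map (zp x l s)).prod) Ω)) := by
          rw [zp_cons]
          simp only [add_apply, smul_apply, smul_add,
            List.map_nil, List.prod_nil, one_apply_eq_self]
          abel
        show (x j + ((s j : ℝ) : ℂ) • (l j + star (l j))) (((v.map (zp x l s)).prod) Ω) ∈ _
        rw [e1]
        exact Submodule.add_mem _ (mem_P _ _ _ _ _) (Submodule.smul_mem _ _ (star_mem h s j v _))
      · simp
      · intro a b _ _ ha hb
        rw [map_add]
        exact Submodule.add_mem _ ha hb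
      · intro c a _ ha
        rw [map_smul]
        exact Submodule.smul_mem _ _ ha
    exact key _ ih

lemma inner_zp {Ω : H} {x l : Fin n → H →L[ℂ] H} (h : FockRel Ω x l) (s : Fin n → ℝ)
    (v : List (Fin n)) : ∀ u : List (Fin n),
    ⟪Ω, (u.map x).prod (((v.map (zp x l s)).prod) Ω)⟫_ℂ = moment Ω x (u ++ v) := by
  induction v with
  | nil =>
    intro u
    simp [moment]
  | cons j v ih =>
    intro u
    rw [zp_cons, map_add, map_smul, ← word_append, inner_add_right, inner_smul_right, ih,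
      inner_star ((u.map x).prod), star_word h.sa, inner_star (l j), h.vac, inner_zero_left,
      mul_zero, add_zero]
    congr 1
    simp

/-- the dual family -/
noncomputable def fw (p : H →L[ℂ] H) (l : Fin n → H →L[ℂ] H) (Ω : H) : List (Fin n) → H
  | [] => p Ω
  | j :: w => p (l j (fw p l Ω w))

section dual

variable {Ω : H} {x l : Fin n → H →L[ℂ] H}
    (p : H →L[ℂ] H) (π : ℝ) (hπ : 0 < π) (hp : IsSelfAdjoint p) (hpp : p * p = p)
    (hpx : ∀ i, p * x i = 0) (hpl : ∀ c d, star (l c) * p * l d = if c = d then (π : ℂ) • 1 else 0)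
    (hpΩ : ∀ c, star (l c) (p Ω) = 0) (hπΩ : ⟪Ω, p Ω⟫_ℂ = π)

include hp in
lemma inner_p (φ ψ : H) : ⟪p φ, ψ⟫_ℂ = ⟪φ, p ψ⟫_ℂ := by
  have := inner_star p φ ψ
  rw [hp.star_eq] at this
  exact this.symm

include hpp in
lemma p_p (φ : H) : p (p φ) = p φ := congrArg (fun T : H →L[ℂ] H => T φ) hpp

include hpl in
lemma pl_apply (c d : Fin n) (φ : H) :
    star (l c) (p (l d φ)) = if c = d then (π : ℂ) • φ else 0 := by
  have := congrArg (fun T : H →L[ℂ] H => T φ) (hpl c d)
  simp only [mul_apply_eq_comp] at this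
  rw [this]
  split_ifs <;> simp

include hp hpp hpl hpΩ hπΩ in
lemma fw_inner (w : List (Fin n)) : ∀ w' : List (Fin n),
    ⟪fw p l Ω w, fw p l Ω w'⟫_ℂ = if w = w' then ((π ^ (w.length + 1) : ℝ) : ℂ) else 0 := by
  induction w with
  | nil =>
    intro w'
    cases w' with
    | nil =>
      simp only [fw, if_true, List.length_nil, zero_add, pow_one]
      rw [inner_p p hp, p_p p hpp, hπΩ]
    | cons j w' =>
      simp only [fw]
      rw [inner_p p hp, p_p p hpp, ← inner_p p hp, inner_star (l j), hpΩ, inner_zero_left]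
      simp
  | cons i w ih =>
    intro w'
    cases w' with
    | nil =>
      simp only [fw]
      rw [← inner_conj_symm, inner_p p hp, p_p p hpp, ← inner_p p hp, inner_star (l i), hpΩ,
        inner_zero_left]
      simp
    | cons j w' =>
      simp only [fw]
      rw [inner_p p hp, p_p p hpp, ← star_star (l i), ← inner_star (star (l i)),
        pl_apply p π hpl]
      by_cases hij : i = j
      · subst hij
        simp only [if_true, inner_smul_right, ih w', List.cons.injEq, true_and, List.length_cons]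
        split_ifs
        · push_cast; ring
        · simp
      · simp [hij]

include hp hpx hpl hpΩ hπΩ in
lemma fw_zp (s : Fin n → ℝ) (w : List (Fin n)) : ∀ v : List (Fin n),
    ⟪fw p l Ω w, ((v.map (zp x l s)).prod) Ω⟫_ℂ =
      if w = v then (((w.map s).prod * π ^ (w.length + 1) : ℝ) : ℂ) else 0 := by
  have hpxa : ∀ i φ, p (x i φ) = 0 := fun i φ =>
    congrArg (fun T : H →L[ℂ] H => T φ) (hpx i)
  induction w with
  | nil =>
    intro v
    cases v with
    | nil =>
      simp only [fw, List.map_nil, List.prod_nil, one_apply_eq_self, if_true,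
        List.length_nil, zero_add, pow_one, one_mul]
      rw [inner_p p hp, hπΩ]
    | cons j v =>
      rw [zp_cons]
      simp only [fw]
      rw [inner_p p hp, map_add, hpxa, map_smul, zero_add, inner_smul_right, ← inner_p p hp,
        inner_star (l j), hpΩ, inner_zero_left]
      simp
  | cons i w ih =>
    intro v
    cases v with
    | nil =>
      simp only [fw, List.map_nil, List.prod_nil, one_apply_eq_self]
      rw [inner_p p hp, ← star_star (l i), ← inner_star (star (l i)), hpΩ]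
      simp
    | cons j v =>
      rw [zp_cons]
      simp only [fw]
      rw [inner_p p hp, ← star_star (l i), ← inner_star (star (l i)), map_add, hpxa, map_smul,
        zero_add, map_smul, pl_apply p π hpl]
      by_cases hij : i = j
      · subst hij
        simp only [if_true, inner_smul_right, ih v, List.cons.injEq, true_and, List.length_cons,
          List.map_cons, List.prod_cons]
        split_ifs
        · push_cast; ring
        · simp
      · simp [hij]

end dual

lemma prod_sqrt_sq (σ : Fin n → ℝ) (hσ : ∀ j, 0 < σ j) (v : List (Fin n)) :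
    ((v.map fun j => √(σ j)).prod) ^ 2 = (v.map σ).prod := by
  induction v with
  | nil => simp
  | cons j v ih =>
    simp only [List.map_cons, List.prod_cons, mul_pow, ih, Real.sq_sqrt (hσ j).le]

lemma prod_sqrt_pos (σ : Fin n → ℝ) (hσ : ∀ j, 0 < σ j) (v : List (Fin n)) :
    0 < (v.map fun j => √(σ j)).prod := by
  induction v with
  | nil => simp
  | cons j v ih =>
    simp only [List.map_cons, List.prod_cons]
    exact mul_pos (Real.sqrt_pos.mpr (hσ j)) ih

end KeyIneqAux

open KeyIneqAux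

theorem key_ineq [CompleteSpace H] {n : ℕ} {Ω : H} {x l : Fin n → H →L[ℂ] H} (h : FockRel Ω x l)
    (p : H →L[ℂ] H) (π : ℝ) (hπ : 0 < π) (hp : IsSelfAdjoint p) (hpp : p * p = p)
    (hpx : ∀ i, p * x i = 0) (hpl : ∀ c d, star (l c) * p * l d = if c = d then (π : ℂ) • 1 else 0)
    (hpΩ : ∀ c, star (l c) (p Ω) = 0) (hπΩ : ⟪Ω, p Ω⟫_ℂ = π)
    (σ : Fin n → ℝ) (hσ : ∀ j, 0 < σ j) (i : Fin n) (K : ℝ)
    (hK : ∀ F : Finset (List (Fin n)),
      ∑ v ∈ F, ‖moment Ω x (i :: v)‖ ^ 2 / ((v.map σ).prod * π ^ (v.length + 1)) ≤ K)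
    (ψ : H) (hψ : ψ ∈ L2 Ω fun j => x j + ((√(σ j) : ℝ) : ℂ) • (l j + star (l j))) :
    ‖⟪x i Ω, ψ⟫_ℂ‖ ^ 2 ≤ K * ‖ψ‖ ^ 2 := by
  classical
  set s : Fin n → ℝ := fun j => √(σ j) with hs
  -- reduction to the dense subspace
  suffices hP : ∀ φ ∈ P x l s Ω, ‖⟪x i Ω, φ⟫_ℂ‖ ^ 2 ≤ K * ‖φ‖ ^ 2 by
    have hclosed : IsClosed {φ : H | ‖⟪x i Ω, φ⟫_ℂ‖ ^ 2 ≤ K * ‖φ‖ ^ 2} :=
      isClosed_le (by fun_prop) (by fun_prop)
    have hsub : ((Submodule.span ℂ (Set.range fun w : List (Fin n) =>
        (w.map fun j => x j + ((s j : ℝ) : ℂ) • (l j + star (l j))).prod Ω) : Submodule ℂ H) :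
          Set H) ⊆ {φ : H | ‖⟪x i Ω, φ⟫_ℂ‖ ^ 2 ≤ K * ‖φ‖ ^ 2} := by
      intro φ hφ
      apply hP
      have : Submodule.span ℂ (Set.range fun w : List (Fin n) =>
        (w.map fun j => x j + ((s j : ℝ) : ℂ) • (l j + star (l j))).prod Ω) ≤ P x l s Ω := by
        rw [Submodule.span_le]
        rintro _ ⟨w, rfl⟩
        exact word_mem h s w
      exact this hφ
    exact closure_minimal hsub hclosed hψ
  intro φ hφ
  obtain ⟨c, hc⟩ := (Finsupp.mem_span_range_iff_exists_finsupp).mp hφ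
  rw [Finsupp.sum] at hc
  set N : List (Fin n) → ℝ := fun w => π ^ (w.length + 1) with hN
  have hN0 : ∀ w, 0 < N w := fun w => pow_pos hπ _
  set S : List (Fin n) → ℝ := fun w => (w.map s).prod with hS
  have hS0 : ∀ w, 0 < S w := fun w => prod_sqrt_pos σ hσ w
  have hS2 : ∀ w, S w ^ 2 = (w.map σ).prod := fun w => prod_sqrt_sq σ hσ w
  -- orthonormal family
  set e : List (Fin n) → H := fun w => (((√(N w))⁻¹ : ℝ) : ℂ) • fw p l Ω w with he
  have horth : Orthonormal ℂ e := by
    rw [orthonormal_iff_ite]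
    intro w w'
    simp only [he, inner_smul_left, inner_smul_right, Complex.conj_ofReal,
      fw_inner p π hp hpp hpl hpΩ hπΩ]
    split_ifs with hw
    · subst hw
      have this : √(N w) * √(N w) = N w := Real.mul_self_sqrt (hN0 w).le
      have h1 : (√(N w))⁻¹ * ((√(N w))⁻¹ * N w) = 1 := by
        rw [← mul_assoc, ← mul_inv, this]
        exact inv_mul_cancel₀ (hN0 w).ne'
      exact_mod_cast h1
    · simp
  have hinner : ∀ w, ⟪fw p l Ω w, φ⟫_ℂ = c w * ((S w * N w : ℝ) : ℂ) := by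
    intro w
    rw [← hc, inner_sum]
    simp only [inner_smul_right, fw_zp p π hp hpx hpl hpΩ hπΩ s w]
    rw [Finset.sum_eq_single w]
    · simp [hS, hN]
    · intro v _ hv
      rw [if_neg (Ne.symm hv), mul_zero]
    · intro hw
      rw [Finsupp.notMem_support_iff.mp hw, zero_mul]
  have hbessel : ∑ w ∈ c.support, ‖c w‖ ^ 2 * (S w ^ 2 * N w) ≤ ‖φ‖ ^ 2 := by
    have h1 := horth.sum_inner_products_le φ (s := c.support)
    refine le_trans (le_of_eq ?_) h1
    apply Finset.sum_congr rfl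
    intro w _
    simp only [he, inner_smul_left, hinner, Complex.conj_ofReal]
    rw [norm_mul, norm_mul, Complex.norm_real, Complex.norm_real, Real.norm_eq_abs,
      Real.norm_eq_abs, abs_of_pos (mul_pos (hS0 w) (hN0 w)),
      abs_of_pos (inv_pos.mpr (Real.sqrt_pos.mpr (hN0 w)))]
    have h2 : √(N w) ^ 2 = N w := Real.sq_sqrt (hN0 w).le
    have hne : √(N w) ≠ 0 := (Real.sqrt_pos.mpr (hN0 w)).ne'
    rw [mul_pow, mul_pow, mul_pow, inv_pow, h2]
    have := (hN0 w).ne'
    field_simp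
  have hval : ⟪x i Ω, φ⟫_ℂ = ∑ v ∈ c.support, c v * moment Ω x (i :: v) := by
    rw [← hc, inner_sum]
    apply Finset.sum_congr rfl
    intro v _
    rw [inner_smul_right]
    congr 1
    have h1 := inner_zp h s v [i]
    simp only [List.map_cons, List.map_nil, List.prod_cons, List.prod_nil, mul_one,
      List.cons_append, List.nil_append] at h1
    rw [← h1, inner_star (x i), (h.sa i).star_eq]
  have hK' := hK c.support
  have hcs : ‖⟪x i Ω, φ⟫_ℂ‖ ^ 2 ≤ (∑ w ∈ c.support, ‖c w‖ ^ 2 * (S w ^ 2 * N w)) *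
      ∑ v ∈ c.support, ‖moment Ω x (i :: v)‖ ^ 2 / ((v.map σ).prod * π ^ (v.length + 1)) := by
    have h1 : ‖⟪x i Ω, φ⟫_ℂ‖ ≤ ∑ v ∈ c.support, (‖c v‖ * (S v * √(N v))) *
        (‖moment Ω x (i :: v)‖ / (S v * √(N v))) := by
      rw [hval]
      refine (norm_sum_le _ _).trans (Finset.sum_le_sum fun v _ => ?_)
      rw [norm_mul]
      have hne : S v * √(N v) ≠ 0 := (mul_pos (hS0 v) (Real.sqrt_pos.mpr (hN0 v))).ne'
      have aux : ∀ a b t : ℝ, t ≠ 0 → (a * t) * (b / t) = a * b := by
        intro a b t ht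
        field_simp
      rw [aux _ _ _ hne]
    have h2 := Finset.sum_mul_sq_le_sq_mul_sq c.support (fun v => ‖c v‖ * (S v * √(N v)))
      (fun v => ‖moment Ω x (i :: v)‖ / (S v * √(N v)))
    have h3 : ‖⟪x i Ω, φ⟫_ℂ‖ ^ 2 ≤ (∑ v ∈ c.support, (‖c v‖ * (S v * √(N v))) *
        (‖moment Ω x (i :: v)‖ / (S v * √(N v)))) ^ 2 := pow_le_pow_left₀ (norm_nonneg _) h1 2
    refine h3.trans (h2.trans (le_of_eq ?_))
    congr 1
    · apply Finset.sum_congr rfl
      intro v _
      rw [mul_pow, mul_pow, Real.sq_sqrt (hN0 v).le]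
    · apply Finset.sum_congr rfl
      intro v _
      rw [div_pow, mul_pow, Real.sq_sqrt (hN0 v).le, hS2]
  have hnn : 0 ≤ ∑ w ∈ c.support, ‖c w‖ ^ 2 * (S w ^ 2 * N w) :=
    Finset.sum_nonneg fun w _ => mul_nonneg (sq_nonneg _) (mul_nonneg (sq_nonneg _) (hN0 w).le)
  have hnn2 : 0 ≤ ∑ v ∈ c.support, ‖moment Ω x (i :: v)‖ ^ 2 /
      ((v.map σ).prod * π ^ (v.length + 1)) :=
    Finset.sum_nonneg fun v _ => div_nonneg (sq_nonneg _)
      (mul_nonneg (by rw [← hS2]; exact sq_nonneg _) (pow_pos hπ _).le)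
  calc ‖⟪x i Ω, φ⟫_ℂ‖ ^ 2 ≤ _ := hcs
    _ ≤ ‖φ‖ ^ 2 * K := mul_le_mul hbessel hK' hnn2 (sq_nonneg _)
    _ = K * ‖φ‖ ^ 2 := mul_comm _ _

end Vale.Agent.P087
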