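import Vale.Agent.P087.Defs2

/-!
# Shared definitions for the upper bound, the lower bound and the numerics (P087)
-/

namespace Vale.Agent.P087

open scoped InnerProductSpace ENNReal Topology
open MeasureTheory Filter ProbabilityTheory

/-- facts about the law `μ` of the counterexample used in the upper bound (`δ = 1/a`,
`ε = a⁻⁴`, `t = 1`). -/
structure UpFacts (a : ℕ) (μ : List (Fin (a + 1)) → ℂ) : Prop where
  f1 : ‖μ [0, 0]‖ ≤ 1 / (a : ℝ) + 1 / (a : ℝ) ^ 4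
  f2 : ∃ r : ℝ, μ [0, 0] + 75 * μ [0, 0, 0, 0] - 314 * μ [0, 0, 0, 0, 0] +
    478 * μ [0, 0, 0, 0, 0, 0] - 320 * μ [0, 0, 0, 0, 0, 0, 0] +
      80 * μ [0, 0, 0, 0, 0, 0, 0, 0] = (r : ℂ) ∧ r ≤ 1 / (a : ℝ) ^ 4 * (1 + 25 / (a : ℝ) ^ 2)
  f3 : ∀ i : Fin a, μ [0, i.succ, 0, i.succ] = ((1 / (a : ℝ) + 1 / (a : ℝ) ^ 2 : ℝ) : ℂ)
  f4 : ∀ i : Fin a, μ [i.succ, i.succ] = ((1 / (a : ℝ) + 1 : ℝ) : ℂ)
  f5 : ∀ i : Fin a, ‖μ [i.succ, i.succ, i.succ, i.succ]‖ ≤ 8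
  f6 : ∀ i : Fin a, ‖μ [0, i.succ, i.succ, 0, i.succ, i.succ]‖ ≤ 1024

/-- the counterexample tuple -/
noncomputable def bW (a : ℕ) : Fin (a + 1) → ℝ :=
  Fin.cases (1 / (a : ℝ) ^ 2) fun _ => 1

/-- the upper bound for the microstates entropy -/
noncomputable def Uup (a : ℕ) : ℝ :=
  (4 / (a : ℝ)) * Real.log (5 * (a : ℝ) ^ 4) +
  (1 / 2) * (1 + 30 / (a : ℝ) ^ 2) + (1 / 2) * Real.log (2 * Real.pi * (1 / (a : ℝ) ^ 4)) +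
  a * ((1 / 2) * (1 + 50 / (a : ℝ) ^ 2) + 1 / (a : ℝ) ^ 2 + (1 / 2) * Real.log (2 * Real.pi) +
    2 / (a : ℝ) ^ 2 * Real.log a)

/-- the lower bound for the non-microstates entropy -/
noncomputable def Llow (a : ℕ) : ℝ :=
  (1 / 2) * Real.log (2 * Real.pi * Real.exp 1 * (1 / (a : ℝ) ^ 4)) +
  a * ((1 / 2) * Real.log (2 * Real.pi * Real.exp 1)) +
  (a / 2) * ((1 / (a : ℝ)) - (1 / (a : ℝ)) ^ 2 * (20 * √(a : ℝ))) / (1 + 11 * √(a : ℝ))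

end Vale.Agent.P087
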