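import Vale.Agent.P087.Splits
import Vale.Agent.P087.FockAbs
import Vale.Agent.P087.UpDefs

/-!
# Facts about the law of the counterexample (P087)
-/

namespace Vale.Agent.P087

open scoped InnerProductSpace ENNReal

variable {H : Type} [NormedAddCommGroup H] [InnerProductSpace ℂ H]

namespace LawFactsAux

section values

variable {a : ℕ} {δ : ℝ} {τ : List (Fin (a + 1) ⊕ Fin (a + 1)) → ℂ} (hδ : δ ≠ 0) (h : IsLaw δ τ)

include h in
lemma v_00 (b : Fin (a + 1) → ℝ) :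
    ((expd b id [0, 0]).map fun p => ((p.1 : ℝ) : ℂ) * τ p.2).sum = (δ : ℂ) + (b 0 : ℂ) ^ 2 := by
  simp [expd, h.s, h.es, h.ee, h.e, h.nil, splits]
  ring

include hδ h in
lemma v_ii (b : Fin (a + 1) → ℝ) (i : Fin a) (hb : b i.succ = 1) :
    ((expd b id [i.succ, i.succ]).map fun p => ((p.1 : ℝ) : ℂ) * τ p.2).sum = (δ : ℂ) + 1 := by
  have hδ' : (δ : ℂ) ≠ 0 := by exact_mod_cast hδ
  simp [expd, h.s, h.es, h.ee, h.e, h.nil, h.x, h.ex, splits, hb]
  field_simp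

include hδ h in
lemma v_0i0i (b : Fin (a + 1) → ℝ) (i : Fin a) (hb : b i.succ = 1) :
    ((expd b id [0, i.succ, 0, i.succ]).map fun p => ((p.1 : ℝ) : ℂ) * τ p.2).sum =
      (δ : ℂ) + (δ : ℂ) ^ 2 := by
  have hδ' : (δ : ℂ) ≠ 0 := by exact_mod_cast hδ
  simp [expd, h.s, h.es, h.ee, h.e, h.nil, h.x, h.ex, splits, hb, Fin.succ_ne_zero,
    (Fin.succ_ne_zero _).symm]
  field_simp

include hδ h in
lemma v_iiii (b : Fin (a + 1) → ℝ) (i : Fin a) (hb : b i.succ = 1) :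
    ((expd b id [i.succ, i.succ, i.succ, i.succ]).map fun p => ((p.1 : ℝ) : ℂ) * τ p.2).sum =
      2 + 6 * (δ : ℂ) := by
  have hδ' : (δ : ℂ) ≠ 0 := by exact_mod_cast hδ
  simp [expd, h.s, h.es, h.ee, h.e, h.nil, h.x, h.ex, splits, hb, Fin.succ_ne_zero,
    (Fin.succ_ne_zero _).symm]
  field_simp
  ring

end values

section ops

variable [CompleteSpace H] {a : ℕ} {Ω : H} {x l : Fin (a + 1) → H →L[ℂ] H}

lemma KeyInner (A : H →L[ℂ] H) (φ ψ : H) : ⟪A φ, ψ⟫_ℂ = ⟪φ, star A ψ⟫_ℂ := by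
  rw [ContinuousLinearMap.star_eq_adjoint, ContinuousLinearMap.adjoint_inner_right]

lemma norm_proj_le {e : H →L[ℂ] H} (he : IsSelfAdjoint e) (hee : e * e = e) : ‖e‖ ≤ 1 := by
  have h1 : ‖e‖ * ‖e‖ = ‖e‖ := by
    have := CStarRing.norm_star_mul_self (x := e)
    rw [he.star_eq, hee] at this
    exact this.symm
  by_contra hc
  push Not at hc
  nlinarith

lemma norm_s_le (h : FockRel Ω x l) (c : Fin (a + 1)) : ‖l c + star (l c)‖ ≤ 2 := by
  have h1 := h.norm_le_one c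
  have h2 : ‖star (l c)‖ ≤ 1 := by rw [norm_star]; exact h1
  exact (norm_add_le _ _).trans (by linarith)

lemma poly_id (W : H →L[ℂ] H) :
    W ^ 2 + (75 : ℂ) • W ^ 4 - (314 : ℂ) • W ^ 5 + (478 : ℂ) • W ^ 6 - (320 : ℂ) • W ^ 7 +
      (80 : ℂ) • W ^ 8 =
    (W - W * W) * (1 + (2 : ℂ) • (W - W * W) + (80 : ℂ) • ((W - W * W) * (W - W * W))) *
      (W - W * W) := by
  simp only [mul_add, add_mul, mul_sub, sub_mul, smul_mul_assoc, mul_smul_comm, mul_one, one_mul,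
    smul_add, smul_sub]
  have e2 : W * W = W ^ 2 := (pow_two W).symm
  simp only [pow_succ, pow_zero, one_mul, mul_assoc]
  module

lemma D_norm (h : FockRel Ω x l) (hx0 : x 0 * x 0 = x 0) {δ : ℝ} (hδ0 : 0 ≤ δ) (hδ1 : δ ≤ 1)
    (hlaw : IsLaw δ (moment Ω (lett x l))) :
    ‖((l 0 + star (l 0)) - x 0 * (l 0 + star (l 0)) - (l 0 + star (l 0)) * x 0) Ω‖ ≤ 1 := by
  set s : H →L[ℂ] H := l 0 + star (l 0) with hs
  set e : H →L[ℂ] H := x 0 with he
  have hsa : star s = s := by rw [hs, star_add, star_star, add_comm]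
  have hea : star e = e := (h.sa 0).star_eq
  set D : H →L[ℂ] H := s - e * s - s * e with hD
  have hDa : star D = D := by
    rw [hD, star_sub, star_sub, star_mul, star_mul, hsa, hea]; abel
  have y1 : lett x l (Sum.inr 0) = s := rfl
  have y0 : lett x l (Sum.inl 0) = e := rfl
  have hDD : D * D = (([.inr 0, .inr 0] : List (Fin (a + 1) ⊕ Fin (a + 1))).map (lett x l)).prod
      - (([.inr 0, .inl 0, .inr 0] : List (Fin (a + 1) ⊕ Fin (a + 1))).map (lett x l)).prod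
      - (([.inr 0, .inr 0, .inl 0] : List (Fin (a + 1) ⊕ Fin (a + 1))).map (lett x l)).prod
      - (([.inl 0, .inr 0, .inr 0] : List (Fin (a + 1) ⊕ Fin (a + 1))).map (lett x l)).prod
      + (([.inl 0, .inr 0, .inl 0, .inr 0] : List (Fin (a + 1) ⊕ Fin (a + 1))).map (lett x l)).prod
      + (([.inl 0, .inr 0, .inr 0, .inl 0] : List (Fin (a + 1) ⊕ Fin (a + 1))).map (lett x l)).prod
      - (([.inr 0, .inl 0, .inr 0] : List (Fin (a + 1) ⊕ Fin (a + 1))).map (lett x l)).prod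
      + (([.inr 0, .inl 0, .inl 0, .inr 0] : List (Fin (a + 1) ⊕ Fin (a + 1))).map (lett x l)).prod
      + (([.inr 0, .inl 0, .inr 0, .inl 0] : List (Fin (a + 1) ⊕ Fin (a + 1))).map
          (lett x l)).prod := by
    simp only [List.map_cons, List.map_nil, List.prod_cons, List.prod_nil, y0, y1, mul_one, hD]
    noncomm_ring
  have hval : ⟪D Ω, D Ω⟫_ℂ = 1 - 2 * (δ : ℂ) + 2 * (δ : ℂ) ^ 2 := by
    have e1 : ⟪D Ω, D Ω⟫_ℂ = ⟪Ω, (D * D) Ω⟫_ℂ := by
      rw [mul_apply_eq_comp]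
      have := KeyInner D Ω (D Ω)
      rw [hDa] at this
      exact this
    rw [e1, hDD]
    simp only [add_apply, sub_apply, inner_add_right, inner_sub_right]
    have key : ∀ w : List (Fin (a + 1) ⊕ Fin (a + 1)),
      ⟪Ω, (w.map (lett x l)).prod Ω⟫_ℂ = moment Ω (lett x l) w := fun w => rfl
    simp only [key]
    simp [hlaw.s, hlaw.es, hlaw.ee, hlaw.e, hlaw.nil, splits]
    ring
  have h2 : ‖D Ω‖ ^ 2 = 1 - 2 * δ + 2 * δ ^ 2 := by
    have h4 := inner_self_eq_norm_sq (𝕜 := ℂ) (D Ω)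
    have hval' : ⟪D Ω, D Ω⟫_ℂ = ((1 - 2 * δ + 2 * δ ^ 2 : ℝ) : ℂ) := by
      rw [hval]; push_cast; ring
    rw [hval'] at h4
    rw [← h4]
    exact (Complex.ofReal_re _)
  have h3 : ‖D Ω‖ ^ 2 ≤ 1 := by rw [h2]; nlinarith
  exact (sq_le_one_iff₀ (norm_nonneg _)).mp h3

lemma f2_val (ha : 100 ≤ a) (h : FockRel Ω x l) (hx0 : x 0 * x 0 = x 0) {δ : ℝ} (hδ0 : 0 ≤ δ)
    (hδ1 : δ ≤ 1) (hlaw : IsLaw δ (moment Ω (lett x l))) (W : H →L[ℂ] H)
    (hW : W = x 0 + ((1 / (a : ℝ) ^ 2 : ℝ) : ℂ) • (l 0 + star (l 0))) :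
    ∃ r : ℝ, ⟪Ω, (W ^ 2 + (75 : ℂ) • W ^ 4 - (314 : ℂ) • W ^ 5 + (478 : ℂ) • W ^ 6 -
      (320 : ℂ) • W ^ 7 + (80 : ℂ) • W ^ 8) Ω⟫_ℂ = (r : ℂ) ∧
      r ≤ 1 / (a : ℝ) ^ 4 * (1 + 25 / (a : ℝ) ^ 2) := by
  have ha1 : (100:ℝ) ≤ a := by exact_mod_cast ha
  set β : ℝ := 1 / (a : ℝ) ^ 2 with hβ
  have hβ0 : 0 < β := by positivity
  have hβ1 : β ≤ 1 / 10000 := by
    rw [hβ]
    apply one_div_le_one_div_of_le (by norm_num)
    nlinarith
  set s : H →L[ℂ] H := l 0 + star (l 0) with hs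
  set e : H →L[ℂ] H := x 0 with he
  have hsn : ‖s‖ ≤ 2 := norm_s_le h 0
  have hen : ‖e‖ ≤ 1 := norm_proj_le (h.sa 0) hx0
  have hsa : star s = s := by rw [hs, star_add, star_star, add_comm]
  have hea : star e = e := (h.sa 0).star_eq
  set D : H →L[ℂ] H := s - e * s - s * e with hD
  have hDn : ‖D Ω‖ ≤ 1 := D_norm h hx0 hδ0 hδ1 hlaw
  set u : H →L[ℂ] H := W - W * W with hu
  have hWa : star W = W := by
    rw [hW, star_add, hea, star_smul, hsa]
    simp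
  have hua : star u = u := by rw [hu, star_sub, star_mul, hWa]
  have hu' : u = (β : ℂ) • D - ((β : ℂ) ^ 2) • (s * s) := by
    rw [hu, hW, hD]
    simp only [mul_add, add_mul, smul_mul_assoc, mul_smul_comm, hx0, smul_sub, pow_two, smul_smul]
    module
  have hDop : ‖D‖ ≤ 6 := by
    have h1 : ‖e * s‖ ≤ 2 := (norm_mul_le _ _).trans (by nlinarith [norm_nonneg e, norm_nonneg s])
    have h2 : ‖s * e‖ ≤ 2 := (norm_mul_le _ _).trans (by nlinarith [norm_nonneg e, norm_nonneg s])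
    calc ‖D‖ ≤ ‖s‖ + ‖e * s‖ + ‖s * e‖ :=
          (norm_sub_le _ _).trans (by gcongr; exact norm_sub_le _ _)
      _ ≤ 6 := by linarith
  have hss : ‖s * s‖ ≤ 4 := (norm_mul_le _ _).trans (by nlinarith [norm_nonneg s])
  have hβn : ‖(β : ℂ)‖ = β := by
    rw [Complex.norm_real, Real.norm_eq_abs, abs_of_pos hβ0]
  have hun : ‖u‖ ≤ 7 * β := by
    rw [hu']
    refine (norm_sub_le _ _).trans ?_
    rw [norm_smul, norm_smul, norm_pow, hβn]
    nlinarith [norm_nonneg D, norm_nonneg (s * s)]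
  have huΩ : ‖u Ω‖ ≤ β * (1 + 4 * β) := by
    rw [hu']
    simp only [sub_apply, smul_apply]
    refine (norm_sub_le _ _).trans ?_
    rw [norm_smul, norm_smul, norm_pow, hβn]
    have h1 : ‖(s * s) Ω‖ ≤ 4 := by
      have := (s * s).le_opNorm Ω
      rw [h.norm_Ω, mul_one] at this
      exact this.trans hss
    nlinarith [norm_nonneg (D Ω)]
  set Q : H →L[ℂ] H := 1 + (2 : ℂ) • u + (80 : ℂ) • (u * u) with hQ
  have hQa : star Q = Q := by
    rw [hQ, star_add, star_add, star_smul, star_smul, star_mul, hua, star_one]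
    simp
  have hQn : ‖Q‖ ≤ 1 + 2 * (7 * β) + 80 * (7 * β) ^ 2 := by
    have h1 : ‖(1 : H →L[ℂ] H)‖ ≤ 1 := ContinuousLinearMap.norm_id_le
    have h2 : ‖(2 : ℂ) • u‖ ≤ 2 * (7 * β) := by
      rw [norm_smul]
      have : ‖(2 : ℂ)‖ = 2 := by norm_num
      rw [this]; linarith
    have h3 : ‖(80 : ℂ) • (u * u)‖ ≤ 80 * (7 * β) ^ 2 := by
      rw [norm_smul]
      have e80 : ‖(80 : ℂ)‖ = 80 := by norm_num
      rw [e80]
      have := norm_mul_le u u
      nlinarith [norm_nonneg u]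
    calc ‖Q‖ ≤ ‖(1 : H →L[ℂ] H)‖ + ‖(2 : ℂ) • u‖ + ‖(80 : ℂ) • (u * u)‖ :=
          (norm_add_le _ _).trans (by gcongr; exact norm_add_le _ _)
      _ ≤ _ := by linarith
  refine ⟨(⟪u Ω, Q (u Ω)⟫_ℂ).re, ?_, ?_⟩
  · rw [poly_id]
    have e1 : ⟪Ω, (u * Q * u) Ω⟫_ℂ = ⟪u Ω, Q (u Ω)⟫_ℂ := by
      have := KeyInner u Ω (Q (u Ω))
      rw [hua] at this
      rw [this]
      rfl
    rw [e1]
    have e2 : (starRingEnd ℂ) ⟪u Ω, Q (u Ω)⟫_ℂ = ⟪u Ω, Q (u Ω)⟫_ℂ := by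
      rw [inner_conj_symm, KeyInner, hQa]
    exact (Complex.conj_eq_iff_re.mp e2).symm
  · have h1 : (⟪u Ω, Q (u Ω)⟫_ℂ).re ≤ ‖u Ω‖ * (‖Q‖ * ‖u Ω‖) := by
      refine (Complex.re_le_norm _).trans ((norm_inner_le_norm _ _).trans ?_)
      gcongr
      exact Q.le_opNorm _
    have h2 : ‖u Ω‖ * (‖Q‖ * ‖u Ω‖) ≤ (β * (1 + 4 * β)) *
        ((1 + 2 * (7 * β) + 80 * (7 * β) ^ 2) * (β * (1 + 4 * β))) := by
      gcongr
    have h3 : 1 / (a : ℝ) ^ 4 * (1 + 25 / (a : ℝ) ^ 2) = β ^ 2 * (1 + 25 * β) := by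
      rw [hβ]; ring
    rw [h3]
    refine (h1.trans h2).trans ?_
    have h4 : (1 + 4 * β) ^ 2 * (1 + 2 * (7 * β) + 80 * (7 * β) ^ 2) ≤ 1 + 25 * β := by
      nlinarith [mul_nonneg hβ0.le (sub_nonneg.mpr hβ1), sq_nonneg β,
        mul_nonneg (mul_nonneg hβ0.le hβ0.le) (sub_nonneg.mpr hβ1),
        mul_nonneg (mul_nonneg (mul_nonneg hβ0.le hβ0.le) hβ0.le) (sub_nonneg.mpr hβ1)]
    calc (β * (1 + 4 * β)) * ((1 + 2 * (7 * β) + 80 * (7 * β) ^ 2) * (β * (1 + 4 * β)))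
        = β ^ 2 * ((1 + 4 * β) ^ 2 * (1 + 2 * (7 * β) + 80 * (7 * β) ^ 2)) := by ring
      _ ≤ β ^ 2 * (1 + 25 * β) := by gcongr

lemma norm_moment_le {ι : Type} {y : ι → H →L[ℂ] H} (hΩ : ‖Ω‖ = 1) (w : List ι) {c : ι → ℝ}
    (hc : ∀ i, ‖y i‖ ≤ c i) : ‖moment Ω y w‖ ≤ (w.map c).prod := by
  have h1 : ‖(w.map y).prod‖ ≤ (w.map c).prod := by
    induction w with
    | nil =>
      simp only [List.map_nil, List.prod_nil]
      exact ContinuousLinearMap.norm_id_le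
    | cons i w ih =>
      simp only [List.map_cons, List.prod_cons]
      exact (norm_mul_le _ _).trans (mul_le_mul (hc i) ih (norm_nonneg _)
        ((norm_nonneg _).trans (hc i)))
  have h2 := (w.map y).prod.le_opNorm Ω
  have h3 := norm_inner_le_norm (𝕜 := ℂ) Ω ((w.map y).prod Ω)
  rw [hΩ] at h2 h3
  unfold moment
  linarith

end ops

end LawFactsAux

open LawFactsAux

theorem upFacts_model [CompleteSpace H] {a : ℕ} (ha : 100 ≤ a) {Ω : H}
    {x l : Fin (a + 1) → H →L[ℂ] H}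
    (h : FockRel Ω x l) (hx0 : x 0 * x 0 = x 0) (hx : ∀ i : Fin a, x 0 * x i.succ = x i.succ)
    (hxn : ∀ i : Fin a, ‖x i.succ‖ ≤ 2)
    (hlaw : IsLaw (1 / (a : ℝ)) (moment Ω (lett x l)))
    (htr : ∀ u v, moment Ω (lett x l) (u ++ v) = moment Ω (lett x l) (v ++ u)) :
    UpFacts a (moment Ω fun j => x j + ((bW a j : ℝ) : ℂ) • (l j + star (l j))) := by
  have ha1 : (100:ℝ) ≤ a := by exact_mod_cast ha
  have ha0 : (0:ℝ) < a := by linarith
  set δ : ℝ := 1 / (a : ℝ) with hδ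
  have hδ0 : 0 < δ := by positivity
  have hδ1 : δ ≤ 1 := by rw [hδ, div_le_one ha0]; linarith
  have hδne : δ ≠ 0 := hδ0.ne'
  have hb0 : bW a 0 = 1 / (a : ℝ) ^ 2 := rfl
  have hbs : ∀ i : Fin a, bW a i.succ = 1 := fun i => rfl
  have hexp : ∀ w, moment Ω (fun j => x j + ((bW a j : ℝ) : ℂ) • (l j + star (l j))) w =
      ((expd (bW a) id w).map fun p => ((p.1 : ℝ) : ℂ) * moment Ω (lett x l) p.2).sum :=
    fun w => moment_expd (bW a) id Ω (lett x l) w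
  refine ⟨?_, ?_, ?_, ?_, ?_, ?_⟩
  · rw [hexp, v_00 hlaw, hb0]
    have : (δ : ℂ) + ((1 / (a : ℝ) ^ 2 : ℝ) : ℂ) ^ 2 = ((1 / (a : ℝ) + 1 / (a : ℝ) ^ 4 : ℝ) : ℂ) := by
      rw [hδ]; push_cast; ring
    rw [this, Complex.norm_real, Real.norm_eq_abs, abs_of_nonneg (by positivity)]
  · obtain ⟨r, hr1, hr2⟩ := f2_val ha h hx0 hδ0.le hδ1 hlaw
      (x 0 + ((bW a 0 : ℝ) : ℂ) • (l 0 + star (l 0))) rfl
    refine ⟨r, ?_, hr2⟩
    rw [← hr1]
    simp only [moment, List.map_cons, List.map_nil, List.prod_cons, List.prod_nil, add_apply,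
      sub_apply, smul_apply, inner_add_right, inner_sub_right, inner_smul_right, pow_succ, pow_zero,
      one_mul, mul_one, mul_assoc]
  · intro i
    rw [hexp, v_0i0i hδne hlaw _ i (hbs i), hδ]; push_cast; ring
  · intro i
    rw [hexp, v_ii hδne hlaw _ i (hbs i), hδ]; push_cast; ring
  · intro i
    rw [hexp, v_iiii hδne hlaw _ i (hbs i)]
    have : (2 : ℂ) + 6 * (δ : ℂ) = ((2 + 6 * δ : ℝ) : ℂ) := by push_cast; ring
    rw [this, Complex.norm_real, Real.norm_eq_abs, abs_of_nonneg (by positivity)]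
    linarith
  · intro i
    have hc : ∀ j : Fin (a + 1), ‖x j + ((bW a j : ℝ) : ℂ) • (l j + star (l j))‖ ≤
        (Fin.cases 2 (fun _ => 4) j : ℝ) := by
      intro j
      refine Fin.cases ?_ (fun i => ?_) j
      · refine (norm_add_le _ _).trans ?_
        have h1 := norm_proj_le (h.sa 0) hx0
        have h2 : ‖((bW a 0 : ℝ) : ℂ) • (l 0 + star (l 0))‖ ≤ 1 := by
          rw [norm_smul, hb0, Complex.norm_real, Real.norm_eq_abs, abs_of_nonneg (by positivity)]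
          have h3 := norm_s_le h 0
          have h4 : 1 / (a : ℝ) ^ 2 ≤ 1 / 10000 := by
            apply one_div_le_one_div_of_le (by norm_num)
            nlinarith
          have h5 : 0 ≤ 1 / (a : ℝ) ^ 2 := by positivity
          nlinarith [norm_nonneg (l 0 + star (l 0))]
        simp only [Fin.cases_zero]
        linarith
      · refine (norm_add_le _ _).trans ?_
        have h1 := hxn i
        have h2 : ‖((bW a i.succ : ℝ) : ℂ) • (l i.succ + star (l i.succ))‖ ≤ 2 := by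
          rw [norm_smul, hbs]
          have h3 := norm_s_le h i.succ
          simpa using h3
        simp only [Fin.cases_succ]
        linarith
    have := norm_moment_le h.norm_Ω [0, i.succ, i.succ, 0, i.succ, i.succ] hc
    refine this.trans ?_
    simp
    norm_num

end Vale.Agent.P087
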