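import Vale.Agent.P087.HermBasis

/-!
# P087 [P]: volumes of balls and slices in the space of Hermitian matrices
-/

namespace Vale.Agent.P087

open scoped ENNReal
open MeasureTheory

namespace GaussVolAux

variable {k : ℕ}

theorem integrable_arr {μ : Measure ℝ} [SigmaFinite μ] {f : Fin k → Fin k → ℝ → ℝ}
    (hf : ∀ r s, Integrable (f r s) μ) :
    Integrable (fun c : Fin k → Fin k → ℝ => ∏ r, ∏ s, f r s (c r s))
      (Measure.pi fun _ => Measure.pi fun _ => μ) :=
  Integrable.fintype_prod (f := fun r (x : Fin k → ℝ) => ∏ s, f r s (x s))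
    fun r => Integrable.fintype_prod fun s => hf r s

theorem integral_arr {μ : Measure ℝ} [SigmaFinite μ] (f : Fin k → Fin k → ℝ → ℝ) :
    ∫ c : Fin k → Fin k → ℝ, ∏ r, ∏ s, f r s (c r s) ∂(Measure.pi fun _ => Measure.pi fun _ => μ) =
      ∏ r, ∏ s, ∫ x, f r s x ∂μ := by
  rw [integral_fintype_prod_eq_prod (fun r (x : Fin k → ℝ) => ∏ s, f r s (x s))]
  refine Finset.prod_congr rfl fun r _ => ?_
  rw [integral_fintype_prod_eq_prod (fun s => f r s)]

/-- Gaussian Chernoff bound for a diagonal quadratic form -/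
theorem vol_diag (w : Fin k → Fin k → ℝ) (hw : ∀ r s, 0 < w r s) (B : ℝ) :
    volume {c : Fin k → Fin k → ℝ | ∑ r, ∑ s, w r s * c r s ^ 2 ≤ B} ≤
      ENNReal.ofReal (Real.exp (B / 2) * ∏ r, ∏ s, √(2 * Real.pi / w r s)) := by
  set f : Fin k → Fin k → ℝ → ℝ := fun r s x => Real.exp (-(w r s / 2) * x ^ 2) with hf
  set G : (Fin k → Fin k → ℝ) → ℝ := fun c => Real.exp (B / 2) * ∏ r, ∏ s, f r s (c r s) with hG
  have hint : ∀ r s, Integrable (f r s) volume := fun r s =>
    integrable_exp_neg_mul_sq (by have := hw r s; positivity)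
  have hGi : Integrable G (volume : Measure (Fin k → Fin k → ℝ)) :=
    (integrable_arr hint).const_mul _
  have hG0 : ∀ c, 0 ≤ G c := fun c => by
    apply mul_nonneg (Real.exp_pos _).le
    exact Finset.prod_nonneg fun r _ => Finset.prod_nonneg fun s _ => (Real.exp_pos _).le
  have hGe : ∀ c, G c = Real.exp ((B - ∑ r, ∑ s, w r s * c r s ^ 2) / 2) := by
    intro c
    simp only [hG, hf]
    simp_rw [← Real.exp_sum]
    rw [← Real.exp_add]
    congr 1
    rw [sub_div, sub_eq_add_neg, Finset.sum_div, ← Finset.sum_neg_distrib]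
    congr 1
    refine Finset.sum_congr rfl fun r _ => ?_
    rw [Finset.sum_div, ← Finset.sum_neg_distrib]
    refine Finset.sum_congr rfl fun s _ => ?_
    ring
  have h1 : volume {c : Fin k → Fin k → ℝ | ∑ r, ∑ s, w r s * c r s ^ 2 ≤ B} ≤
      ∫⁻ c, ENNReal.ofReal (G c) := by
    have h2 := mul_meas_ge_le_lintegral₀ (μ := (volume : Measure (Fin k → Fin k → ℝ)))
      (f := fun c => ENNReal.ofReal (G c)) hGi.aestronglyMeasurable.aemeasurable.ennreal_ofReal 1
    rw [one_mul] at h2
    refine le_trans (measure_mono ?_) h2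
    intro c hc
    simp only [Set.mem_ofPred_eq] at hc ⊢
    rw [← ENNReal.ofReal_one]
    apply ENNReal.ofReal_le_ofReal
    rw [hGe]
    apply Real.one_le_exp
    linarith
  refine h1.trans (le_of_eq ?_)
  rw [← ofReal_integral_eq_lintegral_ofReal hGi (Filter.Eventually.of_forall hG0)]
  congr 1
  rw [hG, integral_const_mul]
  congr 1
  have h3 : ∫ c : Fin k → Fin k → ℝ, ∏ r, ∏ s, f r s (c r s) =
      ∏ r, ∏ s, ∫ x, f r s x := integral_arr f
  rw [h3]
  refine Finset.prod_congr rfl fun r _ => Finset.prod_congr rfl fun s _ => ?_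
  rw [hf, integral_gaussian]
  congr 1
  have := hw r s
  field_simp

theorem herm_sub (c d : Fin k → Fin k → ℝ) : herm (c - d) = herm c - herm d := by
  ext i j
  simp only [herm, Pi.sub_apply, Matrix.sub_apply]
  split_ifs
  · push_cast; ring
  · push_cast; ring
  · push_cast; ring

theorem prod_const_sqrt (x : ℝ) (hx : 0 ≤ x) :
    ∏ _r : Fin k, ∏ _s : Fin k, √x = x ^ ((k : ℝ) ^ 2 / 2) := by
  simp only [Finset.prod_const, Finset.card_univ, Fintype.card_fin]
  rw [← pow_mul, Real.sqrt_eq_rpow, ← Real.rpow_natCast, ← Real.rpow_mul hx]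
  congr 1
  push_cast
  ring

theorem herm_add (c d : Fin k → Fin k → ℝ) : herm (c + d) = herm c + herm d := by
  ext i j
  simp only [herm, Pi.add_apply, Matrix.add_apply]
  split_ifs
  · push_cast; ring
  · push_cast; ring
  · push_cast; ring

theorem herm_smul (a : ℝ) (c : Fin k → Fin k → ℝ) : herm (a • c) = (a : ℂ) • herm c := by
  ext i j
  simp only [herm, Pi.smul_apply, Matrix.smul_apply, smul_eq_mul]
  split_ifs
  · push_cast; ring
  · push_cast; ring
  · push_cast; ring

theorem herm_injective {c d : Fin k → Fin k → ℝ} (h : herm c = herm d) : c = d := by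
  have h1 : frob (herm (c - d)) = 0 := by
    rw [herm_sub, h, sub_self]
    simp [frob]
  rw [frob_herm] at h1
  have h2 := (Finset.sum_eq_zero_iff_of_nonneg fun r _ =>
    Finset.sum_nonneg fun s _ => sq_nonneg ((c - d) r s)).1 h1
  funext r s
  have h3 := (Finset.sum_eq_zero_iff_of_nonneg fun s _ =>
    sq_nonneg ((c - d) r s)).1 (h2 r (Finset.mem_univ r)) s (Finset.mem_univ s)
  have h4 : (c - d) r s = 0 := by simpa using h3
  simpa [sub_eq_zero] using h4

theorem frob_eq_trace (A : Matrix (Fin k) (Fin k) ℂ) :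
    ((frob A : ℝ) : ℂ) = (A.conjTranspose * A).trace := by
  unfold frob
  simp only [Matrix.trace, Matrix.diag_apply, Matrix.mul_apply, Matrix.conjTranspose_apply]
  push_cast
  rw [Finset.sum_comm]
  refine Finset.sum_congr rfl fun j _ => Finset.sum_congr rfl fun i _ => ?_
  rw [← Complex.conj_mul', Complex.star_def]

theorem frob_conj {U : Matrix (Fin k) (Fin k) ℂ} (hU : U.conjTranspose * U = 1)
    (A : Matrix (Fin k) (Fin k) ℂ) : frob (U * A * U.conjTranspose) = frob A := by
  have h : ((frob (U * A * U.conjTranspose) : ℝ) : ℂ) = ((frob A : ℝ) : ℂ) := by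
    rw [frob_eq_trace, frob_eq_trace, Matrix.conjTranspose_mul, Matrix.conjTranspose_mul,
      Matrix.conjTranspose_conjTranspose]
    have e : U * (A.conjTranspose * U.conjTranspose) * (U * A * U.conjTranspose) =
        U * (A.conjTranspose * (U.conjTranspose * U) * A * U.conjTranspose) := by
      simp only [Matrix.mul_assoc]
    rw [e, hU, Matrix.mul_one, Matrix.trace_mul_comm, Matrix.mul_assoc _ _ U, hU, Matrix.mul_one]
  exact_mod_cast h

/-- conjugation by a unitary in the coordinates -/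
theorem exists_conj (U : Matrix (Fin k) (Fin k) ℂ) :
    ∃ Φ : (Fin k → Fin k → ℝ) →ₗ[ℝ] (Fin k → Fin k → ℝ),
      ∀ c, herm (Φ c) = U.conjTranspose * herm c * U := by
  have h : ∀ c : Fin k → Fin k → ℝ, ∃ d, herm d = U.conjTranspose * herm c * U := by
    intro c
    apply exists_herm
    unfold Matrix.IsHermitian
    rw [Matrix.conjTranspose_mul, Matrix.conjTranspose_mul, Matrix.conjTranspose_conjTranspose,
      (herm_isHermitian c).eq, Matrix.mul_assoc]
  choose f hf using h
  refine ⟨⟨⟨f, fun c d => ?_⟩, fun a c => ?_⟩, hf⟩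
  · apply herm_injective
    rw [herm_add, hf, hf, hf, herm_add, Matrix.mul_add, Matrix.add_mul]
  · apply herm_injective
    simp only [RingHom.id_apply]
    rw [herm_smul, hf, hf, herm_smul, Matrix.mul_smul, Matrix.smul_mul]

/-- linear maps preserving the Euclidean norm preserve the volume -/
theorem volume_preimage (Φ : (Fin k → Fin k → ℝ) →ₗ[ℝ] (Fin k → Fin k → ℝ))
    (hΦ : ∀ c, ∑ r, ∑ s, Φ c r s ^ 2 = ∑ r, ∑ s, c r s ^ 2) (S : Set (Fin k → Fin k → ℝ)) :
    volume (Φ ⁻¹' S) = volume S := by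
  have hinj : Function.Injective Φ := by
    rw [← LinearMap.ker_eq_bot, LinearMap.ker_eq_bot']
    intro c hc
    have h1 := hΦ c
    rw [hc] at h1
    simp only [Pi.zero_apply, ne_eq, OfNat.ofNat_ne_zero, not_false_eq_true, zero_pow,
      Finset.sum_const_zero] at h1
    have h2 := (Finset.sum_eq_zero_iff_of_nonneg fun r _ =>
      Finset.sum_nonneg fun s _ => sq_nonneg (c r s)).1 h1.symm
    funext r s
    have h3 := (Finset.sum_eq_zero_iff_of_nonneg fun s _ =>
      sq_nonneg (c r s)).1 (h2 r (Finset.mem_univ r)) s (Finset.mem_univ s)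
    simpa using h3
  have hdet : LinearMap.det Φ ≠ 0 := by
    have := (LinearEquiv.ofInjectiveEndo Φ hinj).isUnit_det'
    have e : ((LinearEquiv.ofInjectiveEndo Φ hinj : (Fin k → Fin k → ℝ) ≃ₗ[ℝ] _) :
        (Fin k → Fin k → ℝ) →ₗ[ℝ] (Fin k → Fin k → ℝ)) = Φ := by
      ext1; rfl
    rw [e] at this
    exact this.ne_zero
  have hmain := Measure.addHaar_preimage_linearMap
    (volume : Measure (Fin k → Fin k → ℝ)) hdet
  set B : Set (Fin k → Fin k → ℝ) := {c | ∑ r, ∑ s, c r s ^ 2 ≤ 1} with hB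
  have hB1 : Φ ⁻¹' B = B := by
    ext c
    simp only [hB, Set.mem_preimage, Set.mem_ofPred_eq, hΦ]
  have hcont : Continuous fun c : Fin k → Fin k → ℝ => ∑ r, ∑ s, c r s ^ 2 := by fun_prop
  have hpos : volume B ≠ 0 := by
    have hO : IsOpen {c : Fin k → Fin k → ℝ | ∑ r, ∑ s, c r s ^ 2 < 1} :=
      isOpen_lt hcont continuous_const
    have h0 : ({c : Fin k → Fin k → ℝ | ∑ r, ∑ s, c r s ^ 2 < 1}).Nonempty :=
      ⟨0, by simp⟩
    have h1 := hO.measure_pos volume h0
    refine (lt_of_lt_of_le h1 (measure_mono fun c hc => ?_)).ne'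
    simp only [Set.mem_ofPred_eq, hB] at hc ⊢
    exact hc.le
  have hfin : volume B ≠ ⊤ := by
    have h1 : B ⊆ Metric.closedBall 0 1 := by
      intro c hc
      simp only [hB, Set.mem_ofPred_eq] at hc
      rw [mem_closedBall_zero_iff, pi_norm_le_iff_of_nonneg zero_le_one]
      intro r
      rw [pi_norm_le_iff_of_nonneg zero_le_one]
      intro s
      have h2 : c r s ^ 2 ≤ 1 := by
        refine le_trans ?_ hc
        refine le_trans (Finset.single_le_sum (f := fun s => c r s ^ 2)
          (fun s _ => sq_nonneg _) (Finset.mem_univ s)) ?_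
        exact Finset.single_le_sum (f := fun r => ∑ s, c r s ^ 2)
          (fun r _ => Finset.sum_nonneg fun s _ => sq_nonneg _) (Finset.mem_univ r)
      rw [Real.norm_eq_abs]
      exact (sq_le_one_iff_abs_le_one _).1 h2
    exact (lt_of_le_of_lt (measure_mono h1) (isCompact_closedBall 0 1).measure_lt_top).ne
  have h1 := hmain B
  rw [hB1] at h1
  have h2 : ENNReal.ofReal |(LinearMap.det Φ)⁻¹| = 1 := by
    have h3 : 1 * volume B = ENNReal.ofReal |(LinearMap.det Φ)⁻¹| * volume B := by
      rw [one_mul]; exact h1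
    exact ((ENNReal.mul_left_inj hpos hfin).1 h3).symm
  rw [hmain S, h2, one_mul]

end GaussVolAux

open GaussVolAux

theorem vol_ball {k : ℕ} (E : Matrix (Fin k) (Fin k) ℂ) (hE : E.IsHermitian) (α b : ℝ) (hα : 0 < α) :
    volume {c : Fin k → Fin k → ℝ | frob (herm c - E) ≤ b} ≤
      ENNReal.ofReal (Real.exp (α * b / 2) * (2 * Real.pi / α) ^ ((k : ℝ) ^ 2 / 2)) := by
  obtain ⟨e, rfl⟩ := exists_herm hE
  have h1 : {c : Fin k → Fin k → ℝ | frob (herm c - herm e) ≤ b} =
      (fun c => c - e) ⁻¹' {c : Fin k → Fin k → ℝ | ∑ r, ∑ s, α * c r s ^ 2 ≤ α * b} := by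
    ext c
    simp only [Set.mem_ofPred_eq, Set.mem_preimage]
    rw [← herm_sub, frob_herm]
    simp only [← Finset.mul_sum]
    constructor
    · intro h; exact mul_le_mul_of_nonneg_left h hα.le
    · intro h; exact le_of_mul_le_mul_left h hα
  simp only [sub_eq_add_neg] at h1 ⊢
  rw [h1, measure_preimage_add_right]
  refine (vol_diag (fun _ _ => α) (fun _ _ => hα) (α * b)).trans (le_of_eq ?_)
  rw [prod_const_sqrt _ (by positivity)]

namespace GaussVolAux

/-- mask of the coordinates -/
noncomputable def mask {k : ℕ} (I : Finset (Fin k)) (c : Fin k → Fin k → ℝ) : Fin k → Fin k → ℝ :=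
  fun r s => if r ∈ I ∧ s ∈ I then c r s else 0

theorem mask_herm {k : ℕ} (I : Finset (Fin k)) (c : Fin k → Fin k → ℝ) :
    Matrix.diagonal (fun i => if i ∈ I then (1 : ℂ) else 0) * herm c *
      Matrix.diagonal (fun i => if i ∈ I then (1 : ℂ) else 0) = herm (mask I c) := by
  ext i j
  rw [Matrix.mul_diagonal, Matrix.diagonal_mul]
  unfold herm mask
  by_cases hi : i ∈ I <;> by_cases hj : j ∈ I
  · simp [hi, hj]
  · have hij : i ≠ j := fun h => hj (h ▸ hi)
    simp [hi, hj, hij]
  · have hij : i ≠ j := fun h => hi (h ▸ hj)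
    simp [hi, hj, hij]
  · simp [hi, hj]

theorem prod_weights {k r : ℕ} (I : Finset (Fin k)) (hI : I.card = r) (x y : ℝ) (hx : 0 < x)
    (hy : 0 < y) :
    ∏ i : Fin k, ∏ j : Fin k, √(if i ∈ I ∧ j ∈ I then y else x) =
      x ^ (((k : ℝ) ^ 2 - (r : ℝ) ^ 2) / 2) * y ^ ((r : ℝ) ^ 2 / 2) := by
  have h1 : ∀ i j : Fin k, √(if i ∈ I ∧ j ∈ I then y else x) =
      √x * (if i ∈ I then (if j ∈ I then √y / √x else 1) else 1) := by
    intro i j
    have hx' := (Real.sqrt_pos.2 hx).ne'
    by_cases hi : i ∈ I <;> by_cases hj : j ∈ I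
    · simp only [hi, hj, and_self, if_true]
      field_simp
    · simp [hi, hj]
    · simp [hi, hj]
    · simp [hi, hj]
  simp_rw [h1, Finset.prod_mul_distrib]
  have h2 : ∏ i : Fin k, ∏ j : Fin k, (if i ∈ I then (if j ∈ I then √y / √x else 1) else 1) =
      (√y / √x) ^ (r * r) := by
    have : ∀ i : Fin k, ∏ j : Fin k, (if i ∈ I then (if j ∈ I then √y / √x else 1) else 1) =
        if i ∈ I then (√y / √x) ^ r else 1 := by
      intro i
      by_cases hi : i ∈ I
      · simp only [hi, if_true]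
        rw [Finset.prod_ite_mem, Finset.univ_inter, Finset.prod_const, hI]
      · simp [hi]
    simp_rw [this]
    rw [Finset.prod_ite_mem, Finset.univ_inter, Finset.prod_const, hI, ← pow_mul]
  rw [h2, prod_const_sqrt x hx.le, Real.sqrt_eq_rpow, Real.sqrt_eq_rpow, div_pow,
    ← Real.rpow_natCast (y ^ (1 / 2 : ℝ)), ← Real.rpow_mul hy.le,
    ← Real.rpow_natCast (x ^ (1 / 2 : ℝ)), ← Real.rpow_mul hx.le]
  rw [sub_div, Real.rpow_sub hx]
  push_cast
  have e1 : (1 / 2 : ℝ) * ((r : ℝ) * r) = (r : ℝ) ^ 2 / 2 := by ring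
  rw [e1]
  ring

end GaussVolAux

theorem vol_slice {k r : ℕ} (E : Matrix (Fin k) (Fin k) ℂ) (hE : E.IsHermitian) (hEE : E * E = E)
    (hr : E.trace = r) (α β b b' : ℝ) (hα : 0 < α) (hβ : 0 < β) :
    volume {c : Fin k → Fin k → ℝ | frob (herm c - E * herm c * E) ≤ b ∧
        frob (E * herm c * E) ≤ b'} ≤
      ENNReal.ofReal (Real.exp (α * b / 2 + β * b' / 2) *
        (2 * Real.pi / α) ^ (((k : ℝ) ^ 2 - (r : ℝ) ^ 2) / 2) *
        (2 * Real.pi / β) ^ ((r : ℝ) ^ 2 / 2)) := by
  -- diagonalisation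
  set U : Matrix (Fin k) (Fin k) ℂ := (hE.eigenvectorUnitary : Matrix (Fin k) (Fin k) ℂ) with hU
  have hU1 : U.conjTranspose * U = 1 := by
    have := Matrix.mem_unitaryGroup_iff'.1 hE.eigenvectorUnitary.2
    exact this
  have hU2 : U * U.conjTranspose = 1 := by
    have := Matrix.mem_unitaryGroup_iff.1 hE.eigenvectorUnitary.2
    exact this
  set D : Matrix (Fin k) (Fin k) ℂ := Matrix.diagonal fun i => ((hE.eigenvalues i : ℝ) : ℂ) with hD
  have hspec : E = U * D * U.conjTranspose := by
    have := hE.spectral_theorem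
    rw [Unitary.conjStarAlgAut_apply] at this
    exact this
  have hDE : D = U.conjTranspose * E * U := by
    rw [hspec]
    calc D = 1 * D * 1 := by rw [Matrix.one_mul, Matrix.mul_one]
      _ = (U.conjTranspose * U) * D * (U.conjTranspose * U) := by rw [hU1]
      _ = _ := by simp only [Matrix.mul_assoc]
  have hDD : D * D = D := by
    rw [hDE]
    calc U.conjTranspose * E * U * (U.conjTranspose * E * U)
        = U.conjTranspose * E * (U * U.conjTranspose) * E * U := by simp only [Matrix.mul_assoc]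
      _ = U.conjTranspose * (E * E) * U := by rw [hU2, Matrix.mul_one]; simp only [Matrix.mul_assoc]
      _ = _ := by rw [hEE]
  have h01 : ∀ i, hE.eigenvalues i = 0 ∨ hE.eigenvalues i = 1 := by
    intro i
    have h1 := congrFun (congrFun hDD i) i
    rw [hD, Matrix.diagonal_mul_diagonal, Matrix.diagonal_apply_eq, Matrix.diagonal_apply_eq] at h1
    have h2 : hE.eigenvalues i * hE.eigenvalues i = hE.eigenvalues i := by exact_mod_cast h1
    have h3 : hE.eigenvalues i * (hE.eigenvalues i - 1) = 0 := by linarith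
    rcases mul_eq_zero.1 h3 with h | h
    · exact Or.inl h
    · exact Or.inr (by linarith)
  classical
  set I : Finset (Fin k) := Finset.univ.filter fun i => hE.eigenvalues i = 1 with hI
  have hDI : D = Matrix.diagonal fun i => if i ∈ I then (1 : ℂ) else 0 := by
    rw [hD]
    congr 1
    funext i
    by_cases h : hE.eigenvalues i = 1
    · simp [hI, h]
    · have h' : hE.eigenvalues i = 0 := (h01 i).resolve_right h
      simp [hI, h']
  have hcard : I.card = r := by
    have h1 : D.trace = E.trace := by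
      rw [hDE, Matrix.trace_mul_comm, ← Matrix.mul_assoc, hU2, Matrix.one_mul]
    rw [hr, hDI, Matrix.trace_diagonal, Finset.sum_ite_mem, Finset.univ_inter, Finset.sum_const,
      nsmul_eq_mul, mul_one] at h1
    exact_mod_cast h1
  obtain ⟨Φ, hΦ⟩ := exists_conj U
  have hinv : ∀ c, herm c = U * herm (Φ c) * U.conjTranspose := by
    intro c
    rw [hΦ]
    calc herm c = 1 * herm c * 1 := by rw [Matrix.one_mul, Matrix.mul_one]
      _ = (U * U.conjTranspose) * herm c * (U * U.conjTranspose) := by rw [hU2]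
      _ = _ := by simp only [Matrix.mul_assoc]
  have hΦn : ∀ c, ∑ r, ∑ s, Φ c r s ^ 2 = ∑ r, ∑ s, c r s ^ 2 := by
    intro c
    rw [← frob_herm, ← frob_herm, hinv c, frob_conj hU1]
  have hEA : ∀ c, E * herm c * E = U * herm (mask I (Φ c)) * U.conjTranspose := by
    intro c
    rw [← mask_herm, ← hDI, hspec, hinv c]
    calc U * D * U.conjTranspose * (U * herm (Φ c) * U.conjTranspose) * (U * D * U.conjTranspose)
        = U * D * (U.conjTranspose * U) * herm (Φ c) * (U.conjTranspose * U) * D *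
            U.conjTranspose := by simp only [Matrix.mul_assoc]
      _ = _ := by rw [hU1, Matrix.mul_one, Matrix.mul_one]; simp only [Matrix.mul_assoc]
  have hset : {c : Fin k → Fin k → ℝ | frob (herm c - E * herm c * E) ≤ b ∧
        frob (E * herm c * E) ≤ b'} ⊆
      Φ ⁻¹' {c | ∑ i, ∑ j, (if i ∈ I ∧ j ∈ I then β else α) * c i j ^ 2 ≤ α * b + β * b'} := by
    intro c hc
    simp only [Set.mem_ofPred_eq, Set.mem_preimage] at hc ⊢
    obtain ⟨h1, h2⟩ := hc
    rw [hEA, frob_conj hU1, frob_herm] at h2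
    rw [hEA] at h1
    have h3 : herm c - U * herm (mask I (Φ c)) * U.conjTranspose =
        U * herm (Φ c - mask I (Φ c)) * U.conjTranspose := by
      rw [herm_sub, Matrix.mul_sub, Matrix.sub_mul, ← hinv]
    rw [h3, frob_conj hU1, frob_herm] at h1
    have h4 := add_le_add (mul_le_mul_of_nonneg_left h1 hα.le) (mul_le_mul_of_nonneg_left h2 hβ.le)
    refine le_trans (le_of_eq ?_) h4
    rw [Finset.mul_sum, Finset.mul_sum, ← Finset.sum_add_distrib]
    refine Finset.sum_congr rfl fun i _ => ?_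
    rw [Finset.mul_sum, Finset.mul_sum, ← Finset.sum_add_distrib]
    refine Finset.sum_congr rfl fun j _ => ?_
    simp only [mask, Pi.sub_apply]
    split_ifs
    · ring
    · ring
  refine (measure_mono hset).trans ?_
  rw [volume_preimage Φ hΦn]
  refine (vol_diag (fun i j => if i ∈ I ∧ j ∈ I then β else α) (fun i j => ?_) _).trans
    (le_of_eq ?_)
  · split_ifs
    · exact hβ
    · exact hα
  · congr 1
    rw [add_div, mul_assoc]
    congr 1
    rw [← prod_weights I hcard (2 * Real.pi / α) (2 * Real.pi / β) (by positivity) (by positivity)]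
    refine Finset.prod_congr rfl fun i _ => Finset.prod_congr rfl fun j _ => ?_
    congr 1
    split_ifs <;> rfl

end Vale.Agent.P087
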