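import Vale.Agent.P087.Defs2

/-! # P087 [M]: packing bound -/

namespace Vale.Agent.P087

open scoped InnerProductSpace ENNReal Topology
open MeasureTheory Filter ProbabilityTheory

open Metric Module in
theorem card_le_of_sep {E : Type} [NormedAddCommGroup E] [NormedSpace ℝ E] [FiniteDimensional ℝ E]
    (s : Finset E) (ρ θ : ℝ) (hρ : 0 ≤ ρ) (hθ : 0 < θ) (hs : ∀ c ∈ s, ‖c‖ ≤ ρ)
    (h : ∀ c ∈ s, ∀ d ∈ s, c ≠ d → θ ≤ ‖c - d‖) :
    (s.card : ℝ) ≤ (1 + 2 * ρ / θ) ^ (Module.finrank ℝ E) := by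
  borelize E
  let μ : Measure E := Measure.addHaar
  set δ : ℝ := θ / 2 with hδ
  set R : ℝ := ρ + θ / 2 with hR
  have δpos : 0 < δ := by positivity
  have Rpos : 0 < R := by positivity
  set A := ⋃ c ∈ s, ball (c : E) δ with hA
  have D : Set.Pairwise (s : Set E) (Function.onFun Disjoint fun c => ball (c : E) δ) := by
    rintro c hc d hd hcd
    apply ball_disjoint_ball
    rw [dist_eq_norm]
    have := h c hc d hd hcd
    linarith
  have A_subset : A ⊆ ball (0 : E) R := by
    refine Set.iUnion₂_subset fun x hx => ?_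
    apply ball_subset_ball'
    rw [dist_zero_right]
    have := hs x hx
    linarith
  have I :
    (s.card : ℝ≥0∞) * ENNReal.ofReal (δ ^ finrank ℝ E) * μ (ball 0 1) ≤
      ENNReal.ofReal (R ^ finrank ℝ E) * μ (ball 0 1) :=
    calc
      (s.card : ℝ≥0∞) * ENNReal.ofReal (δ ^ finrank ℝ E) * μ (ball 0 1) = μ A := by
        rw [hA, measure_biUnion_finset D fun c _ => measurableSet_ball]
        simp only [μ.addHaar_ball_of_pos _ δpos]
        simp only [Finset.sum_const, nsmul_eq_mul, mul_assoc]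
      _ ≤ μ (ball (0 : E) R) := measure_mono A_subset
      _ = ENNReal.ofReal (R ^ finrank ℝ E) * μ (ball 0 1) := by
        simp only [μ.addHaar_ball_of_pos _ Rpos]
  have J : (s.card : ℝ≥0∞) * ENNReal.ofReal (δ ^ finrank ℝ E) ≤
      ENNReal.ofReal (R ^ finrank ℝ E) :=
    (ENNReal.mul_le_mul_iff_left (measure_ball_pos _ _ zero_lt_one).ne'
      measure_ball_lt_top.ne).1 I
  have K := ENNReal.toReal_le_of_le_ofReal (pow_nonneg Rpos.le _) J
  have hK : (s.card : ℝ) * δ ^ finrank ℝ E ≤ R ^ finrank ℝ E := by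
    simpa [ENNReal.toReal_ofReal (pow_nonneg δpos.le (finrank ℝ E))] using K
  have e1 : (1 + 2 * ρ / θ) = R / δ := by
    rw [hR, hδ]
    field_simp
    ring
  rw [e1, div_pow, le_div_iff₀ (pow_pos δpos _)]
  exact hK

end Vale.Agent.P087
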