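import Vale.Agent.P087.HermBasis
import Vale.Agent.P087.Packing

/-!
# P087 [O]: operator norm of a Gaussian Hermitian matrix
-/

namespace Vale.Agent.P087

open scoped ENNReal InnerProductSpace
open MeasureTheory ProbabilityTheory

namespace NormBoundAux

/-! ### nets -/

theorem exists_net {E : Type} [NormedAddCommGroup E] [NormedSpace ℝ E] [FiniteDimensional ℝ E]
    (θ : ℝ) (hθ : 0 < θ) :
    ∃ 𝒩 : Finset E, (∀ w ∈ 𝒩, ‖w‖ = 1) ∧
      (𝒩.card : ℝ) ≤ (1 + 2 / θ) ^ (Module.finrank ℝ E) ∧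
      ∀ w : E, ‖w‖ = 1 → ∃ w' ∈ 𝒩, ‖w - w'‖ < θ := by
  classical
  let P : Finset E → Prop := fun s => (∀ c ∈ s, ‖c‖ = 1) ∧ ∀ c ∈ s, ∀ d ∈ s, c ≠ d → θ ≤ ‖c - d‖
  have hbd : ∀ s, P s → (s.card : ℝ) ≤ (1 + 2 / θ) ^ (Module.finrank ℝ E) := by
    intro s hs
    have := card_le_of_sep s 1 θ zero_le_one hθ (fun c hc => (hs.1 c hc).le) hs.2
    rwa [mul_one] at this
  let S : Set ℕ := {n | ∃ s, P s ∧ s.card = n}
  have hne : S.Nonempty := ⟨0, ∅, ⟨by simp, by simp⟩, rfl⟩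
  have hbdd : BddAbove S := by
    refine ⟨⌊(1 + 2 / θ) ^ (Module.finrank ℝ E)⌋₊, ?_⟩
    rintro n ⟨s, hs, rfl⟩
    exact Nat.le_floor (hbd s hs)
  obtain ⟨s, hs, hcard⟩ := Nat.sSup_mem hne hbdd
  refine ⟨s, hs.1, hbd s hs, fun w hw => ?_⟩
  by_contra hcon
  push Not at hcon
  have hws : w ∉ s := by
    intro h
    have := hcon w h
    rw [sub_self, norm_zero] at this
    linarith
  have hP : P (insert w s) := by
    refine ⟨fun c hc => ?_, fun c hc d hd hcd => ?_⟩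
    · rcases Finset.mem_insert.1 hc with rfl | hc
      · exact hw
      · exact hs.1 c hc
    · rcases Finset.mem_insert.1 hc with e1 | hc' <;> rcases Finset.mem_insert.1 hd with e2 | hd'
      · exact absurd (e1.trans e2.symm) hcd
      · rw [e1]; exact hcon d hd'
      · rw [norm_sub_rev, e2]; exact hcon c hc'
      · exact hs.2 c hc' d hd' hcd
  have h1 : (insert w s).card ≤ sSup S := le_csSup hbdd ⟨_, hP, rfl⟩
  rw [Finset.card_insert_of_notMem hws, hcard] at h1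
  omega

/-! ### symmetric operators -/

theorem opnorm_le_of_net {V : Type} [NormedAddCommGroup V] [InnerProductSpace ℂ V]
    [FiniteDimensional ℂ V] (T : V →ₗ[ℂ] V) (hT : T.IsSymmetric) (K : ℝ) (hK : 0 ≤ K)
    (Q : V → Prop) (hQ : ∀ (w : V) (μ : ℝ), μ ≠ 0 → T w = (μ : ℂ) • w → Q w)
    (𝒩 : Finset V) (hN : ∀ w ∈ 𝒩, ‖w‖ = 1)
    (hnet : ∀ w, ‖w‖ = 1 → Q w → ∃ w' ∈ 𝒩, ‖w - w'‖ ≤ 1 / 4)
    (hform : ∀ w ∈ 𝒩, |(⟪w, T w⟫_ℂ).re| ≤ K) (v : V) : ‖T v‖ ≤ 2 * K * ‖v‖ := by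
  set n := Module.finrank ℂ V with hn
  set b := hT.eigenvectorBasis hn.symm with hb
  set lam := hT.eigenvalues hn.symm with hlam
  have hTb : ∀ i, T (b i) = ((lam i : ℝ) : ℂ) • b i := fun i => hT.apply_eigenvectorBasis hn.symm i
  -- operator norm bound from eigenvalues
  have hbound : ∀ M : ℝ, (∀ i, |lam i| ≤ M) → 0 ≤ M → ∀ v, ‖T v‖ ≤ M * ‖v‖ := by
    intro M hM hM0 v
    have h1 : ‖T v‖ ^ 2 ≤ (M * ‖v‖) ^ 2 := by
      rw [← b.sum_sq_norm_inner_right (T v), mul_pow, ← b.sum_sq_norm_inner_right v,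
        Finset.mul_sum]
      refine Finset.sum_le_sum fun i _ => ?_
      have h2 : ⟪b i, T v⟫_ℂ = ((lam i : ℝ) : ℂ) * ⟪b i, v⟫_ℂ := by
        rw [← hT (b i) v, hTb, inner_smul_left]
        simp
      rw [h2, norm_mul, mul_pow, Complex.norm_real, Real.norm_eq_abs]
      exact mul_le_mul_of_nonneg_right (pow_le_pow_left₀ (abs_nonneg _) (hM i) 2) (sq_nonneg _)
    exact le_of_sq_le_sq h1 (by positivity)
  rcases isEmpty_or_nonempty (Fin n) with hempty | hnonempty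
  · exact hbound (2 * K) (fun i => (hempty.false i).elim) (by linarith) v
  · obtain ⟨i0, hi0⟩ := Finite.exists_max fun i => |lam i|
    refine hbound (2 * K) (fun i => (hi0 i).trans ?_) (by linarith) v
    by_cases h0 : lam i0 = 0
    · rw [h0, abs_zero]; linarith
    have hnT : ∀ v, ‖T v‖ ≤ |lam i0| * ‖v‖ := hbound _ hi0 (abs_nonneg _)
    have hw1 : ‖b i0‖ = 1 := b.orthonormal.1 i0
    obtain ⟨w', hw', hd⟩ := hnet (b i0) hw1 (hQ _ _ h0 (hTb i0))
    have hw'1 := hN w' hw'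
    have h1 := hform w' hw'
    have h2 : (⟪b i0, T (b i0)⟫_ℂ) = ((lam i0 : ℝ) : ℂ) := by
      rw [hTb, inner_smul_right, inner_self_eq_norm_sq_to_K, hw1]
      simp
    have h3 : ⟪b i0, T (b i0)⟫_ℂ - ⟪w', T w'⟫_ℂ =
        ⟪b i0 - w', T (b i0)⟫_ℂ + ⟪w', T (b i0 - w')⟫_ℂ := by
      rw [inner_sub_left, map_sub, inner_sub_right]; ring
    have h4 : ‖⟪b i0, T (b i0)⟫_ℂ - ⟪w', T w'⟫_ℂ‖ ≤ |lam i0| / 2 := by
      rw [h3]
      refine (norm_add_le _ _).trans ?_
      have e1 := norm_inner_le_norm (𝕜 := ℂ) (b i0 - w') (T (b i0))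
      have e2 := norm_inner_le_norm (𝕜 := ℂ) w' (T (b i0 - w'))
      have e3 := hnT (b i0)
      have e4 := hnT (b i0 - w')
      rw [hw1, mul_one] at e3
      rw [hw'1, one_mul] at e2
      have e5 : ‖b i0 - w'‖ * ‖T (b i0)‖ ≤ 1 / 4 * |lam i0| :=
        mul_le_mul hd e3 (norm_nonneg _) (by norm_num)
      have e6 : |lam i0| * ‖b i0 - w'‖ ≤ |lam i0| * (1 / 4) :=
        mul_le_mul_of_nonneg_left hd (abs_nonneg _)
      linarith
    have h5 := (Complex.abs_re_le_norm _).trans h4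
    rw [Complex.sub_re, h2, Complex.ofReal_re] at h5
    have h6 : |lam i0| ≤ |lam i0 - (⟪w', T w'⟫_ℂ).re| + |(⟪w', T w'⟫_ℂ).re| := by
      calc |lam i0| = |(lam i0 - (⟪w', T w'⟫_ℂ).re) + (⟪w', T w'⟫_ℂ).re| := by ring_nf
        _ ≤ _ := abs_add_le _ _
    linarith

/-! ### the quadratic form of a Hermitian matrix in the coordinates -/

theorem frob_add {k : ℕ} (X Y : Matrix (Fin k) (Fin k) ℂ) :
    frob (X + Y) = frob X + frob Y + 2 * (∑ i, ∑ j, (starRingEnd ℂ) (X i j) * Y i j).re := by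
  unfold frob
  rw [Complex.re_sum, Finset.mul_sum, ← Finset.sum_add_distrib, ← Finset.sum_add_distrib]
  refine Finset.sum_congr rfl fun i _ => ?_
  rw [Complex.re_sum, Finset.mul_sum, ← Finset.sum_add_distrib, ← Finset.sum_add_distrib]
  refine Finset.sum_congr rfl fun j _ => ?_
  rw [Matrix.add_apply, ← Complex.normSq_eq_norm_sq, ← Complex.normSq_eq_norm_sq,
    ← Complex.normSq_eq_norm_sq, Complex.normSq_add]
  have : (X i j * (starRingEnd ℂ) (Y i j)).re = ((starRingEnd ℂ) (X i j) * Y i j).re := by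
    simp [Complex.mul_re]
  rw [this]

theorem herm_add {k : ℕ} (c d : Fin k → Fin k → ℝ) : herm (c + d) = herm c + herm d := by
  ext i j
  simp only [herm, Pi.add_apply, Matrix.add_apply]
  split_ifs
  · push_cast; ring
  · push_cast; ring
  · push_cast; ring

theorem ip_herm {k : ℕ} (b c : Fin k → Fin k → ℝ) :
    (∑ i, ∑ j, (starRingEnd ℂ) (herm b i j) * herm c i j).re = ∑ r, ∑ s, b r s * c r s := by
  have h1 := frob_add (herm b) (herm c)
  rw [← herm_add, frob_herm, frob_herm, frob_herm] at h1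
  have h2 : ∑ r, ∑ s, (b + c) r s ^ 2 = ∑ r, ∑ s, b r s ^ 2 + ∑ r, ∑ s, c r s ^ 2 +
      2 * ∑ r, ∑ s, b r s * c r s := by
    rw [Finset.mul_sum, ← Finset.sum_add_distrib, ← Finset.sum_add_distrib]
    refine Finset.sum_congr rfl fun r _ => ?_
    rw [Finset.mul_sum, ← Finset.sum_add_distrib, ← Finset.sum_add_distrib]
    refine Finset.sum_congr rfl fun s _ => ?_
    simp only [Pi.add_apply]
    ring
  linarith

theorem exists_form {k : ℕ} (w : EuclideanSpace ℂ (Fin k)) :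
    ∃ β : Fin k → Fin k → ℝ, ∑ r, ∑ s, β r s ^ 2 = ‖w‖ ^ 4 ∧
      ∀ c, (⟪w, Matrix.toEuclideanLin (herm c) w⟫_ℂ).re = ∑ r, ∑ s, β r s * c r s := by
  obtain ⟨β, hβ⟩ := exists_herm (A := Matrix.of fun i j => w i * (starRingEnd ℂ) (w j)) (by
    ext i j
    simp [Matrix.conjTranspose_apply, mul_comm])
  refine ⟨β, ?_, fun c => ?_⟩
  · rw [← frob_herm, hβ]
    unfold frob
    simp only [Matrix.of_apply, norm_mul, RCLike.norm_conj, mul_pow]
    rw [← Finset.sum_mul_sum, ← EuclideanSpace.norm_sq_eq]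
    ring
  · rw [← ip_herm, hβ]
    congr 1
    rw [PiLp.inner_apply]
    refine Finset.sum_congr rfl fun i _ => ?_
    simp only [Matrix.of_apply, map_mul, Complex.conj_conj]
    have : (Matrix.toEuclideanLin (herm c) w) i = ∑ j, herm c i j * w j := by
      rfl
    rw [this]
    simp only [RCLike.inner_apply, Finset.sum_mul]
    refine Finset.sum_congr rfl fun j _ => ?_
    ring

/-! ### Gaussian tails -/

/-- the standard Gaussian measure on arrays -/
noncomputable abbrev gm (k : ℕ) : Measure (Fin k → Fin k → ℝ) :=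
  Measure.pi fun _ : Fin k => Measure.pi fun _ : Fin k => gaussianReal 0 1

theorem mgf_lin {k : ℕ} (γ : Fin k → Fin k → ℝ) (t : ℝ) :
    Integrable (fun g : Fin k → Fin k → ℝ => Real.exp (t * ∑ r, ∑ s, γ r s * g r s)) (gm k) ∧
      mgf (fun g : Fin k → Fin k → ℝ => ∑ r, ∑ s, γ r s * g r s) (gm k) t =
        Real.exp (t ^ 2 * (∑ r, ∑ s, γ r s ^ 2) / 2) := by
  have e : ∀ g : Fin k → Fin k → ℝ, Real.exp (t * ∑ r, ∑ s, γ r s * g r s) =
      ∏ r, ∏ s, Real.exp ((t * γ r s) * g r s) := by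
    intro g
    simp_rw [← Real.exp_sum]
    congr 1
    rw [Finset.mul_sum]
    refine Finset.sum_congr rfl fun r _ => ?_
    rw [Finset.mul_sum]
    refine Finset.sum_congr rfl fun s _ => ?_
    ring
  constructor
  · simp_rw [e]
    exact Integrable.fintype_prod (f := fun r (x : Fin k → ℝ) => ∏ s, Real.exp ((t * γ r s) * x s))
      fun r => Integrable.fintype_prod fun s => integrable_exp_mul_gaussianReal (t * γ r s)
  · unfold mgf
    simp_rw [e]
    rw [integral_fintype_prod_eq_prod (fun r (x : Fin k → ℝ) => ∏ s, Real.exp ((t * γ r s) * x s))]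
    have h1 : ∀ r, ∫ x : Fin k → ℝ, ∏ s, Real.exp ((t * γ r s) * x s)
        ∂(Measure.pi fun _ : Fin k => gaussianReal 0 1) = ∏ s, Real.exp ((t * γ r s) ^ 2 / 2) := by
      intro r
      rw [integral_fintype_prod_eq_prod (fun s (x : ℝ) => Real.exp ((t * γ r s) * x))]
      refine Finset.prod_congr rfl fun s _ => ?_
      have := congrFun (mgf_id_gaussianReal (μ := 0) (v := 1)) (t * γ r s)
      unfold mgf at this
      simp only [id] at this
      rw [this]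
      congr 1
      simp
    simp_rw [h1]
    simp_rw [← Real.exp_sum]
    congr 1
    rw [Finset.mul_sum, Finset.sum_div]
    refine Finset.sum_congr rfl fun r _ => ?_
    rw [Finset.mul_sum, Finset.sum_div]
    refine Finset.sum_congr rfl fun s _ => ?_
    ring

theorem tail_lin {k q : ℕ} (hq : 1 ≤ q) (γ : Fin k → Fin k → ℝ)
    (hγ : ∑ r, ∑ s, γ r s ^ 2 ≤ 1 / q) :
    gm k {g | 3 ≤ ∑ r, ∑ s, γ r s * g r s} ≤ ENNReal.ofReal (Real.exp (-(9 / 2)) ^ q) := by
  obtain ⟨h1, h2⟩ := mgf_lin γ (3 * q)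
  have hq0 : (0 : ℝ) < q := by exact_mod_cast hq
  have h3 := measure_ge_le_exp_mul_mgf (μ := gm k) (3 : ℝ) (by positivity : (0 : ℝ) ≤ 3 * q) h1
  rw [h2, ← Real.exp_add] at h3
  rw [← ENNReal.ofReal_toReal (measure_ne_top (gm k) _)]
  apply ENNReal.ofReal_le_ofReal
  refine h3.trans ?_
  rw [← Real.exp_nat_mul]
  apply Real.exp_le_exp.2
  have h4 : (3 * (q : ℝ)) ^ 2 * (∑ r, ∑ s, γ r s ^ 2) ≤ (3 * (q : ℝ)) ^ 2 * (1 / q) :=
    mul_le_mul_of_nonneg_left hγ (by positivity)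
  have h5 : (3 * (q : ℝ)) ^ 2 * (1 / q) = 9 * q := by field_simp; ring
  rw [h5] at h4
  linarith

/-! ### the embedding of the small space -/

/-- extension by zero -/
noncomputable def ext0 {q k : ℕ} (w : EuclideanSpace ℂ (Fin q)) : EuclideanSpace ℂ (Fin k) :=
  WithLp.toLp 2 fun i => if h : (i : ℕ) < q then w ⟨i, h⟩ else 0

theorem norm_ext0_sub {q k : ℕ} (hqk : q ≤ k) (w w' : EuclideanSpace ℂ (Fin q)) :
    ‖(ext0 w : EuclideanSpace ℂ (Fin k)) - ext0 w'‖ = ‖w - w'‖ := by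
  have h1 : ‖(ext0 w : EuclideanSpace ℂ (Fin k)) - ext0 w'‖ ^ 2 = ‖w - w'‖ ^ 2 := by
    rw [EuclideanSpace.norm_sq_eq, EuclideanSpace.norm_sq_eq]
    have h2 : ∀ i : Fin k, ‖(ext0 w - ext0 w' : EuclideanSpace ℂ (Fin k)) i‖ ^ 2 =
        if h : (i : ℕ) < q then ‖(w - w') ⟨i, h⟩‖ ^ 2 else 0 := by
      intro i
      simp only [PiLp.sub_apply, ext0]
      split_ifs
      · rfl
      · simp
    simp_rw [h2]
    have h3 : ∀ f : Fin q → ℝ, ∑ i : Fin k, (if h : (i : ℕ) < q then f ⟨i, h⟩ else 0) =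
        ∑ j : Fin q, f j := by
      intro f
      rw [← Finset.sum_filter_add_sum_filter_not Finset.univ (fun i : Fin k => (i : ℕ) < q)]
      have h4 : ∑ i ∈ Finset.univ.filter (fun i : Fin k => ¬ (i : ℕ) < q),
          (if h : (i : ℕ) < q then f ⟨i, h⟩ else 0) = 0 := by
        refine Finset.sum_eq_zero fun i hi => ?_
        rw [Finset.mem_filter] at hi
        rw [dif_neg hi.2]
      rw [h4, add_zero]
      refine Finset.sum_bij' (fun i hi => ⟨(i : ℕ), (Finset.mem_filter.1 hi).2⟩)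
        (fun j _ => Fin.castLE hqk j) ?_ ?_ ?_ ?_ ?_
      · intro i hi; exact Finset.mem_univ _
      · intro j _; simp
      · intro i hi; rfl
      · intro j _; rfl
      · intro i hi
        rw [dif_pos (Finset.mem_filter.1 hi).2]
    exact h3 fun j => ‖(w - w') j‖ ^ 2
  have h5 := sq_eq_sq₀ (norm_nonneg ((ext0 w : EuclideanSpace ℂ (Fin k)) - ext0 w'))
    (norm_nonneg (w - w'))
  exact h5.1 h1

theorem norm_ext0 {q k : ℕ} (hqk : q ≤ k) (w : EuclideanSpace ℂ (Fin q)) :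
    ‖(ext0 w : EuclideanSpace ℂ (Fin k))‖ = ‖w‖ := by
  have h := norm_ext0_sub hqk w 0
  have h0 : (ext0 (0 : EuclideanSpace ℂ (Fin q)) : EuclideanSpace ℂ (Fin k)) = 0 := by
    ext i
    simp [ext0]
  rwa [h0, sub_zero, sub_zero] at h

theorem exists_restrict {q k : ℕ} (hqk : q ≤ k) (w : EuclideanSpace ℂ (Fin k))
    (hw : ∀ i : Fin k, q ≤ (i : ℕ) → w i = 0) :
    ∃ v : EuclideanSpace ℂ (Fin q), ext0 v = w := by
  refine ⟨WithLp.toLp 2 fun j => w (Fin.castLE hqk j), ?_⟩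
  ext i
  simp only [ext0]
  split_ifs with h
  · rfl
  · exact (hw i (not_lt.1 h)).symm

/-- the net in the corner -/
theorem exists_net_corner {q k : ℕ} (hqk : q ≤ k) :
    ∃ 𝒩 : Finset (EuclideanSpace ℂ (Fin k)), (∀ w ∈ 𝒩, ‖w‖ = 1) ∧ (𝒩.card : ℝ) ≤ 81 ^ q ∧
      ∀ w : EuclideanSpace ℂ (Fin k), ‖w‖ = 1 → (∀ i : Fin k, q ≤ (i : ℕ) → w i = 0) →
        ∃ w' ∈ 𝒩, ‖w - w'‖ ≤ 1 / 4 := by
  classical
  obtain ⟨𝒩, h1, h2, h3⟩ := exists_net (E := EuclideanSpace ℂ (Fin q)) (1 / 4) (by norm_num)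
  refine ⟨𝒩.image ext0, ?_, ?_, ?_⟩
  · intro w hw
    obtain ⟨v, hv, rfl⟩ := Finset.mem_image.1 hw
    rw [norm_ext0 hqk]
    exact h1 v hv
  · have hc : ((𝒩.image ext0 : Finset (EuclideanSpace ℂ (Fin k))).card : ℝ) ≤ 𝒩.card := by
      exact_mod_cast Finset.card_image_le
    refine hc.trans (h2.trans (le_of_eq ?_))
    have hf : Module.finrank ℝ (EuclideanSpace ℂ (Fin q)) = 2 * q := by
      rw [finrank_real_of_complex, finrank_euclideanSpace_fin]
    rw [hf, pow_mul]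
    norm_num
  · intro w hw hw0
    obtain ⟨v, rfl⟩ := exists_restrict hqk w hw0
    rw [norm_ext0 hqk] at hw
    obtain ⟨v', hv', hd⟩ := h3 v hw
    refine ⟨ext0 v', Finset.mem_image_of_mem _ hv', ?_⟩
    rw [norm_ext0_sub hqk]
    exact hd.le

end NormBoundAux

open NormBoundAux

theorem norm_bound (k q : ℕ) (hq : 1 ≤ q) (hqk : q ≤ k) :
    (Measure.pi fun _ : Fin k => Measure.pi fun _ : Fin k => gaussianReal 0 1)
      {g | ¬ ∀ v : EuclideanSpace ℂ (Fin k), ‖Matrix.toEuclideanLin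
        (herm fun r s => if (r : ℕ) < q ∧ (s : ℕ) < q then g r s / √(q : ℝ) else 0) v‖ ≤
          6 * ‖v‖} ≤ ENNReal.ofReal (2 * (81 * Real.exp (-(9 / 2))) ^ q) := by
  classical
  obtain ⟨𝒩, hN1, hN2, hN3⟩ := exists_net_corner hqk
  have hq0 : (0 : ℝ) < q := by exact_mod_cast hq
  choose β hβ1 hβ2 using fun w : EuclideanSpace ℂ (Fin k) => exists_form w
  -- coefficients
  set γ : EuclideanSpace ℂ (Fin k) → Fin k → Fin k → ℝ := fun w r s =>
    if (r : ℕ) < q ∧ (s : ℕ) < q then β w r s / √(q : ℝ) else 0 with hγ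
  have hγ2 : ∀ w ∈ 𝒩, ∑ r, ∑ s, γ w r s ^ 2 ≤ 1 / q := by
    intro w hw
    have h1 : ∑ r, ∑ s, γ w r s ^ 2 ≤ ∑ r, ∑ s, β w r s ^ 2 * (1 / q) := by
      refine Finset.sum_le_sum fun r _ => Finset.sum_le_sum fun s _ => ?_
      simp only [hγ]
      split_ifs
      · rw [div_pow, Real.sq_sqrt hq0.le, div_eq_mul_one_div]
      · have h0 : 0 ≤ β w r s ^ 2 * (1 / (q : ℝ)) := by positivity
        simpa using h0
    refine h1.trans (le_of_eq ?_)
    simp_rw [← Finset.sum_mul]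
    rw [hβ1, hN1 w hw]
    simp
  have hform : ∀ (w : EuclideanSpace ℂ (Fin k)) (g : Fin k → Fin k → ℝ),
      (⟪w, Matrix.toEuclideanLin
        (herm fun r s => if (r : ℕ) < q ∧ (s : ℕ) < q then g r s / √(q : ℝ) else 0) w⟫_ℂ).re =
      ∑ r, ∑ s, γ w r s * g r s := by
    intro w g
    rw [hβ2]
    refine Finset.sum_congr rfl fun r _ => Finset.sum_congr rfl fun s _ => ?_
    simp only [hγ]
    split_ifs
    · ring
    · ring
  have hsub : {g : Fin k → Fin k → ℝ | ¬ ∀ v : EuclideanSpace ℂ (Fin k), ‖Matrix.toEuclideanLin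
        (herm fun r s => if (r : ℕ) < q ∧ (s : ℕ) < q then g r s / √(q : ℝ) else 0) v‖ ≤
          6 * ‖v‖} ⊆
      ⋃ w ∈ 𝒩, ({g | 3 ≤ ∑ r, ∑ s, γ w r s * g r s} ∪
        {g | 3 ≤ ∑ r, ∑ s, (-γ w r s) * g r s}) := by
    intro g hg
    by_contra hcon
    simp only [Set.mem_iUnion, Set.mem_union, Set.mem_ofPred_eq, not_exists, not_or, not_le] at hcon
    apply hg
    intro v
    set A : Matrix (Fin k) (Fin k) ℂ :=
      herm fun r s => if (r : ℕ) < q ∧ (s : ℕ) < q then g r s / √(q : ℝ) else 0 with hA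
    have hsym : (Matrix.toEuclideanLin A).IsSymmetric :=
      Matrix.isSymmetric_toEuclideanLin_iff.mpr (herm_isHermitian _)
    have := opnorm_le_of_net (Matrix.toEuclideanLin A) hsym 3 (by norm_num)
      (fun w => ∀ i : Fin k, q ≤ (i : ℕ) → w i = 0) ?_ 𝒩 hN1 hN3 ?_ v
    · refine this.trans (le_of_eq (by norm_num))
    · intro w μ hμ hw i hi
      have h1 : (Matrix.toEuclideanLin A w) i = ∑ j, A i j * w j := rfl
      have h2 : ∀ j, A i j = 0 := by
        intro j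
        simp only [hA, herm]
        have hi' : ¬ (i : ℕ) < q := not_lt.2 hi
        simp [hi']
      have h3 : (Matrix.toEuclideanLin A w) i = 0 := by
        rw [h1]
        exact Finset.sum_eq_zero fun j _ => by rw [h2, zero_mul]
      rw [hw] at h3
      simp only [PiLp.smul_apply, smul_eq_mul] at h3
      rcases mul_eq_zero.1 h3 with h | h
      · exact absurd (by exact_mod_cast h) hμ
      · exact h
    · intro w hw
      have h1 := hcon w hw
      rw [hform w g, abs_le]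
      have h2 : ∑ r, ∑ s, (-γ w r s) * g r s = -∑ r, ∑ s, γ w r s * g r s := by
        simp only [neg_mul, Finset.sum_neg_distrib]
      rw [h2] at h1
      constructor <;> linarith [h1.1, h1.2]
  refine (measure_mono hsub).trans ((measure_biUnion_finset_le _ _).trans ?_)
  have hone : ∀ w ∈ 𝒩, gm k ({g | 3 ≤ ∑ r, ∑ s, γ w r s * g r s} ∪
        {g | 3 ≤ ∑ r, ∑ s, (-γ w r s) * g r s}) ≤
      ENNReal.ofReal (2 * Real.exp (-(9 / 2)) ^ q) := by
    intro w hw
    refine (measure_union_le _ _).trans ?_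
    have h1 := tail_lin hq (γ w) (hγ2 w hw)
    have h2 := tail_lin hq (fun r s => -γ w r s) (by simpa using hγ2 w hw)
    refine (add_le_add h1 h2).trans (le_of_eq ?_)
    rw [← ENNReal.ofReal_add (by positivity) (by positivity)]
    congr 1
    ring
  refine (Finset.sum_le_sum hone).trans ?_
  rw [Finset.sum_const, nsmul_eq_mul, ← ENNReal.ofReal_natCast,
    ← ENNReal.ofReal_mul (Nat.cast_nonneg _)]
  apply ENNReal.ofReal_le_ofReal
  rw [mul_pow]
  have h1 : (0 : ℝ) ≤ 2 * Real.exp (-(9 / 2)) ^ q := by positivity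
  nlinarith [mul_le_mul_of_nonneg_right hN2 h1]

end Vale.Agent.P087
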