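import Vale.Agent.P087.Defs2

/-! # [I] HermBasis.lean : the orthonormal basis of the Hermitian matrices (P087) -/

namespace Vale.Agent.P087

open scoped InnerProductSpace ENNReal Topology
open MeasureTheory Filter ProbabilityTheory

/-- the basis matrices of the parametrisation -/
noncomputable def hB {k : ℕ} (r s : Fin k) : Matrix (Fin k) (Fin k) ℂ :=
  herm fun r' s' => if r' = r ∧ s' = s then 1 else 0

namespace HermBasis

/-- picking one entry of a double sum -/
theorem sum_ind {k : ℕ} (f : Fin k → Fin k → ℂ) (i j : Fin k) :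
    ∑ r, ∑ s, (if i = r ∧ j = s then f r s else 0) = f i j := by
  rw [Finset.sum_eq_single i, Finset.sum_eq_single j]
  · simp
  · intro s _ hs
    rw [if_neg]
    rintro ⟨-, h⟩
    exact hs h.symm
  · simp
  · intro r _ hr
    refine Finset.sum_eq_zero fun s _ => ?_
    rw [if_neg]
    rintro ⟨h, -⟩
    exact hr h.symm
  · simp

theorem hB_eq {k : ℕ} (r s i : Fin k) : hB r s i i = if i = r ∧ i = s then 1 else 0 := by
  simp only [hB, herm, if_true]
  split_ifs <;> simp

theorem hB_lt {k : ℕ} (r s : Fin k) {i j : Fin k} (h : i < j) :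
    hB r s i j = ((if i = r ∧ j = s then 1 else 0) +
      Complex.I * (if j = r ∧ i = s then 1 else 0)) / ((√2 : ℝ) : ℂ) := by
  simp only [hB, herm, h, h.ne, if_true, if_false]
  split_ifs <;> simp

theorem hB_gt {k : ℕ} (r s : Fin k) {i j : Fin k} (h : j < i) :
    hB r s i j = ((if j = r ∧ i = s then 1 else 0) -
      Complex.I * (if i = r ∧ j = s then 1 else 0)) / ((√2 : ℝ) : ℂ) := by
  simp only [hB, herm, h.ne', not_lt.2 h.le, if_false]
  split_ifs <;> simp

theorem sqrt2_sq : (((√2 : ℝ) : ℂ)) * ((√2 : ℝ) : ℂ) = 2 := by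
  rw [← Complex.ofReal_mul, Real.mul_self_sqrt (by norm_num)]
  norm_num

theorem sqrt2_ne : (((√2 : ℝ) : ℂ)) ≠ 0 := by
  intro h
  have := sqrt2_sq
  rw [h] at this
  norm_num at this

end HermBasis

open HermBasis

theorem herm_eq_sum {k : ℕ} (c : Fin k → Fin k → ℝ) :
    herm c = ∑ r, ∑ s, ((c r s : ℝ) : ℂ) • hB r s := by
  ext i j
  simp only [Matrix.sum_apply, Matrix.smul_apply, smul_eq_mul]
  rcases lt_trichotomy i j with h | h | h
  · simp only [hB_lt _ _ h]
    have e : ∀ r s, ((c r s : ℝ) : ℂ) * (((if i = r ∧ j = s then 1 else 0) +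
      Complex.I * (if j = r ∧ i = s then 1 else 0)) / ((√2 : ℝ) : ℂ)) =
      (if i = r ∧ j = s then ((c r s : ℝ) : ℂ) / ((√2 : ℝ) : ℂ) else 0) +
        (if j = r ∧ i = s then Complex.I * ((c r s : ℝ) : ℂ) / ((√2 : ℝ) : ℂ) else 0) := by
      intro r s
      split_ifs <;> ring
    simp only [e, Finset.sum_add_distrib]
    rw [sum_ind (fun r s => ((c r s : ℝ) : ℂ) / ((√2 : ℝ) : ℂ)),
      sum_ind (fun r s => Complex.I * ((c r s : ℝ) : ℂ) / ((√2 : ℝ) : ℂ))]
    simp only [herm, h, h.ne, if_true, if_false]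
    ring
  · subst h
    simp only [hB_eq]
    have e : ∀ r s, ((c r s : ℝ) : ℂ) * (if i = r ∧ i = s then 1 else 0) =
      (if i = r ∧ i = s then ((c r s : ℝ) : ℂ) else 0) := by
      intro r s
      split_ifs <;> ring
    simp only [e]
    rw [sum_ind (fun r s => ((c r s : ℝ) : ℂ))]
    simp [herm]
  · simp only [hB_gt _ _ h]
    have e : ∀ r s, ((c r s : ℝ) : ℂ) * (((if j = r ∧ i = s then 1 else 0) -
      Complex.I * (if i = r ∧ j = s then 1 else 0)) / ((√2 : ℝ) : ℂ)) =
      (if j = r ∧ i = s then ((c r s : ℝ) : ℂ) / ((√2 : ℝ) : ℂ) else 0) +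
        (if i = r ∧ j = s then -(Complex.I * ((c r s : ℝ) : ℂ)) / ((√2 : ℝ) : ℂ) else 0) := by
      intro r s
      split_ifs <;> ring
    simp only [e, Finset.sum_add_distrib]
    rw [sum_ind (fun r s => ((c r s : ℝ) : ℂ) / ((√2 : ℝ) : ℂ)),
      sum_ind (fun r s => -(Complex.I * ((c r s : ℝ) : ℂ)) / ((√2 : ℝ) : ℂ))]
    simp only [herm, h.ne', not_lt.2 h.le, if_false]
    ring

theorem herm_isHermitian {k : ℕ} (c : Fin k → Fin k → ℝ) : (herm c).IsHermitian := by
  ext i j
  rw [Matrix.conjTranspose_apply]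
  rcases lt_trichotomy i j with h | h | h
  · simp only [herm, h, h.ne, h.ne', not_lt.2 h.le, if_true, if_false]
    simp [Complex.conj_ofReal]
  · subst h
    simp [herm, Complex.conj_ofReal]
  · simp only [herm, h, h.ne, h.ne', not_lt.2 h.le, if_true, if_false]
    simp [Complex.conj_ofReal, sub_eq_add_neg]

theorem norm_herm_sq {k : ℕ} (c : Fin k → Fin k → ℝ) (i j : Fin k) :
    ‖herm c i j‖ ^ 2 = (c i j ^ 2 + c j i ^ 2) / 2 := by
  have h2 : ‖((√2 : ℝ) : ℂ)‖ ^ 2 = 2 := by
    rw [Complex.norm_real, Real.norm_eq_abs, sq_abs, Real.sq_sqrt (by norm_num)]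
  rcases lt_trichotomy i j with h | h | h
  · simp only [herm, h, h.ne, if_true, if_false]
    rw [norm_div, div_pow, h2, ← Complex.normSq_eq_norm_sq, Complex.normSq_apply]
    simp
    ring
  · subst h
    simp [herm]
  · simp only [herm, h.ne', not_lt.2 h.le, if_false]
    rw [norm_div, div_pow, h2, ← Complex.normSq_eq_norm_sq, Complex.normSq_apply]
    simp
    ring

theorem frob_herm {k : ℕ} (c : Fin k → Fin k → ℝ) : frob (herm c) = ∑ r, ∑ s, c r s ^ 2 := by
  unfold frob
  simp only [norm_herm_sq]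
  have h1 : ∑ i, ∑ j, (c i j ^ 2 + c j i ^ 2) / 2 =
      (∑ i, ∑ j, c i j ^ 2) / 2 + (∑ i, ∑ j, c j i ^ 2) / 2 := by
    rw [Finset.sum_div, Finset.sum_div, ← Finset.sum_add_distrib]
    refine Finset.sum_congr rfl fun i _ => ?_
    rw [Finset.sum_div, Finset.sum_div, ← Finset.sum_add_distrib]
    refine Finset.sum_congr rfl fun j _ => ?_
    ring
  rw [h1, Finset.sum_comm (f := fun i j => c j i ^ 2)]
  ring

theorem exists_herm {k : ℕ} {A : Matrix (Fin k) (Fin k) ℂ} (hA : A.IsHermitian) :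
    ∃ c, herm c = A := by
  refine ⟨fun i j => if i = j then (A i i).re else if i < j then √2 * (A i j).re
    else √2 * (A j i).im, ?_⟩
  have hA' : ∀ i j, A j i = (starRingEnd ℂ) (A i j) := fun i j => by
    have := congrFun (congrFun hA j) i
    rw [Matrix.conjTranspose_apply] at this
    exact this.symm
  ext i j
  rcases lt_trichotomy i j with h | h | h
  · simp only [herm, h, h.ne, h.ne', not_lt.2 h.le, if_true, if_false]
    rw [div_eq_iff sqrt2_ne]
    push_cast
    have := Complex.re_add_im (A i j)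
    linear_combination ((√2 : ℝ) : ℂ) * this
  · subst h
    simp only [herm, if_true]
    have := hA' i i
    exact Complex.conj_eq_iff_re.1 this.symm
  · simp only [herm, h, h.ne, h.ne', not_lt.2 h.le, if_true, if_false]
    rw [div_eq_iff sqrt2_ne, hA' j i]
    push_cast
    have h1 := Complex.re_add_im (A j i)
    have h2 : (starRingEnd ℂ) (A j i) = ((A j i).re : ℂ) - ((A j i).im : ℂ) * Complex.I := by
      apply Complex.ext <;> simp
    rw [h2]
    ring

/-- completeness of the basis matrices of the corner of size `q` -/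
theorem hB_complete {k : ℕ} (q : ℕ) (i j i' j' : Fin k) :
    ∑ r : Fin k, ∑ s : Fin k, (if (r : ℕ) < q ∧ (s : ℕ) < q then hB r s i j * hB r s i' j' else 0) =
      if i = j' ∧ j = i' ∧ (i : ℕ) < q ∧ (j : ℕ) < q then 1 else 0 := by
  rcases lt_trichotomy i j with h | h | h
  · have e : ∀ r s : Fin k, (if (r : ℕ) < q ∧ (s : ℕ) < q then hB r s i j * hB r s i' j' else 0) =
        (if i = r ∧ j = s then (if (r : ℕ) < q ∧ (s : ℕ) < q then
          hB r s i' j' / ((√2 : ℝ) : ℂ) else 0) else 0) +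
        (if j = r ∧ i = s then (if (r : ℕ) < q ∧ (s : ℕ) < q then
          Complex.I * hB r s i' j' / ((√2 : ℝ) : ℂ) else 0) else 0) := by
      intro r s
      rw [hB_lt r s h]
      split_ifs <;> ring
    simp only [e, Finset.sum_add_distrib]
    rw [sum_ind (fun r s => (if (r : ℕ) < q ∧ (s : ℕ) < q then
          hB r s i' j' / ((√2 : ℝ) : ℂ) else 0)),
      sum_ind (fun r s => (if (r : ℕ) < q ∧ (s : ℕ) < q then
          Complex.I * hB r s i' j' / ((√2 : ℝ) : ℂ) else 0))]
    by_cases hq : (i : ℕ) < q ∧ (j : ℕ) < q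
    · simp only [hq.1, hq.2, and_self, if_true, and_true]
      rcases lt_trichotomy i' j' with h' | h' | h'
      · rw [hB_lt _ _ h', hB_lt _ _ h']
        have n1 : ¬ (j' = i ∧ i' = j) := by rintro ⟨rfl, rfl⟩; exact lt_asymm h h'
        have n2 : ¬ (i = j' ∧ j = i') := by rintro ⟨rfl, rfl⟩; exact lt_asymm h h'
        have n3 : ¬ (i' = j ∧ j' = i) := by rintro ⟨rfl, rfl⟩; exact lt_asymm h h'
        have e3 : (j' = j ∧ i' = i) ↔ (i' = i ∧ j' = j) := and_comm
        simp only [n1, n2, n3, e3, if_false, mul_zero, add_zero, zero_add]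
        split_ifs
        · rw [mul_one, mul_div_assoc', div_div, div_div, Complex.I_mul_I]
          ring
        · simp
      · subst h'
        rw [hB_eq, hB_eq]
        have n1 : ¬ (i' = i ∧ i' = j) := by rintro ⟨rfl, rfl⟩; exact lt_irrefl _ h
        have n2 : ¬ (i' = j ∧ i' = i) := by rintro ⟨rfl, rfl⟩; exact lt_irrefl _ h
        have n3 : ¬ (i = i' ∧ j = i') := by rintro ⟨rfl, rfl⟩; exact lt_irrefl _ h
        simp [n1, n2, n3]
      · rw [hB_gt _ _ h', hB_gt _ _ h']
        have n1 : ¬ (i' = i ∧ j' = j) := by rintro ⟨rfl, rfl⟩; exact lt_asymm h h'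
        have n2 : ¬ (j' = j ∧ i' = i) := by rintro ⟨rfl, rfl⟩; exact lt_asymm h h'
        simp only [n1, n2, if_false, mul_zero, sub_zero, zero_sub]
        have e1 : (i' = j ∧ j' = i) ↔ (j' = i ∧ i' = j) := and_comm
        have e2 : (i = j' ∧ j = i') ↔ (j' = i ∧ i' = j) :=
          ⟨fun h => ⟨h.1.symm, h.2.symm⟩, fun h => ⟨h.1.symm, h.2.symm⟩⟩
        simp only [e1, e2]
        split_ifs
        · field_simp [sqrt2_ne]
          linear_combination (-1 : ℂ) * sqrt2_sq - Complex.I_sq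
        · simp
    · have hq2 : ¬ ((j : ℕ) < q ∧ (i : ℕ) < q) := fun h => hq ⟨h.2, h.1⟩
      have hq3 : ¬ (i = j' ∧ j = i' ∧ (i : ℕ) < q ∧ (j : ℕ) < q) := fun h => hq ⟨h.2.2.1, h.2.2.2⟩
      rw [if_neg hq, if_neg hq2, if_neg hq3, add_zero]
  · subst h
    have e : ∀ r s : Fin k, (if (r : ℕ) < q ∧ (s : ℕ) < q then hB r s i i * hB r s i' j' else 0) =
        (if i = r ∧ i = s then (if (r : ℕ) < q ∧ (s : ℕ) < q then hB r s i' j' else 0) else 0) := by
      intro r s
      rw [hB_eq r s]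
      split_ifs <;> ring
    simp only [e]
    rw [sum_ind (fun r s => (if (r : ℕ) < q ∧ (s : ℕ) < q then hB r s i' j' else 0))]
    by_cases hq : (i : ℕ) < q
    · simp only [hq, and_self, if_true, and_true]
      rcases lt_trichotomy i' j' with h' | h' | h'
      · rw [hB_lt _ _ h']
        have n1 : ¬ (i' = i ∧ j' = i) := by rintro ⟨rfl, rfl⟩; exact lt_irrefl _ h'
        have n2 : ¬ (j' = i ∧ i' = i) := by rintro ⟨rfl, rfl⟩; exact lt_irrefl _ h'
        have n3 : ¬ (i = j' ∧ i = i') := by rintro ⟨rfl, rfl⟩; exact lt_irrefl _ h'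
        simp [n1, n2, n3]
      · subst h'
        rw [hB_eq]
        simp only [eq_comm]
      · rw [hB_gt _ _ h']
        have n1 : ¬ (i' = i ∧ j' = i) := by rintro ⟨rfl, rfl⟩; exact lt_irrefl _ h'
        have n2 : ¬ (j' = i ∧ i' = i) := by rintro ⟨rfl, rfl⟩; exact lt_irrefl _ h'
        have n3 : ¬ (i = j' ∧ i = i') := by rintro ⟨rfl, rfl⟩; exact lt_irrefl _ h'
        simp [n1, n2, n3]
    · simp [hq]
  · have e : ∀ r s : Fin k, (if (r : ℕ) < q ∧ (s : ℕ) < q then hB r s i j * hB r s i' j' else 0) =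
        (if j = r ∧ i = s then (if (r : ℕ) < q ∧ (s : ℕ) < q then
          hB r s i' j' / ((√2 : ℝ) : ℂ) else 0) else 0) +
        (if i = r ∧ j = s then (if (r : ℕ) < q ∧ (s : ℕ) < q then
          -(Complex.I * hB r s i' j') / ((√2 : ℝ) : ℂ) else 0) else 0) := by
      intro r s
      rw [hB_gt r s h]
      split_ifs <;> ring
    simp only [e, Finset.sum_add_distrib]
    rw [sum_ind (fun r s => (if (r : ℕ) < q ∧ (s : ℕ) < q then
          hB r s i' j' / ((√2 : ℝ) : ℂ) else 0)),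
      sum_ind (fun r s => (if (r : ℕ) < q ∧ (s : ℕ) < q then
          -(Complex.I * hB r s i' j') / ((√2 : ℝ) : ℂ) else 0))]
    by_cases hq : (i : ℕ) < q ∧ (j : ℕ) < q
    · simp only [hq.1, hq.2, and_self, if_true, and_true]
      rcases lt_trichotomy i' j' with h' | h' | h'
      · rw [hB_lt _ _ h', hB_lt _ _ h']
        have n1 : ¬ (j' = j ∧ i' = i) := by rintro ⟨rfl, rfl⟩; exact lt_asymm h h'
        have n2 : ¬ (i' = i ∧ j' = j) := by rintro ⟨rfl, rfl⟩; exact lt_asymm h h'
        simp only [n1, n2, if_false, mul_zero, add_zero, zero_add]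
        have e1 : (i' = j ∧ j' = i) ↔ (j' = i ∧ i' = j) := and_comm
        have e2 : (i = j' ∧ j = i') ↔ (j' = i ∧ i' = j) :=
          ⟨fun h => ⟨h.1.symm, h.2.symm⟩, fun h => ⟨h.1.symm, h.2.symm⟩⟩
        simp only [e1, e2]
        split_ifs
        · field_simp [sqrt2_ne]
          linear_combination (-1 : ℂ) * sqrt2_sq - Complex.I_sq
        · simp
      · subst h'
        rw [hB_eq, hB_eq]
        have n1 : ¬ (i' = i ∧ i' = j) := by rintro ⟨rfl, rfl⟩; exact lt_irrefl _ h
        have n2 : ¬ (i' = j ∧ i' = i) := by rintro ⟨rfl, rfl⟩; exact lt_irrefl _ h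
        have n3 : ¬ (i = i' ∧ j = i') := by rintro ⟨rfl, rfl⟩; exact lt_irrefl _ h
        simp [n1, n2, n3]
      · rw [hB_gt _ _ h', hB_gt _ _ h']
        have n1 : ¬ (i' = j ∧ j' = i) := by rintro ⟨rfl, rfl⟩; exact lt_asymm h h'
        have n2 : ¬ (j' = i ∧ i' = j) := by rintro ⟨rfl, rfl⟩; exact lt_asymm h h'
        have n3 : ¬ (i = j' ∧ j = i') := by rintro ⟨rfl, rfl⟩; exact lt_asymm h h'
        have e3 : (j' = j ∧ i' = i) ↔ (i' = i ∧ j' = j) := and_comm
        simp only [n1, n2, n3, e3, if_false, mul_zero, sub_zero, zero_sub]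
        split_ifs
        · rw [mul_one, neg_div, neg_div, mul_neg, neg_div, neg_neg, mul_div_assoc', div_div, div_div,
            Complex.I_mul_I]
          ring
        · simp
    · have hq2 : ¬ ((j : ℕ) < q ∧ (i : ℕ) < q) := fun h => hq ⟨h.2, h.1⟩
      have hq3 : ¬ (i = j' ∧ j = i' ∧ (i : ℕ) < q ∧ (j : ℕ) < q) := fun h => hq ⟨h.2.2.1, h.2.2.2⟩
      rw [if_neg hq, if_neg hq2, if_neg hq3, add_zero]

end Vale.Agent.P087
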