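import Vale.Agent.P087.MatSys
import Vale.Agent.P087.Converge
import Vale.Agent.P087.HermBasis

/-! [L] (backup version) -/

namespace Vale.Agent.P087

open scoped InnerProductSpace ENNReal Topology
open MeasureTheory Filter ProbabilityTheory

namespace ProbAux

variable {a : ℕ} {C : Type} [Fintype C] [DecidableEq C]

/-- the moment system of the Gaussian model -/
noncomputable def MG (ha : 1 ≤ a) (C : Type) [Fintype C] [DecidableEq C] (q : ℕ) :
    List (List (Fin (a + 1) ⊕ C)) → ℂ :=
  if hq : 1 ≤ q then (matSys_gauss a ha C q hq).choose else fun _ => 0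

theorem MG_sys (ha : 1 ≤ a) (q : ℕ) (hq : 1 ≤ q) : MatSys (a * q) (MG ha C q) := by
  rw [MG, dif_pos hq]
  exact (matSys_gauss a ha C q hq).choose_spec.1

/-- normalised trace -/
noncomputable def T (q : ℕ) (w : List (Fin (a + 1) ⊕ C)) (g : (Fin a ⊕ C) → Fin (a * q) → Fin (a * q) → ℝ) : ℂ :=
  (w.map (Yv q (a * q) g)).prod.trace / ((a * q : ℕ) : ℂ)

theorem MG_int (ha : 1 ≤ a) (q : ℕ) (hq : 1 ≤ q) (ws : List (List (Fin (a + 1) ⊕ C))) :
    Integrable (fun g => (ws.map fun w => T q w g).prod) (gaussArr (Fin a ⊕ C) (a * q)) ∧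
      MG ha C q ws = ∫ g, (ws.map fun w => T q w g).prod ∂(gaussArr (Fin a ⊕ C) (a * q)) := by
  rw [MG, dif_pos hq]
  exact (matSys_gauss a ha C q hq).choose_spec.2 ws

omit [Fintype C] [DecidableEq C] in
theorem Yv_herm (q k : ℕ) (g : (Fin a ⊕ C) → Fin k → Fin k → ℝ) (z : Fin (a + 1) ⊕ C) :
    (Yv q k g z).conjTranspose = Yv q k g z := by
  rcases z with j | c
  · refine Fin.cases ?_ (fun i => ?_) j
    · simp only [Yv, Fin.cases_zero]
      rw [Matrix.diagonal_conjTranspose]
      congr 1
      funext r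
      simp only [Pi.star_apply]
      split_ifs <;> simp
    · simp only [Yv, Fin.cases_succ]
      exact herm_isHermitian _
  · exact herm_isHermitian _

omit [Fintype C] [DecidableEq C] in
theorem T_conj (q : ℕ) (w : List (Fin (a + 1) ⊕ C))
    (g : (Fin a ⊕ C) → Fin (a * q) → Fin (a * q) → ℝ) :
    (starRingEnd ℂ) (T q w g) = T q w.reverse g := by
  unfold T
  rw [map_div₀, Complex.conj_natCast]
  congr 1
  have h1 : ∀ w : List (Fin (a + 1) ⊕ C), ((w.map (Yv q (a * q) g)).prod).conjTranspose =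
      ((w.reverse.map (Yv q (a * q) g)).prod) := by
    intro w
    induction w with
    | nil => simp
    | cons z w ih =>
      rw [List.map_cons, List.prod_cons, Matrix.conjTranspose_mul, ih, Yv_herm,
        List.reverse_cons, List.map_append, List.prod_append]
      simp
  rw [← h1, Matrix.trace_conjTranspose]
  rfl

theorem prob_gauss (N : Type) [Fintype N] (k : ℕ) : IsProbabilityMeasure (gaussArr N k) := by
  unfold gaussArr
  infer_instance

end ProbAux

open ProbAux

theorem law_tracial {a : ℕ} (ha : 1 ≤ a) {C : Type} [Fintype C] [DecidableEq C]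
    (τ : List (Fin (a + 1) ⊕ C) → ℂ) (hτ : IsLaw (1 / (a : ℝ)) τ)
    (u v : List (Fin (a + 1) ⊕ C)) : τ (u ++ v) = τ (v ++ u) := by
  have h1 := matSys_tendsto ha (MG ha C) (fun q hq => MG_sys ha q hq) τ hτ [u ++ v]
  have h2 := matSys_tendsto ha (MG ha C) (fun q hq => MG_sys ha q hq) τ hτ [v ++ u]
  simp only [List.map_cons, List.map_nil, List.prod_cons, List.prod_nil, mul_one] at h1 h2
  refine tendsto_nhds_unique (h1.congr' ?_) h2
  filter_upwards [eventually_ge_atTop 1] with q hq
  exact (MG_sys ha q hq).rot u v []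

theorem prob_tendsto {a : ℕ} (ha : 1 ≤ a) {C : Type} [Fintype C] [DecidableEq C]
    (τ : List (Fin (a + 1) ⊕ C) → ℂ) (hτ : IsLaw (1 / (a : ℝ)) τ)
    (w : List (Fin (a + 1) ⊕ C)) (ε : ℝ) (hε : 0 < ε) :
    Tendsto (fun q : ℕ => gaussArr (Fin a ⊕ C) (a * q)
      {g | ε ≤ ‖(w.map (Yv q (a * q) g)).prod.trace / ((a * q : ℕ) : ℂ) - τ w‖}) atTop (𝓝 0) := by
  set c := τ w with hc
  have hlim := fun ws => matSys_tendsto ha (MG ha C) (fun q hq => MG_sys ha q hq) τ hτ ws
  -- second moment
  set V : ℕ → ℂ := fun q => MG ha C q [w, w.reverse] - (starRingEnd ℂ) c * MG ha C q [w] -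
    c * MG ha C q [w.reverse] + c * (starRingEnd ℂ) c with hV
  have hVlim : Tendsto V atTop (𝓝 0) := by
    have h := (((hlim [w, w.reverse]).sub ((hlim [w]).const_mul ((starRingEnd ℂ) c))).sub
      ((hlim [w.reverse]).const_mul c)).add_const (c * (starRingEnd ℂ) c)
    simp only [List.map_cons, List.map_nil, List.prod_cons, List.prod_nil, mul_one, ← hc] at h
    have e : c * τ w.reverse - (starRingEnd ℂ) c * c - c * τ w.reverse + c * (starRingEnd ℂ) c = 0 := by
      ring
    rw [e] at h
    exact h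
  have hVre : Tendsto (fun q => ENNReal.ofReal ((V q).re) / ENNReal.ofReal (ε ^ 2)) atTop (𝓝 0) := by
    have h1 : Tendsto (fun q => (V q).re) atTop (𝓝 0) := by
      have := (Complex.continuous_re.tendsto (0 : ℂ)).comp hVlim
      simpa [Function.comp_def] using this
    have h2 := (ENNReal.continuous_ofReal.tendsto (0 : ℝ)).comp h1
    have h3 : Tendsto (fun q => ENNReal.ofReal ((V q).re) / ENNReal.ofReal (ε ^ 2)) atTop
        (𝓝 (ENNReal.ofReal 0 / ENNReal.ofReal (ε ^ 2))) := by
      refine ENNReal.Tendsto.div_const h2 (Or.inr ?_)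
      simp only [ne_eq, ENNReal.ofReal_eq_zero, not_le]
      positivity
    simpa using h3
  refine tendsto_of_tendsto_of_tendsto_of_le_of_le' tendsto_const_nhds hVre
    (Eventually.of_forall fun _ => bot_le) ?_
  filter_upwards [eventually_ge_atTop 1] with q hq
  have := prob_gauss (Fin a ⊕ C) (a * q)
  set μ := gaussArr (Fin a ⊕ C) (a * q) with hμ
  have i2 := MG_int (C := C) ha q hq [w, w.reverse]
  have i1 := MG_int (C := C) ha q hq [w]
  have i1' := MG_int (C := C) ha q hq [w.reverse]
  simp only [List.map_cons, List.map_nil, List.prod_cons, List.prod_nil, mul_one] at i2 i1 i1'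
  have hpt : ∀ g, ((‖T q w g - c‖ ^ 2 : ℝ) : ℂ) = T q w g * T q w.reverse g -
      (starRingEnd ℂ) c * T q w g - c * T q w.reverse g + c * (starRingEnd ℂ) c := by
    intro g
    have h1 : ((‖T q w g - c‖ ^ 2 : ℝ) : ℂ) = (T q w g - c) * (starRingEnd ℂ) (T q w g - c) := by
      rw [Complex.mul_conj, Complex.normSq_eq_norm_sq]
    rw [h1, map_sub, T_conj]
    ring
  have hint : Integrable (fun g => ((‖T q w g - c‖ ^ 2 : ℝ) : ℂ)) μ := by
    simp only [hpt]
    exact (((i2.1.sub (i1.1.const_mul _)).sub (i1'.1.const_mul _)).add (integrable_const _))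
  have hintR : Integrable (fun g => ‖T q w g - c‖ ^ 2) μ := by
    have h := hint.re
    have e : (fun g => RCLike.re ((‖T q w g - c‖ ^ 2 : ℝ) : ℂ)) = fun g => ‖T q w g - c‖ ^ 2 := by
      funext g
      exact Complex.ofReal_re _
    rwa [e] at h
  have hval : ((∫ g, ‖T q w g - c‖ ^ 2 ∂μ : ℝ) : ℂ) = V q := by
    rw [← integral_complex_ofReal]
    simp only [hpt]
    have j1 : Integrable (fun g => (starRingEnd ℂ) c * T q w g) μ := i1.1.const_mul _
    have j1' : Integrable (fun g => c * T q w.reverse g) μ := i1'.1.const_mul _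
    have j2 : Integrable (fun g => T q w g * T q w.reverse g - (starRingEnd ℂ) c * T q w g) μ :=
      i2.1.sub j1
    have j3 : Integrable (fun g => T q w g * T q w.reverse g - (starRingEnd ℂ) c * T q w g -
      c * T q w.reverse g) μ := j2.sub j1'
    rw [integral_add j3 (integrable_const _), integral_sub j2 j1', integral_sub i2.1 j1,
      integral_const_mul, integral_const_mul, integral_const]
    rw [hV]
    simp only
    rw [i2.2, i1.2, i1'.2]
    simp [hμ]
  have hre : (V q).re = ∫ g, ‖T q w g - c‖ ^ 2 ∂μ := by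
    rw [← hval]; simp
  rw [hre, ofReal_integral_eq_lintegral_ofReal hintR (Eventually.of_forall fun g => by positivity)]
  have hsub : {g | ε ≤ ‖(w.map (Yv q (a * q) g)).prod.trace / ((a * q : ℕ) : ℂ) - c‖} ⊆
      {g | ENNReal.ofReal (ε ^ 2) ≤ ENNReal.ofReal (‖T q w g - c‖ ^ 2)} := by
    intro g hg
    simp only [Set.mem_ofPred_eq] at hg ⊢
    refine ENNReal.ofReal_le_ofReal ?_
    exact pow_le_pow_left₀ hε.le hg 2
  refine (measure_mono hsub).trans ?_
  refine meas_ge_le_lintegral_div ?_ ?_ ENNReal.ofReal_ne_top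
  · exact hintR.aestronglyMeasurable.aemeasurable.ennreal_ofReal
  · simp only [ne_eq, ENNReal.ofReal_eq_zero, not_le]
    positivity

end Vale.Agent.P087
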