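import Vale.Agent.P087.Splits
import Vale.Agent.P087.Prob
import Vale.Agent.P087.NormBound
import Vale.Agent.P087.GaussVol

namespace Vale.Agent.P087

open scoped InnerProductSpace ENNReal NNReal Topology
open MeasureTheory Filter ProbabilityTheory

namespace LowerAux

theorem pi_le {ι : Type} [Fintype ι] {α : ι → Type} [∀ i, MeasurableSpace (α i)]
    (μ ν : ∀ i, Measure (α i)) (c : ι → ℝ≥0) [∀ i, SigmaFinite (μ i)] [∀ i, SigmaFinite (ν i)]
    (h : ∀ i, μ i ≤ c i • ν i) : Measure.pi μ ≤ (∏ i, c i) • Measure.pi ν := by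
  have h2 : (∏ i, c i) • Measure.pi ν = Measure.pi (fun i => c i • ν i) := by
    symm
    refine Measure.pi_eq fun s hs => ?_
    simp only [Measure.smul_apply, Measure.pi_pi, ENNReal.smul_def, smul_eq_mul,
      Finset.prod_mul_distrib]
    push_cast
    rfl
  rw [h2]
  refine Measure.le_iff.2 fun s hs => ?_
  rw [Measure.pi_def, Measure.pi_def, toMeasure_apply _ _ hs, toMeasure_apply _ _ hs]
  refine OuterMeasure.le_pi.2 (fun t _ => ?_) s
  refine (OuterMeasure.pi_pi_le _ _).trans ?_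
  exact Finset.prod_le_prod' fun i _ => h i (t i)

/-- bound of the Gaussian density -/
noncomputable def cg (s : ℝ) : ℝ≥0 := (Real.toNNReal (√(2 * Real.pi * s ^ 2)))⁻¹

theorem gauss_le (m s : ℝ) (hs : 0 < s) :
    gaussianReal m (Real.toNNReal (s ^ 2)) ≤ cg s • (volume : Measure ℝ) := by
  have hv : Real.toNNReal (s ^ 2) ≠ 0 := by
    rw [ne_eq, Real.toNNReal_eq_zero, not_le]; positivity
  rw [gaussianReal_of_var_ne_zero _ hv]
  have h1 : ∀ x, gaussianPDF m (Real.toNNReal (s ^ 2)) x ≤ (cg s : ℝ≥0∞) := by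
    intro x
    rw [gaussianPDF, cg]
    have e : ((Real.toNNReal (s ^ 2) : ℝ≥0) : ℝ) = s ^ 2 := Real.coe_toNNReal _ (by positivity)
    have h2 : gaussianPDFReal m (Real.toNNReal (s ^ 2)) x ≤ (√(2 * Real.pi * s ^ 2))⁻¹ := by
      rw [gaussianPDFReal, e]
      have : Real.exp (-(x - m) ^ 2 / (2 * s ^ 2)) ≤ 1 := by
        rw [Real.exp_le_one_iff]
        apply div_nonpos_of_nonpos_of_nonneg
        · nlinarith [sq_nonneg (x - m)]
        · positivity
      calc (√(2 * Real.pi * s ^ 2))⁻¹ * Real.exp (-(x - m) ^ 2 / (2 * s ^ 2)) ≤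
          (√(2 * Real.pi * s ^ 2))⁻¹ * 1 := by gcongr
        _ = _ := mul_one _
    refine (ENNReal.ofReal_le_ofReal h2).trans (le_of_eq ?_)
    rw [ENNReal.ofReal, Real.toNNReal_inv]
  calc volume.withDensity (gaussianPDF m (Real.toNNReal (s ^ 2))) ≤
      volume.withDensity (fun _ => (cg s : ℝ≥0∞)) := withDensity_mono (Eventually.of_forall h1)
    _ = _ := by rw [withDensity_const]; rfl

/-- the Gaussian measure on one array -/
noncomputable abbrev GA (k : ℕ) : Measure (Fin k → Fin k → ℝ) :=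
  Measure.pi fun _ => Measure.pi fun _ => gaussianReal 0 1

theorem map_aff (m s : ℝ) (hs : 0 < s) :
    (gaussianReal 0 1).map (fun x => m + s * x) = gaussianReal m (Real.toNNReal (s ^ 2)) := by
  have h1 : (fun x : ℝ => m + s * x) = (fun x => m + x) ∘ (fun x => s * x) := rfl
  rw [h1, ← Measure.map_map (by fun_prop) (by fun_prop), gaussianReal_map_const_mul,
    gaussianReal_map_const_add]
  congr 1
  · ring
  · rw [mul_one]
    apply NNReal.eq
    simp [sq_nonneg]

theorem dens {n k : ℕ} (B : Fin n → Fin k → Fin k → ℝ) (s : Fin n → ℝ) (hs : ∀ j, 0 < s j)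
    (T : Set (Fin n → Fin k → Fin k → ℝ)) (hT : MeasurableSet T) :
    (Measure.pi fun _ : Fin n => GA k) {G | (fun j r t => B j r t + s j * G j r t) ∈ T} ≤
      ((∏ j, ((cg (s j)) ^ k) ^ k : ℝ≥0) : ℝ≥0∞) * volume T := by
  have hm0 : ∀ j r t, (gaussianReal 0 1).map (fun x => B j r t + s j * x) =
      gaussianReal (B j r t) (Real.toNNReal (s j ^ 2)) := fun j r t => map_aff _ _ (hs j)
  have hm1 : ∀ j r, (Measure.pi fun _ : Fin k => gaussianReal 0 1).map
      (fun x t => B j r t + s j * x t) =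
      Measure.pi fun t => gaussianReal (B j r t) (Real.toNNReal (s j ^ 2)) := by
    intro j r
    have hsf : ∀ t : Fin k, SigmaFinite ((gaussianReal 0 1).map (fun x => B j r t + s j * x)) := by
      intro t; rw [hm0]; infer_instance
    rw [Measure.pi_map_pi (μ := fun _ : Fin k => gaussianReal 0 1)
      (f := fun t x => B j r t + s j * x) (fun t => Measurable.aemeasurable (by fun_prop))]
    simp only [hm0]
  have hm2 : ∀ j, (GA k).map (fun x r t => B j r t + s j * x r t) =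
      Measure.pi fun r => Measure.pi fun t => gaussianReal (B j r t) (Real.toNNReal (s j ^ 2)) := by
    intro j
    have hsf : ∀ r : Fin k, SigmaFinite ((Measure.pi fun _ : Fin k => gaussianReal 0 1).map
      (fun x t => B j r t + s j * x t)) := by
      intro r; rw [hm1]; infer_instance
    rw [Measure.pi_map_pi (μ := fun _ : Fin k => Measure.pi fun _ : Fin k => gaussianReal 0 1)
      (f := fun r x t => B j r t + s j * x t) (fun r => Measurable.aemeasurable (by fun_prop))]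
    simp only [hm1]
  have hm3 : (Measure.pi fun _ : Fin n => GA k).map (fun x j r t => B j r t + s j * x j r t) =
      Measure.pi fun j => Measure.pi fun r => Measure.pi fun t =>
        gaussianReal (B j r t) (Real.toNNReal (s j ^ 2)) := by
    have hsf : ∀ j : Fin n, SigmaFinite ((GA k).map (fun x r t => B j r t + s j * x r t)) := by
      intro j; rw [hm2]; infer_instance
    rw [Measure.pi_map_pi (μ := fun _ : Fin n => GA k)
      (f := fun j x r t => B j r t + s j * x r t) (fun j => Measurable.aemeasurable (by fun_prop))]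
    simp only [hm2]
  have hle : (Measure.pi fun j => Measure.pi fun r => Measure.pi fun t =>
        gaussianReal (B j r t) (Real.toNNReal (s j ^ 2))) ≤
      (∏ j, ((cg (s j)) ^ k) ^ k) • (volume : Measure (Fin n → Fin k → Fin k → ℝ)) := by
    have h1 : ∀ j r, (Measure.pi fun t : Fin k =>
        gaussianReal (B j r t) (Real.toNNReal (s j ^ 2))) ≤
        (cg (s j)) ^ k • (volume : Measure (Fin k → ℝ)) := by
      intro j r
      have := pi_le (fun t : Fin k => gaussianReal (B j r t) (Real.toNNReal (s j ^ 2)))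
        (fun _ => volume) (fun _ => cg (s j)) (fun t => gauss_le _ _ (hs j))
      rw [Finset.prod_const, Finset.card_univ, Fintype.card_fin] at this
      exact this
    have h2 : ∀ j, (Measure.pi fun r : Fin k => Measure.pi fun t : Fin k =>
        gaussianReal (B j r t) (Real.toNNReal (s j ^ 2))) ≤
        ((cg (s j)) ^ k) ^ k • (volume : Measure (Fin k → Fin k → ℝ)) := by
      intro j
      have := pi_le (fun r : Fin k => Measure.pi fun t : Fin k =>
        gaussianReal (B j r t) (Real.toNNReal (s j ^ 2)))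
        (fun _ => volume) (fun _ => (cg (s j)) ^ k) (fun r => h1 j r)
      rw [Finset.prod_const, Finset.card_univ, Fintype.card_fin] at this
      exact this
    exact pi_le _ (fun _ => volume) (fun j => ((cg (s j)) ^ k) ^ k) h2
  have e : {G | (fun j r t => B j r t + s j * G j r t) ∈ T} =
      (fun (x : Fin n → Fin k → Fin k → ℝ) j r t => B j r t + s j * x j r t) ⁻¹' T := rfl
  rw [e, ← Measure.map_apply (by fun_prop) hT, hm3]
  refine (hle T).trans (le_of_eq ?_)
  rw [Measure.smul_apply]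
  rfl


/-! ### coordinates -/

section coords

variable {a : ℕ}

/-- coordinates of the noiseless matrices -/
noncomputable def base (q k : ℕ) (h : Fin a → Fin k → Fin k → ℝ) :
    Fin (a + 1) → Fin k → Fin k → ℝ :=
  Fin.cases (motive := fun _ => Fin k → Fin k → ℝ)
    (fun r s => if r = s ∧ (r : ℕ) < q then 1 else 0)
    (fun i r s => if (r : ℕ) < q ∧ (s : ℕ) < q then h i r s / √(q : ℝ) else 0)

/-- coordinates of the matrices -/
noncomputable def crd (q k : ℕ) (b : Fin (a + 1) → ℝ)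
    (g : (Fin a ⊕ Fin (a + 1)) → Fin k → Fin k → ℝ) : Fin (a + 1) → Fin k → Fin k → ℝ :=
  fun j r s => base q k (fun i => g (.inl i)) j r s + (b j / √(k : ℝ)) * g (.inr j) r s

theorem herm_base (q k : ℕ) (g : (Fin a ⊕ Fin (a + 1)) → Fin k → Fin k → ℝ) (j : Fin (a + 1)) :
    herm (base q k (fun i => g (.inl i)) j) = Yv q k g (.inl j) := by
  refine Fin.cases ?_ (fun i => ?_) j
  · ext r s
    simp only [base, Fin.cases_zero, Yv, herm]
    by_cases h : r = s
    · subst h
      simp only [if_true, true_and, Matrix.diagonal_apply_eq]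
      split_ifs <;> simp
    · have h' : ¬ s = r := fun e => h e.symm
      rw [Matrix.diagonal_apply_ne _ h]
      simp [h, h']
  · simp only [base, Fin.cases_succ, Yv]

theorem herm_crd (q k : ℕ) (b : Fin (a + 1) → ℝ)
    (g : (Fin a ⊕ Fin (a + 1)) → Fin k → Fin k → ℝ) (j : Fin (a + 1)) :
    herm (crd q k b g j) = Yv q k g (.inl j) + ((b j : ℝ) : ℂ) • Yv q k g (.inr j) := by
  have e : crd q k b g j = base q k (fun i => g (.inl i)) j +
      (b j) • (fun r s => g (.inr j) r s / √(k : ℝ)) := by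
    funext r s
    simp only [crd, Pi.add_apply, Pi.smul_apply, smul_eq_mul]
    ring
  rw [e, GaussVolAux.herm_add, GaussVolAux.herm_smul, herm_base]
  rfl

theorem fub (q k : ℕ) (hk : 1 ≤ k) (b : Fin (a + 1) → ℝ) (hb : ∀ j, 0 < b j)
    (T : Set (Fin (a + 1) → Fin k → Fin k → ℝ)) (hT : MeasurableSet T) :
    gaussArr (Fin a ⊕ Fin (a + 1)) k {g | crd q k b g ∈ T} ≤
      ((∏ j, ((cg (b j / √(k : ℝ))) ^ k) ^ k : ℝ≥0) : ℝ≥0∞) * volume T := by
  have hs : ∀ j, 0 < b j / √(k : ℝ) := fun j => div_pos (hb j) (Real.sqrt_pos.2 (by exact_mod_cast hk))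
  have mp := measurePreserving_sumPiEquivProdPi (X := fun _ : Fin a ⊕ Fin (a + 1) =>
    Fin k → Fin k → ℝ) (fun _ => GA k)
  set F : ((Fin a → Fin k → Fin k → ℝ) × (Fin (a + 1) → Fin k → Fin k → ℝ)) →
      Fin (a + 1) → Fin k → Fin k → ℝ :=
    fun p j r s => base q k p.1 j r s + (b j / √(k : ℝ)) * p.2 j r s with hF
  have hFm : Measurable F := by
    refine measurable_pi_lambda _ fun j => measurable_pi_lambda _ fun r =>
      measurable_pi_lambda _ fun s => ?_
    refine Measurable.add ?_ (by fun_prop)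
    refine Fin.cases ?_ (fun i => ?_) j
    · simp only [base, Fin.cases_zero]; fun_prop
    · simp only [base, Fin.cases_succ]
      split_ifs
      · fun_prop
      · fun_prop
  have h1 : {g | crd q k b g ∈ T} =
      (MeasurableEquiv.sumPiEquivProdPi fun _ : Fin a ⊕ Fin (a + 1) => Fin k → Fin k → ℝ) ⁻¹'
        (F ⁻¹' T) := rfl
  rw [gaussArr, h1, mp.measure_preimage (hFm hT).nullMeasurableSet, Measure.prod_apply (hFm hT)]
  calc ∫⁻ h, (Measure.pi fun _ : Fin (a + 1) => GA k) (Prod.mk h ⁻¹' (F ⁻¹' T))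
        ∂(Measure.pi fun _ : Fin a => GA k) ≤
      ∫⁻ _h, ((∏ j, ((cg (b j / √(k : ℝ))) ^ k) ^ k : ℝ≥0) : ℝ≥0∞) * volume T
        ∂(Measure.pi fun _ : Fin a => GA k) := by
        refine lintegral_mono fun h => ?_
        exact dens (base q k h) (fun j => b j / √(k : ℝ)) hs T hT
    _ = _ := by rw [lintegral_const, measure_univ, mul_one]

end coords

/-! ### the good event -/

section good

variable {a : ℕ}

theorem expd_length {n : ℕ} {C : Type} (b : Fin n → ℝ) (f : Fin n → C) (w : List (Fin n)) :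
    (expd b f w).length = 2 ^ w.length := by
  induction w with
  | nil => rfl
  | cons j w ih =>
    rw [expd, List.length_append, List.length_map, List.length_map, ih, List.length_cons]
    ring

theorem expd_prop {n : ℕ} {C : Type} (b : Fin n → ℝ) (f : Fin n → C) (hb : ∀ j, 0 < b j)
    (hb1 : ∀ j, b j ≤ 1) (w : List (Fin n)) :
    ∀ p ∈ expd b f w, |p.1| ≤ 1 ∧ p.2.length = w.length := by
  induction w with
  | nil => intro p hp; simp only [expd, List.mem_singleton] at hp; subst hp; simp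
  | cons j w ih =>
    intro p hp
    rw [expd, List.mem_append, List.mem_map, List.mem_map] at hp
    rcases hp with ⟨p', hp', rfl⟩ | ⟨p', hp', rfl⟩
    · have := ih p' hp'
      exact ⟨this.1, by simp [this.2]⟩
    · have := ih p' hp'
      refine ⟨?_, by simp [this.2]⟩
      simp only [abs_mul, abs_of_pos (hb j)]
      calc b j * |p'.1| ≤ 1 * 1 := mul_le_mul (hb1 j) this.1 (abs_nonneg _) zero_le_one
        _ = 1 := mul_one 1

theorem list_bound {α : Type} (L : List α) (hL : L ≠ []) (c : α → ℝ) (x : α → ℂ) (ε : ℝ)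
    (hε : 0 < ε) (hc : ∀ p ∈ L, |c p| ≤ 1) (hx : ∀ p ∈ L, ‖x p‖ < ε) :
    ‖(L.map fun p => ((c p : ℝ) : ℂ) * x p).sum‖ < L.length * ε := by
  induction L with
  | nil => exact absurd rfl hL
  | cons p L ih =>
    have h1 : ‖((c p : ℝ) : ℂ) * x p‖ < ε := by
      rw [norm_mul, Complex.norm_real, Real.norm_eq_abs]
      calc |c p| * ‖x p‖ ≤ 1 * ‖x p‖ := by
            exact mul_le_mul_of_nonneg_right (hc p (by simp)) (norm_nonneg _)
        _ = ‖x p‖ := one_mul _
        _ < ε := hx p (by simp)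
    rw [List.map_cons, List.sum_cons, List.length_cons]
    push_cast
    by_cases hL' : L = []
    · subst hL'
      simpa using h1
    · have := ih hL' (fun p hp => hc p (by simp [hp])) (fun p hp => hx p (by simp [hp]))
      calc _ ≤ ‖((c p : ℝ) : ℂ) * x p‖ + ‖(L.map fun p => ((c p : ℝ) : ℂ) * x p).sum‖ :=
            norm_add_le _ _
        _ < ε + L.length * ε := add_lt_add h1 this
        _ = _ := by ring

/-- operator norm bound -/
def NB {k : ℕ} (A : Matrix (Fin k) (Fin k) ℂ) (R : ℝ) : Prop :=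
  ∀ v : EuclideanSpace ℂ (Fin k), ‖Matrix.toEuclideanLin A v‖ ≤ R * ‖v‖

theorem NB_add {k : ℕ} {A B : Matrix (Fin k) (Fin k) ℂ} {R R' : ℝ} (hA : NB A R) (hB : NB B R') :
    NB (A + B) (R + R') := by
  intro v
  rw [map_add, LinearMap.add_apply, add_mul]
  exact (norm_add_le _ _).trans (add_le_add (hA v) (hB v))

theorem NB_smul {k : ℕ} {A : Matrix (Fin k) (Fin k) ℂ} {R : ℝ} (hA : NB A R) (b : ℝ) (hb : 0 ≤ b)
    (hb1 : b ≤ 1) (hR : 0 ≤ R) : NB (((b : ℝ) : ℂ) • A) R := by
  intro v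
  rw [map_smul, LinearMap.smul_apply, norm_smul, Complex.norm_real, Real.norm_eq_abs,
    abs_of_nonneg hb]
  have h1 := hA v
  have h2 : 0 ≤ R * ‖v‖ := by positivity
  calc b * ‖Matrix.toEuclideanLin A v‖ ≤ 1 * (R * ‖v‖) :=
        mul_le_mul hb1 h1 (norm_nonneg _) zero_le_one
    _ = _ := one_mul _

theorem NB_mono {k : ℕ} {A : Matrix (Fin k) (Fin k) ℂ} {R R' : ℝ} (hA : NB A R) (h : R ≤ R') :
    NB A R' := fun v => (hA v).trans (mul_le_mul_of_nonneg_right h (norm_nonneg _))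

theorem NB_diag {k : ℕ} (q : ℕ) :
    NB (Matrix.diagonal fun r : Fin k => if (r : ℕ) < q then (1 : ℂ) else 0) 1 := by
  intro v
  rw [one_mul, EuclideanSpace.norm_eq, EuclideanSpace.norm_eq]
  refine Real.sqrt_le_sqrt (Finset.sum_le_sum fun r _ => ?_)
  have : (Matrix.toEuclideanLin (Matrix.diagonal fun r : Fin k =>
      if (r : ℕ) < q then (1 : ℂ) else 0) v) r = (if (r : ℕ) < q then (1 : ℂ) else 0) * v r := by
    simp [Matrix.mulVec_diagonal]
  rw [this]
  split_ifs
  · simp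
  · simp

/-- bad event for the norm of one Gaussian letter -/
def Nbad (q k : ℕ) : (Fin a ⊕ Fin (a + 1)) → Set ((Fin a ⊕ Fin (a + 1)) → Fin k → Fin k → ℝ)
  | .inl i => {g | ¬ NB (Yv q k g (.inl i.succ)) 6}
  | .inr j => {g | ¬ NB (Yv q k g (.inr j)) 6}

theorem marginal (k : ℕ) (z : Fin a ⊕ Fin (a + 1)) (S : Set (Fin k → Fin k → ℝ)) :
    gaussArr (Fin a ⊕ Fin (a + 1)) k {g | g z ∈ S} ≤ GA k S := by
  have mp := measurePreserving_eval (fun _ : Fin a ⊕ Fin (a + 1) => GA k) z
  calc gaussArr (Fin a ⊕ Fin (a + 1)) k {g | g z ∈ S} ≤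
      gaussArr (Fin a ⊕ Fin (a + 1)) k {g | g z ∈ toMeasurable (GA k) S} :=
        measure_mono fun g hg => subset_toMeasurable _ _ hg
    _ = GA k (toMeasurable (GA k) S) :=
        mp.measure_preimage (measurableSet_toMeasurable _ _).nullMeasurableSet
    _ = GA k S := measure_toMeasurable _

theorem Nbad_le (q k : ℕ) (hq : 1 ≤ q) (hqk : q ≤ k) (z : Fin a ⊕ Fin (a + 1)) :
    gaussArr (Fin a ⊕ Fin (a + 1)) k (Nbad q k z) ≤
      ENNReal.ofReal (2 * (81 * Real.exp (-(9 / 2))) ^ q) +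
        ENNReal.ofReal (2 * (81 * Real.exp (-(9 / 2))) ^ k) := by
  rcases z with i | j
  · refine le_trans ?_ le_self_add
    have h := norm_bound k q hq hqk
    refine le_trans ?_ h
    exact marginal k (.inl i) _
  · refine le_trans ?_ le_add_self
    have h := norm_bound k k (hq.trans hqk) le_rfl
    refine le_trans ?_ h
    have e : Nbad q k (.inr j : Fin a ⊕ Fin (a + 1)) = {g | g (.inr j) ∈ {g : Fin k → Fin k → ℝ |
        ¬ ∀ v : EuclideanSpace ℂ (Fin k), ‖Matrix.toEuclideanLin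
        (herm fun r s => if (r : ℕ) < k ∧ (s : ℕ) < k then g r s / √(k : ℝ) else 0) v‖ ≤
          6 * ‖v‖}} := by
      ext g
      simp only [Nbad, Set.mem_ofPred_eq, NB, Yv, Fin.is_lt, and_self, if_true]
    rw [e]
    exact marginal k (.inr j) _

/-- bad event for one moment -/
def Mbad (τ : List (Fin (a + 1) ⊕ Fin (a + 1)) → ℂ) (q k : ℕ) (ε : ℝ)
    (u : List (Fin (a + 1) ⊕ Fin (a + 1))) :
    Set ((Fin a ⊕ Fin (a + 1)) → Fin k → Fin k → ℝ) :=
  {g | ε ≤ ‖(u.map (Yv q k g)).prod.trace / (k : ℂ) - τ u‖}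

theorem crd_mem (q k : ℕ) (τ : List (Fin (a + 1) ⊕ Fin (a + 1)) → ℂ) (b : Fin (a + 1) → ℝ)
    (hb : ∀ j, 0 < b j) (hb1 : ∀ j, b j ≤ 1) (m : ℕ) (ε : ℝ) (hε : 0 < ε)
    (g : (Fin a ⊕ Fin (a + 1)) → Fin k → Fin k → ℝ)
    (hN : ∀ z, g ∉ Nbad q k z) (hM : ∀ u : List (Fin (a + 1) ⊕ Fin (a + 1)), u.length ≤ m →
      g ∉ Mbad τ q k (ε / 2 ^ m) u) :
    crd q k b g ∈ Gam (fun w => ((expd b id w).map fun p => ((p.1 : ℝ) : ℂ) * τ p.2).sum)
      13 m k ε := by
  constructor
  · intro j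
    have h2 : NB (Yv q k g (.inr j)) 6 := by
      have := hN (.inr j)
      simpa only [Nbad, Set.mem_ofPred_eq, not_not] using this
    have h1 : NB (Yv q k g (.inl j)) 7 := by
      refine Fin.cases ?_ (fun i => ?_) j
      · exact NB_mono (NB_diag q) (by norm_num)
      · have := hN (.inl i)
        refine NB_mono (R := 6) ?_ (by norm_num)
        simpa only [Nbad, Set.mem_ofPred_eq, not_not] using this
    have h3 := NB_add h1 (NB_smul h2 (b j) (hb j).le (hb1 j) (by norm_num))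
    rw [← herm_crd] at h3
    norm_num at h3
    exact h3
  · intro w _ hw2
    have e1 : (w.map fun j => herm (crd q k b g j)) =
        w.map fun j => Yv q k g (.inl j) + ((b j : ℝ) : ℂ) • Yv q k g (.inr (id j)) :=
      List.map_congr_left fun j _ => herm_crd q k b g j
    have e2 : (w.map fun j => herm (crd q k b g j)).prod.trace / (k : ℂ) =
        ((expd b id w).map fun p => ((p.1 : ℝ) : ℂ) *
          ((p.2.map (Yv q k g)).prod.trace / (k : ℂ))).sum := by
      rw [e1, expd_eval]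
      generalize expd b id w = L
      induction L with
      | nil => simp
      | cons p L ih =>
        simp only [List.map_cons, List.sum_cons, Matrix.trace_add, add_div, ih, Matrix.trace_smul,
          smul_eq_mul]
        congr 1
        ring
    rw [e2]
    have e3 : ((expd b id w).map fun p => ((p.1 : ℝ) : ℂ) *
          ((p.2.map (Yv q k g)).prod.trace / (k : ℂ))).sum -
        ((expd b id w).map fun p => ((p.1 : ℝ) : ℂ) * τ p.2).sum =
        ((expd b id w).map fun p => ((p.1 : ℝ) : ℂ) *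
          ((p.2.map (Yv q k g)).prod.trace / (k : ℂ) - τ p.2)).sum := by
      generalize expd b id w = L
      induction L with
      | nil => simp
      | cons p L ih =>
        simp only [List.map_cons, List.sum_cons, ← ih]
        ring
    rw [e3]
    have hne : expd b id w ≠ [] := by
      intro h
      have := expd_length b id w
      rw [h] at this
      exact (pow_ne_zero _ two_ne_zero) this.symm
    have h1 := list_bound (expd b id w) hne (fun p => p.1)
      (fun p => (p.2.map (Yv q k g)).prod.trace / (k : ℂ) - τ p.2) (ε / 2 ^ m) (by positivity)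
      (fun p hp => (expd_prop b id hb hb1 w p hp).1) (fun p hp => by
        have h2 := (expd_prop b id hb hb1 w p hp).2
        have h3 := hM p.2 (by omega)
        simpa only [Mbad, Set.mem_ofPred_eq, not_le] using h3)
    refine h1.trans_le ?_
    rw [expd_length]
    push_cast
    calc (2 : ℝ) ^ w.length * (ε / 2 ^ m) ≤ 2 ^ m * (ε / 2 ^ m) := by
          gcongr
          norm_num
      _ = ε := by field_simp

theorem tendsto_geo (f : ℕ → ℕ) (hf : Tendsto f atTop atTop) :
    Tendsto (fun q => ENNReal.ofReal (2 * (81 * Real.exp (-(9 / 2))) ^ (f q))) atTop (𝓝 0) := by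
  have hρ : 81 * Real.exp (-(9 / 2)) < 1 := by
    rw [Real.exp_neg, ← div_eq_mul_inv, div_lt_one (Real.exp_pos _)]
    have h1 : (2.7182818283 : ℝ) < Real.exp 1 := Real.exp_one_gt_d9
    have h2 : Real.exp (9 / 2) ^ 2 = Real.exp 1 ^ 9 := by
      rw [← Real.exp_nat_mul, ← Real.exp_nat_mul]; norm_num
    have h3 : (81 : ℝ) ^ 2 < Real.exp 1 ^ 9 := by
      calc (81 : ℝ) ^ 2 < 2.7182818283 ^ 9 := by norm_num
        _ < _ := by gcongr
    rw [← h2] at h3
    exact lt_of_pow_lt_pow_left₀ 2 (Real.exp_pos _).le h3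
  have h0 : 0 ≤ 81 * Real.exp (-(9 / 2)) := by positivity
  have h1 : Tendsto (fun q => 2 * (81 * Real.exp (-(9 / 2))) ^ (f q)) atTop (𝓝 0) := by
    have := ((tendsto_pow_atTop_nhds_zero_of_lt_one h0 hρ).comp hf).const_mul 2
    simpa [Function.comp_def] using this
  have := (ENNReal.continuous_ofReal.tendsto 0).comp h1
  simpa [Function.comp_def] using this

theorem prob_good (ha : 1 ≤ a) (τ : List (Fin (a + 1) ⊕ Fin (a + 1)) → ℂ)
    (hτ : IsLaw (1 / (a : ℝ)) τ) (b : Fin (a + 1) → ℝ)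
    (hb : ∀ j, 0 < b j) (hb1 : ∀ j, b j ≤ 1) (m : ℕ) (ε : ℝ) (hε : 0 < ε) :
    ∀ᶠ q in atTop, gaussArr (Fin a ⊕ Fin (a + 1)) (a * q) {g | crd q (a * q) b g ∉
      Gam (fun w => ((expd b id w).map fun p => ((p.1 : ℝ) : ℂ) * τ p.2).sum) 13 m (a * q) ε} ≤
        1 / 2 := by
  classical
  obtain ⟨U, hU⟩ : ∃ U : Finset (List (Fin (a + 1) ⊕ Fin (a + 1))), ∀ u, u.length ≤ m → u ∈ U :=
    ⟨(List.finite_length_le _ m).toFinset, fun u hu => by simpa using hu⟩
  set δf : ℕ → ℝ≥0∞ := fun q => (∑ _z : Fin a ⊕ Fin (a + 1),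
    (ENNReal.ofReal (2 * (81 * Real.exp (-(9 / 2))) ^ q) +
        ENNReal.ofReal (2 * (81 * Real.exp (-(9 / 2))) ^ (a * q)))) +
    ∑ u ∈ U, gaussArr (Fin a ⊕ Fin (a + 1)) (a * q) (Mbad τ q (a * q) (ε / 2 ^ m) u) with hδ
  have hlim : Tendsto δf atTop (𝓝 0) := by
    have h1 : Tendsto (fun q => (∑ _z : Fin a ⊕ Fin (a + 1),
      (ENNReal.ofReal (2 * (81 * Real.exp (-(9 / 2))) ^ q) +
        ENNReal.ofReal (2 * (81 * Real.exp (-(9 / 2))) ^ (a * q))))) atTop (𝓝 0) := by
      have : Tendsto (fun q => (∑ _z : Fin a ⊕ Fin (a + 1),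
        (ENNReal.ofReal (2 * (81 * Real.exp (-(9 / 2))) ^ q) +
        ENNReal.ofReal (2 * (81 * Real.exp (-(9 / 2))) ^ (a * q))))) atTop
          (𝓝 (∑ _z : Fin a ⊕ Fin (a + 1), (0 + 0))) :=
        tendsto_finsetSum _ fun z _ => (tendsto_geo (fun q => q) tendsto_id).add
          (tendsto_geo (fun q => a * q) (Filter.Tendsto.const_mul_atTop' (by omega) tendsto_id))
      simpa using this
    have h2 : Tendsto (fun q => ∑ u ∈ U, gaussArr (Fin a ⊕ Fin (a + 1)) (a * q)
        (Mbad τ q (a * q) (ε / 2 ^ m) u)) atTop (𝓝 0) := by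
      have : Tendsto (fun q => ∑ u ∈ U, gaussArr (Fin a ⊕ Fin (a + 1)) (a * q)
        (Mbad τ q (a * q) (ε / 2 ^ m) u)) atTop (𝓝 (∑ u ∈ U, 0)) :=
        tendsto_finsetSum _ fun u _ => prob_tendsto ha τ hτ u (ε / 2 ^ m) (by positivity)
      simpa using this
    have := h1.add h2
    rw [add_zero] at this
    exact this
  have hev : ∀ᶠ q in atTop, δf q ≤ 1 / 2 := by
    have : (0 : ℝ≥0∞) < 1 / 2 := by simp
    exact (hlim.eventually (gt_mem_nhds this)).mono fun q hq => hq.le
  filter_upwards [hev, eventually_ge_atTop 1] with q hq hq1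
  refine le_trans ?_ hq
  have hsub : {g | crd q (a * q) b g ∉
      Gam (fun w => ((expd b id w).map fun p => ((p.1 : ℝ) : ℂ) * τ p.2).sum) 13 m (a * q) ε} ⊆
      (⋃ z, Nbad q (a * q) z) ∪ ⋃ u ∈ U, Mbad τ q (a * q) (ε / 2 ^ m) u := by
    intro g hg
    by_contra hcon
    rw [Set.mem_union, not_or, Set.mem_iUnion, Set.mem_iUnion₂] at hcon
    refine hg (crd_mem q (a * q) τ b hb hb1 m ε hε g ?_ ?_)
    · intro z hz
      exact hcon.1 ⟨z, hz⟩
    · intro u hu hz
      exact hcon.2 ⟨u, hU u hu, hz⟩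
  refine (measure_mono hsub).trans ((measure_union_le _ _).trans ?_)
  refine add_le_add ?_ ?_
  · refine (measure_iUnion_fintype_le _ _).trans (Finset.sum_le_sum fun z _ => ?_)
    exact Nbad_le q (a * q) hq1 (Nat.le_mul_of_pos_left q (by omega)) z
  · exact measure_biUnion_finset_le _ _

end good

/-! ### conclusion -/

section fin

variable {a : ℕ}

theorem vol_lower (ha : 1 ≤ a) (τ : List (Fin (a + 1) ⊕ Fin (a + 1)) → ℂ)
    (hτ : IsLaw (1 / (a : ℝ)) τ) (b : Fin (a + 1) → ℝ)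
    (hb : ∀ j, 0 < b j) (hb1 : ∀ j, b j ≤ 1) (m : ℕ) (ε : ℝ) (hε : 0 < ε) :
    ∀ᶠ q in atTop, (1 / 2 : ℝ≥0∞) ≤
      ((∏ j, ((cg (b j / √((a * q : ℕ) : ℝ))) ^ (a * q)) ^ (a * q) : ℝ≥0) : ℝ≥0∞) *
      volume (Gam (fun w => ((expd b id w).map fun p => ((p.1 : ℝ) : ℂ) * τ p.2).sum)
        13 m (a * q) ε) := by
  filter_upwards [prob_good ha τ hτ b hb hb1 m ε hε, eventually_ge_atTop 1] with q hq hq1
  have hprob := ProbAux.prob_gauss (Fin a ⊕ Fin (a + 1)) (a * q)
  set G := Gam (fun w => ((expd b id w).map fun p => ((p.1 : ℝ) : ℂ) * τ p.2).sum)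
        13 m (a * q) ε with hG
  set T := toMeasurable volume G with hT
  have h1 := fub q (a * q) (Nat.one_le_iff_ne_zero.2 (by positivity)) b hb T
    (measurableSet_toMeasurable _ _)
  rw [measure_toMeasurable] at h1
  refine le_trans ?_ h1
  have h2 : (1 : ℝ≥0∞) ≤ gaussArr (Fin a ⊕ Fin (a + 1)) (a * q) {g | crd q (a * q) b g ∈ T} +
      gaussArr (Fin a ⊕ Fin (a + 1)) (a * q) {g | crd q (a * q) b g ∉ G} := by
    rw [← measure_univ (μ := gaussArr (Fin a ⊕ Fin (a + 1)) (a * q))]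
    refine (measure_mono ?_).trans (measure_union_le _ _)
    intro g _
    by_cases hg : crd q (a * q) b g ∈ G
    · exact Or.inl (subset_toMeasurable _ _ hg)
    · exact Or.inr hg
  have h3 : (1 : ℝ≥0∞) ≤ gaussArr (Fin a ⊕ Fin (a + 1)) (a * q) {g | crd q (a * q) b g ∈ T} +
      1 / 2 := h2.trans (add_le_add le_rfl hq)
  have h4 : (1 : ℝ≥0∞) - 1 / 2 ≤
      gaussArr (Fin a ⊕ Fin (a + 1)) (a * q) {g | crd q (a * q) b g ∈ T} :=
    tsub_le_iff_right.2 h3
  have h5 : (1 : ℝ≥0∞) - 1 / 2 = 1 / 2 := by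
    rw [one_div]
    exact ENNReal.one_sub_inv_two
  rwa [h5] at h4

theorem real_bound (b : Fin (a + 1) → ℝ) (hb : ∀ j, 0 < b j) (k : ℕ) (hk : 1 ≤ k) (V : ℝ≥0∞)
    (h : (1 / 2 : ℝ≥0∞) ≤ ((∏ j, ((cg (b j / √(k : ℝ))) ^ k) ^ k : ℝ≥0) : ℝ≥0∞) * V) :
    (((∑ j, (1 / 2) * Real.log (2 * Real.pi * b j ^ 2)) - Real.log 2 : ℝ) : EReal) ≤
      ENNReal.log V / (((k : ℝ) ^ 2 : ℝ) : EReal) +
        (((((a + 1 : ℕ) : ℝ)) / 2 * Real.log k : ℝ) : EReal) := by
  have hk0 : (0 : ℝ) < k := by exact_mod_cast hk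
  set C : ℝ := Real.exp (∑ j, (k : ℝ) ^ 2 * (-(1 / 2) * Real.log (2 * Real.pi * (b j ^ 2 / k)))) with hC
  have hCC : ((∏ j, ((cg (b j / √(k : ℝ))) ^ k) ^ k : ℝ≥0) : ℝ≥0∞) = ENNReal.ofReal C := by
    rw [ENNReal.ofReal]
    congr 1
    apply NNReal.eq
    rw [Real.coe_toNNReal _ (Real.exp_pos _).le, Real.exp_sum]
    push_cast
    refine Finset.prod_congr rfl fun j _ => ?_
    have hx : 0 < 2 * Real.pi * (b j ^ 2 / k) := by
      have := hb j
      positivity
    have e1 : ((cg (b j / √(k : ℝ)) : ℝ≥0) : ℝ) = (√(2 * Real.pi * (b j ^ 2 / k)))⁻¹ := by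
      rw [cg, NNReal.coe_inv, Real.coe_toNNReal _ (Real.sqrt_nonneg _), div_pow,
        Real.sq_sqrt hk0.le]
    rw [e1, ← pow_mul, ← Real.rpow_natCast, Real.inv_rpow (Real.sqrt_nonneg _),
      ← Real.rpow_neg (Real.sqrt_nonneg _), Real.sqrt_eq_rpow, ← Real.rpow_mul hx.le,
      Real.rpow_def_of_pos hx]
    congr 1
    push_cast
    ring
  rw [hCC] at h
  have hCpos : 0 < C := Real.exp_pos _
  have h1 : ENNReal.ofReal (1 / 2 * C⁻¹) ≤ V := by
    rw [ENNReal.ofReal_mul (by norm_num), ENNReal.ofReal_inv_of_pos hCpos]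
    have e2 : ENNReal.ofReal (1 / 2) = 1 / 2 := by
      rw [ENNReal.ofReal_div_of_pos (by norm_num)]; simp
    rw [e2, ← div_eq_mul_inv]
    refine ENNReal.div_le_of_le_mul ?_
    rwa [mul_comm]
  have h2 : ((Real.log (1 / 2 * C⁻¹) : ℝ) : EReal) ≤ ENNReal.log V := by
    rw [← ENNReal.log_ofReal_of_pos (by positivity)]
    exact ENNReal.log_le_log h1
  have h3 : Real.log (1 / 2 * C⁻¹) = -Real.log 2 +
      ∑ j, (k : ℝ) ^ 2 * ((1 / 2) * (Real.log (2 * Real.pi * b j ^ 2) - Real.log k)) := by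
    rw [Real.log_mul (by norm_num) (by positivity), Real.log_inv, hC, Real.log_exp, one_div,
      Real.log_inv, ← Finset.sum_neg_distrib]
    congr 1
    refine Finset.sum_congr rfl fun j _ => ?_
    have hbj := hb j
    rw [← mul_div_assoc, Real.log_div (by positivity) hk0.ne']
    ring
  have h4 : ((((Real.log (1 / 2 * C⁻¹)) / (k : ℝ) ^ 2 : ℝ)) : EReal) ≤
      ENNReal.log V / (((k : ℝ) ^ 2 : ℝ) : EReal) := by
    rw [EReal.coe_div]
    refine EReal.div_le_div_right_of_nonneg ?_ h2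
    exact_mod_cast (by positivity : (0 : ℝ) ≤ (k : ℝ) ^ 2)
  refine le_trans ?_ (add_le_add h4 le_rfl)
  rw [← EReal.coe_add, EReal.coe_le_coe_iff, h3, add_div, Finset.sum_div]
  have h5 : ∀ j : Fin (a + 1), (k : ℝ) ^ 2 * ((1 / 2) * (Real.log (2 * Real.pi * b j ^ 2) -
      Real.log k)) / (k : ℝ) ^ 2 = (1 / 2) * Real.log (2 * Real.pi * b j ^ 2) -
        (1 / 2) * Real.log k := by
    intro j
    field_simp
  rw [Finset.sum_congr rfl fun j _ => h5 j, Finset.sum_sub_distrib, Finset.sum_const,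
    Finset.card_univ, Fintype.card_fin, nsmul_eq_mul]
  have h6 : -Real.log 2 ≤ -Real.log 2 / (k : ℝ) ^ 2 := by
    have hl : 0 < Real.log 2 := Real.log_pos (by norm_num)
    have hk1 : (1 : ℝ) ≤ (k : ℝ) ^ 2 := by
      have : (1 : ℝ) ≤ k := by exact_mod_cast hk
      nlinarith
    rw [neg_div, neg_le_neg_iff]
    exact div_le_self hl.le hk1
  push_cast
  linarith

end fin

end LowerAux

open LowerAux in
theorem chi_lower {a : ℕ} (ha : 1 ≤ a) (τ : List (Fin (a + 1) ⊕ Fin (a + 1)) → ℂ)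
    (hτ : IsLaw (1 / (a : ℝ)) τ) (b : Fin (a + 1) → ℝ) (hb : ∀ j, 0 < b j) (hb1 : ∀ j, b j ≤ 1) :
    ⊥ < chiR (fun w => ((expd b id w).map fun p => ((p.1 : ℝ) : ℂ) * τ p.2).sum) 13 := by
  refine lt_of_lt_of_le (EReal.bot_lt_coe ((∑ j, (1 / 2) * Real.log (2 * Real.pi * b j ^ 2)) -
    Real.log 2)) ?_
  rw [chiR]
  refine le_iInf fun m => le_iInf fun ε => le_iInf fun hε => ?_
  refine Filter.le_limsup_of_frequently_le ?_
  have hf : Tendsto (fun q => a * q) atTop atTop :=
    Filter.Tendsto.const_mul_atTop' (by omega) tendsto_id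
  refine hf.frequently (Eventually.frequently ?_)
  filter_upwards [vol_lower ha τ hτ b hb hb1 m ε hε, eventually_ge_atTop 1] with q hq hq1
  exact real_bound b hb (a * q) (Nat.one_le_iff_ne_zero.2 (by positivity)) _ hq

end Vale.Agent.P087
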