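import Vale.Agent.P087.Defs2

/-!
# Bound for the corner semicircular moments (P087)
-/

namespace Vale.Agent.P087

open scoped ENNReal

namespace MBoundAux

/-- splitting a sum over lists according to the first letter -/
lemma tsum_list {α : Type} (f : List α → ℝ≥0∞) :
    ∑' w, f w = f [] + ∑' p : α × List α, f (p.1 :: p.2) := by
  classical
  have inj : Function.Injective (fun p : α × List α => p.1 :: p.2) := by
    rintro ⟨a, u⟩ ⟨b, v⟩ h
    simp only [List.cons.injEq] at h
    exact Prod.ext h.1 h.2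
  rw [ENNReal.tsum_eq_add_tsum_ite []]
  congr 1
  rw [← inj.tsum_eq]
  · simp
  · intro w hw
    cases w with
    | nil => simp at hw
    | cons a u => exact ⟨(a, u), rfl⟩

/-- the weighted norm -/
noncomputable def W {a : ℕ} (b : ℝ) (ψ : List (Fin a) → ℝ) : ℝ≥0∞ :=
  ∑' u, ENNReal.ofReal (b ^ u.length * ψ u ^ 2)

/-- annihilation part -/
def an {a : ℕ} (i : Fin a) (ψ : List (Fin a) → ℝ) : List (Fin a) → ℝ := fun u => ψ (i :: u)

/-- creation part -/
def cr {a : ℕ} (i : Fin a) (ψ : List (Fin a) → ℝ) : List (Fin a) → ℝ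
  | [] => 0
  | i' :: u' => if i' = i then ψ u' else 0

lemma vac_succ {a : ℕ} (i : Fin a) (v : List (Fin (a + 1))) (u : List (Fin a)) :
    vac (i.succ :: v) u = an i (vac v) u + cr i (vac v) u := by
  cases u with
  | nil => simp [vac, an, cr]
  | cons i' u => simp [vac, an, cr]

lemma vac_zero {a : ℕ} (v : List (Fin (a + 1))) : vac (0 :: v) = vac v := by
  funext u; simp [vac]

lemma W_add_le {a : ℕ} {b : ℝ} (hb : 0 ≤ b) (φ ψ : List (Fin a) → ℝ) :
    W b (fun u => φ u + ψ u) ≤ 2 * W b φ + 2 * W b ψ := by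
  unfold W
  rw [← ENNReal.tsum_mul_left, ← ENNReal.tsum_mul_left, ← ENNReal.tsum_add]
  apply ENNReal.tsum_le_tsum
  intro u
  have h2 : (2 : ℝ≥0∞) = ENNReal.ofReal 2 := by simp
  rw [h2, ← ENNReal.ofReal_mul (by norm_num), ← ENNReal.ofReal_mul (by norm_num),
    ← ENNReal.ofReal_add (by positivity) (by positivity)]
  apply ENNReal.ofReal_le_ofReal
  have h1 : 0 ≤ b ^ u.length := by positivity
  nlinarith [mul_nonneg h1 (sq_nonneg (φ u - ψ u))]

lemma W_cr {a : ℕ} {b : ℝ} (hb : 0 ≤ b) (i : Fin a) (ψ : List (Fin a) → ℝ) :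
    W b (cr i ψ) = ENNReal.ofReal b * W b ψ := by
  classical
  unfold W
  have inj : Function.Injective (fun u : List (Fin a) => i :: u) := by
    intro u v h; simpa using h
  rw [← inj.tsum_eq]
  · rw [← ENNReal.tsum_mul_left]
    apply tsum_congr
    intro u
    rw [← ENNReal.ofReal_mul hb]
    congr 1
    simp only [cr, if_true, List.length_cons]
    ring
  · intro w hw
    cases w with
    | nil => simp [cr] at hw
    | cons i' u =>
      by_cases hi : i' = i
      · subst hi; exact ⟨u, rfl⟩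
      · simp [cr, hi] at hw

lemma sum_W_an {a : ℕ} {b : ℝ} (hb : 0 < b) (ψ : List (Fin a) → ℝ) :
    ∑ i, W b (an i ψ) ≤ ENNReal.ofReal b⁻¹ * W b ψ := by
  have h1 : ∑ i, W b (an i ψ) =
      ENNReal.ofReal b⁻¹ * ∑' p : Fin a × List (Fin a),
        ENNReal.ofReal (b ^ (p.1 :: p.2).length * ψ (p.1 :: p.2) ^ 2) := by
    rw [ENNReal.tsum_prod' , tsum_fintype, Finset.mul_sum]
    apply Finset.sum_congr rfl
    intro i _
    unfold W
    rw [← ENNReal.tsum_mul_left]
    apply tsum_congr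
    intro u
    rw [← ENNReal.ofReal_mul (by positivity)]
    congr 1
    simp only [an, List.length_cons]
    rw [pow_succ b, mul_comm (b ^ u.length) b, mul_assoc b, ← mul_assoc b⁻¹,
      inv_mul_cancel₀ hb.ne', one_mul]
  rw [h1]
  gcongr
  unfold W
  rw [tsum_list (fun u => ENNReal.ofReal (b ^ u.length * ψ u ^ 2))]
  exact le_add_self

/-- the one-step bound -/
lemma sum_W_le {a : ℕ} (ha : 1 ≤ a) (v : List (Fin (a + 1))) :
    ∑ j, W (√(a : ℝ))⁻¹ (vac (j :: v)) ≤
      ENNReal.ofReal (5 * √(a : ℝ)) * W (√(a : ℝ))⁻¹ (vac v) := by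
  set b : ℝ := (√(a : ℝ))⁻¹ with hb
  have ha1 : (1:ℝ) ≤ a := by exact_mod_cast ha
  have hs1 : 1 ≤ √(a : ℝ) := Real.one_le_sqrt.mpr ha1
  have hs0 : 0 < √(a : ℝ) := by linarith
  have hb0 : 0 < b := by positivity
  rw [Fin.sum_univ_succ, vac_zero]
  have h1 : ∑ i : Fin a, W b (vac (i.succ :: v)) ≤
      2 * (ENNReal.ofReal b⁻¹ * W b (vac v)) + 2 * (a * (ENNReal.ofReal b * W b (vac v))) := by
    have e : ∀ i : Fin a, W b (vac (i.succ :: v)) ≤
        2 * W b (an i (vac v)) + 2 * (ENNReal.ofReal b * W b (vac v)) := by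
      intro i
      have : vac (i.succ :: v) = fun u => an i (vac v) u + cr i (vac v) u := by
        funext u; exact vac_succ i v u
      rw [this, ← W_cr hb0.le i]
      exact W_add_le hb0.le _ _
    calc ∑ i : Fin a, W b (vac (i.succ :: v))
        ≤ ∑ i : Fin a, (2 * W b (an i (vac v)) + 2 * (ENNReal.ofReal b * W b (vac v))) :=
          Finset.sum_le_sum fun i _ => e i
      _ = 2 * ∑ i : Fin a, W b (an i (vac v)) + 2 * (a * (ENNReal.ofReal b * W b (vac v))) := by
          rw [Finset.sum_add_distrib, ← Finset.mul_sum, Finset.sum_const, Finset.card_univ,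
            Fintype.card_fin, nsmul_eq_mul]
          ring
      _ ≤ _ := by
          gcongr
          exact sum_W_an hb0 (vac v)
  have h2 : W b (vac v) + (2 * (ENNReal.ofReal b⁻¹ * W b (vac v)) +
      2 * (a * (ENNReal.ofReal b * W b (vac v)))) =
      ENNReal.ofReal (1 + 2 * b⁻¹ + 2 * (a * b)) * W b (vac v) := by
    have e2 : (2 : ℝ≥0∞) = ENNReal.ofReal 2 := by simp
    have ea : (a : ℝ≥0∞) = ENNReal.ofReal a := by simp
    rw [ENNReal.ofReal_add (by positivity) (by positivity),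
      ENNReal.ofReal_add (by positivity) (by positivity), ENNReal.ofReal_mul (by norm_num),
      ENNReal.ofReal_mul (by norm_num), ENNReal.ofReal_mul (by positivity), ENNReal.ofReal_one,
      ← e2, ← ea]
    ring
  have h3 : 1 + 2 * b⁻¹ + 2 * (a * b) ≤ 5 * √(a : ℝ) := by
    have e1 : b⁻¹ = √(a : ℝ) := by rw [hb, inv_inv]
    have e2 : (a : ℝ) * b = √(a : ℝ) := by
      rw [hb, ← div_eq_mul_inv, Real.div_sqrt]
    rw [e1, e2]; linarith
  calc W b (vac v) + ∑ i : Fin a, W b (vac (i.succ :: v))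
      ≤ W b (vac v) + (2 * (ENNReal.ofReal b⁻¹ * W b (vac v)) +
      2 * (a * (ENNReal.ofReal b * W b (vac v)))) := by gcongr
    _ = _ := h2
    _ ≤ _ := by gcongr

lemma W_nil {a : ℕ} (b : ℝ) : W b (vac ([] : List (Fin (a + 1)))) = 1 := by
  unfold W
  rw [tsum_eq_single []]
  · simp [vac]
  · intro u hu
    simp [vac, hu]

/-- partial sums -/
noncomputable def Z (a : ℕ) (b t : ℝ) (N : ℕ) : ℝ≥0∞ :=
  ∑' v : List (Fin (a + 1)), if v.length ≤ N then ENNReal.ofReal (t ^ v.length) * W b (vac v) else 0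

lemma Z_le {a : ℕ} (ha : 1 ≤ a) {t : ℝ} (ht : 0 ≤ t) (h : t * (5 * √(a : ℝ)) ≤ 1 / 2) (N : ℕ) :
    Z a (√(a : ℝ))⁻¹ t N ≤ 2 := by
  set b : ℝ := (√(a : ℝ))⁻¹ with hb
  induction N with
  | zero =>
    unfold Z
    rw [tsum_list]
    simp only [List.length_nil, le_refl, if_true, pow_zero, ENNReal.ofReal_one, one_mul, W_nil,
      List.length_cons]
    have : ∀ p : Fin (a + 1) × List (Fin (a + 1)), ¬ (p.2.length + 1 ≤ 0) := fun p => by omega
    simp [this]
  | succ N ih =>
    unfold Z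
    rw [tsum_list]
    simp only [List.length_nil, Nat.zero_le, if_true, pow_zero, ENNReal.ofReal_one, one_mul, W_nil,
      List.length_cons, Nat.add_le_add_iff_right]
    have h1 : ∑' p : Fin (a + 1) × List (Fin (a + 1)),
        (if p.2.length ≤ N then ENNReal.ofReal (t ^ (p.2.length + 1)) * W b (vac (p.1 :: p.2))
          else 0) ≤ ENNReal.ofReal (t * (5 * √(a : ℝ))) * Z a b t N := by
      rw [ENNReal.tsum_prod' , ENNReal.tsum_comm]
      unfold Z
      rw [← ENNReal.tsum_mul_left]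
      apply ENNReal.tsum_le_tsum
      intro v
      rw [tsum_fintype]
      by_cases hv : v.length ≤ N
      · simp only [hv, if_true]
        rw [← Finset.mul_sum]
        calc ENNReal.ofReal (t ^ (v.length + 1)) * ∑ j, W b (vac (j :: v))
            ≤ ENNReal.ofReal (t ^ (v.length + 1)) *
              (ENNReal.ofReal (5 * √(a : ℝ)) * W b (vac v)) := by
              gcongr; exact sum_W_le ha v
          _ = ENNReal.ofReal (t * (5 * √(a : ℝ))) * (ENNReal.ofReal (t ^ v.length) *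
              W b (vac v)) := by
              rw [pow_succ, ENNReal.ofReal_mul (by positivity), ENNReal.ofReal_mul ht]
              ring
      · simp [hv]
    calc (1 : ℝ≥0∞) + _ ≤ 1 + ENNReal.ofReal (t * (5 * √(a : ℝ))) * Z a b t N := by gcongr
      _ ≤ 1 + ENNReal.ofReal (1 / 2) * 2 := by gcongr
      _ = 2 := by
        have e2 : (2 : ℝ≥0∞) = ENNReal.ofReal 2 := by simp
        rw [e2, ← ENNReal.ofReal_mul (by norm_num), ← ENNReal.ofReal_one,
          ← ENNReal.ofReal_add (by norm_num) (by norm_num)]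
        norm_num

lemma sq_le_W {a : ℕ} (b : ℝ) (ψ : List (Fin a) → ℝ) : ENNReal.ofReal (ψ [] ^ 2) ≤ W b ψ := by
  have := ENNReal.le_tsum (f := fun u : List (Fin a) => ENNReal.ofReal (b ^ u.length * ψ u ^ 2)) []
  simpa [W] using this

lemma pow_le_prod {a : ℕ} {c : ℝ} (hc : 0 ≤ c) (σ : Fin (a + 1) → ℝ) (hσ : ∀ j, c ≤ σ j)
    (v : List (Fin (a + 1))) : c ^ v.length ≤ (v.map σ).prod := by
  induction v with
  | nil => simp
  | cons j v ih =>
    simp only [List.length_cons, List.map_cons, List.prod_cons, pow_succ]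
    rw [mul_comm]
    exact mul_le_mul (hσ j) ih (by positivity) (hc.trans (hσ j))

end MBoundAux

open MBoundAux

theorem vac_bound {a : ℕ} (ha : 11 ≤ a) (i : Fin (a + 1)) (σ : Fin (a + 1) → ℝ)
    (hσ : ∀ j, 11 * √(a : ℝ) ≤ σ j) (F : Finset (List (Fin (a + 1)))) :
    ∑ v ∈ F, vac (i :: v) [] ^ 2 / ((v.map σ).prod * (1 - 1 / (a : ℝ)) ^ (v.length + 1)) ≤
      20 * √(a : ℝ) := by
  classical
  have ha1 : (11:ℝ) ≤ a := by exact_mod_cast ha
  have ha0 : (0:ℝ) < a := by linarith
  have hs0 : 0 < √(a : ℝ) := Real.sqrt_pos.mpr ha0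
  set D : ℝ := 1 - 1 / (a : ℝ) with hD
  have hD1 : 10 / 11 ≤ D := by
    have : 1 / (a : ℝ) ≤ 1 / 11 := one_div_le_one_div_of_le (by norm_num) ha1
    rw [hD]; linarith
  have hD0 : 0 < D := by linarith
  set t : ℝ := 1 / (11 * √(a : ℝ) * D) with ht
  have ht0 : 0 < t := by positivity
  set b : ℝ := (√(a : ℝ))⁻¹ with hb
  have htb : t * (5 * √(a : ℝ)) ≤ 1 / 2 := by
    rw [ht, one_div_mul_eq_div, div_le_div_iff₀ (by positivity) (by norm_num)]
    nlinarith
  -- termwise bound
  have hterm : ∀ v : List (Fin (a + 1)),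
      ENNReal.ofReal (vac (i :: v) [] ^ 2 / ((v.map σ).prod * D ^ (v.length + 1))) ≤
        ENNReal.ofReal (5 * √(a : ℝ) / D) * (ENNReal.ofReal (t ^ v.length) * W b (vac v)) := by
    intro v
    have h1 : vac (i :: v) [] ^ 2 / ((v.map σ).prod * D ^ (v.length + 1)) ≤
        (1 / D * t ^ v.length) * vac (i :: v) [] ^ 2 := by
      have h2 := pow_le_prod (by positivity) σ hσ v
      have h3 : 0 < (11 * √(a : ℝ)) ^ v.length := by positivity
      calc vac (i :: v) [] ^ 2 / ((v.map σ).prod * D ^ (v.length + 1))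
          ≤ vac (i :: v) [] ^ 2 / ((11 * √(a : ℝ)) ^ v.length * D ^ (v.length + 1)) := by
            gcongr
        _ = (1 / D * t ^ v.length) * vac (i :: v) [] ^ 2 := by
            rw [ht, div_pow, one_pow, mul_pow (11 * √(a : ℝ)) D, pow_succ D]
            field_simp
    have h4 : ENNReal.ofReal (vac (i :: v) [] ^ 2) ≤
        ENNReal.ofReal (5 * √(a : ℝ)) * W b (vac v) := by
      refine (sq_le_W b _).trans (le_trans ?_ (sum_W_le (by omega) v))
      exact Finset.single_le_sum (f := fun j => W b (vac (j :: v))) (fun _ _ => zero_le)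
        (Finset.mem_univ i)
    calc ENNReal.ofReal (vac (i :: v) [] ^ 2 / ((v.map σ).prod * D ^ (v.length + 1)))
        ≤ ENNReal.ofReal ((1 / D * t ^ v.length) * vac (i :: v) [] ^ 2) :=
          ENNReal.ofReal_le_ofReal h1
      _ = ENNReal.ofReal (1 / D * t ^ v.length) * ENNReal.ofReal (vac (i :: v) [] ^ 2) := by
          rw [ENNReal.ofReal_mul (by positivity)]
      _ ≤ ENNReal.ofReal (1 / D * t ^ v.length) *
          (ENNReal.ofReal (5 * √(a : ℝ)) * W b (vac v)) := by gcongr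
      _ = ENNReal.ofReal (5 * √(a : ℝ) / D) * (ENNReal.ofReal (t ^ v.length) * W b (vac v)) := by
          rw [ENNReal.ofReal_mul (show 0 ≤ 1 / D by positivity),
            div_eq_mul_one_div (5 * √(a : ℝ)) D,
            ENNReal.ofReal_mul (show 0 ≤ 5 * √(a : ℝ) by positivity)]
          ring
  set N : ℕ := F.sup List.length with hN
  have hsum : ∑ v ∈ F, ENNReal.ofReal (t ^ v.length) * W b (vac v) ≤ 2 := by
    refine le_trans ?_ (Z_le (by omega) ht0.le htb N)
    unfold Z
    refine le_trans (le_of_eq ?_) (ENNReal.sum_le_tsum F)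
    apply Finset.sum_congr rfl
    intro v hv
    have : v.length ≤ N := Finset.le_sup (f := List.length) hv
    rw [if_pos this]
  have hnn : ∀ v ∈ F, 0 ≤ vac (i :: v) [] ^ 2 / ((v.map σ).prod * D ^ (v.length + 1)) := by
    intro v _
    have h2 := pow_le_prod (by positivity) σ hσ v
    have h3 : 0 < (11 * √(a : ℝ)) ^ v.length := by positivity
    have h4 : 0 < (v.map σ).prod := lt_of_lt_of_le h3 h2
    positivity
  have hfin : ENNReal.ofReal (∑ v ∈ F, vac (i :: v) [] ^ 2 /
      ((v.map σ).prod * D ^ (v.length + 1))) ≤ ENNReal.ofReal (20 * √(a : ℝ)) := by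
    rw [ENNReal.ofReal_sum_of_nonneg hnn]
    calc ∑ v ∈ F, ENNReal.ofReal (vac (i :: v) [] ^ 2 / ((v.map σ).prod * D ^ (v.length + 1)))
        ≤ ∑ v ∈ F, ENNReal.ofReal (5 * √(a : ℝ) / D) *
          (ENNReal.ofReal (t ^ v.length) * W b (vac v)) := Finset.sum_le_sum fun v _ => hterm v
      _ = ENNReal.ofReal (5 * √(a : ℝ) / D) *
          ∑ v ∈ F, ENNReal.ofReal (t ^ v.length) * W b (vac v) := by rw [Finset.mul_sum]
      _ ≤ ENNReal.ofReal (5 * √(a : ℝ) / D) * 2 := by gcongr
      _ = ENNReal.ofReal (5 * √(a : ℝ) / D * 2) := by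
          rw [ENNReal.ofReal_mul (by positivity)]; simp
      _ ≤ ENNReal.ofReal (20 * √(a : ℝ)) := by
          apply ENNReal.ofReal_le_ofReal
          rw [div_mul_eq_mul_div, div_le_iff₀ hD0]
          nlinarith
  exact (ENNReal.ofReal_le_ofReal_iff (by positivity)).mp hfin

end Vale.Agent.P087
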