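import Vale.Agent.P087.Model
import Vale.Agent.P087.FockAbs

/-!
# [G2] The moments of the Fock model (P087)
-/

namespace Vale.Agent.P087

open scoped InnerProductSpace ENNReal

variable {H : Type} [NormedAddCommGroup H] [InnerProductSpace ℂ H]

namespace GModel

set_option linter.unusedSectionVars false

theorem L2_stable {ι : Type} (Ω : H) (y : ι → H →L[ℂ] H) (i : ι) :
    ∀ ψ ∈ L2 Ω y, y i ψ ∈ L2 Ω y := by
  intro ψ hψ
  have h1 : Set.MapsTo (y i)
      (Submodule.span ℂ (Set.range fun w : List ι => (w.map y).prod Ω) : Set H)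
      (Submodule.span ℂ (Set.range fun w : List ι => (w.map y).prod Ω) : Set H) := by
    intro φ hφ
    refine Submodule.span_induction (p := fun φ _ => y i φ ∈
      (Submodule.span ℂ (Set.range fun w : List ι => (w.map y).prod Ω) : Set H)) ?_ ?_ ?_ ?_ hφ
    · rintro _ ⟨w, rfl⟩
      apply Submodule.subset_span
      exact ⟨i :: w, by simp⟩
    · simp
    · intro u v _ _ hu hv
      rw [map_add]; exact Submodule.add_mem _ hu hv
    · intro c u _ hu
      rw [map_smul]; exact Submodule.smul_mem _ _ hu
  exact map_mem_closure (y i).continuous hψ h1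

/-- relations of the corner creation operators -/
structure CRel {a : ℕ} {C : Type} [DecidableEq C] [CompleteSpace H] (Ω : H)
    (x : Fin (a + 1) → H →L[ℂ] H) (l : C → H →L[ℂ] H) (L : Fin a → H →L[ℂ] H) (δ : ℂ) :
    Prop where
  fock : FockRel Ω x l
  ee : x 0 * x 0 = x 0
  ex : ∀ i : Fin a, x 0 * x i.succ = x i.succ
  Le : ∀ i, star (L i) * x 0 = star (L i)
  LL : ∀ i j, star (L i) * L j = if i = j then x 0 else 0
  Ll : ∀ i c, star (L i) * l c = 0
  LΩ : ∀ i, star (L i) Ω = 0
  xs : ∀ i : Fin a, x i.succ = L i + star (L i)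
  he : moment Ω x [0] = δ
  hδ : δ ≠ 0

section
variable {a : ℕ} {C : Type} [DecidableEq C] [CompleteSpace H] {Ω : H}
  {x : Fin (a + 1) → H →L[ℂ] H} {l : C → H →L[ℂ] H} {L : Fin a → H →L[ℂ] H} {δ : ℂ}


theorem W_cons (z : Fin (a + 1) ⊕ C) (w : List (Fin (a + 1) ⊕ C)) :
    ((List.map (lett x l) ((z :: w))).prod Ω) = lett x l z ((List.map (lett x l) w).prod Ω) := by
  rw [List.map_cons, List.prod_cons, mul_apply_eq_comp]

theorem tau_ee (h : CRel Ω x l L δ) (P : List (Fin (a + 1) ⊕ C)) :
    moment Ω (lett x l) (.inl 0 :: .inl 0 :: P) = moment Ω (lett x l) (.inl 0 :: P) := by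
  unfold moment
  simp only [List.map_cons, List.prod_cons, ← mul_assoc]
  change ⟪Ω, (x 0 * x 0 * _) Ω⟫_ℂ = ⟪Ω, (x 0 * _) Ω⟫_ℂ
  rw [h.ee]

theorem tau_ex (h : CRel Ω x l L δ) (i : Fin a) (P : List (Fin (a + 1) ⊕ C)) :
    moment Ω (lett x l) (.inl 0 :: .inl i.succ :: P) = moment Ω (lett x l) (.inl i.succ :: P) := by
  unfold moment
  simp only [List.map_cons, List.prod_cons, ← mul_assoc]
  change ⟪Ω, (x 0 * x i.succ * _) Ω⟫_ℂ = ⟪Ω, (x i.succ * _) Ω⟫_ℂ
  rw [h.ex]

theorem inner_star {A : H →L[ℂ] H} (φ ψ : H) : ⟪φ, A ψ⟫_ℂ = ⟪star A φ, ψ⟫_ℂ := by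
  rw [ContinuousLinearMap.star_eq_adjoint, ContinuousLinearMap.adjoint_inner_left]

theorem inner_star' {A : H →L[ℂ] H} (φ ψ : H) : ⟪φ, star A ψ⟫_ℂ = ⟪A φ, ψ⟫_ℂ := by
  rw [ContinuousLinearMap.star_eq_adjoint, ContinuousLinearMap.adjoint_inner_right]

theorem inner_list_sum {α : Type} (Q : List α) (f : α → H) (φ : H) :
    ⟪φ, (Q.map f).sum⟫_ℂ = (Q.map fun p => ⟪φ, f p⟫_ℂ).sum := by
  induction Q with
  | nil => simp
  | cons p Q ih => simp [ih]

theorem smul_list_sum {α : Type} (Q : List α) (f : α → H) (z : ℂ) :
    z • (Q.map f).sum = (Q.map fun p => z • f p).sum := by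
  induction Q with
  | nil => simp
  | cons p Q ih => simp [smul_add, ih]

theorem list_sum_smul' {α : Type} (Q : List α) (f : α → ℂ) (φ : H) :
    (Q.map f).sum • φ = (Q.map fun p => f p • φ).sum := by
  induction Q with
  | nil => simp
  | cons p Q ih => simp [add_smul, ih]

theorem tau_s (h : CRel Ω x l L δ) (c : C) (P : List (Fin (a + 1) ⊕ C)) :
    moment Ω (lett x l) (.inr c :: P) = ((splits (.inr c) P).map fun p => moment Ω (lett x l) p.1 * moment Ω (lett x l) p.2).sum := by
  have h0 : star (l c) Ω = 0 := by simpa using h.fock.vac c []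
  have h1 : moment Ω (lett x l) (.inr c :: P) = ⟪Ω, l c ((List.map (lett x l) P).prod Ω)⟫_ℂ + ⟪Ω, star (l c) ((List.map (lett x l) P).prod Ω)⟫_ℂ := by
    unfold moment
    rw [W_cons, ← inner_add_right]
    rfl
  rw [h1, inner_star, h0, inner_zero_left, zero_add, h.fock.D, inner_list_sum]
  congr 1
  apply List.map_congr_left
  intro p _
  rw [inner_smul_right]
  rfl

theorem tau_es (h : CRel Ω x l L δ) (c : C) (P : List (Fin (a + 1) ⊕ C)) :
    moment Ω (lett x l) (.inl 0 :: .inr c :: P) =
      ((splits (.inr c) P).map fun p => moment Ω (lett x l) p.1 * moment Ω (lett x l) (.inl 0 :: p.2)).sum := by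
  have h0 : star (l c) (x 0 Ω) = 0 := by simpa using h.fock.vac c [0]
  have hx0 : star (x 0) = x 0 := h.fock.sa 0
  have h1 : moment Ω (lett x l) (.inl 0 :: .inr c :: P) =
      ⟪x 0 Ω, l c ((List.map (lett x l) P).prod Ω)⟫_ℂ + ⟪x 0 Ω, star (l c) ((List.map (lett x l) P).prod Ω)⟫_ℂ := by
    unfold moment
    rw [W_cons, W_cons, ← inner_add_right]
    change ⟪Ω, x 0 _⟫_ℂ = _
    rw [inner_star, hx0]
    rfl
  rw [h1, inner_star, h0, inner_zero_left, zero_add, h.fock.D, inner_list_sum]
  congr 1
  apply List.map_congr_left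
  intro p _
  rw [inner_smul_right]
  congr 1
  unfold moment
  rw [W_cons]
  change _ = ⟪Ω, x 0 _⟫_ℂ
  rw [inner_star (A := x 0), hx0]

variable (Ω x l L δ) in
/-- the formula for the corner annihilation operator on the word `w` -/
def Claim (w : List (Fin (a + 1) ⊕ C)) : Prop :=
  ∀ i : Fin a, star (L i) ((List.map (lett x l) w).prod Ω) =
    ((splits (.inl i.succ) w).map fun p => (δ⁻¹ * moment Ω (lett x l) (.inl 0 :: p.1)) • ((List.map (lett x l) ((.inl 0 :: p.2))).prod Ω)).sum

theorem tau_x (h : CRel Ω x l L δ) (w : List (Fin (a + 1) ⊕ C)) (hw : Claim Ω x l L δ w)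
    (i : Fin a) :
    moment Ω (lett x l) (.inl i.succ :: w) = δ⁻¹ * ((splits (.inl i.succ) w).map fun p =>
      moment Ω (lett x l) (.inl 0 :: p.1) * moment Ω (lett x l) (.inl 0 :: p.2)).sum := by
  have h1 : moment Ω (lett x l) (.inl i.succ :: w) = ⟪Ω, L i ((List.map (lett x l) w).prod Ω)⟫_ℂ + ⟪Ω, star (L i) ((List.map (lett x l) w).prod Ω)⟫_ℂ := by
    unfold moment
    rw [W_cons, ← inner_add_right]
    change ⟪Ω, x i.succ _⟫_ℂ = _
    rw [h.xs]
    rfl
  rw [h1, inner_star, h.LΩ, inner_zero_left, zero_add, hw i, inner_list_sum,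
    ← List.sum_map_mul_left]
  congr 1
  apply List.map_congr_left
  intro p _
  rw [inner_smul_right, mul_assoc]
  rfl

theorem len_left {j : Fin (a + 1) ⊕ C} {w : List (Fin (a + 1) ⊕ C)}
    {p : List (Fin (a + 1) ⊕ C) × List (Fin (a + 1) ⊕ C)} (h : p ∈ splits j w) :
    p.1.length < w.length ∧ p.2.length < w.length := by
  rw [mem_splits] at h
  rw [h]
  simp
  omega

theorem claim_all (h : CRel Ω x l L δ) (N : ℕ) :
    ∀ w : List (Fin (a + 1) ⊕ C), w.length ≤ N → Claim Ω x l L δ w := by
  induction N with
  | zero =>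
    intro w hw i
    have : w = [] := List.length_eq_zero_iff.1 (by omega)
    subst this
    simp [splits, h.LΩ]
  | succ N ih =>
    intro w hw i
    cases w with
    | nil => simp [splits, h.LΩ]
    | cons z w =>
      have hw1 : w.length ≤ N := by simpa using hw
      have hE : ∀ ψ, star (L i) (x 0 ψ) = star (L i) ψ := fun ψ => by
        have := congrArg (fun A => A ψ) (h.Le i)
        simpa using this
      have hEW : ∀ v, star (L i) ((List.map (lett x l) ((.inl 0 :: v))).prod Ω) = star (L i) ((List.map (lett x l) v).prod Ω) := fun v => by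
        rw [W_cons]; exact hE _
      rw [W_cons, sum_splits_cons]
      rcases z with j | c
      · revert hw
        refine Fin.cases ?_ (fun j => ?_) j
        · intro _
          change star (L i) (x 0 ((List.map (lett x l) w).prod Ω)) = _
          rw [hE, ih w hw1 i, if_neg (by simp [Fin.ext_iff]), zero_add]
          congr 1
          apply List.map_congr_left
          intro p _
          rw [tau_ee h]
        · intro _
          change star (L i) (x j.succ ((List.map (lett x l) w).prod Ω)) = _
          have e1 : star (L i) (x j.succ ((List.map (lett x l) w).prod Ω)) = (if i = j then ((List.map (lett x l) ((.inl 0 :: w))).prod Ω) else 0) +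
              star (L i) (star (L j) ((List.map (lett x l) w).prod Ω)) := by
            rw [h.xs, add_apply, map_add]
            congr 1
            have := congrArg (fun A => A ((List.map (lett x l) w).prod Ω)) (h.LL i j)
            simp only [mul_apply_eq_comp] at this
            rw [this]
            split_ifs
            · rw [W_cons]; rfl
            · rfl
          rw [e1, ih w hw1 j, FockAbsAux.list_sum_apply]
          have e2 : ((splits (.inl j.succ) w).map fun p =>
              star (L i) ((δ⁻¹ * moment Ω (lett x l) (.inl 0 :: p.1)) • ((List.map (lett x l) ((.inl 0 :: p.2))).prod Ω))) =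
              ((splits (.inl j.succ) w).map fun p => ((splits (.inl i.succ) p.2).map fun q =>
                ((δ⁻¹ * moment Ω (lett x l) (.inl 0 :: p.1)) * (δ⁻¹ * moment Ω (lett x l) (.inl 0 :: q.1))) •
                  ((List.map (lett x l) ((.inl 0 :: q.2))).prod Ω)).sum) := by
            apply List.map_congr_left
            intro p hp
            rw [map_smul, hEW, ih p.2 (by have := len_left hp; omega) i, smul_list_sum]
            congr 1
            apply List.map_congr_left
            intro q _
            rw [smul_smul]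
          rw [e2, splits_assoc (.inl j.succ) (.inl i.succ) w (fun A B D =>
            ((δ⁻¹ * moment Ω (lett x l) (.inl 0 :: A)) * (δ⁻¹ * moment Ω (lett x l) (.inl 0 :: B))) • ((List.map (lett x l) ((.inl 0 :: D))).prod Ω))]
          congr 1
          · by_cases hij : i = j
            · subst hij
              rw [if_pos rfl, if_pos rfl]
              have : moment Ω (lett x l) [.inl 0] = δ := by rw [← h.he]; rfl
              rw [this, inv_mul_cancel₀ h.hδ, one_smul]
            · have hij' : ¬ ((Sum.inl j.succ : Fin (a + 1) ⊕ C) = Sum.inl i.succ) := by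
                intro e
                apply hij
                simpa [Fin.ext_iff, eq_comm] using e
              rw [if_neg hij, if_neg hij']
          · congr 1
            apply List.map_congr_left
            intro p hp
            rw [tau_ex h, tau_x h p.1 (ih p.1 (by have := len_left hp; omega)) j,
              ← List.sum_map_mul_left, ← List.sum_map_mul_left, list_sum_smul']
            congr 1
            apply List.map_congr_left
            intro q _
            congr 1
            ring
      · rw [if_neg (by simp), zero_add]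
        have e1 : star (L i) (lett x l (.inr c) ((List.map (lett x l) w).prod Ω)) = star (L i) (star (l c) ((List.map (lett x l) w).prod Ω)) := by
          change star (L i) ((l c + star (l c)) ((List.map (lett x l) w).prod Ω)) = _
          rw [add_apply, map_add]
          have := congrArg (fun A => A ((List.map (lett x l) w).prod Ω)) (h.Ll i c)
          simp only [mul_apply_eq_comp] at this
          rw [this]
          simp
        rw [e1, h.fock.D, FockAbsAux.list_sum_apply]
        have e2 : ((splits (.inr c) w).map fun p => star (L i) (moment Ω (lett x l) p.1 • ((List.map (lett x l) (p.2)).prod Ω))) =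
            ((splits (.inr c) w).map fun p => ((splits (.inl i.succ) p.2).map fun q =>
              (moment Ω (lett x l) p.1 * (δ⁻¹ * moment Ω (lett x l) (.inl 0 :: q.1))) • ((List.map (lett x l) ((.inl 0 :: q.2))).prod Ω)).sum) := by
          apply List.map_congr_left
          intro p hp
          rw [map_smul, ih p.2 (by have := len_left hp; omega) i, smul_list_sum]
          congr 1
          apply List.map_congr_left
          intro q _
          rw [smul_smul]
        rw [e2, splits_assoc (.inr c) (.inl i.succ) w (fun A B D =>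
          (moment Ω (lett x l) A * (δ⁻¹ * moment Ω (lett x l) (.inl 0 :: B))) • ((List.map (lett x l) ((.inl 0 :: D))).prod Ω))]
        congr 1
        apply List.map_congr_left
        intro p hp
        rw [tau_es h, ← List.sum_map_mul_left, list_sum_smul']
        congr 1
        apply List.map_congr_left
        intro q _
        congr 1
        ring

end

end GModel

/-- existence of the concrete Fock model -/
theorem model_exists (a : ℕ) (ha : 2 ≤ a) (C : Type) [Fintype C] [DecidableEq C] :
    ∃ (H : Type) (_ : NormedAddCommGroup H) (_ : InnerProductSpace ℂ H) (_ : CompleteSpace H)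
      (Ω : H) (x : Fin (a + 1) → H →L[ℂ] H) (l : C → H →L[ℂ] H),
      FockRel Ω x l ∧ x 0 * x 0 = x 0 ∧ (∀ i : Fin a, x 0 * x i.succ = x i.succ) ∧
      (∀ i : Fin a, ‖x i.succ‖ ≤ 2) ∧
      (∀ v : List (Fin (a + 1)), v ≠ [] → moment Ω x v = ((1 / (a : ℝ) * vac v [] : ℝ) : ℂ)) ∧
      IsLaw (1 / (a : ℝ)) (moment Ω (lett x l)) ∧
      L2 Ω (lett x l) = ⊤ := by
  have hA : (2 : ℝ) ≤ a := by exact_mod_cast ha
  have hrel : GModel.CRel (GModel.Om a C) (GModel.xx a (GModel.Rt a C)) (GModel.ll (C := C) ha)
      (GModel.Lo a (GModel.Rt a C)) (((1 / (a : ℝ) : ℝ)) : ℂ) :=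
    { fock := GModel.fockRel ha
      ee := GModel.ee_mul_ee
      ex := GModel.ee_mul_xx
      Le := fun i => by
        have := congrArg star (GModel.ee_mul_Lo (ρ := GModel.Rt a C) i)
        rw [star_mul, GModel.star_ee] at this
        exact this
      LL := GModel.sLo_mul_Lo
      Ll := GModel.sLo_ll ha
      LΩ := GModel.sLo_Om
      xs := GModel.xx_succ
      he := by
        rw [GModel.moment_xx ha [0] (by simp)]
        have : vac ([0] : List (Fin (a + 1))) [] = 1 := by simp [vac]
        rw [this, mul_one]
      hδ := by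
        rw [Complex.ofReal_ne_zero]
        positivity }
  refine ⟨_, inferInstance, inferInstance, inferInstance, GModel.Om a C,
    GModel.xx a (GModel.Rt a C), GModel.ll ha, hrel.fock, hrel.ee, hrel.ex, GModel.norm_xx,
    GModel.moment_xx ha, ?_, ?_⟩
  · refine ⟨?_, ?_, GModel.tau_ee hrel, GModel.tau_ex hrel, GModel.tau_s hrel,
      GModel.tau_es hrel, ?_⟩
    · have h := hrel.fock.norm_Ω
      have h2 : ⟪GModel.Om a C, GModel.Om a C⟫_ℂ = 1 := by
        rw [inner_self_eq_norm_sq_to_K, h]; simp
      simpa [moment] using h2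
    · rw [← hrel.he]; rfl
    · intro i P
      rw [GModel.tau_x hrel P (GModel.claim_all hrel P.length P le_rfl) i]
  · apply GModel.cyclic ha
    · exact Submodule.isClosed_topologicalClosure _
    · apply Submodule.le_topologicalClosure
      apply Submodule.subset_span
      exact ⟨[], rfl⟩
    · intro j ψ hψ
      exact GModel.L2_stable _ (lett (GModel.xx a (GModel.Rt a C)) (GModel.ll ha)) (.inl j) ψ hψ
    · intro c ψ hψ
      exact GModel.L2_stable _ (lett (GModel.xx a (GModel.Rt a C)) (GModel.ll ha)) (.inr c) ψ hψ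

end Vale.Agent.P087
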