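import Vale.Agent.P087.UpDefs

/-!
# The numerical comparison (P087)
-/

namespace Vale.Agent.P087

open Filter

namespace NumericAux

lemma main_ineq {q : ℝ} (hq : 4000 ≤ q) {L : ℝ} (hL : L ≤ 4 * q) :
    15 / (q ^ 4) ^ 2 + 26 / q ^ 4 + 16 / q ^ 4 + 18 / q ^ 4 * L <
      (1 / 2) * (1 - 20 / q ^ 2) / (1 + 11 * q ^ 2) := by
  have hq0 : 0 < q := by linarith
  have h1 : 15 / (q ^ 4) ^ 2 ≤ 15 / q ^ 4 := by
    apply div_le_div_of_nonneg_left (by norm_num) (by positivity)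
    have : 1 ≤ q ^ 4 := one_le_pow₀ (by linarith)
    nlinarith
  have h2 : 18 / q ^ 4 * L ≤ 18 / q ^ 4 * (4 * q) := by gcongr
  have h3 : 15 / q ^ 4 + 26 / q ^ 4 + 16 / q ^ 4 + 18 / q ^ 4 * (4 * q) = (57 + 72 * q) / q ^ 4 := by
    ring
  have h4 : (57 + 72 * q) / q ^ 4 < 1 / (48 * q ^ 2) := by
    rw [div_lt_div_iff₀ (by positivity) (by positivity)]
    have h5 : (57 + 72 * q) * 48 < q ^ 2 := by nlinarith
    have h6 : 0 < q ^ 2 := by positivity
    nlinarith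
  have h7 : 1 / (48 * q ^ 2) ≤ (1 / 2) * (1 - 20 / q ^ 2) / (1 + 11 * q ^ 2) := by
    have h8 : 20 / q ^ 2 ≤ 1 / 2 := by
      rw [div_le_div_iff₀ (by positivity) (by norm_num)]
      nlinarith
    have h9 : 1 ≤ q ^ 2 := one_le_pow₀ (by linarith)
    calc 1 / (48 * q ^ 2) = (1 / 2) * (1 / 2) / (12 * q ^ 2) := by ring
      _ ≤ (1 / 2) * (1 - 20 / q ^ 2) / (1 + 11 * q ^ 2) := by
        gcongr
        · linarith
        · linarith
        · linarith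
  linarith

end NumericAux

theorem Uup_lt_Llow : ∀ᶠ a : ℕ in atTop, Uup a < Llow a := by
  filter_upwards [eventually_ge_atTop (4000 ^ 4)] with a ha
  have ha1 : (4000:ℝ) ^ 4 ≤ a := by exact_mod_cast ha
  have ha0 : (0:ℝ) < a := lt_of_lt_of_le (by norm_num) ha1
  set q : ℝ := √(√(a : ℝ)) with hq
  have hq2 : √(a : ℝ) = q ^ 2 := (Real.sq_sqrt (Real.sqrt_nonneg _)).symm
  have hq4 : (a : ℝ) = q ^ 4 := by
    rw [show q ^ 4 = (q ^ 2) ^ 2 by ring, ← hq2, Real.sq_sqrt ha0.le]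
  have hq0 : 0 ≤ q := Real.sqrt_nonneg _
  have hqb : 4000 ≤ q := by
    by_contra hc
    push Not at hc
    have : q ^ 4 < 4000 ^ 4 := pow_lt_pow_left₀ hc hq0 (by norm_num)
    linarith
  have hqpos : 0 < q := by linarith
  have hL : Real.log a ≤ 4 * q := by
    rw [hq4, Real.log_pow]
    have := Real.log_le_sub_one_of_pos hqpos
    push_cast
    linarith
  have hmain := NumericAux.main_ineq hqb hL
  have e1 : Real.log (2 * Real.pi * Real.exp 1 * (1 / (a : ℝ) ^ 4)) =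
      Real.log (2 * Real.pi * (1 / (a : ℝ) ^ 4)) + 1 := by
    rw [show 2 * Real.pi * Real.exp 1 * (1 / (a : ℝ) ^ 4) =
      (2 * Real.pi * (1 / (a : ℝ) ^ 4)) * Real.exp 1 by ring,
      Real.log_mul (by positivity) (Real.exp_pos _).ne', Real.log_exp]
  have e2 : Real.log (2 * Real.pi * Real.exp 1) = Real.log (2 * Real.pi) + 1 := by
    rw [Real.log_mul (by positivity) (Real.exp_pos _).ne', Real.log_exp]
  have e3 : Real.log (5 * (a : ℝ) ^ 4) = Real.log 5 + 4 * Real.log a := by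
    rw [Real.log_mul (by norm_num) (by positivity), Real.log_pow]
    norm_num
  have e4 : Real.log 5 ≤ 4 := by
    have := Real.log_le_sub_one_of_pos (show (0:ℝ) < 5 by norm_num)
    linarith
  have e5 : (a / 2 : ℝ) * ((1 / (a : ℝ)) - (1 / (a : ℝ)) ^ 2 * (20 * √(a : ℝ))) /
      (1 + 11 * √(a : ℝ)) = (1 / 2) * (1 - 20 / q ^ 2) / (1 + 11 * q ^ 2) := by
    rw [hq2, hq4]
    congr 1
    field_simp
  have e6 : (4 / (a : ℝ)) * Real.log 5 ≤ 16 / q ^ 4 := by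
    rw [hq4]
    calc 4 / q ^ 4 * Real.log 5 ≤ 4 / q ^ 4 * 4 := by gcongr
      _ = 16 / q ^ 4 := by ring
  have e7 : Uup a = (4 / (a : ℝ)) * Real.log 5 + 15 / (q ^ 4) ^ 2 + 26 / q ^ 4 +
      18 / q ^ 4 * Real.log a + 1 / 2 + (1 / 2) * Real.log (2 * Real.pi * (1 / (a : ℝ) ^ 4)) +
      a * (1 / 2) + a * ((1 / 2) * Real.log (2 * Real.pi)) := by
    unfold Uup
    rw [e3]
    have hane : (a : ℝ) ≠ 0 := ha0.ne'
    rw [← hq4]
    field_simp
    ring
  have e8 : Llow a = 1 / 2 + (1 / 2) * Real.log (2 * Real.pi * (1 / (a : ℝ) ^ 4)) +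
      a * (1 / 2) + a * ((1 / 2) * Real.log (2 * Real.pi)) +
      (1 / 2) * (1 - 20 / q ^ 2) / (1 + 11 * q ^ 2) := by
    unfold Llow
    rw [e1, e2, e5]
    ring
  rw [e7, e8]
  linarith

end Vale.Agent.P087
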