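import Vale.Agent.P087.Splits
import Vale.Agent.P087.FockAbs

/-! # [F] PhiBound.lean : upper bound of the free Fisher information (P087) -/

namespace Vale.Agent.P087

open scoped InnerProductSpace ENNReal Topology
open MeasureTheory Filter ProbabilityTheory

variable {H : Type} [NormedAddCommGroup H] [InnerProductSpace ℂ H]

namespace PhiAux

variable [CompleteSpace H] {n : ℕ}

/-- the noisy variables -/
noncomputable def Z (x l : Fin n → H →L[ℂ] H) (σ : Fin n → ℝ) : Fin n → H →L[ℂ] H :=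
  fun j => x j + ((√(σ j) : ℝ) : ℂ) • (l j + star (l j))

omit [CompleteSpace H] in
theorem word_mem (Ω : H) (y : Fin n → H →L[ℂ] H) (w : List (Fin n)) :
    (w.map y).prod Ω ∈ L2 Ω y :=
  Submodule.le_topologicalClosure _ (Submodule.subset_span ⟨w, rfl⟩)

theorem star_vac {Ω : H} {x l : Fin n → H →L[ℂ] H} (h : FockRel Ω x l) (j : Fin n) :
    star (l j) Ω = 0 := by
  simpa using h.vac j []

theorem norm_l_vac {Ω : H} {x l : Fin n → H →L[ℂ] H} (h : FockRel Ω x l) (j : Fin n) :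
    ‖l j Ω‖ = 1 := by
  have h1 := h.rel j j []
  simp only [List.map_nil, List.prod_nil, mul_one, if_true] at h1
  have h2 : moment Ω x [] = 1 := by
    simp [moment, h.norm_Ω]
  rw [h2, one_smul] at h1
  have h3 : ⟪l j Ω, l j Ω⟫_ℂ = 1 := by
    rw [← ContinuousLinearMap.adjoint_inner_right]
    have : (ContinuousLinearMap.adjoint (l j)) ((l j) Ω) = (star (l j) * l j) Ω := rfl
    rw [this, h1]
    simp [h.norm_Ω]
  have h4 : ‖l j Ω‖ ^ 2 = 1 := by
    rw [← inner_self_eq_norm_sq (𝕜 := ℂ) (l j Ω), h3]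
    simp
  nlinarith [norm_nonneg (l j Ω)]

end PhiAux

open PhiAux

theorem phi_bound [CompleteSpace H] {n : ℕ} {Ω : H} {x l : Fin n → H →L[ℂ] H} (h : FockRel Ω x l)
    (σ : Fin n → ℝ) (hσ : ∀ j, 0 < σ j) (β : Fin n → ℝ)
    (hβ : ∀ j, ∀ ψ ∈ L2 Ω (fun j => x j + ((√(σ j) : ℝ) : ℂ) • (l j + star (l j))),
      ‖⟪x j Ω, ψ⟫_ℂ‖ ^ 2 ≤ β j * ‖ψ‖ ^ 2) :
    phiStar Ω (fun j => x j + ((√(σ j) : ℝ) : ℂ) • (l j + star (l j))) ≤
      ENNReal.ofReal (∑ j, (1 / σ j - (‖x j Ω‖ ^ 2 - β j) / σ j ^ 2)) := by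
  have hs : ∀ j, √(σ j) ≠ 0 := fun j => (Real.sqrt_pos.2 (hσ j)).ne'
  have hsC : ∀ j, ((√(σ j) : ℝ) : ℂ) ≠ 0 := fun j => Complex.ofReal_ne_zero.2 (hs j)
  set K := L2 Ω (fun j => x j + ((√(σ j) : ℝ) : ℂ) • (l j + star (l j))) with hK
  have : CompleteSpace K := (Submodule.isClosed_topologicalClosure _).completeSpace_coe
  set P := K.starProjection with hP
  set Zσ : Fin n → H →L[ℂ] H := fun j => x j + ((√(σ j) : ℝ) : ℂ) • (l j + star (l j)) with hZ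
  have hZsa : ∀ j, IsSelfAdjoint (Zσ j) := by
    intro j
    refine (h.sa j).add ?_
    rw [IsSelfAdjoint, star_smul, star_add, star_star, add_comm]
    simp
  have hZΩ : ∀ j, Zσ j Ω = x j Ω + ((√(σ j) : ℝ) : ℂ) • l j Ω := by
    intro j
    simp [hZ, star_vac h j]
  -- the conjugate variables
  set ξ : Fin n → H := fun j => (((√(σ j))⁻¹ : ℝ) : ℂ) • P (l j Ω) with hξ
  have hconj : IsConj Ω Zσ ξ := by
    intro j
    refine ⟨K.smul_mem _ (Submodule.starProjection_apply_mem _ _), fun w => ?_⟩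
    have e1 : ⟪(w.reverse.map Zσ).prod Ω, ξ j⟫_ℂ =
        (((√(σ j))⁻¹ : ℝ) : ℂ) * ⟪star (l j) ((w.reverse.map Zσ).prod Ω), Ω⟫_ℂ := by
      rw [hξ]
      simp only
      rw [inner_smul_right, hP, ← Submodule.inner_starProjection_left_eq_right,
        Submodule.starProjection_eq_self_iff.2 (word_mem Ω Zσ _)]
      congr 1
      exact (ContinuousLinearMap.adjoint_inner_left (l j) _ _).symm
    rw [e1, h.D_Z (fun i => √(σ i)) w.reverse j]
    rw [inner_smul_left, Complex.conj_ofReal, ← mul_assoc]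
    have e2 : (((√(σ j))⁻¹ : ℝ) : ℂ) * ((√(σ j) : ℝ) : ℂ) = 1 := by
      rw [← Complex.ofReal_mul, inv_mul_cancel₀ (hs j), Complex.ofReal_one]
    rw [e2, one_mul]
    have e3 : ∀ L : List (List (Fin n) × List (Fin n)),
        ⟪(L.map fun p => moment Ω Zσ p.1 • (p.2.map Zσ).prod Ω).sum, Ω⟫_ℂ =
          (L.map fun p => moment Ω Zσ p.1.reverse * moment Ω Zσ p.2.reverse).sum := by
      intro L
      induction L with
      | nil => simp
      | cons p L ih =>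
        rw [List.map_cons, List.sum_cons, inner_add_left, ih, List.map_cons, List.sum_cons,
          inner_smul_left, moment_reverse hZsa, moment_reverse hZsa]
        congr 2
        rw [moment, inner_conj_symm]
    have e4 := ((splits_reverse j w).map fun p =>
      moment Ω Zσ p.1.reverse * moment Ω Zσ p.2.reverse).sum_eq
    rw [List.map_map] at e4
    have e5 := e3 (splits j w.reverse)
    refine e5.trans (e4.trans ?_)
    congr 1
    refine List.map_congr_left fun p _ => ?_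
    simp [mul_comm]
  refine (iInf₂_le ξ hconj).trans ?_
  rw [← ENNReal.ofReal_sum_of_nonneg fun j _ => by positivity]
  refine ENNReal.ofReal_le_ofReal (Finset.sum_le_sum fun j _ => ?_)
  -- the norms
  have hΩK : Ω ∈ K := by
    have := word_mem Ω Zσ []
    simpa using this
  have hβ0 : 0 ≤ β j := by
    have h1 := hβ j Ω hΩK
    rw [h.norm_Ω] at h1
    have h2 := sq_nonneg ‖⟪x j Ω, Ω⟫_ℂ‖
    linarith
  have hPx : ‖P (x j Ω)‖ ^ 2 ≤ β j := by
    have h1 := hβ j (P (x j Ω)) (Submodule.starProjection_apply_mem _ _)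
    have h2 : ⟪x j Ω, P (x j Ω)⟫_ℂ = ((‖P (x j Ω)‖ ^ 2 : ℝ) : ℂ) := by
      have h3 : P (P (x j Ω)) = P (x j Ω) :=
        Submodule.starProjection_eq_self_iff.2 (Submodule.starProjection_apply_mem _ _)
      rw [← h3, hP, ← Submodule.inner_starProjection_left_eq_right, ← hP, h3,
        inner_self_eq_norm_sq_to_K]
      norm_cast
    rw [h2, Complex.norm_real, Real.norm_eq_abs, sq_abs] at h1
    rcases eq_or_ne (‖P (x j Ω)‖ ^ 2) 0 with h0 | h0
    · rw [h0]; exact hβ0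
    · have h4 : 0 < ‖P (x j Ω)‖ ^ 2 := lt_of_le_of_ne (sq_nonneg _) (Ne.symm h0)
      rw [sq (‖P (x j Ω)‖ ^ 2)] at h1
      exact le_of_mul_le_mul_right h1 h4
  have hZK : Zσ j Ω ∈ K := by
    have := word_mem Ω Zσ [j]
    simpa using this
  have hPZ : P (Zσ j Ω) = Zσ j Ω := Submodule.starProjection_eq_self_iff.2 hZK
  have hQ : l j Ω - P (l j Ω) = -((((√(σ j))⁻¹ : ℝ) : ℂ) • (x j Ω - P (x j Ω))) := by
    rw [hZΩ, map_add, map_smul] at hPZ
    have h1 : ((√(σ j) : ℝ) : ℂ) • (l j Ω - P (l j Ω)) = -(x j Ω - P (x j Ω)) := by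
      rw [smul_sub, neg_sub, sub_eq_sub_iff_add_eq_add, ← hPZ.trans (add_comm _ _)]
    have h2 : (((√(σ j))⁻¹ : ℝ) : ℂ) • (((√(σ j) : ℝ) : ℂ) • (l j Ω - P (l j Ω))) =
        l j Ω - P (l j Ω) := by
      rw [smul_smul, ← Complex.ofReal_mul, inv_mul_cancel₀ (hs j), Complex.ofReal_one, one_smul]
    rw [← h2, h1, smul_neg]
  have hp1 := K.norm_sq_eq_add_norm_sq_starProjection (l j Ω)
  have hp2 := K.norm_sq_eq_add_norm_sq_starProjection (x j Ω)
  rw [Submodule.starProjection_orthogonal_val, ← hP] at hp1 hp2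
  rw [hQ, norm_neg, norm_smul, norm_l_vac h j] at hp1
  have hn : ‖(((√(σ j))⁻¹ : ℝ) : ℂ)‖ ^ 2 = (σ j)⁻¹ := by
    rw [Complex.norm_real, Real.norm_eq_abs, sq_abs, inv_pow, Real.sq_sqrt (hσ j).le]
  have hξn : ‖ξ j‖ ^ 2 = (σ j)⁻¹ * ‖P (l j Ω)‖ ^ 2 := by
    rw [hξ]
    simp only
    rw [norm_smul, mul_pow, hn]
  rw [mul_pow, hn] at hp1
  have hσj := hσ j
  rw [hξn]
  have h5 : ‖P (l j Ω)‖ ^ 2 = 1 - (σ j)⁻¹ * (‖x j Ω‖ ^ 2 - ‖P (x j Ω)‖ ^ 2) := by
    have h8 : ‖x j Ω‖ ^ 2 - ‖P (x j Ω)‖ ^ 2 = ‖x j Ω - P (x j Ω)‖ ^ 2 := by linarith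
    rw [h8]
    linarith
  rw [h5]
  have h6 : (σ j)⁻¹ * (1 - (σ j)⁻¹ * (‖x j Ω‖ ^ 2 - ‖P (x j Ω)‖ ^ 2)) =
      1 / σ j - (‖x j Ω‖ ^ 2 - ‖P (x j Ω)‖ ^ 2) / σ j ^ 2 := by
    field_simp
  rw [h6]
  have h7 : (‖x j Ω‖ ^ 2 - β j) / σ j ^ 2 ≤ (‖x j Ω‖ ^ 2 - ‖P (x j Ω)‖ ^ 2) / σ j ^ 2 := by
    gcongr
  linarith

end Vale.Agent.P087
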