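import Vale.Agent.P087.UpDefs

/-!
# [Q] Microstates of the counterexample almost contain a projection (P087)
-/

namespace Vale.Agent.P087

open scoped InnerProductSpace ENNReal Topology
open MeasureTheory Filter ProbabilityTheory

namespace MatIneqAux

variable {m n k : ℕ}

/-- a matrix as a vector -/
noncomputable def vec (A : Matrix (Fin m) (Fin n) ℂ) : EuclideanSpace ℂ (Fin m × Fin n) :=
  WithLp.toLp 2 fun p => A p.1 p.2

theorem vec_add (A B : Matrix (Fin m) (Fin n) ℂ) : vec (A + B) = vec A + vec B := by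
  ext p; simp [vec]

theorem norm_vec_sq (A : Matrix (Fin m) (Fin n) ℂ) : ‖vec A‖ ^ 2 = frob A := by
  rw [EuclideanSpace.norm_sq_eq, Fintype.sum_prod_type]
  rfl

theorem frob_nonneg (A : Matrix (Fin m) (Fin n) ℂ) : 0 ≤ frob A := by
  rw [← norm_vec_sq]; positivity

theorem norm_vec (A : Matrix (Fin m) (Fin n) ℂ) : ‖vec A‖ = √(frob A) := by
  rw [← norm_vec_sq, Real.sqrt_sq (norm_nonneg _)]

theorem inner_vec (A B : Matrix (Fin m) (Fin n) ℂ) :
    ⟪vec A, vec B⟫_ℂ = (A.conjTranspose * B).trace := by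
  simp only [PiLp.inner_apply, vec, RCLike.inner_apply, Matrix.trace, Matrix.diag_apply,
    Matrix.mul_apply, Matrix.conjTranspose_apply, Fintype.sum_prod_type]
  rw [Finset.sum_comm]
  refine Finset.sum_congr rfl fun i _ => Finset.sum_congr rfl fun j _ => ?_
  rw [mul_comm]
  rfl

theorem trace_eq_frob (A : Matrix (Fin m) (Fin n) ℂ) :
    (A.conjTranspose * A).trace = (frob A : ℂ) := by
  rw [← inner_vec, inner_self_eq_norm_sq_to_K, ← norm_vec_sq]
  push_cast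
  rfl

theorem cauchy (A B : Matrix (Fin m) (Fin n) ℂ) :
    ‖(A.conjTranspose * B).trace‖ ≤ √(frob A) * √(frob B) := by
  rw [← inner_vec, ← norm_vec, ← norm_vec]
  exact norm_inner_le_norm _ _

theorem sqrt_frob_add (A B : Matrix (Fin m) (Fin n) ℂ) :
    √(frob (A + B)) ≤ √(frob A) + √(frob B) := by
  rw [← norm_vec, ← norm_vec, ← norm_vec, vec_add]
  exact norm_add_le _ _

theorem herm_trace_sq {A : Matrix (Fin k) (Fin k) ℂ} (hA : A.IsHermitian) :
    (A * A).trace = (frob A : ℂ) := by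
  rw [← trace_eq_frob, hA.eq]

/-- spectral decomposition -/
theorem spec {B : Matrix (Fin k) (Fin k) ℂ} (hB : B.IsHermitian) :
    ∃ (U : Matrix (Fin k) (Fin k) ℂ) (l : Fin k → ℝ), U.conjTranspose * U = 1 ∧
      B = U * Matrix.diagonal (fun i => (l i : ℂ)) * U.conjTranspose := by
  refine ⟨hB.eigenvectorUnitary, hB.eigenvalues, ?_, ?_⟩
  · exact Unitary.coe_star_mul_self _
  · have h := hB.spectral_theorem
    rw [Unitary.conjStarAlgAut_apply] at h
    exact h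

theorem poly_ineq (x : ℝ) :
    (x - if 1 / 2 ≤ x then 1 else 0) ^ 2 ≤
      x ^ 2 + 75 * x ^ 4 - 314 * x ^ 5 + 478 * x ^ 6 - 320 * x ^ 7 + 80 * x ^ 8 := by
  have key : ∀ z : ℝ, 0 ≤ z → (1 / 2 - z) ^ 2 ≤ (1 / 2 - z) ^ 2 + 75 * (1 / 2 - z) ^ 4 -
      314 * (1 / 2 - z) ^ 5 + 478 * (1 / 2 - z) ^ 6 - 320 * (1 / 2 - z) ^ 7 +
        80 * (1 / 2 - z) ^ 8 := by
    intro z hz
    have h1 : (1 / 2 - z) ^ 2 + 75 * (1 / 2 - z) ^ 4 -
      314 * (1 / 2 - z) ^ 5 + 478 * (1 / 2 - z) ^ 6 - 320 * (1 / 2 - z) ^ 7 +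
        80 * (1 / 2 - z) ^ 8 - (1 / 2 - z) ^ 2 = (1 / 2 - z) ^ 4 *
          (5 / 2 + 36 * z + 118 * z ^ 2 + 160 * z ^ 3 + 80 * z ^ 4) := by ring
    have h2 : 0 ≤ (1 / 2 - z) ^ 4 *
          (5 / 2 + 36 * z + 118 * z ^ 2 + 160 * z ^ 3 + 80 * z ^ 4) := by positivity
    linarith
  split_ifs with h
  · have := key (x - 1 / 2) (by linarith)
    have e : (x - 1) ^ 2 = (1 / 2 - (x - 1 / 2)) ^ 2 := by ring
    rw [e]
    refine this.trans (le_of_eq ?_)
    ring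
  · have := key (1 / 2 - x) (by linarith)
    have e : 1 / 2 - (1 / 2 - x) = x := by ring
    rw [e] at this
    simpa using this

theorem ind_ineq (x : ℝ) :
    (if 1 / 2 ≤ x then (1 : ℝ) else 0) ≤
      3 / 2 * x ^ 2 + 3 * (x - if 1 / 2 ≤ x then 1 else 0) ^ 2 := by
  split_ifs with h
  · nlinarith [sq_nonneg (x - 2 * (1 - x))]
  · positivity

/-- functional calculus -/
noncomputable def fc (U : Matrix (Fin k) (Fin k) ℂ) (g : Fin k → ℝ) : Matrix (Fin k) (Fin k) ℂ :=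
  U * Matrix.diagonal (fun i => (g i : ℂ)) * U.conjTranspose

theorem fc_mul {U : Matrix (Fin k) (Fin k) ℂ} (hU : U.conjTranspose * U = 1) (g h : Fin k → ℝ) :
    fc U g * fc U h = fc U (fun i => g i * h i) := by
  unfold fc
  have e : U * Matrix.diagonal (fun i => (g i : ℂ)) * U.conjTranspose *
      (U * Matrix.diagonal (fun i => (h i : ℂ)) * U.conjTranspose) =
      U * Matrix.diagonal (fun i => (g i : ℂ)) * (U.conjTranspose * U) *
        Matrix.diagonal (fun i => (h i : ℂ)) * U.conjTranspose := by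
    simp only [Matrix.mul_assoc]
  rw [e, hU, Matrix.mul_one, Matrix.mul_assoc U, Matrix.diagonal_mul_diagonal]
  push_cast
  rfl

theorem fc_pow {U : Matrix (Fin k) (Fin k) ℂ} (hU : U.conjTranspose * U = 1) (g : Fin k → ℝ)
    (p : ℕ) : fc U g ^ (p + 1) = fc U (fun i => g i ^ (p + 1)) := by
  induction p with
  | zero => simp
  | succ p ih =>
    rw [pow_succ, ih, fc_mul hU]
    congr 1

theorem fc_trace {U : Matrix (Fin k) (Fin k) ℂ} (hU : U.conjTranspose * U = 1) (g : Fin k → ℝ) :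
    (fc U g).trace = ((∑ i, g i : ℝ) : ℂ) := by
  unfold fc
  rw [Matrix.mul_assoc, Matrix.trace_mul_comm, Matrix.mul_assoc, hU, Matrix.mul_one,
    Matrix.trace_diagonal]
  push_cast
  rfl

theorem fc_herm (U : Matrix (Fin k) (Fin k) ℂ) (g : Fin k → ℝ) : (fc U g).IsHermitian := by
  unfold fc Matrix.IsHermitian
  rw [Matrix.conjTranspose_mul, Matrix.conjTranspose_mul, Matrix.conjTranspose_conjTranspose,
    Matrix.diagonal_conjTranspose, Matrix.mul_assoc]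
  congr 3
  ext i
  simp

theorem fc_sub (U : Matrix (Fin k) (Fin k) ℂ) (g h : Fin k → ℝ) :
    fc U g - fc U h = fc U (fun i => g i - h i) := by
  unfold fc
  rw [← Matrix.sub_mul, ← Matrix.mul_sub, Matrix.diagonal_sub]
  push_cast
  rfl

theorem fc_frob {U : Matrix (Fin k) (Fin k) ℂ} (hU : U.conjTranspose * U = 1) (g : Fin k → ℝ) :
    frob (fc U g) = ∑ i, g i ^ 2 := by
  have h := herm_trace_sq (fc_herm U g)
  rw [fc_mul hU, fc_trace hU] at h
  have h2 := Complex.ofReal_injective h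
  rw [← h2]
  exact Finset.sum_congr rfl fun i _ => (sq (g i)).symm

theorem exists_proj {B : Matrix (Fin k) (Fin k) ℂ} (hB : B.IsHermitian) :
    ∃ (r : ℕ) (E : Matrix (Fin k) (Fin k) ℂ), E.IsHermitian ∧ E * E = E ∧ E.trace = r ∧
      frob (B - E) ≤ ((B ^ 2).trace + 75 * (B ^ 4).trace - 314 * (B ^ 5).trace +
        478 * (B ^ 6).trace - 320 * (B ^ 7).trace + 80 * (B ^ 8).trace).re ∧
      (r : ℝ) ≤ 3 / 2 * frob B + 3 * frob (B - E) := by
  obtain ⟨U, l, hU, hBl⟩ := spec hB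
  have hBf : B = fc U l := hBl
  let χ : Fin k → ℝ := fun i => if 1 / 2 ≤ l i then 1 else 0
  have hpow : ∀ p : ℕ, (B ^ (p + 1)).trace = ((∑ i, l i ^ (p + 1) : ℝ) : ℂ) := by
    intro p
    rw [hBf, fc_pow hU, fc_trace hU]
  refine ⟨(Finset.univ.filter fun i => 1 / 2 ≤ l i).card, fc U χ, fc_herm _ _, ?_, ?_, ?_, ?_⟩
  · rw [fc_mul hU]
    congr 1
    ext i
    simp [χ]
  · rw [fc_trace hU]
    simp [χ, Finset.sum_ite]
  · rw [hpow 1, hpow 3, hpow 4, hpow 5, hpow 6, hpow 7]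
    have e1 : frob (B - fc U χ) = ∑ i, (l i - χ i) ^ 2 := by
      rw [hBf, fc_sub, fc_frob hU]
    have e2 : ((∑ i, l i ^ (1 + 1) : ℝ) + 75 * ((∑ i, l i ^ (3 + 1) : ℝ) : ℂ) -
        314 * ((∑ i, l i ^ (4 + 1) : ℝ) : ℂ) + 478 * ((∑ i, l i ^ (5 + 1) : ℝ) : ℂ) -
        320 * ((∑ i, l i ^ (6 + 1) : ℝ) : ℂ) + 80 * ((∑ i, l i ^ (7 + 1) : ℝ) : ℂ)) =
        ((∑ i, (l i ^ 2 + 75 * l i ^ 4 - 314 * l i ^ 5 + 478 * l i ^ 6 - 320 * l i ^ 7 +
          80 * l i ^ 8) : ℝ) : ℂ) := by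
      simp only [Finset.sum_add_distrib, Finset.sum_sub_distrib, ← Finset.mul_sum]
      push_cast
      ring
    rw [e2, Complex.ofReal_re, e1]
    exact Finset.sum_le_sum fun i _ => poly_ineq (l i)
  · have e1 : frob (B - fc U χ) = ∑ i, (l i - χ i) ^ 2 := by
      rw [hBf, fc_sub, fc_frob hU]
    have e2 : frob B = ∑ i, l i ^ 2 := by rw [hBf, fc_frob hU]
    rw [e1, e2, Finset.mul_sum, Finset.mul_sum, ← Finset.sum_add_distrib]
    have e3 : (((Finset.univ.filter fun i => 1 / 2 ≤ l i).card : ℕ) : ℝ) = ∑ i, χ i := by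
      simp [χ, Finset.sum_ite]
    rw [e3]
    exact Finset.sum_le_sum fun i _ => ind_ineq (l i)

/-- splitting off the corner of a projection -/
theorem corner {X E : Matrix (Fin k) (Fin k) ℂ} (hX : X.IsHermitian) (hE : E.IsHermitian)
    (hEE : E * E = E) :
    frob (E * X * E) = (E * X * (E * X)).trace.re ∧
      frob (X - E * X * E) = (X * X).trace.re - (E * X * (E * X)).trace.re := by
  have hC : (E * X * E).IsHermitian := by
    unfold Matrix.IsHermitian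
    rw [Matrix.conjTranspose_mul, Matrix.conjTranspose_mul, hX.eq, hE.eq, Matrix.mul_assoc]
  have h1 : (E * X * E * (E * X * E)).trace = (E * X * (E * X)).trace := by
    have e1 : E * X * E * (E * X * E) = E * X * (E * E) * X * E := by
      simp only [Matrix.mul_assoc]
    rw [e1, hEE, Matrix.trace_mul_comm]
    have e2 : E * (E * X * E * X) = (E * E) * X * E * X := by simp only [Matrix.mul_assoc]
    rw [e2, hEE]
    simp only [Matrix.mul_assoc]
  have h2 : (X * (E * X * E)).trace = (E * X * (E * X)).trace := by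
    rw [Matrix.trace_mul_comm]
    simp only [Matrix.mul_assoc]
  have h3 : (E * X * E * X).trace = (E * X * (E * X)).trace := by
    simp only [Matrix.mul_assoc]
  constructor
  · have := herm_trace_sq hC
    rw [h1] at this
    rw [this, Complex.ofReal_re]
  · have := herm_trace_sq (hX.sub hC)
    rw [← Complex.ofReal_re (frob (X - E * X * E)), ← this, Matrix.sub_mul, Matrix.mul_sub,
      Matrix.mul_sub, Matrix.trace_sub, Matrix.trace_sub, Matrix.trace_sub, h1, h2, h3]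
    simp

/-- compressions decrease the Frobenius norm -/
theorem frob_corner_le {X E : Matrix (Fin k) (Fin k) ℂ} (hX : X.IsHermitian) (hE : E.IsHermitian)
    (hEE : E * E = E) : frob (E * X * E) ≤ frob X := by
  obtain ⟨h1, h2⟩ := corner hX hE hEE
  have h3 := frob_nonneg (X - E * X * E)
  have h4 := herm_trace_sq hX
  rw [h2, h4, Complex.ofReal_re, ← h1] at h3
  linarith

theorem trace_comp {X B E : Matrix (Fin k) (Fin k) ℂ} (hX : X.IsHermitian) (hB : B.IsHermitian)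
    (hE : E.IsHermitian) (hEE : E * E = E) :
    ‖(B * X * (B * X)).trace - (E * X * (E * X)).trace‖ ≤
      √(frob (B - E)) * (√‖(B * X * X * (B * X * X)).trace‖ + √‖(X * X * X * X).trace‖) := by
  have e1 : (B * X * (B * X)).trace - (E * X * (E * X)).trace =
      ((B - E) * (X * B * X)).trace + ((B - E) * (X * E * X)).trace := by
    rw [← Matrix.trace_sub, ← Matrix.trace_add]
    have e2 : (E * X * ((B - E) * X)).trace = ((B - E) * (X * E * X)).trace := by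
      rw [← Matrix.mul_assoc, Matrix.trace_mul_comm]
      have : X * (E * X * (B - E)) = (X * E * X) * (B - E) := by simp only [Matrix.mul_assoc]
      rw [this, Matrix.trace_mul_comm]
    rw [Matrix.trace_add, ← e2, ← Matrix.trace_add]
    congr 1
    simp only [Matrix.sub_mul, Matrix.mul_sub, Matrix.mul_assoc]
    abel
  have hD : (B - E).IsHermitian := hB.sub hE
  have c1 := cauchy (B - E) (X * B * X)
  have c2 := cauchy (B - E) (X * E * X)
  rw [hD.eq] at c1 c2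
  have hXBX : (X * B * X).IsHermitian := by
    unfold Matrix.IsHermitian
    rw [Matrix.conjTranspose_mul, Matrix.conjTranspose_mul, hX.eq, hB.eq, Matrix.mul_assoc]
  have hXX : (X * X).IsHermitian := by
    unfold Matrix.IsHermitian
    rw [Matrix.conjTranspose_mul, hX.eq]
  have f1 : frob (X * B * X) = ‖(B * X * X * (B * X * X)).trace‖ := by
    have h := herm_trace_sq hXBX
    have h' : (X * B * X * (X * B * X)).trace = (B * X * X * (B * X * X)).trace := by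
      have e3 : X * B * X * (X * B * X) = X * (B * X * X * B * X) := by
        simp only [Matrix.mul_assoc]
      rw [e3, Matrix.trace_mul_comm]
      simp only [Matrix.mul_assoc]
    rw [← h', h, Complex.norm_real, Real.norm_of_nonneg (frob_nonneg _)]
  have f2 : frob (X * E * X) ≤ ‖(X * X * X * X).trace‖ := by
    have h := herm_trace_sq hXX
    have h3 : (X * X * X * X).trace = (frob (X * X) : ℂ) := by
      rw [← h]; simp only [Matrix.mul_assoc]
    rw [h3, Complex.norm_real, Real.norm_of_nonneg (frob_nonneg _)]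
    have h4 : frob (X * E * X) = frob (E * (X * X) * E) := by
      have hXEX : (X * E * X).IsHermitian := by
        unfold Matrix.IsHermitian
        rw [Matrix.conjTranspose_mul, Matrix.conjTranspose_mul, hX.eq, hE.eq, Matrix.mul_assoc]
      have hEXXE : (E * (X * X) * E).IsHermitian := by
        unfold Matrix.IsHermitian
        rw [Matrix.conjTranspose_mul, Matrix.conjTranspose_mul, hXX.eq, hE.eq]
        simp only [Matrix.mul_assoc]
      have g1 := herm_trace_sq hXEX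
      have g2 := herm_trace_sq hEXXE
      apply Complex.ofReal_injective
      rw [← g1, ← g2]
      have e4 : E * (X * X) * E * (E * (X * X) * E) = E * (X * X) * (E * E) * (X * X) * E := by
        simp only [Matrix.mul_assoc]
      rw [e4, hEE, Matrix.trace_mul_comm (E * (X * X) * E * (X * X)) E]
      have e5 : E * (E * (X * X) * E * (X * X)) = (E * E) * (X * X) * E * X * X := by
        simp only [Matrix.mul_assoc]
      rw [e5, hEE, Matrix.trace_mul_comm _ X]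
      simp only [Matrix.mul_assoc]
    rw [h4]
    exact frob_corner_le hXX hE hEE
  rw [e1]
  refine (norm_add_le _ _).trans ?_
  rw [mul_add]
  refine add_le_add ?_ ?_
  · rw [← f1]; exact c1
  · exact c2.trans (mul_le_mul_of_nonneg_left (Real.sqrt_le_sqrt f2) (Real.sqrt_nonneg _))

theorem re_le' (z : ℂ) : z.re ≤ ‖z‖ := Complex.re_le_norm z

theorem neg_re_le' (z : ℂ) : -z.re ≤ ‖z‖ := by
  have := Complex.re_le_norm (-z); rwa [Complex.neg_re, norm_neg] at this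

theorem norm_le_of_close {z m : ℂ} {K e c : ℝ} (hK : 0 ≤ K) (h : ‖z - (K : ℂ) * m‖ ≤ K * e)
    (hm : ‖m‖ ≤ c) : ‖z‖ ≤ K * (e + c) := by
  have h3 : ‖z‖ ≤ ‖z - (K : ℂ) * m‖ + ‖(K : ℂ) * m‖ := by
    have := norm_add_le (z - (K : ℂ) * m) ((K : ℂ) * m)
    simpa using this
  rw [norm_mul, Complex.norm_real, Real.norm_of_nonneg hK] at h3
  have h5 := mul_le_mul_of_nonneg_left hm hK
  linarith

theorem part1 {K t : ℝ} (hK : 0 < K) (ht0 : 0 < t) (ht1 : t ≤ 1 / 100)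
    {B : Matrix (Fin k) (Fin k) ℂ} (hB : B.IsHermitian) {m2 m4 m5 m6 m7 m8 : ℂ}
    (w2 : ‖(B ^ 2).trace - (K : ℂ) * m2‖ ≤ K * (t ^ 6 / 10 ^ 4))
    (w4 : ‖(B ^ 4).trace - (K : ℂ) * m4‖ ≤ K * (t ^ 6 / 10 ^ 4))
    (w5 : ‖(B ^ 5).trace - (K : ℂ) * m5‖ ≤ K * (t ^ 6 / 10 ^ 4))
    (w6 : ‖(B ^ 6).trace - (K : ℂ) * m6‖ ≤ K * (t ^ 6 / 10 ^ 4))
    (w7 : ‖(B ^ 7).trace - (K : ℂ) * m7‖ ≤ K * (t ^ 6 / 10 ^ 4))
    (w8 : ‖(B ^ 8).trace - (K : ℂ) * m8‖ ≤ K * (t ^ 6 / 10 ^ 4))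
    {ρ : ℝ} (hρ : m2 + 75 * m4 - 314 * m5 + 478 * m6 - 320 * m7 + 80 * m8 = (ρ : ℂ))
    (hρle : ρ ≤ t ^ 4 * (1 + 25 * t ^ 2)) (hf1 : ‖m2‖ ≤ t + t ^ 4) :
    ∃ (r : ℕ) (E₀ : Matrix (Fin k) (Fin k) ℂ), (r : ℝ) ≤ 2 * K * t ∧ E₀.IsHermitian ∧
      E₀ * E₀ = E₀ ∧ E₀.trace = r ∧ frob (B - E₀) ≤ K * (t ^ 4 * (1 + 26 * t ^ 2)) := by
  obtain ⟨r, E₀, hE0, hE00, hE0r, hfr, hr⟩ := exists_proj hB
  have F1 : frob (B - E₀) ≤ K * (t ^ 4 * (1 + 26 * t ^ 2)) := by
    refine hfr.trans ?_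
    have q2 := (re_le' _).trans w2
    have q4 := (re_le' _).trans w4
    have q5 := (neg_re_le' _).trans w5
    have q6 := (re_le' _).trans w6
    have q7 := (neg_re_le' _).trans w7
    have q8 := (re_le' _).trans w8
    have hρ' := congrArg Complex.re hρ
    simp only [Complex.sub_re, Complex.add_re, Complex.mul_re, Complex.ofReal_im,
      Complex.re_ofNat, Complex.im_ofNat, zero_mul, sub_zero,
      Complex.ofReal_re] at q2 q4 q5 q6 q7 q8 hρ' ⊢
    have hρk : K * ρ ≤ K * (t ^ 4 * (1 + 25 * t ^ 2)) :=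
      mul_le_mul_of_nonneg_left hρle hK.le
    rw [← hρ'] at hρk
    have h9 : K * (t ^ 4 * (1 + 26 * t ^ 2)) = K * (t ^ 4 * (1 + 25 * t ^ 2)) +
      10000 * (K * (t ^ 6 / 10 ^ 4)) := by ring
    have h10 : 0 ≤ K * (t ^ 6 / 10 ^ 4) := by positivity
    linarith
  have F2 : frob B ≤ K * (t ^ 6 / 10 ^ 4 + (t + t ^ 4)) := by
    have h := herm_trace_sq hB
    have h1 : (B ^ 2).trace = (frob B : ℂ) := by rw [← h, sq]
    rw [h1] at w2
    have h2 : frob B = ‖(frob B : ℂ)‖ := by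
      rw [Complex.norm_real, Real.norm_of_nonneg (frob_nonneg _)]
    rw [h2]
    exact norm_le_of_close hK.le w2 hf1
  refine ⟨r, E₀, ?_, hE0, hE00, hE0r, F1⟩
  have h1 : 3 / 2 * (t ^ 6 / 10 ^ 4 + (t + t ^ 4)) + 3 * (t ^ 4 * (1 + 26 * t ^ 2)) ≤ 2 * t := by
    have t3 : t ^ 3 ≤ 1 / 1000000 := by
      calc t ^ 3 ≤ (1 / 100) ^ 3 := pow_le_pow_left₀ ht0.le ht1 3
        _ = _ := by norm_num
    have t2 : t ^ 2 ≤ 1 / 10000 := by
      calc t ^ 2 ≤ (1 / 100) ^ 2 := pow_le_pow_left₀ ht0.le ht1 2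
        _ = _ := by norm_num
    have e : 3 / 2 * (t ^ 6 / 10 ^ 4 + (t + t ^ 4)) + 3 * (t ^ 4 * (1 + 26 * t ^ 2)) =
      t * (3 / 2 + t ^ 3 * (9 / 2 + t ^ 2 * (78 + 3 / 20000))) := by ring
    rw [e, mul_comm 2 t]
    refine mul_le_mul_of_nonneg_left ?_ ht0.le
    have h3 : t ^ 2 * (78 + 3 / 20000) ≤ 1 := by linarith
    have h4 : t ^ 3 * (9 / 2 + t ^ 2 * (78 + 3 / 20000)) ≤ 1 / 1000000 * (9 / 2 + 1) :=
      mul_le_mul t3 (by linarith) (by positivity) (by norm_num)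
    linarith
  have h2 := mul_le_mul_of_nonneg_left h1 hK.le
  linarith

theorem part2 {K t : ℝ} (hK : 0 < K) (ht0 : 0 < t) (ht1 : t ≤ 1 / 100)
    {B E₀ E : Matrix (Fin k) (Fin k) ℂ}
    (F1 : frob (B - E₀) ≤ K * (t ^ 4 * (1 + 26 * t ^ 2)))
    (hEE0 : frob (E₀ - E) ≤ (t ^ 4) ^ 2 * K) :
    √(frob (B - E)) ≤ √K * (t ^ 2 * (1 + 14 * t ^ 2)) ∧
      frob (B - E) ≤ K * (t ^ 4 * (1 + 30 * t ^ 2)) := by
  have hsk : √K * √K = K := Real.mul_self_sqrt hK.le
  have t2 : t ^ 2 ≤ 1 / 10000 := by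
    calc t ^ 2 ≤ (1 / 100) ^ 2 := pow_le_pow_left₀ ht0.le ht1 2
      _ = _ := by norm_num
  have t20 : 0 < t ^ 2 := by positivity
  have G1 : √(frob (B - E)) ≤ √K * (t ^ 2 * (1 + 14 * t ^ 2)) := by
    have h1 : B - E = (B - E₀) + (E₀ - E) := by abel
    have h2 := sqrt_frob_add (B - E₀) (E₀ - E)
    rw [← h1] at h2
    have h3 : √(frob (B - E₀)) ≤ √K * (t ^ 2 * (1 + 13 * t ^ 2)) := by
      apply Real.sqrt_le_iff.mpr
      refine ⟨by positivity, F1.trans ?_⟩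
      have : (√K * (t ^ 2 * (1 + 13 * t ^ 2))) ^ 2 =
          K * (t ^ 4 * (1 + 13 * t ^ 2) ^ 2) := by
        rw [mul_pow, sq (√K), hsk]; ring
      rw [this]
      refine mul_le_mul_of_nonneg_left (mul_le_mul_of_nonneg_left ?_ (by positivity)) hK.le
      nlinarith [sq_nonneg (t ^ 2)]
    have h4 : √(frob (E₀ - E)) ≤ √K * t ^ 4 := by
      apply Real.sqrt_le_iff.mpr
      refine ⟨by positivity, hEE0.trans (le_of_eq ?_)⟩
      rw [mul_pow, sq (√K), hsk]; ring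
    have h5 : √K * (t ^ 2 * (1 + 13 * t ^ 2)) + √K * t ^ 4 =
        √K * (t ^ 2 * (1 + 14 * t ^ 2)) := by ring
    linarith
  refine ⟨G1, ?_⟩
  have h1 : frob (B - E) = √(frob (B - E)) ^ 2 := (Real.sq_sqrt (frob_nonneg _)).symm
  rw [h1]
  refine (pow_le_pow_left₀ (Real.sqrt_nonneg _) G1 2).trans ?_
  rw [mul_pow, sq (√K), hsk]
  refine mul_le_mul_of_nonneg_left ?_ hK.le
  have h2 : (t ^ 2 * (1 + 14 * t ^ 2)) ^ 2 = t ^ 4 * (1 + 14 * t ^ 2) ^ 2 := by ring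
  rw [h2]
  refine mul_le_mul_of_nonneg_left ?_ (by positivity)
  nlinarith

theorem part3 {K t : ℝ} (hK : 0 < K) (ht0 : 0 < t) (ht1 : t ≤ 1 / 100)
    {X B E : Matrix (Fin k) (Fin k) ℂ} (hX : X.IsHermitian) (hB : B.IsHermitian)
    (hE : E.IsHermitian) (hEE : E * E = E)
    (G1 : √(frob (B - E)) ≤ √K * (t ^ 2 * (1 + 14 * t ^ 2))) {m3 m4 : ℂ}
    (x1 : ‖(B * X * (B * X)).trace - (K : ℂ) * ((t + t ^ 2 : ℝ) : ℂ)‖ ≤ K * (t ^ 6 / 10 ^ 4))
    (x2 : ‖(X * X).trace - (K : ℂ) * ((t + 1 : ℝ) : ℂ)‖ ≤ K * (t ^ 6 / 10 ^ 4))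
    (x3 : ‖(X * X * X * X).trace - (K : ℂ) * m3‖ ≤ K * (t ^ 6 / 10 ^ 4))
    (x4 : ‖(B * X * X * (B * X * X)).trace - (K : ℂ) * m4‖ ≤ K * (t ^ 6 / 10 ^ 4))
    (hm3 : ‖m3‖ ≤ 8) (hm4 : ‖m4‖ ≤ 1024) :
    frob (X - E * X * E) ≤ K * (1 + 50 * t ^ 2) ∧ frob (E * X * E) ≤ 2 * K * t := by
  have hsk : √K * √K = K := Real.mul_self_sqrt hK.le
  have t2 : t ^ 2 ≤ 1 / 10000 := by
    calc t ^ 2 ≤ (1 / 100) ^ 2 := pow_le_pow_left₀ ht0.le ht1 2
      _ = _ := by norm_num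
  have t20 : 0 < t ^ 2 := by positivity
  have t21 : t ^ 2 ≤ 1 / 100 * t := by nlinarith
  have t60 : 0 < t ^ 6 := by positivity
  have t6 : t ^ 6 ≤ t ^ 2 := by
    have h4 : t ^ 4 ≤ 1 := pow_le_one₀ ht0.le (by linarith)
    calc t ^ 6 = t ^ 2 * t ^ 4 := by ring
      _ ≤ t ^ 2 * 1 := mul_le_mul_of_nonneg_left h4 t20.le
      _ = t ^ 2 := mul_one _
  have hc := trace_comp hX hB hE hEE
  have y4 : √‖(B * X * X * (B * X * X)).trace‖ ≤ √K * (321 / 10) := by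
    apply Real.sqrt_le_iff.mpr
    refine ⟨by positivity, (norm_le_of_close hK.le x4 hm4).trans ?_⟩
    rw [mul_pow, sq (√K), hsk]
    exact mul_le_mul_of_nonneg_left (by linarith) hK.le
  have y3 : √‖(X * X * X * X).trace‖ ≤ √K * (283 / 100) := by
    apply Real.sqrt_le_iff.mpr
    refine ⟨by positivity, (norm_le_of_close hK.le x3 hm3).trans ?_⟩
    rw [mul_pow, sq (√K), hsk]
    exact mul_le_mul_of_nonneg_left (by linarith) hK.le
  have hcc : ‖(B * X * (B * X)).trace - (E * X * (E * X)).trace‖ ≤ K * (36 * t ^ 2) := by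
    refine hc.trans ?_
    have h1 : √‖(B * X * X * (B * X * X)).trace‖ + √‖(X * X * X * X).trace‖ ≤
        √K * (3493 / 100) := by linarith
    refine (mul_le_mul G1 h1 (by positivity) (by positivity)).trans ?_
    have h2 : √K * (t ^ 2 * (1 + 14 * t ^ 2)) * (√K * (3493 / 100)) =
        K * ((t ^ 2 * (1 + 14 * t ^ 2)) * (3493 / 100)) := by
      have : √K * (t ^ 2 * (1 + 14 * t ^ 2)) * (√K * (3493 / 100)) =
        (√K * √K) * ((t ^ 2 * (1 + 14 * t ^ 2)) * (3493 / 100)) := by ring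
      rw [this, hsk]
    rw [h2]
    refine mul_le_mul_of_nonneg_left ?_ hK.le
    nlinarith
  obtain ⟨c1, c2⟩ := corner hX hE hEE
  have z1 := (re_le' _).trans hcc
  have z1' := (neg_re_le' _).trans hcc
  have z2 := (re_le' _).trans x1
  have z2' := (neg_re_le' _).trans x1
  have z3 := (re_le' _).trans x2
  simp only [Complex.sub_re, Complex.mul_re, Complex.ofReal_im, mul_zero, sub_zero,
    Complex.ofReal_re] at z1 z1' z2 z2' z3
  constructor
  · rw [c2]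
    have h1 : (t + 1) + 36 * t ^ 2 - (t + t ^ 2) + 2 * (t ^ 6 / 10 ^ 4) ≤ 1 + 50 * t ^ 2 := by
      linarith
    have h2 := mul_le_mul_of_nonneg_left h1 hK.le
    linarith
  · rw [c1]
    have h1 : (t + t ^ 2) + 36 * t ^ 2 + t ^ 6 / 10 ^ 4 ≤ 2 * t := by linarith
    have h2 := mul_le_mul_of_nonneg_left h1 hK.le
    linarith

end MatIneqAux

open MatIneqAux in
theorem exists_good_proj {a : ℕ} (ha : 100 ≤ a) (μ : List (Fin (a + 1)) → ℂ) (hμ : UpFacts a μ)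
    {k : ℕ} (hk : 1 ≤ k) (A : Fin (a + 1) → Matrix (Fin k) (Fin k) ℂ)
    (hA : ∀ j, (A j).IsHermitian)
    (hm : ∀ w : List (Fin (a + 1)), 1 ≤ w.length → w.length ≤ 8 →
      ‖(w.map A).prod.trace / (k : ℂ) - μ w‖ < 1 / (10 ^ 4 * (a : ℝ) ^ 6)) :
    ∃ (r : ℕ) (E₀ : Matrix (Fin k) (Fin k) ℂ), (r : ℝ) ≤ 2 * k / a ∧ E₀.IsHermitian ∧
      E₀ * E₀ = E₀ ∧ E₀.trace = r ∧
      ∀ E : Matrix (Fin k) (Fin k) ℂ, E.IsHermitian → E * E = E → E.trace = r →
        frob (E₀ - E) ≤ (1 / (a : ℝ) ^ 4) ^ 2 * k →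
        frob (A 0 - E) ≤ k * (1 / (a : ℝ) ^ 4) * (1 + 30 / (a : ℝ) ^ 2) ∧
        ∀ i : Fin a, frob (A i.succ - E * A i.succ * E) ≤ k * (1 + 50 / (a : ℝ) ^ 2) ∧
          frob (E * A i.succ * E) ≤ 2 * k / a := by
  have hk0 : (0 : ℝ) < k := by exact_mod_cast hk
  have hkc : (k : ℂ) ≠ 0 := by exact_mod_cast hk0.ne'
  have ha0 : (0 : ℝ) < a := by
    have : 0 < a := by omega
    exact_mod_cast this
  have ha100 : (100 : ℝ) ≤ a := by exact_mod_cast ha
  -- the small parameter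
  obtain ⟨t, ht⟩ : ∃ t : ℝ, t = 1 / (a : ℝ) := ⟨_, rfl⟩
  have ht0 : 0 < t := by rw [ht]; positivity
  have ht1 : t ≤ 1 / 100 := by
    rw [ht]; exact one_div_le_one_div_of_le (by norm_num) ha100
  have e4 : 1 / (a : ℝ) ^ 4 = t ^ 4 := by rw [ht]; simp
  have eη : 1 / (10 ^ 4 * (a : ℝ) ^ 6) = t ^ 6 / 10 ^ 4 := by
    rw [ht, one_div_pow, div_div, mul_comm]
  have e2 : ∀ c : ℝ, c / (a : ℝ) ^ 2 = c * t ^ 2 := by
    intro c; rw [ht, one_div_pow, mul_one_div]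
  have e1 : ∀ c : ℝ, c / (a : ℝ) = c * t := by
    intro c; rw [ht, mul_one_div]
  have e21 : 1 / (a : ℝ) ^ 2 = t ^ 2 := by rw [e2, one_mul]
  have hT : ∀ w : List (Fin (a + 1)), 1 ≤ w.length → w.length ≤ 8 →
      ‖(w.map A).prod.trace - ((k : ℝ) : ℂ) * μ w‖ ≤ k * (t ^ 6 / 10 ^ 4) := by
    intro w h1 h8
    have h := (hm w h1 h8).le
    rw [eη] at h
    have e : (w.map A).prod.trace - ((k : ℝ) : ℂ) * μ w =
        k * ((w.map A).prod.trace / k - μ w) := by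
      push_cast
      field_simp
    rw [e, norm_mul, Complex.norm_natCast]
    exact mul_le_mul_of_nonneg_left h hk0.le
  obtain ⟨ρ, hρ, hρle⟩ := hμ.f2
  have hf1 := hμ.f1
  rw [e4, e2] at hρle
  rw [e4, ← ht] at hf1
  have p2 : ([0, 0].map A).prod = A 0 ^ 2 := by simp [pow_succ]
  have p4 : ([0, 0, 0, 0].map A).prod = A 0 ^ 4 := by simp [pow_succ, mul_assoc]
  have p5 : ([0, 0, 0, 0, 0].map A).prod = A 0 ^ 5 := by simp [pow_succ, mul_assoc]
  have p6 : ([0, 0, 0, 0, 0, 0].map A).prod = A 0 ^ 6 := by simp [pow_succ, mul_assoc]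
  have p7 : ([0, 0, 0, 0, 0, 0, 0].map A).prod = A 0 ^ 7 := by simp [pow_succ, mul_assoc]
  have p8 : ([0, 0, 0, 0, 0, 0, 0, 0].map A).prod = A 0 ^ 8 := by simp [pow_succ, mul_assoc]
  obtain ⟨r, E₀, hr, hE0, hE00, hE0r, F1⟩ := part1 hk0 ht0 ht1 (hA 0)
    (p2 ▸ hT [0, 0] (by simp) (by simp)) (p4 ▸ hT [0, 0, 0, 0] (by simp) (by simp))
    (p5 ▸ hT [0, 0, 0, 0, 0] (by simp) (by simp))
    (p6 ▸ hT [0, 0, 0, 0, 0, 0] (by simp) (by simp))
    (p7 ▸ hT [0, 0, 0, 0, 0, 0, 0] (by simp) (by simp))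
    (p8 ▸ hT [0, 0, 0, 0, 0, 0, 0, 0] (by simp) (by simp)) hρ hρle hf1
  refine ⟨r, E₀, ?_, hE0, hE00, hE0r, ?_⟩
  · rw [e1]; exact hr
  intro E hE hEE _ hEE0
  rw [e4] at hEE0
  obtain ⟨G1, G2⟩ := part2 hk0 ht0 ht1 F1 hEE0
  refine ⟨?_, ?_⟩
  · rw [e4, e2, mul_assoc]; exact G2
  intro i
  have r1 : ([0, i.succ, 0, i.succ].map A).prod = A 0 * A i.succ * (A 0 * A i.succ) := by
    simp [mul_assoc]
  have r2 : ([i.succ, i.succ].map A).prod = A i.succ * A i.succ := by simp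
  have r3 : ([i.succ, i.succ, i.succ, i.succ].map A).prod =
      A i.succ * A i.succ * A i.succ * A i.succ := by simp [mul_assoc]
  have r4 : ([0, i.succ, i.succ, 0, i.succ, i.succ].map A).prod =
      A 0 * A i.succ * A i.succ * (A 0 * A i.succ * A i.succ) := by simp [mul_assoc]
  have x1 := hT [0, i.succ, 0, i.succ] (by simp) (by simp)
  have x2 := hT [i.succ, i.succ] (by simp) (by simp)
  have x3 := hT [i.succ, i.succ, i.succ, i.succ] (by simp) (by simp)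
  have x4 := hT [0, i.succ, i.succ, 0, i.succ, i.succ] (by simp) (by simp)
  rw [r1, hμ.f3, ← ht, e21] at x1
  rw [r2, hμ.f4, ← ht] at x2
  rw [r3] at x3
  rw [r4] at x4
  obtain ⟨h1, h2⟩ := part3 hk0 ht0 ht1 (hA i.succ) (hA 0) hE hEE G1 x1 x2 x3 x4 (hμ.f5 i) (hμ.f6 i)
  rw [e2, e1]
  exact ⟨h1, h2⟩

end Vale.Agent.P087
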