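import Vale.Agent.P087.Packing

/-! # P087 [N]: a net of projections of given rank -/

namespace Vale.Agent.P087

open scoped InnerProductSpace ENNReal Topology
open MeasureTheory Filter ProbabilityTheory

namespace NetProjAux

open Matrix

theorem frob_eq_trace {m n : ℕ} (A : Matrix (Fin m) (Fin n) ℂ) :
    ((frob A : ℝ) : ℂ) = (A * Aᴴ).trace := by
  unfold frob
  push_cast
  rw [Matrix.trace]
  refine Finset.sum_congr rfl fun i _ => ?_
  rw [Matrix.diag_apply, Matrix.mul_apply]
  refine Finset.sum_congr rfl fun j _ => ?_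
  rw [Matrix.conjTranspose_apply]
  exact (Complex.mul_conj' (A i j)).symm

theorem frob_nonneg {m n : ℕ} (A : Matrix (Fin m) (Fin n) ℂ) : 0 ≤ frob A := by
  unfold frob; positivity

theorem frob_conjTranspose {m n : ℕ} (A : Matrix (Fin m) (Fin n) ℂ) : frob Aᴴ = frob A := by
  unfold frob
  rw [Finset.sum_comm]
  refine Finset.sum_congr rfl fun i _ => Finset.sum_congr rfl fun j _ => ?_
  rw [Matrix.conjTranspose_apply, norm_star]

/-- multiplication by an isometry on the left -/
theorem frob_isom_mul {m n r : ℕ} (V : Matrix (Fin m) (Fin r) ℂ) (hV : Vᴴ * V = 1)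
    (A : Matrix (Fin r) (Fin n) ℂ) : frob (V * A) = frob A := by
  have h : ((frob (V * A) : ℝ) : ℂ) = ((frob A : ℝ) : ℂ) := by
    rw [frob_eq_trace, frob_eq_trace, Matrix.conjTranspose_mul]
    calc (V * A * (Aᴴ * Vᴴ)).trace = (V * (A * Aᴴ * Vᴴ)).trace := by
          simp only [Matrix.mul_assoc]
      _ = ((A * Aᴴ * Vᴴ) * V).trace := Matrix.trace_mul_comm _ _
      _ = (A * Aᴴ).trace := by
          rw [Matrix.mul_assoc, hV, Matrix.mul_one]
  exact_mod_cast h

theorem frob_add_le {m n : ℕ} (A B : Matrix (Fin m) (Fin n) ℂ) :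
    frob (A + B) ≤ 2 * frob A + 2 * frob B := by
  unfold frob
  rw [Finset.mul_sum, Finset.mul_sum, ← Finset.sum_add_distrib]
  refine Finset.sum_le_sum fun i _ => ?_
  rw [Finset.mul_sum, Finset.mul_sum, ← Finset.sum_add_distrib]
  refine Finset.sum_le_sum fun j _ => ?_
  rw [Matrix.add_apply]
  have h1 : ‖A i j + B i j‖ ≤ ‖A i j‖ + ‖B i j‖ := norm_add_le _ _
  have h2 : ‖A i j + B i j‖ ^ 2 ≤ (‖A i j‖ + ‖B i j‖) ^ 2 := by gcongr
  nlinarith [sq_nonneg (‖A i j‖ - ‖B i j‖)]

/-- `VV* - WW*` -/
theorem frob_proj_sub {k r : ℕ} (V W : Matrix (Fin k) (Fin r) ℂ) (hV : Vᴴ * V = 1)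
    (hW : Wᴴ * W = 1) : frob (V * Vᴴ - W * Wᴴ) ≤ 4 * frob (V - W) := by
  have h1 : V * Vᴴ - W * Wᴴ = (V - W) * Vᴴ + W * (V - W)ᴴ := by
    rw [Matrix.sub_mul, Matrix.conjTranspose_sub, Matrix.mul_sub]
    abel
  have h2 : frob ((V - W) * Vᴴ) = frob (V - W) := by
    rw [← frob_conjTranspose, Matrix.conjTranspose_mul, Matrix.conjTranspose_conjTranspose,
      frob_isom_mul V hV, frob_conjTranspose]
  have h3 : frob (W * (V - W)ᴴ) = frob (V - W) := by
    rw [frob_isom_mul W hW, frob_conjTranspose]
  rw [h1]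
  have := frob_add_le ((V - W) * Vᴴ) (W * (V - W)ᴴ)
  rw [h2, h3] at this
  linarith

/-- a projection of trace `r` is `V V*` -/
theorem exists_isometry {k r : ℕ} (F : Matrix (Fin k) (Fin k) ℂ) (hF : F.IsHermitian)
    (hFF : F * F = F) (htr : F.trace = r) :
    ∃ V : Matrix (Fin k) (Fin r) ℂ, Vᴴ * V = 1 ∧ V * Vᴴ = F := by
  classical
  set U : Matrix (Fin k) (Fin k) ℂ := (hF.eigenvectorUnitary : Matrix (Fin k) (Fin k) ℂ) with hU
  set D : Matrix (Fin k) (Fin k) ℂ := diagonal (RCLike.ofReal ∘ hF.eigenvalues) with hD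
  have hUU : star U * U = 1 := Unitary.coe_star_mul_self hF.eigenvectorUnitary
  have hUU' : U * star U = 1 := Unitary.coe_mul_star_self hF.eigenvectorUnitary
  have hspec : F = U * D * star U := by
    have h := hF.spectral_theorem
    rw [Unitary.conjStarAlgAut_apply] at h
    exact h
  have hDD : D * D = D := by
    have h1 : D = star U * F * U := by
      rw [hspec]
      calc D = (star U * U) * D * (star U * U) := by rw [hUU, Matrix.one_mul, Matrix.mul_one]
        _ = star U * (U * D * star U) * U := by simp only [Matrix.mul_assoc]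
    calc D * D = star U * F * (U * star U) * F * U := by
          rw [h1]; simp only [Matrix.mul_assoc]
      _ = star U * (F * F) * U := by rw [hUU', Matrix.mul_one]; simp only [Matrix.mul_assoc]
      _ = D := by rw [hFF, ← h1]
  have hev : ∀ i, hF.eigenvalues i = 0 ∨ hF.eigenvalues i = 1 := by
    intro i
    have h1 := congrFun (congrFun hDD i) i
    rw [hD, Matrix.diagonal_mul_diagonal, Matrix.diagonal_apply_eq, Matrix.diagonal_apply_eq] at h1
    simp only [Function.comp] at h1
    have h2 : hF.eigenvalues i * hF.eigenvalues i = hF.eigenvalues i := by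
      exact_mod_cast h1
    have h3 : hF.eigenvalues i * (hF.eigenvalues i - 1) = 0 := by linarith
    rcases mul_eq_zero.1 h3 with h4 | h4
    · exact Or.inl h4
    · exact Or.inr (by linarith)
  have hcard : Fintype.card {i // hF.eigenvalues i = 1} = r := by
    have h1 : ∑ i, hF.eigenvalues i = (r : ℝ) := by
      have h2 := hF.trace_eq_sum_eigenvalues
      rw [htr] at h2
      have h3 := congrArg Complex.re h2
      rw [Complex.re_sum] at h3
      simp only [Complex.natCast_re] at h3
      rw [h3]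
      refine Finset.sum_congr rfl fun i _ => ?_
      exact (Complex.ofReal_re _).symm
    have h2 : ∑ i, hF.eigenvalues i = ∑ i, (if hF.eigenvalues i = 1 then (1 : ℝ) else 0) := by
      refine Finset.sum_congr rfl fun i _ => ?_
      rcases hev i with h | h
      · rw [h]; norm_num
      · rw [h]; norm_num
    rw [h2, Finset.sum_boole] at h1
    rw [Fintype.card_subtype]
    exact_mod_cast h1
  obtain ⟨e⟩ : Nonempty (Fin r ≃ {i // hF.eigenvalues i = 1}) :=
    ⟨(Fintype.equivFinOfCardEq hcard).symm⟩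
  refine ⟨U.submatrix id (fun j => (e j).1), ?_, ?_⟩
  · ext j j'
    have h1 := congrFun (congrFun hUU (e j).1) (e j').1
    rw [Matrix.mul_apply] at h1 ⊢
    have h2 : ∀ a, (U.submatrix id (fun j => (e j).1))ᴴ j a *
        U.submatrix id (fun j => (e j).1) a j' = star U (e j).1 a * U a (e j').1 := by
      intro a
      rfl
    rw [Finset.sum_congr rfl fun a _ => h2 a, h1]
    by_cases hjj : j = j'
    · subst hjj; simp
    · rw [Matrix.one_apply_ne, Matrix.one_apply_ne hjj]
      intro h
      exact hjj (e.injective (Subtype.ext h))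
  · ext a b
    have hab : F a b = ∑ i, (U * D) a i * star U i b := by
      rw [← Matrix.mul_apply, ← hspec]
    rw [hab, Matrix.mul_apply]
    have h1 : ∀ i, (U * D) a i * star U i b =
        if hF.eigenvalues i = 1 then U a i * star (U b i) else 0 := by
      intro i
      rw [hD, Matrix.mul_diagonal, Matrix.star_apply]
      simp only [Function.comp]
      rcases hev i with h | h
      · rw [h]; simp
      · rw [h]; simp
    rw [Finset.sum_congr rfl fun i _ => h1 i, ← Finset.sum_filter]
    have h2 : ∑ j, U.submatrix id (fun j => (e j).1) a j *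
        (U.submatrix id (fun j => (e j).1))ᴴ j b =
        ∑ j : Fin r, (fun i : {i // hF.eigenvalues i = 1} => U a i.1 * star (U b i.1)) (e j) := by
      rfl
    rw [h2, Equiv.sum_comp e (fun i : {i // hF.eigenvalues i = 1} => U a i.1 * star (U b i.1))]
    rw [← Finset.sum_subtype (Finset.univ.filter fun i => hF.eigenvalues i = 1)
      (fun i => by simp) (fun i => U a i * star (U b i))]

/-- vectors as matrices -/
def toMat {k r : ℕ} (v : EuclideanSpace ℂ (Fin k × Fin r)) : Matrix (Fin k) (Fin r) ℂ :=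
  fun i j => v (i, j)

theorem norm_sq {k r : ℕ} (v : EuclideanSpace ℂ (Fin k × Fin r)) : ‖v‖ ^ 2 = frob (toMat v) := by
  rw [EuclideanSpace.norm_sq_eq, Fintype.sum_prod_type]
  rfl

end NetProjAux

open NetProjAux Matrix in
theorem exists_net_proj (k r : ℕ) (θ : ℝ) (hθ : 0 < θ) (hθ1 : θ ≤ 1) :
    ∃ 𝒩 : Finset (Matrix (Fin k) (Fin k) ℂ),
      (∀ E ∈ 𝒩, E.IsHermitian ∧ E * E = E ∧ E.trace = r) ∧
      (𝒩.card : ℝ) ≤ (5 / θ) ^ (2 * k * r) ∧
      ∀ F : Matrix (Fin k) (Fin k) ℂ, F.IsHermitian → F * F = F → F.trace = r →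
        ∃ E ∈ 𝒩, frob (F - E) ≤ θ ^ 2 * k := by
  classical
  by_cases hk : k = 0
  · subst hk
    by_cases hr : r = 0
    · subst hr
      refine ⟨{0}, ?_, ?_, ?_⟩
      · intro E hE
        rw [Finset.mem_singleton] at hE
        subst hE
        refine ⟨Matrix.isHermitian_zero, by simp, by simp⟩
      · simp
      · intro F _ _ _
        refine ⟨0, by simp, ?_⟩
        simp [frob]
    · refine ⟨∅, by simp, ?_, ?_⟩
      · simp
      · intro F _ _ h
        exfalso
        rw [Matrix.trace] at h
        simp at h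
        exact hr (by exact_mod_cast h.symm)
  have hkpos : (0 : ℝ) < k := by exact_mod_cast Nat.pos_of_ne_zero hk
  set t : ℝ := θ * √k / 2 with ht
  have hsk : 0 < √(k : ℝ) := Real.sqrt_pos.2 hkpos
  have htpos : 0 < t := by positivity
  -- isometries
  set I : Set (EuclideanSpace ℂ (Fin k × Fin r)) := {v | (toMat v)ᴴ * toMat v = 1} with hI
  have hInorm : ∀ v ∈ I, ‖v‖ ^ 2 = r ∧ (r : ℝ) ≤ k := by
    intro v hv
    have hv' : (toMat v)ᴴ * toMat v = 1 := hv
    have h1 : ‖v‖ ^ 2 = r := by
      rw [norm_sq, ← frob_conjTranspose]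
      have h2 := frob_eq_trace (toMat v)ᴴ
      rw [Matrix.conjTranspose_conjTranspose, hv', Matrix.trace_one, Fintype.card_fin] at h2
      exact_mod_cast h2
    refine ⟨h1, ?_⟩
    have h3 : r ≤ k := by
      have h4 := Matrix.rank_mul_le_right (toMat v)ᴴ (toMat v)
      rw [hv', Matrix.rank_one, Fintype.card_fin] at h4
      have h5 := Matrix.rank_le_card_height (toMat v)
      rw [Fintype.card_fin] at h5
      omega
    exact_mod_cast h3
  -- separated families
  set P : Finset (EuclideanSpace ℂ (Fin k × Fin r)) → Prop := fun s =>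
    (∀ c ∈ s, c ∈ I) ∧ ∀ c ∈ s, ∀ d ∈ s, c ≠ d → t ≤ ‖c - d‖ with hP
  have hfr : Module.finrank ℝ (EuclideanSpace ℂ (Fin k × Fin r)) = 2 * k * r := by
    rw [finrank_real_of_complex, finrank_euclideanSpace, Fintype.card_prod, Fintype.card_fin,
      Fintype.card_fin]
    ring
  have hbound : ∀ s, P s → (s.card : ℝ) ≤ (5 / θ) ^ (2 * k * r) := by
    intro s hs
    have h1 := card_le_of_sep s (√k) t hsk.le htpos (by
      intro c hc
      obtain ⟨h2, h3⟩ := hInorm c (hs.1 c hc)
      refine Real.le_sqrt_of_sq_le ?_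
      rw [h2]
      exact h3) hs.2
    rw [hfr] at h1
    refine h1.trans ?_
    refine pow_le_pow_left₀ (by positivity) ?_ _
    have e1 : 2 * √(k : ℝ) / t = 4 / θ := by
      rw [ht]
      field_simp
      ring
    rw [e1]
    have e2 : 1 ≤ 1 / θ := by rw [le_div_iff₀ hθ]; linarith
    have e3 : 5 / θ = 1 / θ + 4 / θ := by ring
    linarith
  -- a maximal family
  obtain ⟨s, hs, hmax⟩ : ∃ s, P s ∧ ∀ s', P s' → s'.card ≤ s.card := by
    set N : Set ℕ := {n | ∃ s, P s ∧ s.card = n} with hN
    have hne : N.Nonempty := ⟨0, ∅, ⟨by simp, by simp⟩, rfl⟩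
    have hbdd : BddAbove N := by
      refine ⟨⌊(5 / θ) ^ (2 * k * r)⌋₊, ?_⟩
      rintro n ⟨s, hs, rfl⟩
      exact Nat.le_floor (hbound s hs)
    obtain ⟨s, hs, hcard⟩ := Nat.sSup_mem hne hbdd
    refine ⟨s, hs, fun s' hs' => ?_⟩
    rw [hcard]
    exact le_csSup hbdd ⟨s', hs', rfl⟩
  refine ⟨s.image fun v => toMat v * (toMat v)ᴴ, ?_, ?_, ?_⟩
  · intro E hE
    rw [Finset.mem_image] at hE
    obtain ⟨v, hv, rfl⟩ := hE
    have hv' : (toMat v)ᴴ * toMat v = 1 := hs.1 v hv
    refine ⟨Matrix.isHermitian_mul_conjTranspose_self _, ?_, ?_⟩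
    · calc toMat v * (toMat v)ᴴ * (toMat v * (toMat v)ᴴ)
          = toMat v * ((toMat v)ᴴ * toMat v) * (toMat v)ᴴ := by simp only [Matrix.mul_assoc]
        _ = _ := by rw [hv', Matrix.mul_one]
    · rw [Matrix.trace_mul_comm, hv', Matrix.trace_one, Fintype.card_fin]
  · refine le_trans ?_ (hbound s hs)
    exact_mod_cast Finset.card_image_le
  · intro F hF hFF htr
    obtain ⟨V, hV, hVF⟩ := exists_isometry F hF hFF htr
    set v : EuclideanSpace ℂ (Fin k × Fin r) := WithLp.toLp 2 (fun p => V p.1 p.2) with hv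
    have hvV : toMat v = V := by
      ext i j
      rfl
    have hvI : v ∈ I := by
      show (toMat v)ᴴ * toMat v = 1
      rw [hvV]
      exact hV
    have hex : ∃ w ∈ s, ‖v - w‖ ≤ t := by
      by_contra hcon
      push Not at hcon
      have hvs : v ∉ s := by
        intro h
        have := hcon v h
        rw [sub_self, norm_zero] at this
        linarith
      have hPs : P (insert v s) := by
        refine ⟨?_, ?_⟩
        · intro c hc
          rw [Finset.mem_insert] at hc
          rcases hc with rfl | hc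
          · exact hvI
          · exact hs.1 c hc
        · intro c hc d hd hcd
          rw [Finset.mem_insert] at hc hd
          rcases hc with rfl | hc
          · rcases hd with rfl | hd
            · exact absurd rfl hcd
            · exact (hcon d hd).le
          · rcases hd with rfl | hd
            · rw [norm_sub_rev]
              exact (hcon c hc).le
            · exact hs.2 c hc d hd hcd
      have := hmax _ hPs
      rw [Finset.card_insert_of_notMem hvs] at this
      omega
    obtain ⟨w, hw, hvw⟩ := hex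
    refine ⟨toMat w * (toMat w)ᴴ, Finset.mem_image_of_mem _ hw, ?_⟩
    have hw' : (toMat w)ᴴ * toMat w = 1 := hs.1 w hw
    rw [← hVF]
    refine (frob_proj_sub V (toMat w) hV hw').trans ?_
    have h1 : frob (V - toMat w) = ‖v - w‖ ^ 2 := by
      rw [norm_sq]
      congr 1
    rw [h1]
    have h2 : ‖v - w‖ ^ 2 ≤ t ^ 2 := by gcongr
    have h3 : 4 * t ^ 2 = θ ^ 2 * k := by
      rw [ht, div_pow, mul_pow, Real.sq_sqrt hkpos.le]
      ring
    linarith

end Vale.Agent.P087
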