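import Vale.Agent.P087.UpDefs
import Vale.Agent.P087.HermBasis
import Vale.Agent.P087.NetProj
import Vale.Agent.P087.GaussVol
import Vale.Agent.P087.MatIneq

/-! # [S] Upper.lean : upper bound of the microstates free entropy (P087) -/

namespace Vale.Agent.P087

open scoped InnerProductSpace ENNReal Topology
open MeasureTheory Filter ProbabilityTheory

namespace UpAux

/-- the slice for the first variable -/
def S0 (a k : ℕ) (E : Matrix (Fin k) (Fin k) ℂ) : Set (Fin k → Fin k → ℝ) :=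
  {c | frob (herm c - E) ≤ k * (1 / (a : ℝ) ^ 4) * (1 + 30 / (a : ℝ) ^ 2)}

/-- the slice for the other variables -/
def S1 (a k : ℕ) (E : Matrix (Fin k) (Fin k) ℂ) : Set (Fin k → Fin k → ℝ) :=
  {c | frob (herm c - E * herm c * E) ≤ k * (1 + 50 / (a : ℝ) ^ 2) ∧
    frob (E * herm c * E) ≤ 2 * k / a}

/-- the product of the slices -/
def BE (a k : ℕ) (E : Matrix (Fin k) (Fin k) ℂ) : Set (Fin (a + 1) → Fin k → Fin k → ℝ) :=
  Set.pi Set.univ (Fin.cases (S0 a k E) fun _ => S1 a k E)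

/-- bound of the volume of `S0` -/
noncomputable def V0 (a k : ℕ) : ℝ :=
  Real.exp ((k : ℝ) ^ 2 * ((1 / 2) * (1 + 30 / (a : ℝ) ^ 2))) *
    (2 * Real.pi * (1 / (a : ℝ) ^ 4) / k) ^ ((k : ℝ) ^ 2 / 2)

/-- bound of the volume of `S1` -/
noncomputable def V1 (a k : ℕ) : ℝ :=
  Real.exp ((k : ℝ) ^ 2 * ((1 / 2) * (1 + 50 / (a : ℝ) ^ 2) + 1 / (a : ℝ) ^ 2)) *
    (2 * Real.pi / k) ^ ((k : ℝ) ^ 2 / 2) * (a : ℝ) ^ ((k : ℝ) ^ 2 * (2 / (a : ℝ) ^ 2))

theorem V0_pos {a k : ℕ} (ha : 1 ≤ a) (hk : 1 ≤ k) : 0 < V0 a k := by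
  have h1 : (0 : ℝ) < a := by exact_mod_cast ha
  have h2 : (0 : ℝ) < k := by exact_mod_cast hk
  unfold V0
  positivity

theorem V1_pos {a k : ℕ} (ha : 1 ≤ a) (hk : 1 ≤ k) : 0 < V1 a k := by
  have h1 : (0 : ℝ) < a := by exact_mod_cast ha
  have h2 : (0 : ℝ) < k := by exact_mod_cast hk
  unfold V1
  positivity

theorem vol_S0 {a k : ℕ} (ha : 1 ≤ a) (hk : 1 ≤ k) (E : Matrix (Fin k) (Fin k) ℂ)
    (hE : E.IsHermitian) : volume (S0 a k E) ≤ ENNReal.ofReal (V0 a k) := by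
  have h1 : (0 : ℝ) < a := by exact_mod_cast ha
  have h2 : (0 : ℝ) < k := by exact_mod_cast hk
  refine (vol_ball E hE (k * (a : ℝ) ^ 4) _ (by positivity)).trans
    (ENNReal.ofReal_le_ofReal (le_of_eq ?_))
  unfold V0
  congr 2
  · field_simp
  · field_simp

theorem vol_S1 {a k r : ℕ} (ha : 1 ≤ a) (hk : 1 ≤ k) (hr : (r : ℝ) ≤ 2 * k / a)
    (E : Matrix (Fin k) (Fin k) ℂ) (hE : E.IsHermitian) (hEE : E * E = E) (htr : E.trace = r) :
    volume (S1 a k E) ≤ ENNReal.ofReal (V1 a k) := by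
  have h1 : (0 : ℝ) < a := by exact_mod_cast ha
  have h1' : (1 : ℝ) ≤ a := by exact_mod_cast ha
  have h2 : (0 : ℝ) < k := by exact_mod_cast hk
  have h3 : (0 : ℝ) ≤ r := Nat.cast_nonneg r
  refine (vol_slice E hE hEE htr (k : ℝ) ((k : ℝ) / a) _ _ h2 (by positivity)).trans
    (ENNReal.ofReal_le_ofReal ?_)
  unfold V1
  have e1 : (k : ℝ) * (k * (1 + 50 / (a : ℝ) ^ 2)) / 2 + (k : ℝ) / a * (2 * k / a) / 2 =
      (k : ℝ) ^ 2 * ((1 / 2) * (1 + 50 / (a : ℝ) ^ 2) + 1 / (a : ℝ) ^ 2) := by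
    field_simp
  rw [e1, mul_assoc, mul_assoc]
  refine mul_le_mul_of_nonneg_left ?_ (Real.exp_pos _).le
  have e2 : 2 * Real.pi / ((k : ℝ) / a) = (2 * Real.pi / k) * a := by
    field_simp
  rw [e2, Real.mul_rpow (by positivity) h1.le, ← mul_assoc, ← Real.rpow_add (by positivity)]
  have e3 : ((k : ℝ) ^ 2 - (r : ℝ) ^ 2) / 2 + (r : ℝ) ^ 2 / 2 = (k : ℝ) ^ 2 / 2 := by ring
  rw [e3]
  refine mul_le_mul_of_nonneg_left ?_ (by positivity)
  refine Real.rpow_le_rpow_of_exponent_le h1' ?_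
  have h4 : (r : ℝ) ^ 2 ≤ (2 * k / a) ^ 2 := by gcongr
  have h5 : (2 * (k : ℝ) / a) ^ 2 / 2 = (k : ℝ) ^ 2 * (2 / (a : ℝ) ^ 2) := by
    field_simp
  linarith

theorem vol_BE {a k r : ℕ} (ha : 1 ≤ a) (hk : 1 ≤ k) (hr : (r : ℝ) ≤ 2 * k / a)
    (E : Matrix (Fin k) (Fin k) ℂ) (hE : E.IsHermitian) (hEE : E * E = E) (htr : E.trace = r) :
    volume (BE a k E) ≤ ENNReal.ofReal (V0 a k * V1 a k ^ a) := by
  unfold BE
  rw [volume_pi_pi, Fin.prod_univ_succ]
  simp only [Fin.cases_zero, Fin.cases_succ, Finset.prod_const, Finset.card_univ,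
    Fintype.card_fin]
  rw [ENNReal.ofReal_mul (V0_pos ha hk).le, ENNReal.ofReal_pow (V1_pos ha hk).le]
  gcongr
  · exact vol_S0 ha hk E hE
  · exact vol_S1 ha hk hr E hE hEE htr

/-- the volume bound -/
noncomputable def TT (a k : ℕ) : ℝ :=
  ((k : ℝ) + 1) * ((5 * (a : ℝ) ^ 4) ^ ((k : ℝ) ^ 2 * (4 / a)) * (V0 a k * V1 a k ^ a))

theorem TT_pos {a k : ℕ} (ha : 1 ≤ a) (hk : 1 ≤ k) : 0 < TT a k := by
  have h1 : (0 : ℝ) < a := by exact_mod_cast ha
  have h2 : (0 : ℝ) < k := by exact_mod_cast hk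
  have h3 := V0_pos ha hk
  have h4 := V1_pos ha hk
  unfold TT
  positivity

theorem vol_Gam {a : ℕ} (ha : 100 ≤ a) (μ : List (Fin (a + 1)) → ℂ) (hμ : UpFacts a μ) (R : ℝ)
    {k : ℕ} (hk : 1 ≤ k) :
    volume (Gam μ R 8 k (1 / (10 ^ 4 * (a : ℝ) ^ 6))) ≤ ENNReal.ofReal (TT a k) := by
  have ha1 : 1 ≤ a := by omega
  have h1 : (0 : ℝ) < a := by exact_mod_cast ha1
  have h1' : (100 : ℝ) ≤ a := by exact_mod_cast ha
  have h2 : (0 : ℝ) < k := by exact_mod_cast hk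
  have hθ : (0 : ℝ) < 1 / (a : ℝ) ^ 4 := by positivity
  have hθ1 : 1 / (a : ℝ) ^ 4 ≤ 1 := by
    rw [div_le_one (by positivity)]
    exact one_le_pow₀ (by linarith)
  choose 𝒩 h𝒩 hcard hnet using fun r => exists_net_proj k r (1 / (a : ℝ) ^ 4) hθ hθ1
  -- the covering
  have hcov : Gam μ R 8 k (1 / (10 ^ 4 * (a : ℝ) ^ 6)) ⊆
      ⋃ r ∈ Finset.range (⌊2 * (k : ℝ) / a⌋₊ + 1), ⋃ E ∈ 𝒩 r, BE a k E := by
    intro c hc
    obtain ⟨r, E₀, hr, hE1, hE2, hE3, hE4⟩ := exists_good_proj ha μ hμ hk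
      (fun j => herm (c j)) (fun j => herm_isHermitian (c j)) hc.2
    obtain ⟨E, hE, hfE⟩ := hnet r E₀ hE1 hE2 hE3
    obtain ⟨hE5, hE6, hE7⟩ := h𝒩 r E hE
    obtain ⟨hb0, hb1⟩ := hE4 E hE5 hE6 hE7 hfE
    simp only [Set.mem_iUnion]
    refine ⟨r, ?_, E, hE, ?_⟩
    · rw [Finset.mem_range, Nat.lt_succ_iff]
      exact Nat.le_floor hr
    · rw [BE, Set.mem_univ_pi]
      intro i
      refine Fin.cases ?_ (fun i => ?_) i
      · exact hb0
      · exact hb1 i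
  refine (measure_mono hcov).trans ?_
  refine (measure_biUnion_finset_le _ _).trans ?_
  -- each term
  have hterm : ∀ r ∈ Finset.range (⌊2 * (k : ℝ) / a⌋₊ + 1),
      volume (⋃ E ∈ 𝒩 r, BE a k E) ≤
        ENNReal.ofReal ((5 * (a : ℝ) ^ 4) ^ ((k : ℝ) ^ 2 * (4 / a)) * (V0 a k * V1 a k ^ a)) := by
    intro r hr
    rw [Finset.mem_range, Nat.lt_succ_iff, Nat.le_floor_iff (by positivity)] at hr
    refine (measure_biUnion_finset_le _ _).trans ?_
    refine (Finset.sum_le_card_nsmul _ _ _ fun E hE => vol_BE ha1 hk hr E (h𝒩 r E hE).1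
      (h𝒩 r E hE).2.1 (h𝒩 r E hE).2.2).trans ?_
    rw [nsmul_eq_mul, ENNReal.ofReal_mul
      (p := (5 * (a : ℝ) ^ 4) ^ ((k : ℝ) ^ 2 * (4 / a))) (by positivity)]
    gcongr
    rw [← ENNReal.ofReal_natCast]
    refine ENNReal.ofReal_le_ofReal ((hcard r).trans ?_)
    have e1 : 5 / (1 / (a : ℝ) ^ 4) = 5 * (a : ℝ) ^ 4 := by field_simp
    rw [e1, ← Real.rpow_natCast]
    refine Real.rpow_le_rpow_of_exponent_le ?_ ?_
    · have : (1 : ℝ) ≤ (a : ℝ) ^ 4 := one_le_pow₀ (by linarith)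
      linarith
    · push_cast
      calc 2 * (k : ℝ) * r ≤ 2 * k * (2 * k / a) := by gcongr
        _ = (k : ℝ) ^ 2 * (4 / a) := by ring
  refine (Finset.sum_le_card_nsmul _ _ _ hterm).trans ?_
  rw [nsmul_eq_mul, Finset.card_range, TT, ENNReal.ofReal_mul (p := (k : ℝ) + 1) (by positivity)]
  gcongr
  rw [← ENNReal.ofReal_natCast]
  refine ENNReal.ofReal_le_ofReal ?_
  push_cast
  have h3 : (⌊2 * (k : ℝ) / a⌋₊ : ℝ) ≤ 2 * (k : ℝ) / a := Nat.floor_le (by positivity)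
  have h4 : 2 * (k : ℝ) / a ≤ k := by
    rw [div_le_iff₀ h1]
    nlinarith
  linarith

theorem log_TT {a k : ℕ} (ha : 1 ≤ a) (hk : 1 ≤ k) :
    Real.log (TT a k) / (k : ℝ) ^ 2 + ((a + 1 : ℕ) : ℝ) / 2 * Real.log k =
      Real.log ((k : ℝ) + 1) / (k : ℝ) ^ 2 + Uup a := by
  have h1 : (0 : ℝ) < a := by exact_mod_cast ha
  have h2 : (0 : ℝ) < k := by exact_mod_cast hk
  have h3 := V0_pos ha hk
  have h4 := V1_pos ha hk
  have e0 : Real.log (V0 a k) = (k : ℝ) ^ 2 * ((1 / 2) * (1 + 30 / (a : ℝ) ^ 2)) +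
      (k : ℝ) ^ 2 / 2 * (Real.log (2 * Real.pi * (1 / (a : ℝ) ^ 4)) - Real.log k) := by
    rw [V0, Real.log_mul (by positivity) (by positivity), Real.log_exp,
      Real.log_rpow (by positivity), Real.log_div (by positivity) (by positivity)]
  have e1 : Real.log (V1 a k) =
      (k : ℝ) ^ 2 * ((1 / 2) * (1 + 50 / (a : ℝ) ^ 2) + 1 / (a : ℝ) ^ 2) +
      (k : ℝ) ^ 2 / 2 * (Real.log (2 * Real.pi) - Real.log k) +
      (k : ℝ) ^ 2 * (2 / (a : ℝ) ^ 2) * Real.log a := by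
    rw [V1, Real.log_mul (by positivity) (by positivity),
      Real.log_mul (by positivity) (by positivity), Real.log_exp,
      Real.log_rpow (by positivity), Real.log_div (by positivity) (by positivity),
      Real.log_rpow (by positivity)]
  have e2 : Real.log (TT a k) = Real.log ((k : ℝ) + 1) +
      ((k : ℝ) ^ 2 * (4 / a) * Real.log (5 * (a : ℝ) ^ 4) +
        (Real.log (V0 a k) + a * Real.log (V1 a k))) := by
    rw [TT, Real.log_mul (by positivity) (by positivity),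
      Real.log_mul (by positivity) (by positivity),
      Real.log_mul (by positivity) (by positivity), Real.log_rpow (by positivity), Real.log_pow]
  rw [e2, e0, e1, Uup]
  push_cast
  field_simp
  ring

theorem tendsto_log_succ_div :
    Tendsto (fun k : ℕ => Real.log ((k : ℝ) + 1) / (k : ℝ) ^ 2) atTop (𝓝 0) := by
  have h1 : Tendsto (fun k : ℕ => (1 : ℝ) / (k : ℝ)) atTop (𝓝 0) :=
    tendsto_one_div_atTop_nhds_zero_nat
  refine squeeze_zero' (Eventually.of_forall fun k => ?_) ?_ h1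
  · exact div_nonneg (Real.log_nonneg (by have := Nat.cast_nonneg (α := ℝ) k; linarith))
      (by positivity)
  · filter_upwards [eventually_ge_atTop 1] with k hk
    have h2 : (0 : ℝ) < k := by exact_mod_cast hk
    rw [div_le_div_iff₀ (by positivity) h2]
    have h3 : Real.log ((k : ℝ) + 1) ≤ k := by
      have := Real.log_le_sub_one_of_pos (show (0 : ℝ) < k + 1 by positivity)
      linarith
    nlinarith

end UpAux

open UpAux

/-- the upper bound for the microstates entropy -/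
theorem chi_upper {a : ℕ} (ha : 100 ≤ a) (μ : List (Fin (a + 1)) → ℂ) (hμ : UpFacts a μ) (R : ℝ) :
    chiR μ R ≤ ((Uup a : ℝ) : EReal) := by
  have ha1 : 1 ≤ a := by omega
  have h1 : (0 : ℝ) < a := by exact_mod_cast ha1
  unfold chiR
  refine (iInf_le _ 8).trans ((iInf_le _ (1 / (10 ^ 4 * (a : ℝ) ^ 6))).trans
    ((iInf_le _ (by positivity)).trans ?_))
  have hlim : Tendsto (fun k : ℕ => ((Real.log ((k : ℝ) + 1) / (k : ℝ) ^ 2 + Uup a : ℝ) : EReal))
      atTop (𝓝 ((Uup a : ℝ) : EReal)) := by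
    have := tendsto_log_succ_div.add_const (Uup a)
    rw [zero_add] at this
    exact (continuous_coe_real_ereal.tendsto _).comp this
  rw [← hlim.limsup_eq]
  refine limsup_le_limsup ?_
  filter_upwards [eventually_ge_atTop 1] with k hk
  have h2 : (0 : ℝ) < k := by exact_mod_cast hk
  rw [← log_TT ha1 hk, EReal.coe_add, EReal.coe_div]
  refine add_le_add ?_ le_rfl
  refine EReal.div_le_div_right_of_nonneg (by positivity) ?_
  refine (ENNReal.log_monotone (vol_Gam ha μ hμ R hk)).trans ?_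
  rw [ENNReal.log_ofReal_of_pos (TT_pos ha1 hk)]

end Vale.Agent.P087
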