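import Vale.Agent.P087.Defs2

/-! # P087 [E]: the von Neumann algebra generated by words with a cyclic trace vector -/

namespace Vale.Agent.P087

open scoped InnerProductSpace ENNReal Topology
open MeasureTheory Filter ProbabilityTheory

variable {H : Type} [NormedAddCommGroup H] [InnerProductSpace ℂ H]

namespace VNAux

variable [CompleteSpace H]

theorem inner_star (T : H →L[ℂ] H) (u v : H) : ⟪star T u, v⟫_ℂ = ⟪u, T v⟫_ℂ := by
  rw [ContinuousLinearMap.star_eq_adjoint, ContinuousLinearMap.adjoint_inner_left]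

variable {ι : Type} (y : ι → H →L[ℂ] H)

/-- span of the words -/
def A : Submodule ℂ (H →L[ℂ] H) := Submodule.span ℂ (Set.range fun w : List ι => (w.map y).prod)

theorem word_mem (w : List ι) : (w.map y).prod ∈ A y := Submodule.subset_span ⟨w, rfl⟩

theorem one_mem : (1 : H →L[ℂ] H) ∈ A y := word_mem y []

theorem y_mem (i : ι) : y i ∈ A y := by simpa using word_mem y [i]

theorem mul_mem {a b : H →L[ℂ] H} (ha : a ∈ A y) (hb : b ∈ A y) : a * b ∈ A y := by
  induction ha using Submodule.span_induction with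
  | mem a ha =>
    obtain ⟨u, rfl⟩ := ha
    induction hb using Submodule.span_induction with
    | mem b hb =>
      obtain ⟨v, rfl⟩ := hb
      have : (u.map y).prod * (v.map y).prod = ((u ++ v).map y).prod := by
        rw [List.map_append, List.prod_append]
      simp only
      rw [this]
      exact word_mem y _
    | zero => rw [mul_zero]; exact (A y).zero_mem
    | add b c _ _ hb hc => rw [mul_add]; exact (A y).add_mem hb hc
    | smul r b _ hb => rw [mul_smul_comm]; exact (A y).smul_mem r hb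
  | zero => rw [zero_mul]; exact (A y).zero_mem
  | add b c _ _ hb hc => rw [add_mul]; exact (A y).add_mem hb hc
  | smul r b _ hb => rw [smul_mul_assoc]; exact (A y).smul_mem r hb

theorem star_word (hy : ∀ i, IsSelfAdjoint (y i)) (w : List ι) :
    star (w.map y).prod = (w.reverse.map y).prod := by
  induction w with
  | nil => simp
  | cons j w ih =>
    rw [List.map_cons, List.prod_cons, star_mul, ih, (hy j).star_eq, List.reverse_cons,
      List.map_append, List.prod_append]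
    simp

theorem star_mem (hy : ∀ i, IsSelfAdjoint (y i)) {a : H →L[ℂ] H} (ha : a ∈ A y) :
    star a ∈ A y := by
  induction ha using Submodule.span_induction with
  | mem a ha =>
    obtain ⟨u, rfl⟩ := ha
    simp only
    rw [star_word y hy]
    exact word_mem y _
  | zero => rw [star_zero]; exact (A y).zero_mem
  | add b c _ _ hb hc => rw [star_add]; exact (A y).add_mem hb hc
  | smul r b _ hb => rw [star_smul]; exact (A y).smul_mem _ hb

theorem trace_comm {Ω : H} (htr : ∀ u v, moment Ω y (u ++ v) = moment Ω y (v ++ u))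
    {a b : H →L[ℂ] H} (ha : a ∈ A y) (hb : b ∈ A y) : ⟪Ω, a (b Ω)⟫_ℂ = ⟪Ω, b (a Ω)⟫_ℂ := by
  induction ha using Submodule.span_induction with
  | mem a ha =>
    obtain ⟨u, rfl⟩ := ha
    induction hb using Submodule.span_induction with
    | mem b hb =>
      obtain ⟨v, rfl⟩ := hb
      have h := htr u v
      unfold moment at h
      rw [List.map_append, List.prod_append, List.map_append, List.prod_append] at h
      exact h
    | zero => simp
    | add b c _ _ hb hc =>
      rw [add_apply, add_apply, map_add, inner_add_right, inner_add_right, hb, hc]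
    | smul r b _ hb =>
      rw [smul_apply, smul_apply, map_smul, inner_smul_right, inner_smul_right, hb]
  | zero => simp
  | add b c _ _ hb hc =>
    rw [add_apply, add_apply, map_add, inner_add_right, inner_add_right, hb, hc]
  | smul r b _ hb =>
    rw [smul_apply, smul_apply, map_smul, inner_smul_right, inner_smul_right, hb]

/-- `‖a* Ω‖ = ‖a Ω‖` -/
theorem norm_star_apply {Ω : H} (hy : ∀ i, IsSelfAdjoint (y i))
    (htr : ∀ u v, moment Ω y (u ++ v) = moment Ω y (v ++ u))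
    {a : H →L[ℂ] H} (ha : a ∈ A y) : ‖star a Ω‖ = ‖a Ω‖ := by
  have h1 : ⟪star a Ω, star a Ω⟫_ℂ = ⟪a Ω, a Ω⟫_ℂ := by
    rw [inner_star, trace_comm y htr ha (star_mem y hy ha), ← inner_star (star a), star_star]
  rw [inner_self_eq_norm_sq_to_K, inner_self_eq_norm_sq_to_K] at h1
  have h2 : ‖star a Ω‖ ^ 2 = ‖a Ω‖ ^ 2 := by exact_mod_cast h1
  exact (sq_eq_sq₀ (norm_nonneg _) (norm_nonneg _)).1 h2

theorem norm_right {Ω : H} (hy : ∀ i, IsSelfAdjoint (y i))
    (htr : ∀ u v, moment Ω y (u ++ v) = moment Ω y (v ++ u))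
    {a q : H →L[ℂ] H} (ha : a ∈ A y) (hq : q ∈ A y) : ‖a (q Ω)‖ ≤ ‖q‖ * ‖a Ω‖ := by
  have h1 : ‖a (q Ω)‖ = ‖star q (star a Ω)‖ := by
    have := norm_star_apply y hy htr (mul_mem y ha hq)
    rw [star_mul] at this
    exact this.symm
  rw [h1]
  refine ((star q).le_opNorm _).trans ?_
  rw [norm_star, norm_star_apply y hy htr ha]

/-- evaluation at `Ω` -/
def ev (Ω : H) : A y →ₗ[ℂ] H where
  toFun a := a.1 Ω
  map_add' _ _ := rfl
  map_smul' _ _ := rfl

/-- right multiplication -/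
def rm (Ω : H) (q : H →L[ℂ] H) : A y →ₗ[ℂ] H where
  toFun a := a.1 (q Ω)
  map_add' _ _ := rfl
  map_smul' _ _ := rfl

/-- the conjugation -/
noncomputable def cj (Ω : H) : A y →ₛₗ[starRingEnd ℂ] H where
  toFun a := star a.1 Ω
  map_add' a b := by
    show star (a.1 + b.1) Ω = _
    rw [star_add]
    rfl
  map_smul' r a := by
    show star (r • a.1) Ω = _
    rw [star_smul]
    rfl

theorem dense_ev {Ω : H} (hcyc : L2 Ω y = ⊤) : DenseRange (ev y Ω) := by
  have h1 : (LinearMap.range (ev y Ω)) =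
      Submodule.span ℂ (Set.range fun w : List ι => (w.map y).prod Ω) := by
    apply le_antisymm
    · rintro v ⟨⟨a, ha⟩, rfl⟩
      show a Ω ∈ _
      induction ha using Submodule.span_induction with
      | mem a ha =>
        obtain ⟨u, rfl⟩ := ha
        exact Submodule.subset_span ⟨u, rfl⟩
      | zero => simp
      | add b c _ _ hb hc => exact Submodule.add_mem _ hb hc
      | smul r b _ hb => exact Submodule.smul_mem _ r hb
    · rw [Submodule.span_le]
      rintro v ⟨w, rfl⟩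
      exact ⟨⟨_, word_mem y w⟩, rfl⟩
  have h2 : Dense ((LinearMap.range (ev y Ω) : Submodule ℂ H) : Set H) := by
    rw [Submodule.dense_iff_topologicalClosure_eq_top, h1]
    exact hcyc
  intro v
  have := h2 v
  rw [LinearMap.coe_range] at this
  exact this

end VNAux

open VNAux in
theorem vn_of_letters [CompleteSpace H] {ι : Type} (Ω : H) (hΩ : ‖Ω‖ = 1) (y : ι → H →L[ℂ] H)
    (hy : ∀ i, IsSelfAdjoint (y i)) (hcyc : L2 Ω y = ⊤)
    (htr : ∀ u v, moment Ω y (u ++ v) = moment Ω y (v ++ u)) :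
    ∃ 𝓜 : TracialVN H, 𝓜.Ω = Ω ∧ ∀ i, y i ∈ 𝓜.M := by
  have hdense := dense_ev y hcyc
  -- right multiplications
  set ρ : (H →L[ℂ] H) → (H →L[ℂ] H) := fun q => (rm y Ω q).extendOfNorm (ev y Ω) with hρ
  have hρ1 : ∀ q ∈ A y, ∀ a ∈ A y, ρ q (a Ω) = a (q Ω) := by
    intro q hq a ha
    exact LinearMap.extendOfNorm_eq (f := rm y Ω q) (e := ev y Ω) hdense
      ⟨‖q‖, fun a => norm_right y hy htr a.2 hq⟩ ⟨a, ha⟩
  have hΩA : ∀ q : H →L[ℂ] H, q ∈ A y → ρ q Ω = q Ω := by
    intro q hq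
    have := hρ1 q hq 1 (one_mem y)
    simpa using this
  -- the conjugation
  set J : H →SL[starRingEnd ℂ] H := (cj y Ω).extendOfNorm (ev y Ω) with hJ
  have hJ1 : ∀ a ∈ A y, J (a Ω) = star a Ω := by
    intro a ha
    exact LinearMap.extendOfNorm_eq (f := cj y Ω) (e := ev y Ω) hdense
      ⟨1, fun a => by rw [one_mul]; exact (norm_star_apply y hy htr a.2).le⟩ ⟨a, ha⟩
  have hJ2 : ∀ u v : H, ⟪J u, v⟫_ℂ = ⟪J v, u⟫_ℂ := by
    intro u v
    refine hdense.induction_on (p := fun u => ⟪J u, v⟫_ℂ = ⟪J v, u⟫_ℂ) u ?_ ?_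
    · exact isClosed_eq (by fun_prop) (by fun_prop)
    · intro a
      refine hdense.induction_on (p := fun v => ⟪J (ev y Ω a), v⟫_ℂ = ⟪J v, ev y Ω a⟫_ℂ) v ?_ ?_
      · exact isClosed_eq (by fun_prop) (by fun_prop)
      · intro b
        show ⟪J (a.1 Ω), b.1 Ω⟫_ℂ = ⟪J (b.1 Ω), a.1 Ω⟫_ℂ
        rw [hJ1 a.1 a.2, hJ1 b.1 b.2, inner_star, inner_star]
        exact trace_comm y htr a.2 b.2
  -- the commutant contains the right multiplications
  set S : Set (H →L[ℂ] H) := Set.range y with hS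
  have hSS : S ∪ star S = S := by
    rw [Set.union_eq_left]
    intro g hg
    rw [Set.mem_star] at hg
    obtain ⟨i, hi⟩ := hg
    refine ⟨i, ?_⟩
    have := congrArg star hi
    rw [star_star, (hy i).star_eq] at this
    exact this
  have hρ2 : ∀ q ∈ A y, ρ q ∈ Set.centralizer S := by
    intro q hq g hg
    obtain ⟨i, rfl⟩ := hg
    refine ContinuousLinearMap.ext fun v => ?_
    refine hdense.induction_on (p := fun v => (y i * ρ q) v = (ρ q * y i) v) v ?_ ?_
    · exact isClosed_eq (by fun_prop) (by fun_prop)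
    · intro a
      show y i (ρ q (a.1 Ω)) = ρ q (y i (a.1 Ω))
      rw [hρ1 q hq a.1 a.2]
      have := hρ1 q hq (y i * a.1) (mul_mem y (y_mem y i) a.2)
      exact this.symm
  -- the von Neumann algebra
  let VN₀ : VonNeumannAlgebra H :=
    { toStarSubalgebra := StarSubalgebra.centralizer ℂ
        (StarSubalgebra.centralizer ℂ S : Set (H →L[ℂ] H))
      centralizer_centralizer' := by
        show Set.centralizer (Set.centralizer
          ((StarSubalgebra.centralizer ℂ (StarSubalgebra.centralizer ℂ S : Set (H →L[ℂ] H)) :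
            StarSubalgebra ℂ (H →L[ℂ] H)) : Set (H →L[ℂ] H))) =
          ((StarSubalgebra.centralizer ℂ (StarSubalgebra.centralizer ℂ S : Set (H →L[ℂ] H)) :
            StarSubalgebra ℂ (H →L[ℂ] H)) : Set (H →L[ℂ] H))
        rw [StarSubalgebra.coe_centralizer_centralizer, Set.centralizer_centralizer_centralizer] }
  have hmem : ∀ x : H →L[ℂ] H, x ∈ VN₀ ↔ x ∈ Set.centralizer (Set.centralizer S) := by
    intro x
    show x ∈ ((StarSubalgebra.centralizer ℂ (StarSubalgebra.centralizer ℂ S :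
      Set (H →L[ℂ] H)) : StarSubalgebra ℂ (H →L[ℂ] H)) : Set (H →L[ℂ] H)) ↔ _
    rw [StarSubalgebra.coe_centralizer_centralizer, hSS]
  have hcomm : ∀ x ∈ VN₀, ∀ q ∈ A y, x (q Ω) = ρ q (x Ω) := by
    intro x hx q hq
    rw [hmem] at hx
    have h1 := hx (ρ q) (hρ2 q hq)
    have h2 := congrArg (fun T : H →L[ℂ] H => T Ω) h1
    simp only [mul_apply_eq_comp] at h2
    rw [hΩA q hq] at h2
    exact h2.symm
  -- `⟪Ω, ρ_q v⟫ = ⟪q* Ω, v⟫`
  have hρ3 : ∀ q ∈ A y, ∀ v : H, ⟪Ω, ρ q v⟫_ℂ = ⟪star q Ω, v⟫_ℂ := by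
    intro q hq v
    refine hdense.induction_on (p := fun v => ⟪Ω, ρ q v⟫_ℂ = ⟪star q Ω, v⟫_ℂ) v ?_ ?_
    · exact isClosed_eq (by fun_prop) (by fun_prop)
    · intro a
      show ⟪Ω, ρ q (a.1 Ω)⟫_ℂ = ⟪star q Ω, a.1 Ω⟫_ℂ
      rw [hρ1 q hq a.1 a.2, inner_star]
      exact trace_comm y htr a.2 hq
  -- `J x Ω = x* Ω`
  have hJ3 : ∀ x ∈ VN₀, star x Ω = J (x Ω) := by
    intro x hx
    have h1 : ∀ v : H, ⟪star x Ω, v⟫_ℂ = ⟪J (x Ω), v⟫_ℂ := by
      intro v
      refine hdense.induction_on (p := fun v => ⟪star x Ω, v⟫_ℂ = ⟪J (x Ω), v⟫_ℂ) v ?_ ?_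
      · exact isClosed_eq (by fun_prop) (by fun_prop)
      · intro a
        show ⟪star x Ω, a.1 Ω⟫_ℂ = ⟪J (x Ω), a.1 Ω⟫_ℂ
        rw [inner_star, hcomm x hx a.1 a.2, hρ3 a.1 a.2, hJ2, hJ1 a.1 a.2]
    exact ext_inner_right ℂ h1
  refine ⟨⟨VN₀, Ω, hΩ, ?_, ?_⟩, rfl, ?_⟩
  · intro x hx z hz
    rw [mul_apply_eq_comp, mul_apply_eq_comp]
    have e1 : ⟪Ω, x (z Ω)⟫_ℂ = ⟪J (x Ω), z Ω⟫_ℂ := by rw [← hJ3 x hx, inner_star]
    have e2 : ⟪Ω, z (x Ω)⟫_ℂ = ⟪J (z Ω), x Ω⟫_ℂ := by rw [← hJ3 z hz, inner_star]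
    rw [e1, e2, hJ2]
  · intro x hx h0
    rw [mul_apply_eq_comp, ← inner_star, star_star, inner_self_eq_zero] at h0
    refine ContinuousLinearMap.ext fun v => ?_
    refine hdense.induction_on (p := fun v => x v = (0 : H →L[ℂ] H) v) v ?_ ?_
    · exact isClosed_eq (by fun_prop) (by fun_prop)
    · intro a
      show x (a.1 Ω) = 0
      rw [hcomm x hx a.1 a.2, h0, map_zero]
  · intro i
    show y i ∈ VN₀
    rw [hmem]
    exact Set.subset_centralizer_centralizer ⟨i, rfl⟩

end Vale.Agent.P087
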