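import Vale.Agent.P087.FockAbs

/-! [X2] The free Fisher information depends only on the moments. -/

namespace Vale.Agent.P087

open scoped InnerProductSpace ENNReal Topology
open MeasureTheory Filter

variable {H H' : Type} [NormedAddCommGroup H] [InnerProductSpace ℂ H] [CompleteSpace H]
  [NormedAddCommGroup H'] [InnerProductSpace ℂ H'] [CompleteSpace H']

namespace PhiLawAux

/-- polynomials applied to the vacuum -/
noncomputable def ev {n : ℕ} (Ω : H) (Z : Fin n → H →L[ℂ] H) : (List (Fin n) →₀ ℂ) →ₗ[ℂ] H :=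
  Finsupp.linearCombination ℂ fun w : List (Fin n) => (w.map Z).prod Ω

omit [CompleteSpace H] in
theorem ev_single {n : ℕ} (Ω : H) (Z : Fin n → H →L[ℂ] H) (w : List (Fin n)) (c : ℂ) :
    ev Ω Z (Finsupp.single w c) = c • (w.map Z).prod Ω := by
  simp [ev, Finsupp.linearCombination_single]

theorem gram {n : ℕ} {Ω : H} {Z : Fin n → H →L[ℂ] H} (hZ : ∀ j, IsSelfAdjoint (Z j))
    (u v : List (Fin n)) :
    ⟪(u.map Z).prod Ω, (v.map Z).prod Ω⟫_ℂ = moment Ω Z (u.reverse ++ v) := by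
  rw [moment, List.map_append, List.prod_append, mul_apply_eq_comp, ← FockAbsAux.star_prod hZ u,
    ContinuousLinearMap.star_eq_adjoint, ContinuousLinearMap.adjoint_inner_right]

theorem ev_inner {n : ℕ} {Ω : H} {Ω' : H'} {Z : Fin n → H →L[ℂ] H} {Z' : Fin n → H' →L[ℂ] H'}
    (hZ : ∀ j, IsSelfAdjoint (Z j)) (hZ' : ∀ j, IsSelfAdjoint (Z' j))
    (h : ∀ w, moment Ω Z w = moment Ω' Z' w) (c d : List (Fin n) →₀ ℂ) :
    ⟪ev Ω Z c, ev Ω Z d⟫_ℂ = ⟪ev Ω' Z' c, ev Ω' Z' d⟫_ℂ := by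
  induction c using Finsupp.induction_linear with
  | zero => simp
  | add c c' hc hc' => simp only [map_add, inner_add_left, hc, hc']
  | single u a =>
    induction d using Finsupp.induction_linear with
    | zero => simp
    | add d d' hd hd' => simp only [map_add, inner_add_right, hd, hd']
    | single v b =>
      simp only [ev_single, inner_smul_left, inner_smul_right, gram hZ, gram hZ', h]

theorem ev_norm {n : ℕ} {Ω : H} {Ω' : H'} {Z : Fin n → H →L[ℂ] H} {Z' : Fin n → H' →L[ℂ] H'}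
    (hZ : ∀ j, IsSelfAdjoint (Z j)) (hZ' : ∀ j, IsSelfAdjoint (Z' j))
    (h : ∀ w, moment Ω Z w = moment Ω' Z' w) (c : List (Fin n) →₀ ℂ) :
    ‖ev Ω Z c‖ = ‖ev Ω' Z' c‖ := by
  rw [← sq_eq_sq₀ (norm_nonneg _) (norm_nonneg _)]
  have h1 := ev_inner hZ hZ' h c c
  rw [inner_self_eq_norm_sq_to_K, inner_self_eq_norm_sq_to_K] at h1
  exact_mod_cast h1

omit [CompleteSpace H] in
theorem mem_L2 {n : ℕ} {Ω : H} {Z : Fin n → H →L[ℂ] H} {ξ : H} (hξ : ξ ∈ L2 Ω Z) :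
    ∃ c : ℕ → (List (Fin n) →₀ ℂ), Tendsto (fun m => ev Ω Z (c m)) atTop (𝓝 ξ) := by
  have h1 : ξ ∈ closure ((Submodule.span ℂ (Set.range fun w : List (Fin n) =>
    (w.map Z).prod Ω)) : Set H) := hξ
  obtain ⟨y, hy, hlim⟩ := mem_closure_iff_seq_limit.1 h1
  have h2 : ∀ m, ∃ c : List (Fin n) →₀ ℂ, ev Ω Z c = y m := by
    intro m
    have := hy m
    rw [SetLike.mem_coe, Finsupp.mem_span_range_iff_exists_finsupp] at this
    obtain ⟨c, hc⟩ := this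
    exact ⟨c, hc⟩
  choose c hc using h2
  exact ⟨c, by simpa only [hc] using hlim⟩

omit [CompleteSpace H] in
theorem ev_mem {n : ℕ} {Ω : H} {Z : Fin n → H →L[ℂ] H} (c : List (Fin n) →₀ ℂ) :
    ev Ω Z c ∈ L2 Ω Z := by
  refine Submodule.le_topologicalClosure _ ?_
  rw [ev, Finsupp.linearCombination_apply]
  refine Submodule.sum_mem _ fun w _ => Submodule.smul_mem _ _ (Submodule.subset_span ⟨w, rfl⟩)

theorem transfer {n : ℕ} {Ω : H} {Ω' : H'} {Z : Fin n → H →L[ℂ] H} {Z' : Fin n → H' →L[ℂ] H'}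
    (hZ : ∀ j, IsSelfAdjoint (Z j)) (hZ' : ∀ j, IsSelfAdjoint (Z' j))
    (h : ∀ w, moment Ω Z w = moment Ω' Z' w) {ξ : H} (hξ : ξ ∈ L2 Ω Z) :
    ∃ ξ' ∈ L2 Ω' Z', ‖ξ'‖ = ‖ξ‖ ∧ ∀ u : List (Fin n),
      ⟪(u.map Z').prod Ω', ξ'⟫_ℂ = ⟪(u.map Z).prod Ω, ξ⟫_ℂ := by
  obtain ⟨c, hc⟩ := mem_L2 hξ
  have hcau : CauchySeq fun m => ev Ω' Z' (c m) := by
    have h1 := hc.cauchySeq
    rw [Metric.cauchySeq_iff] at h1 ⊢
    intro ε hε
    obtain ⟨N, hN⟩ := h1 ε hε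
    refine ⟨N, fun m hm l hl => ?_⟩
    have h2 := hN m hm l hl
    rw [dist_eq_norm, ← map_sub] at h2 ⊢
    rwa [← ev_norm hZ hZ' h]
  obtain ⟨ξ', hξ'⟩ := cauchySeq_tendsto_of_complete hcau
  refine ⟨ξ', ?_, ?_, ?_⟩
  · exact (Submodule.isClosed_topologicalClosure _).mem_of_tendsto hξ'
      (Eventually.of_forall fun m => ev_mem (c m))
  · refine tendsto_nhds_unique hξ'.norm ?_
    simp only [← ev_norm hZ hZ' h]
    exact hc.norm
  · intro u
    have h1 := ((innerSL ℂ ((u.map Z').prod Ω')).continuous.tendsto ξ').comp hξ'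
    have h2 := ((innerSL ℂ ((u.map Z).prod Ω)).continuous.tendsto ξ).comp hc
    refine tendsto_nhds_unique h1 ?_
    refine h2.congr fun m => ?_
    simp only [Function.comp_apply, innerSL_apply_apply]
    have e1 : (u.map Z).prod Ω = ev Ω Z (Finsupp.single u 1) := by rw [ev_single, one_smul]
    have e2 : (u.map Z').prod Ω' = ev Ω' Z' (Finsupp.single u 1) := by rw [ev_single, one_smul]
    rw [e1, e2, ev_inner hZ hZ' h]

theorem phi_le {n : ℕ} {Ω : H} {Ω' : H'} {Z : Fin n → H →L[ℂ] H} {Z' : Fin n → H' →L[ℂ] H'}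
    (hZ : ∀ j, IsSelfAdjoint (Z j)) (hZ' : ∀ j, IsSelfAdjoint (Z' j))
    (h : ∀ w, moment Ω Z w = moment Ω' Z' w) : phiStar Ω' Z' ≤ phiStar Ω Z := by
  unfold phiStar
  refine le_iInf₂ fun ξ hξ => ?_
  have h1 : ∀ j, ∃ ξ' ∈ L2 Ω' Z', ‖ξ'‖ = ‖ξ j‖ ∧ ∀ u : List (Fin n),
      ⟪(u.map Z').prod Ω', ξ'⟫_ℂ = ⟪(u.map Z).prod Ω, ξ j⟫_ℂ :=
    fun j => transfer hZ hZ' h (hξ j).1
  choose ξ' hm hn hi using h1
  refine iInf₂_le_of_le ξ' ?_ ?_
  · intro j
    refine ⟨hm j, fun w => ?_⟩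
    rw [hi, (hξ j).2 w]
    simp only [h]
  · simp only [hn]
    exact le_rfl

end PhiLawAux

/-- the free Fisher information depends only on the moments -/
theorem phiStar_congr {n : ℕ} {Ω : H} {Ω' : H'} {Z : Fin n → H →L[ℂ] H} {Z' : Fin n → H' →L[ℂ] H'}
    (hZ : ∀ j, IsSelfAdjoint (Z j)) (hZ' : ∀ j, IsSelfAdjoint (Z' j))
    (h : ∀ w, moment Ω Z w = moment Ω' Z' w) : phiStar Ω Z = phiStar Ω' Z' :=
  le_antisymm (PhiLawAux.phi_le hZ' hZ fun w => (h w).symm) (PhiLawAux.phi_le hZ hZ' h)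

end Vale.Agent.P087
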