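import Vale.Agent.P087.Defs2

/-! # [A] Splits.lean : combinatorics of `splits` (P087) -/

namespace Vale.Agent.P087

open scoped InnerProductSpace ENNReal Topology
open MeasureTheory Filter ProbabilityTheory

variable {H : Type} [NormedAddCommGroup H] [InnerProductSpace ℂ H]

section A
variable {ι : Type} [DecidableEq ι]

/-- characterisation -/
theorem mem_splits {j : ι} {w : List ι} {p : List ι × List ι} :
    p ∈ splits j w ↔ w = p.1 ++ j :: p.2 := by
  induction w generalizing p with
  | nil => simp [splits]
  | cons i w ih =>
    rw [splits, List.mem_append, List.mem_map]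
    constructor
    · rintro (h | ⟨q, hq, rfl⟩)
      · split_ifs at h with hij
        · rw [List.mem_singleton] at h
          subst h
          simp [hij]
        · simp at h
      · rw [ih] at hq
        simp [hq]
    · rcases p with ⟨p1, p2⟩
      intro h
      cases p1 with
      | nil =>
        simp only [List.nil_append, List.cons.injEq] at h
        left
        simp [h.1, h.2]
      | cons a p1 =>
        simp only [List.cons_append, List.cons.injEq] at h
        right
        exact ⟨(p1, p2), ih.2 h.2, by simp [h.1]⟩

/-- `splits` of a concatenation, as an equality of lists -/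
theorem splits_append_eq (j : ι) (u v : List ι) :
    splits j (u ++ v) = (splits j u).map (fun p => (p.1, p.2 ++ v)) ++
      (splits j v).map (fun p => (u ++ p.1, p.2)) := by
  induction u with
  | nil => simp [splits]
  | cons i u ih =>
    rw [List.cons_append, splits, ih, splits]
    simp only [List.map_append, List.map_map, List.append_assoc]
    congr 1
    split_ifs <;> simp

theorem splits_append (j : ι) (u v : List ι) :
    (splits j (u ++ v)).Perm ((splits j u).map (fun p => (p.1, p.2 ++ v)) ++
      (splits j v).map (fun p => (u ++ p.1, p.2))) :=
  List.Perm.of_eq (splits_append_eq j u v)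

/-- sum over the splits of a nonempty word -/
theorem sum_splits_cons {β : Type} [AddCommMonoid β] (j i : ι) (w : List ι)
    (f : List ι × List ι → β) :
    ((splits j (i :: w)).map f).sum =
      (if i = j then f ([], w) else 0) + ((splits j w).map fun p => f (i :: p.1, p.2)).sum := by
  rw [splits, List.map_append, List.sum_append, List.map_map]
  congr 1
  split_ifs <;> simp

/-- sum over the splits of a concatenation -/
theorem sum_splits_append {β : Type} [AddCommMonoid β] (j : ι) (u v : List ι)
    (f : List ι × List ι → β) :
    ((splits j (u ++ v)).map f).sum =
      ((splits j u).map fun p => f (p.1, p.2 ++ v)).sum +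
        ((splits j v).map fun p => f (u ++ p.1, p.2)).sum := by
  rw [splits_append_eq, List.map_append, List.sum_append, List.map_map, List.map_map]
  rfl

/-- `w = p' ++ i :: q' ++ j :: q''` in two ways -/
theorem splits_assoc {β : Type} [AddCommMonoid β] (i j : ι) (w : List ι)
    (F : List ι → List ι → List ι → β) :
    ((splits i w).map fun p => ((splits j p.2).map fun q => F p.1 q.1 q.2).sum).sum =
    ((splits j w).map fun p => ((splits i p.1).map fun q => F q.1 q.2 p.2).sum).sum := by
  induction w generalizing F with
  | nil => simp [splits]
  | cons a w ih =>
    rw [sum_splits_cons, sum_splits_cons]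
    have h1 := ih fun x y z => F (a :: x) y z
    simp only at h1 ⊢
    rw [h1]
    simp only [splits, List.map_nil, List.sum_nil, ite_self, zero_add]
    by_cases hai : a = i
    · simp only [hai, if_true, List.map_append, List.sum_append, List.map_cons, List.map_nil,
        List.sum_cons, List.sum_nil, add_zero, List.map_map, Function.comp_def]
      rw [List.sum_map_add]
    · simp [hai, Function.comp_def]

theorem splits_reverse (j : ι) (w : List ι) :
    (splits j w.reverse).Perm ((splits j w).map fun p => (p.2.reverse, p.1.reverse)) := by
  induction w with
  | nil => simp [splits]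
  | cons a w ih =>
    rw [List.reverse_cons, splits_append_eq]
    have h1 := (ih.map fun p : List ι × List ι => (p.1, p.2 ++ [a]))
    refine (h1.append_right _).trans ?_
    refine List.perm_append_comm.trans ?_
    rw [splits]
    simp only [splits, List.map_append, List.map_map, List.map_nil, List.append_nil]
    refine List.Perm.append (List.Perm.of_eq ?_) (List.Perm.of_eq ?_)
    · split_ifs <;> simp
    · refine List.map_congr_left fun p _ => ?_
      simp

theorem splits_eq_nil {j : ι} {w : List ι} (h : j ∉ w) : splits j w = [] := by
  rw [List.eq_nil_iff_forall_not_mem]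
  intro p hp
  rw [mem_splits] at hp
  apply h
  rw [hp]
  simp

omit [DecidableEq ι] in
theorem expd_eval {n : ℕ} {C : Type} (b : Fin n → ℝ) (f : Fin n → C) {A : Type} [Ring A]
    [Algebra ℂ A] (y : Fin n ⊕ C → A) (w : List (Fin n)) :
    (w.map fun j => y (.inl j) + ((b j : ℝ) : ℂ) • y (.inr (f j))).prod =
      ((expd b f w).map fun p => ((p.1 : ℝ) : ℂ) • (p.2.map y).prod).sum := by
  induction w with
  | nil => simp [expd]
  | cons j w ih =>
    rw [List.map_cons, List.prod_cons, ih, expd, List.map_append, List.sum_append, add_mul]
    simp only [List.map_map, Function.comp_def, List.map_cons, List.prod_cons]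
    rw [← List.sum_map_mul_left, ← List.sum_map_mul_left]
    congr 2
    · refine List.map_congr_left fun p _ => ?_
      simp
    · refine List.map_congr_left fun p _ => ?_
      rw [smul_mul_smul_comm, Complex.ofReal_mul]

theorem moment_expd {n : ℕ} {C : Type} (b : Fin n → ℝ) (f : Fin n → C) (Ω : H)
    (y : Fin n ⊕ C → H →L[ℂ] H) (w : List (Fin n)) :
    moment Ω (fun j => y (.inl j) + ((b j : ℝ) : ℂ) • y (.inr (f j))) w =
      ((expd b f w).map fun p => ((p.1 : ℝ) : ℂ) * moment Ω y p.2).sum := by
  rw [moment, expd_eval]
  generalize expd b f w = L
  induction L with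
  | nil => simp
  | cons p L ih =>
    simp only [List.map_cons, List.sum_cons, add_apply, inner_add_right,
      smul_apply, inner_smul_right]
    rw [ih]
    rfl

end A

end Vale.Agent.P087
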