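import Vale.Agent.P087.FreeLaw
import Vale.Agent.P087.PhiLaw
import Vale.Agent.P087.Splits

/-! [X3] `χ*` does not depend on the choice of the free semicircular family. -/

namespace Vale.Agent.P087

open scoped InnerProductSpace ENNReal Topology
open MeasureTheory Filter

variable {H H' : Type} [NormedAddCommGroup H] [InnerProductSpace ℂ H] [CompleteSpace H]
  [NormedAddCommGroup H'] [InnerProductSpace ℂ H'] [CompleteSpace H']

omit [CompleteSpace H] [CompleteSpace H'] in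
theorem flow_moment {n : ℕ} {Ω : H} {Ω' : H'}
    {X S : Fin n → H →L[ℂ] H} {X' S' : Fin n → H' →L[ℂ] H'}
    (h : ∀ w, moment Ω (Sum.elim X S) w = moment Ω' (Sum.elim X' S') w) (r : ℝ) (w : List (Fin n)) :
    moment Ω (fun j => X j + ((r : ℝ) : ℂ) • S j) w =
      moment Ω' (fun j => X' j + ((r : ℝ) : ℂ) • S' j) w := by
  have h1 := moment_expd (fun _ : Fin n => r) id Ω (Sum.elim X S) w
  have h2 := moment_expd (fun _ : Fin n => r) id Ω' (Sum.elim X' S') w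
  simp only [Sum.elim_inl, Sum.elim_inr, id] at h1 h2
  rw [h1, h2]
  simp only [h]

theorem phiStar_flow {n : ℕ} {Ω : H} {Ω' : H'} (hΩ : ‖Ω‖ = 1) (hΩ' : ‖Ω'‖ = 1)
    {X S : Fin n → H →L[ℂ] H} {X' S' : Fin n → H' →L[ℂ] H'}
    (hXs : ∀ j, IsSelfAdjoint (X j)) (hXs' : ∀ j, IsSelfAdjoint (X' j))
    (hX : ∀ w, moment Ω X w = moment Ω' X' w)
    (hS : FreeSemicirc Ω X S) (hS' : FreeSemicirc Ω' X' S') (r : ℝ) :
    phiStar Ω (fun j => X j + ((r : ℝ) : ℂ) • S j) =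
      phiStar Ω' (fun j => X' j + ((r : ℝ) : ℂ) • S' j) := by
  refine phiStar_congr ?_ ?_ (flow_moment (free_moment_eq hΩ hΩ' hX hS hS') r)
  · intro j
    refine (hXs j).add ?_
    rw [IsSelfAdjoint, star_smul, (hS.2 j).1.star_eq, RCLike.star_def, Complex.conj_ofReal]
  · intro j
    refine (hXs' j).add ?_
    rw [IsSelfAdjoint, star_smul, (hS'.2 j).1.star_eq, RCLike.star_def, Complex.conj_ofReal]

theorem chiStar_congr {n : ℕ} {Ω : H} {Ω' : H'} (hΩ : ‖Ω‖ = 1) (hΩ' : ‖Ω'‖ = 1)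
    {X S : Fin n → H →L[ℂ] H} {X' S' : Fin n → H' →L[ℂ] H'}
    (hXs : ∀ j, IsSelfAdjoint (X j)) (hXs' : ∀ j, IsSelfAdjoint (X' j))
    (hX : ∀ w, moment Ω X w = moment Ω' X' w)
    (hS : FreeSemicirc Ω X S) (hS' : FreeSemicirc Ω' X' S') :
    chiStar Ω X S = chiStar Ω' X' S' := by
  unfold chiStar
  simp only [phiStar_flow hΩ hΩ' hXs hXs' hX hS hS']

end Vale.Agent.P087
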