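import Vale.Agent.P087.Splits
import Vale.Agent.P087.FockAbs
import Vale.Agent.P087.Free
import Vale.Agent.P087.KeyIneq
import Vale.Agent.P087.MBound
import Vale.Agent.P087.VNLemma
import Vale.Agent.P087.PhiBound
import Vale.Agent.P087.ModelLaw
import Vale.Agent.P087.Prob
import Vale.Agent.P087.LawFacts
import Vale.Agent.P087.Upper
import Vale.Agent.P087.Lower
import Vale.Agent.P087.ChiStarLower
import Vale.Agent.P087.Numeric
import Vale.Agent.P087.XFinal

/-! Assembly of the disproof (P087). -/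

namespace Vale.Agent.P087

open scoped InnerProductSpace ENNReal Topology
open MeasureTheory Filter

variable {H : Type} [NormedAddCommGroup H] [InnerProductSpace ℂ H]

namespace Fin1

/-! #### restriction of laws to fewer noise letters -/

theorem splits_map {ι κ : Type} [DecidableEq ι] [DecidableEq κ] (f : ι → κ)
    (hf : Function.Injective f) (j : ι) (w : List ι) :
    splits (f j) (w.map f) = (splits j w).map fun p => (p.1.map f, p.2.map f) := by
  induction w with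
  | nil => simp [splits]
  | cons i w ih =>
    by_cases h : i = j
    · subst h
      simp [splits, ih, Function.comp_def]
    · have h' : f i ≠ f j := fun h2 => h (hf h2)
      simp [splits, ih, Function.comp_def, h, h']

theorem isLaw_comap {a : ℕ} {C D : Type} [DecidableEq C] [DecidableEq D] {δ : ℝ}
    {τ : List (Fin (a + 1) ⊕ D) → ℂ} (hτ : IsLaw δ τ) (φ : C → D) (hφ : Function.Injective φ) :
    IsLaw δ fun w : List (Fin (a + 1) ⊕ C) => τ (w.map (Sum.map id φ)) := by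
  have hinj : Function.Injective (Sum.map (id : Fin (a + 1) → Fin (a + 1)) φ) :=
    Function.injective_id.sumMap hφ
  refine ⟨?_, ?_, ?_, ?_, ?_, ?_, ?_⟩
  · simpa using hτ.nil
  · simpa using hτ.e
  · intro P
    simpa using hτ.ee (P.map (Sum.map id φ))
  · intro i P
    simpa using hτ.ex i (P.map (Sum.map id φ))
  · intro c P
    have h := hτ.s (φ c) (P.map (Sum.map id φ))
    have h2 := splits_map (Sum.map (id : Fin (a + 1) → Fin (a + 1)) φ) hinj (.inr c) P
    simp only [Sum.map_inr] at h2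
    rw [h2] at h
    simpa [Function.comp_def] using h
  · intro c P
    have h := hτ.es (φ c) (P.map (Sum.map id φ))
    have h2 := splits_map (Sum.map (id : Fin (a + 1) → Fin (a + 1)) φ) hinj (.inr c) P
    simp only [Sum.map_inr] at h2
    rw [h2] at h
    simpa [Function.comp_def] using h
  · intro i P
    have h := hτ.x i (P.map (Sum.map id φ))
    have h2 := splits_map (Sum.map (id : Fin (a + 1) → Fin (a + 1)) φ) hinj (.inl i.succ) P
    simp only [Sum.map_inl, id] at h2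
    rw [h2] at h
    simpa [Function.comp_def] using h

variable [CompleteSpace H]

theorem lett_comp {ι C D : Type} (x : ι → H →L[ℂ] H) (l : D → H →L[ℂ] H) (φ : C → D) :
    lett x (fun c => l (φ c)) = fun i => lett x l (Sum.map id φ i) := by
  funext i
  rcases i with i | c <;> rfl

theorem moment_comp {ι κ : Type} (Ω : H) (y : κ → H →L[ℂ] H) (f : ι → κ) (w : List ι) :
    moment Ω (fun i => y (f i)) w = moment Ω y (w.map f) := by
  simp [moment, List.map_map, Function.comp_def]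

theorem isLaw_restrict {a : ℕ} {C D : Type} [DecidableEq C] [DecidableEq D] {δ : ℝ} {Ω : H}
    {x : Fin (a + 1) → H →L[ℂ] H} {l : D → H →L[ℂ] H}
    (h : IsLaw δ (moment Ω (lett x l))) (φ : C → D) (hφ : Function.Injective φ) :
    IsLaw δ (moment Ω (lett x fun c => l (φ c))) := by
  have h1 := isLaw_comap h φ hφ
  have h2 : moment Ω (lett x fun c => l (φ c)) =
      fun w : List (Fin (a + 1) ⊕ C) => moment Ω (lett x l) (w.map (Sum.map id φ)) := by
    funext w
    rw [lett_comp, moment_comp]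
  rw [h2]
  exact h1

theorem fock_restrict {ι C D : Type} [DecidableEq C] [DecidableEq D] {Ω : H}
    {x : ι → H →L[ℂ] H} {l : D → H →L[ℂ] H} (h : FockRel Ω x l) (φ : C → D)
    (hφ : Function.Injective φ) : FockRel Ω x fun c => l (φ c) := by
  refine ⟨h.norm_Ω, h.sa, fun c d u => ?_, fun c u => h.vac _ _⟩
  rw [h.rel]
  by_cases hcd : c = d
  · simp [hcd]
  · have hne : ¬ φ c = φ d := fun h' => hcd (hφ h')
    rw [if_neg hne, if_neg hcd]

/-! #### the flow -/

/-- coefficients of the new creation operators -/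
noncomputable def cf {n : ℕ} (b : Fin n → ℝ) (t : ℝ) (j : Fin n) : Fin n ⊕ Fin n → ℝ :=
  Sum.elim (fun i => if j = i then b j / √(b j ^ 2 + t) else 0)
    (fun i => if j = i then √t / √(b j ^ 2 + t) else 0)

theorem cf_orth {n : ℕ} (b : Fin n → ℝ) (t : ℝ) (ht : 0 < t) (i j : Fin n) :
    ∑ c, cf b t i c * cf b t j c = if i = j then 1 else 0 := by
  rw [Fintype.sum_sum_type]
  have hpos : 0 < b j ^ 2 + t := by positivity
  have hs : √(b j ^ 2 + t) * √(b j ^ 2 + t) = b j ^ 2 + t := Real.mul_self_sqrt hpos.le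
  have hs' : √t * √t = t := Real.mul_self_sqrt ht.le
  have hne : √(b j ^ 2 + t) ≠ 0 := (Real.sqrt_pos.2 hpos).ne'
  by_cases hij : i = j
  · subst hij
    simp only [cf, Sum.elim_inl, Sum.elim_inr, if_true]
    simp only [mul_ite, mul_zero, ite_mul, zero_mul, Finset.sum_ite_eq, Finset.mem_univ, if_true]
    rw [div_mul_div_comm, div_mul_div_comm, hs, hs', ← add_div, div_eq_one_iff_eq hpos.ne']
    ring
  · have h1 : ∀ c : Fin n, (if i = c then b i / √(b i ^ 2 + t) else 0) *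
        (if j = c then b j / √(b j ^ 2 + t) else 0) = 0 := by
      intro c
      by_cases h : i = c
      · have : j ≠ c := fun h' => hij (h.trans h'.symm)
        simp [this]
      · simp [h]
    have h2 : ∀ c : Fin n, (if i = c then √t / √(b i ^ 2 + t) else 0) *
        (if j = c then √t / √(b j ^ 2 + t) else 0) = 0 := by
      intro c
      by_cases h : i = c
      · have : j ≠ c := fun h' => hij (h.trans h'.symm)
        simp [this]
      · simp [h]
    simp [cf, h1, h2, hij]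

theorem sum_cf {n : ℕ} (b : Fin n → ℝ) (t : ℝ) (l : Fin n ⊕ Fin n → H →L[ℂ] H) (j : Fin n) :
    ∑ c, ((cf b t j c : ℝ) : ℂ) • l c = ((b j / √(b j ^ 2 + t) : ℝ) : ℂ) • l (.inl j) +
      ((√t / √(b j ^ 2 + t) : ℝ) : ℂ) • l (.inr j) := by
  rw [Fintype.sum_sum_type]
  congr 1
  · rw [Finset.sum_eq_single j]
    · simp [cf]
    · intro i _ hi
      simp [cf, Ne.symm hi]
    · simp
  · rw [Finset.sum_eq_single j]
    · simp [cf]
    · intro i _ hi
      simp [cf, Ne.symm hi]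
    · simp

theorem flow_eq {n : ℕ} (b : Fin n → ℝ) (t : ℝ) (ht : 0 < t) (x : Fin n → H →L[ℂ] H)
    (l : Fin n ⊕ Fin n → H →L[ℂ] H) (j : Fin n) :
    (x j + ((b j : ℝ) : ℂ) • (l (.inl j) + star (l (.inl j)))) +
      ((√t : ℝ) : ℂ) • (l (.inr j) + star (l (.inr j))) =
    x j + ((√(b j ^ 2 + t) : ℝ) : ℂ) • ((∑ c, ((cf b t j c : ℝ) : ℂ) • l c) +
      star (∑ c, ((cf b t j c : ℝ) : ℂ) • l c)) := by
  have hpos : 0 < b j ^ 2 + t := by positivity
  have hne : ((√(b j ^ 2 + t) : ℝ) : ℂ) ≠ 0 := by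
    exact_mod_cast (Real.sqrt_pos.2 hpos).ne'
  rw [sum_cf]
  simp only [star_add, star_smul, Complex.ofReal_div, RCLike.star_def, map_div₀,
    Complex.conj_ofReal]
  have e1 : ((√(b j ^ 2 + t) : ℝ) : ℂ) * (((b j : ℝ) : ℂ) / ((√(b j ^ 2 + t) : ℝ) : ℂ)) =
      ((b j : ℝ) : ℂ) := by field_simp
  have e2 : ((√(b j ^ 2 + t) : ℝ) : ℂ) * (((√t : ℝ) : ℂ) / ((√(b j ^ 2 + t) : ℝ) : ℂ)) =
      ((√t : ℝ) : ℂ) := by field_simp
  simp only [smul_add, smul_smul, e1, e2]
  abel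

/-! #### bounds for the free Fisher information along the flow -/

section phi

variable {a : ℕ} {Ω : H} {x : Fin (a + 1) → H →L[ℂ] H}
  {l : Fin (a + 1) ⊕ Fin (a + 1) → H →L[ℂ] H}

theorem phi1 (h : FockRel Ω x l) (b : Fin (a + 1) → ℝ) (t : ℝ) (ht : 0 < t) :
    phiStar Ω (fun j => (x j + ((b j : ℝ) : ℂ) • (l (.inl j) + star (l (.inl j)))) +
      ((√t : ℝ) : ℂ) • (l (.inr j) + star (l (.inr j)))) ≤
      ENNReal.ofReal (∑ j, 1 / (b j ^ 2 + t)) := by
  have hF := h.combine (cf b t) (cf_orth b t ht)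
  have h0 := phi_bound hF (fun j => b j ^ 2 + t) (fun j => by positivity)
    (fun j => ‖x j Ω‖ ^ 2) (fun j ψ _ => by
      have := norm_inner_le_norm (𝕜 := ℂ) (x j Ω) ψ
      calc ‖⟪x j Ω, ψ⟫_ℂ‖ ^ 2 ≤ (‖x j Ω‖ * ‖ψ‖) ^ 2 := by gcongr
        _ = _ := by ring)
  simp only [sub_self, zero_div, sub_zero] at h0
  refine le_trans (le_of_eq ?_) h0
  congr 1
  funext j
  exact flow_eq b t ht x l j

theorem norm_x_sq (h : FockRel Ω x l) (j : Fin (a + 1)) :
    ((‖x j Ω‖ ^ 2 : ℝ) : ℂ) = moment Ω x [j, j] := by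
  have h1 : ⟪x j Ω, x j Ω⟫_ℂ = ⟪Ω, x j (x j Ω)⟫_ℂ := by
    have := ContinuousLinearMap.adjoint_inner_right (x j) Ω (x j Ω)
    have hsa : ContinuousLinearMap.adjoint (x j) = x j := (h.sa j)
    rw [hsa] at this
    exact this.symm
  rw [moment]
  simp only [List.map_cons, List.map_nil, List.prod_cons, List.prod_nil, mul_one,
    mul_apply_eq_comp]
  rw [← h1, inner_self_eq_norm_sq_to_K]
  simp

theorem phi2 (ha : 11 ≤ a) (h : FockRel Ω x l) (hx0 : x 0 * x 0 = x 0)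
    (hx : ∀ i : Fin a, x 0 * x i.succ = x i.succ)
    (hmom : ∀ v : List (Fin (a + 1)), v ≠ [] →
      moment Ω x v = ((1 / (a : ℝ) * vac v [] : ℝ) : ℂ))
    (t : ℝ) (ht : 11 * √(a : ℝ) ≤ t) :
    phiStar Ω (fun j => (x j + ((bW a j : ℝ) : ℂ) • (l (.inl j) + star (l (.inl j)))) +
      ((√t : ℝ) : ℂ) • (l (.inr j) + star (l (.inr j)))) ≤
      ENNReal.ofReal ((∑ j, 1 / (bW a j ^ 2 + t)) -
        a * (1 / (a : ℝ) - (1 / (a : ℝ)) ^ 2 * (20 * √(a : ℝ))) / (1 + t) ^ 2) := by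
  have hapos : (0 : ℝ) < a := by
    have : 0 < a := by omega
    exact_mod_cast this
  have ht0 : 0 < t := lt_of_lt_of_le (by positivity) ht
  have hF := h.combine (cf (bW a) t) (cf_orth (bW a) t ht0)
  set L : Fin (a + 1) → H →L[ℂ] H := fun j => ∑ c, ((cf (bW a) t j c : ℝ) : ℂ) • l c with hL
  have hσ : ∀ j, 0 < bW a j ^ 2 + t := fun j => by positivity
  -- the projection p = 1 - x 0
  have hπ : (0 : ℝ) < 1 - 1 / (a : ℝ) := by
    have : (1 : ℝ) < a := by
      have : 1 < a := by omega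
      exact_mod_cast this
    rw [sub_pos, div_lt_one hapos]
    exact this
  have hmom0 : moment Ω x [0] = ((1 / (a : ℝ) : ℝ) : ℂ) := by
    rw [hmom [0] (by simp)]
    simp [vac]
  have hx0s : IsSelfAdjoint (x 0) := h.sa 0
  have hpx : ∀ i, (1 - x 0) * x i = 0 := by
    intro i
    refine Fin.cases ?_ (fun i => ?_) i
    · rw [sub_mul, one_mul, hx0, sub_self]
    · rw [sub_mul, one_mul, hx, sub_self]
  have hrel0 : ∀ c d, star (L c) * L d = if c = d then (1 : H →L[ℂ] H) else 0 := by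
    intro c d
    have h1 := hF.rel c d []
    have h2 : moment Ω x [] = 1 := by
      simp [moment, h.norm_Ω, inner_self_eq_norm_sq_to_K]
    simpa [h2] using h1
  have hrel1 : ∀ c d, star (L c) * x 0 * L d =
      if c = d then ((1 / (a : ℝ) : ℝ) : ℂ) • (1 : H →L[ℂ] H) else 0 := by
    intro c d
    have h1 := hF.rel c d [0]
    rw [hmom0] at h1
    simpa using h1
  have key : ∀ (i : Fin a), ∀ ψ ∈ L2 Ω (fun j => x j + ((√(bW a j ^ 2 + t) : ℝ) : ℂ) •
      (L j + star (L j))), ‖⟪x i.succ Ω, ψ⟫_ℂ‖ ^ 2 ≤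
        ((1 / (a : ℝ)) ^ 2 * (20 * √(a : ℝ))) * ‖ψ‖ ^ 2 := by
    intro i ψ hψ
    refine key_ineq hF (1 - x 0) (1 - 1 / (a : ℝ)) hπ ?_ ?_ hpx ?_ ?_ ?_
      (fun j => bW a j ^ 2 + t) hσ i.succ _ ?_ ψ hψ
    · exact (IsSelfAdjoint.one _).sub hx0s
    · rw [mul_sub, mul_one, hpx 0, sub_zero]
    · intro c d
      rw [mul_sub, mul_one, sub_mul, hrel0, hrel1]
      by_cases hcd : c = d
      · simp [hcd, sub_smul]
      · simp [hcd]
    · intro c
      have h1 := hF.vac c []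
      have h2 := hF.vac c [0]
      simp only [List.map_nil, List.prod_nil, one_apply_eq_self, List.map_cons,
        List.prod_cons, mul_one] at h1 h2
      simp [h1, h2]
    · have h1 : ⟪Ω, x 0 Ω⟫_ℂ = ((1 / (a : ℝ) : ℝ) : ℂ) := by
        rw [← hmom0]; simp [moment]
      simp only [sub_apply, one_apply_eq_self, inner_sub_right, h1]
      rw [inner_self_eq_norm_sq_to_K, h.norm_Ω]
      simp
    · intro F
      have hb := vac_bound ha i.succ (fun j => bW a j ^ 2 + t)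
        (fun j => ht.trans (le_add_of_nonneg_left (sq_nonneg _))) F
      have e : ∑ v ∈ F, ‖moment Ω x (i.succ :: v)‖ ^ 2 /
          ((v.map fun j => bW a j ^ 2 + t).prod * (1 - 1 / (a : ℝ)) ^ (v.length + 1)) =
          (1 / (a : ℝ)) ^ 2 * ∑ v ∈ F, vac (i.succ :: v) [] ^ 2 /
          ((v.map fun j => bW a j ^ 2 + t).prod * (1 - 1 / (a : ℝ)) ^ (v.length + 1)) := by
        rw [Finset.mul_sum]
        refine Finset.sum_congr rfl fun v _ => ?_
        rw [hmom _ (by simp), Complex.norm_real, Real.norm_eq_abs, sq_abs, mul_pow, mul_div_assoc]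
      rw [e]
      exact mul_le_mul_of_nonneg_left hb (by positivity)
  have h0 := phi_bound hF (fun j => bW a j ^ 2 + t) hσ
    (Fin.cases (‖x 0 Ω‖ ^ 2) fun _ => (1 / (a : ℝ)) ^ 2 * (20 * √(a : ℝ))) (fun j ψ hψ => by
      refine Fin.cases (motive := fun j => ‖⟪x j Ω, ψ⟫_ℂ‖ ^ 2 ≤
        (Fin.cases (‖x 0 Ω‖ ^ 2) (fun _ => (1 / (a : ℝ)) ^ 2 * (20 * √(a : ℝ))) j : ℝ) * ‖ψ‖ ^ 2)
        ?_ (fun i => ?_) j
      · have := norm_inner_le_norm (𝕜 := ℂ) (x 0 Ω) ψ
        calc ‖⟪x 0 Ω, ψ⟫_ℂ‖ ^ 2 ≤ (‖x 0 Ω‖ * ‖ψ‖) ^ 2 := by gcongr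
          _ = _ := by simp only [Fin.cases_zero]; ring
      · simpa only [Fin.cases_succ] using key i ψ hψ)
  have hnx : ∀ i : Fin a, ‖x i.succ Ω‖ ^ 2 = 1 / (a : ℝ) := by
    intro i
    have h1 := norm_x_sq h i.succ
    rw [hmom _ (by simp)] at h1
    have h2 : vac [i.succ, i.succ] [] = (1 : ℝ) := by simp [vac]
    rw [h2, mul_one] at h1
    exact_mod_cast h1
  have hsum : ∑ j, (1 / (bW a j ^ 2 + t) - (‖x j Ω‖ ^ 2 -
      (Fin.cases (‖x 0 Ω‖ ^ 2) (fun _ => (1 / (a : ℝ)) ^ 2 * (20 * √(a : ℝ))) j : ℝ)) /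
        (bW a j ^ 2 + t) ^ 2) = (∑ j, 1 / (bW a j ^ 2 + t)) -
        a * (1 / (a : ℝ) - (1 / (a : ℝ)) ^ 2 * (20 * √(a : ℝ))) / (1 + t) ^ 2 := by
    rw [Finset.sum_sub_distrib]
    congr 1
    rw [Fin.sum_univ_succ]
    simp only [Fin.cases_zero, Fin.cases_succ, sub_self, zero_div, zero_add, hnx]
    simp only [bW, Fin.cases_succ, one_pow, Finset.sum_const, Finset.card_univ, Fintype.card_fin,
      nsmul_eq_mul]
    rw [mul_div_assoc]
  rw [hsum] at h0
  refine le_trans (le_of_eq ?_) h0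
  congr 1
  funext j
  exact flow_eq (bW a) t ht0 x l j

end phi

/-- The counterexample for one large `a` (`n = a + 1` variables). -/
theorem main_a {a : ℕ} (ha : 100 ≤ a) (hnum : Uup a < Llow a) :
    ∃ (H : Type) (_ : NormedAddCommGroup H) (_ : InnerProductSpace ℂ H) (_ : CompleteSpace H)
      (𝓜 : TracialVN H) (X S : Fin (a + 1) → H →L[ℂ] H),
      (∀ j, X j ∈ 𝓜.M ∧ IsSelfAdjoint (X j)) ∧ (∀ j, S j ∈ 𝓜.M) ∧ FreeSemicirc 𝓜.Ω X S ∧
      ⊥ < chi 𝓜.Ω X ∧ chi 𝓜.Ω X < chiStar 𝓜.Ω X S := by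
  obtain ⟨H, i1, i2, i3, Ω, x, l, hF, hx0, hx, hxn, hmom, hlaw, hcyc⟩ :=
    model_exists a (by omega) (Fin (a + 1) ⊕ Fin (a + 1))
  have ha1 : 1 ≤ a := by omega
  have htr := law_tracial ha1 _ hlaw
  have hsa : ∀ i, IsSelfAdjoint (lett x l i) := by
    intro i
    rcases i with i | c
    · exact hF.sa i
    · exact IsSelfAdjoint.add_star_self (l c)
  obtain ⟨𝓜, hΩ, h𝓜⟩ := vn_of_letters Ω hF.norm_Ω (lett x l) hsa hcyc htr
  have hF1 : FockRel Ω (lett x fun c => l (.inl c)) fun c => l (.inr c) := hF.extend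
  set b := bW a with hb
  set X : Fin (a + 1) → H →L[ℂ] H :=
    fun j => x j + ((b j : ℝ) : ℂ) • (l (.inl j) + star (l (.inl j))) with hX
  set S : Fin (a + 1) → H →L[ℂ] H := fun j => l (.inr j) + star (l (.inr j)) with hS
  have hapos : (0 : ℝ) < a := by exact_mod_cast (by omega : 0 < a)
  have hbpos : ∀ j, 0 < b j := by
    intro j
    refine Fin.cases ?_ (fun i => ?_) j
    · simp only [hb, bW, Fin.cases_zero]; positivity
    · simp only [hb, bW, Fin.cases_succ]; positivity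
  have hb1 : ∀ j, b j ≤ 1 := by
    intro j
    refine Fin.cases ?_ (fun i => ?_) j
    · simp only [hb, bW, Fin.cases_zero]
      rw [div_le_one (by positivity)]
      have : (1 : ℝ) ≤ a := by exact_mod_cast ha1
      nlinarith
    · simp [hb, bW]
  refine ⟨H, i1, i2, i3, 𝓜, X, S, ?_, ?_, ?_, ?_, ?_⟩
  · intro j
    constructor
    · have h1 := h𝓜 (.inl j)
      have h2 := h𝓜 (.inr (.inl j))
      refine add_mem (S := VonNeumannAlgebra H) ?_ ?_
      · exact h1
      · have h3 : ((b j : ℝ) : ℂ) • (l (.inl j) + star (l (.inl j))) ∈ 𝓜.M.toStarSubalgebra :=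
          𝓜.M.toStarSubalgebra.smul_mem h2 _
        exact h3
    · refine (hF.sa j).add ?_
      rw [IsSelfAdjoint, star_smul, IsSelfAdjoint.add_star_self (l (.inl j))]
      simp
  · intro j
    exact h𝓜 (.inr (.inr j))
  · rw [hΩ]
    refine freeSemicirc_of_fock hF1 X fun j => ?_
    have h1 : x j ∈ Algebra.adjoin ℂ (Set.range (lett x fun c => l (.inl c))) :=
      Algebra.subset_adjoin ⟨.inl j, rfl⟩
    have h2 : l (.inl j) + star (l (.inl j)) ∈
        Algebra.adjoin ℂ (Set.range (lett x fun c => l (.inl c))) :=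
      Algebra.subset_adjoin ⟨.inr j, rfl⟩
    exact add_mem h1 (Subalgebra.smul_mem _ h2 _)
  · rw [hΩ]
    have hlaw1 : IsLaw (1 / (a : ℝ)) (moment Ω (lett x fun c : Fin (a + 1) => l (.inl c))) :=
      isLaw_restrict hlaw Sum.inl Sum.inl_injective
    have h1 := chi_lower ha1 _ hlaw1 b hbpos hb1
    have h2 : moment Ω X = fun w => ((expd b id w).map fun p => ((p.1 : ℝ) : ℂ) *
        moment Ω (lett x fun c : Fin (a + 1) => l (.inl c)) p.2).sum := by
      funext w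
      exact moment_expd b id Ω (lett x fun c : Fin (a + 1) => l (.inl c)) w
    rw [chi, h2]
    exact lt_of_lt_of_le h1 (le_iSup₂_of_le 13 (by norm_num) le_rfl)
  · rw [hΩ]
    have hF0 : FockRel Ω x fun c : Fin (a + 1) => l (.inl c) :=
      fock_restrict hF Sum.inl Sum.inl_injective
    have hlaw1 : IsLaw (1 / (a : ℝ)) (moment Ω (lett x fun c : Fin (a + 1) => l (.inl c))) :=
      isLaw_restrict hlaw Sum.inl Sum.inl_injective
    have htr1 : ∀ u v, moment Ω (lett x fun c : Fin (a + 1) => l (.inl c)) (u ++ v) =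
        moment Ω (lett x fun c : Fin (a + 1) => l (.inl c)) (v ++ u) :=
      law_tracial ha1 _ hlaw1
    have hup : UpFacts a (moment Ω X) := upFacts_model ha hF0 hx0 hx hxn hlaw1 htr1
    have hle : chi Ω X ≤ ((Uup a : ℝ) : EReal) := iSup₂_le fun R _ => chi_upper ha _ hup R
    have hge : ((Llow a : ℝ) : EReal) ≤ chiStar Ω X S :=
      chiStar_ge_of_phi (by omega) Ω X S (fun t ht => phi1 hF b t ht)
        (fun t ht => phi2 (by omega) hF hx0 hx hmom t ht)
    exact lt_of_le_of_lt hle (lt_of_lt_of_le (by exact_mod_cast hnum) hge)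

end Fin1

/-- **Main theorem**: for all large `n` there is a self-adjoint `n`-tuple in a tracial von Neumann
algebra with `-∞ < χ(X) < χ*(X)`. -/
theorem chi_lt_chiStar :
    ∃ N : ℕ, ∀ n ≥ N, ∃ (H : Type) (_ : NormedAddCommGroup H) (_ : InnerProductSpace ℂ H)
      (_ : CompleteSpace H) (𝓜 : TracialVN H) (X S : Fin n → H →L[ℂ] H),
      (∀ j, X j ∈ 𝓜.M ∧ IsSelfAdjoint (X j)) ∧ (∀ j, S j ∈ 𝓜.M) ∧ FreeSemicirc 𝓜.Ω X S ∧
      ⊥ < chi 𝓜.Ω X ∧ chi 𝓜.Ω X < chiStar 𝓜.Ω X S := by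
  obtain ⟨N, hN⟩ := eventually_atTop.1 Uup_lt_Llow
  refine ⟨max N 100 + 1, fun n hn => ?_⟩
  obtain ⟨a, rfl⟩ : ∃ a, n = a + 1 := ⟨n - 1, by omega⟩
  have h1 : max N 100 ≤ a := by omega
  exact Fin1.main_a (le_trans (le_max_right _ _) h1) (hN a (le_trans (le_max_left _ _) h1))

/-- **Main theorem**, for every choice of the free semicircular family. -/
theorem chi_lt_chiStar_all :
    ∃ N : ℕ, ∀ n ≥ N, ∃ (H : Type) (_ : NormedAddCommGroup H) (_ : InnerProductSpace ℂ H)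
      (_ : CompleteSpace H) (𝓜 : TracialVN H) (X : Fin n → H →L[ℂ] H),
      (∀ j, X j ∈ 𝓜.M ∧ IsSelfAdjoint (X j)) ∧
      (∃ S : Fin n → H →L[ℂ] H, (∀ j, S j ∈ 𝓜.M) ∧ FreeSemicirc 𝓜.Ω X S) ∧
      ⊥ < chi 𝓜.Ω X ∧
      ∀ S : Fin n → H →L[ℂ] H, FreeSemicirc 𝓜.Ω X S → chi 𝓜.Ω X < chiStar 𝓜.Ω X S := by
  obtain ⟨N, hN⟩ := chi_lt_chiStar
  refine ⟨N, fun n hn => ?_⟩
  obtain ⟨H, i1, i2, i3, 𝓜, X, S, hX, hS, hfree, hbot, hlt⟩ := hN n hn
  refine ⟨H, i1, i2, i3, 𝓜, X, hX, ⟨S, hS, hfree⟩, hbot, fun S' hS' => ?_⟩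
  rw [chiStar_congr 𝓜.norm_Ω 𝓜.norm_Ω (fun j => (hX j).2) (fun j => (hX j).2) (fun _ => rfl)
    hS' hfree]
  exact hlt

end Vale.Agent.P087
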