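import Vale.Agent.P087.Defs2

/-! # P087 [X1]: freeness determines the joint moments -/

namespace Vale.Agent.P087

open scoped InnerProductSpace ENNReal Topology
open MeasureTheory Filter

variable {H H' : Type} [NormedAddCommGroup H] [InnerProductSpace ℂ H] [CompleteSpace H]
  [NormedAddCommGroup H'] [InnerProductSpace ℂ H'] [CompleteSpace H']

namespace FreeLawAux

/-- the difference of the two states on the product algebra -/
noncomputable def D (Ω : H) (Ω' : H') (a : (H →L[ℂ] H) × (H' →L[ℂ] H')) : ℂ :=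
  ⟪Ω, a.1 Ω⟫_ℂ - ⟪Ω', a.2 Ω'⟫_ℂ

omit [CompleteSpace H] [CompleteSpace H'] in
theorem D_add (Ω : H) (Ω' : H') (a b : (H →L[ℂ] H) × (H' →L[ℂ] H')) :
    D Ω Ω' (a + b) = D Ω Ω' a + D Ω Ω' b := by
  unfold D
  rw [Prod.fst_add, Prod.snd_add, add_apply, add_apply, inner_add_right, inner_add_right]
  ring

omit [CompleteSpace H] [CompleteSpace H'] in
theorem D_smul (Ω : H) (Ω' : H') (r : ℂ) (a : (H →L[ℂ] H) × (H' →L[ℂ] H')) :
    D Ω Ω' (r • a) = r * D Ω Ω' a := by
  unfold D
  rw [Prod.smul_fst, Prod.smul_snd, smul_apply, smul_apply, inner_smul_right, inner_smul_right]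
  ring

theorem fst_list_prod {A B : Type} [Monoid A] [Monoid B] (l : List (A × B)) :
    l.prod.1 = (l.map Prod.fst).prod := by
  induction l with
  | nil => rfl
  | cons a l ih => rw [List.prod_cons, List.map_cons, List.prod_cons, Prod.fst_mul, ih]

theorem snd_list_prod {A B : Type} [Monoid A] [Monoid B] (l : List (A × B)) :
    l.prod.2 = (l.map Prod.snd).prod := by
  induction l with
  | nil => rfl
  | cons a l ih => rw [List.prod_cons, List.map_cons, List.prod_cons, Prod.snd_mul, ih]

/-- centring -/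
noncomputable def cen (Ω : H) (a : (H →L[ℂ] H) × (H' →L[ℂ] H')) :
    (H →L[ℂ] H) × (H' →L[ℂ] H') := a - ⟪Ω, a.1 Ω⟫_ℂ • 1

omit [CompleteSpace H] [CompleteSpace H'] in
theorem inner_self_one {Ω : H} (hΩ : ‖Ω‖ = 1) : ⟪Ω, Ω⟫_ℂ = 1 := by
  rw [inner_self_eq_norm_sq_to_K, hΩ]
  simp

omit [CompleteSpace H] [CompleteSpace H'] in
theorem main {O : Type} {Ω : H} {Ω' : H'} (hΩ : ‖Ω‖ = 1) (hΩ' : ‖Ω'‖ = 1)
    (A : O → Subalgebra ℂ (H →L[ℂ] H)) (A' : O → Subalgebra ℂ (H' →L[ℂ] H'))
    (hA : FreeAlgs Ω A) (hA' : FreeAlgs Ω' A')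
    (B : O → Subalgebra ℂ ((H →L[ℂ] H) × (H' →L[ℂ] H')))
    (hB : ∀ o, ∀ a ∈ B o, a.1 ∈ A o ∧ a.2 ∈ A' o ∧ D Ω Ω' a = 0) (m : ℕ) :
    ∀ l : List (O × ((H →L[ℂ] H) × (H' →L[ℂ] H'))), l.length ≤ m →
      (∀ p ∈ l, p.2 ∈ B p.1) → D Ω Ω' (l.map Prod.snd).prod = 0 := by
  classical
  have hnil : D Ω Ω' 1 = 0 := by
    unfold D
    rw [Prod.fst_one, Prod.snd_one, one_apply_eq_self, one_apply_eq_self, inner_self_one hΩ,
      inner_self_one hΩ']
    ring
  induction m with
  | zero =>
    intro l hl _
    have : l = [] := List.length_eq_zero_iff.1 (Nat.le_zero.1 hl)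
    subst this
    simpa using hnil
  | succ m ih =>
    intro l hl hlB
    by_cases hch : l.IsChain (fun p q => p.1 ≠ q.1)
    · -- alternating case
      have key : ∀ (l₂ l₁ : List (O × ((H →L[ℂ] H) × (H' →L[ℂ] H')))),
          (l₁ ++ l₂).length ≤ m + 1 → (∀ p ∈ l₁ ++ l₂, p.2 ∈ B p.1) →
          (l₁ ++ l₂).IsChain (fun p q => p.1 ≠ q.1) →
          D Ω Ω' (((l₁.map fun p => (p.1, cen Ω p.2)) ++ l₂).map Prod.snd).prod = 0 := by
        intro l₂
        induction l₂ with
        | nil =>
          intro l₁ _ hB1 hch1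
          rw [List.append_nil] at hB1 hch1 ⊢
          by_cases hl1 : l₁ = []
          · subst hl1; simpa using hnil
          · -- freeness
            have hcenB : ∀ p ∈ l₁, cen Ω p.2 ∈ B p.1 := by
              intro p hp
              exact (B p.1).sub_mem (hB1 p hp) ((B p.1).smul_mem (B p.1).one_mem _)
            have hc1 : ∀ p ∈ l₁, ⟪Ω, (cen Ω p.2).1 Ω⟫_ℂ = 0 := by
              intro p _
              unfold cen
              rw [Prod.fst_sub, Prod.smul_fst, Prod.fst_one, sub_apply,
                smul_apply, one_apply_eq_self, inner_sub_right, inner_smul_right,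
                inner_self_one hΩ]
              ring
            have hc2 : ∀ p ∈ l₁, ⟪Ω', (cen Ω p.2).2 Ω'⟫_ℂ = 0 := by
              intro p hp
              have h1 := (hB p.1 _ (hcenB p hp)).2.2
              unfold D at h1
              rw [hc1 p hp] at h1
              linear_combination -h1
            have hfst : (((l₁.map fun p => (p.1, cen Ω p.2)).map Prod.snd).prod).1 =
                ((l₁.map fun p => ((p.1, (cen Ω p.2).1) : O × (H →L[ℂ] H))).map Prod.snd).prod := by
              rw [fst_list_prod, List.map_map, List.map_map, List.map_map]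
              rfl
            have hsnd : (((l₁.map fun p => (p.1, cen Ω p.2)).map Prod.snd).prod).2 =
                ((l₁.map fun p => ((p.1, (cen Ω p.2).2) : O × (H' →L[ℂ] H'))).map Prod.snd).prod := by
              rw [snd_list_prod, List.map_map, List.map_map, List.map_map]
              rfl
            unfold D
            rw [hfst, hsnd, hA _ (by simpa using hl1) (by
              intro p hp
              rw [List.mem_map] at hp
              obtain ⟨q, hq, rfl⟩ := hp
              exact ⟨(hB q.1 _ (hcenB q hq)).1, hc1 q hq⟩) (by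
              rw [List.isChain_map]
              exact hch1), hA' _ (by simpa using hl1) (by
              intro p hp
              rw [List.mem_map] at hp
              obtain ⟨q, hq, rfl⟩ := hp
              exact ⟨(hB q.1 _ (hcenB q hq)).2.1, hc2 q hq⟩) (by
              rw [List.isChain_map]
              exact hch1)]
            ring
        | cons p l₃ ih2 =>
          intro l₁ hlen hB1 hch1
          have h1 := ih2 (l₁ ++ [p]) (by simpa using hlen) (by simpa using hB1)
            (by simpa using hch1)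
          have h2 : D Ω Ω' (((l₁.map fun p => (p.1, cen Ω p.2)) ++ l₃).map Prod.snd).prod = 0 := by
            refine ih _ ?_ ?_
            · simp only [List.length_append, List.length_cons, List.length_map] at hlen ⊢
              omega
            · intro q hq
              rw [List.mem_append] at hq
              rcases hq with hq | hq
              · rw [List.mem_map] at hq
                obtain ⟨r, hr, rfl⟩ := hq
                exact (B r.1).sub_mem (hB1 r (by simp [hr])) ((B r.1).smul_mem (B r.1).one_mem _)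
              · exact hB1 q (by simp [hq])
          have h3 : (((l₁.map fun p => (p.1, cen Ω p.2)) ++ p :: l₃).map Prod.snd).prod =
              ((((l₁ ++ [p]).map fun p => (p.1, cen Ω p.2)) ++ l₃).map Prod.snd).prod +
              ⟪Ω, p.2.1 Ω⟫_ℂ • (((l₁.map fun p => (p.1, cen Ω p.2)) ++ l₃).map Prod.snd).prod := by
            simp only [List.map_append, List.map_cons, List.map_nil, List.prod_append,
              List.prod_cons, List.prod_nil, mul_one]
            unfold cen
            rw [mul_sub, sub_mul, mul_smul_comm, mul_one, smul_mul_assoc, mul_assoc]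
            abel
          rw [h3, D_add, D_smul, h1, h2]
          ring
      have h1 := key l [] (by simpa using hl) (by simpa using hlB) (by simpa using hch)
      simpa using h1
    · -- merging
      obtain ⟨l₁, l₂, p, q, hpq, rfl⟩ : ∃ l₁ l₂ : List (O × ((H →L[ℂ] H) × (H' →L[ℂ] H'))),
          ∃ p q, p.1 = q.1 ∧ l = l₁ ++ p :: q :: l₂ := by
        clear ih hl hlB
        induction l with
        | nil => exact absurd (List.isChain_nil) hch
        | cons p l ihl =>
          match l, ihl, hch with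
          | [], _, hch => exact absurd (List.isChain_singleton _) hch
          | q :: l, ihl, hch =>
            by_cases hpq : p.1 = q.1
            · exact ⟨[], l, p, q, hpq, rfl⟩
            · have : ¬ (q :: l).IsChain (fun p q => p.1 ≠ q.1) := by
                intro h
                exact hch (List.isChain_cons_cons.2 ⟨hpq, h⟩)
              obtain ⟨l₁, l₂, p', q', h1, h2⟩ := ihl this
              exact ⟨p :: l₁, l₂, p', q', h1, by rw [h2]; rfl⟩
      have h1 := ih (l₁ ++ (p.1, p.2 * q.2) :: l₂) (by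
        simp only [List.length_append, List.length_cons] at hl ⊢
        omega) (by
        intro r hr
        rw [List.mem_append, List.mem_cons] at hr
        rcases hr with hr | hr | hr
        · exact hlB r (by simp [hr])
        · subst hr
          refine (B p.1).mul_mem (hlB p (by simp)) ?_
          rw [hpq]
          exact hlB q (by simp)
        · exact hlB r (by simp [hr]))
      have h2 : ((l₁ ++ p :: q :: l₂).map Prod.snd).prod =
          ((l₁ ++ (p.1, p.2 * q.2) :: l₂).map Prod.snd).prod := by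
        simp only [List.map_append, List.map_cons, List.prod_append, List.prod_cons, mul_assoc]
      rw [h2]
      exact h1

/-- projections of an adjoined subalgebra -/
theorem adjoin_proj {𝒜 ℬ : Type} [Ring 𝒜] [Algebra ℂ 𝒜] [Ring ℬ] [Algebra ℂ ℬ]
    (f : 𝒜 →ₐ[ℂ] ℬ) (s : Set 𝒜) (t : Set ℬ) (hst : ∀ a ∈ s, f a ∈ t) {a : 𝒜}
    (ha : a ∈ Algebra.adjoin ℂ s) : f a ∈ Algebra.adjoin ℂ t := by
  have h1 : f a ∈ (Algebra.adjoin ℂ s).map f := ⟨a, ha, rfl⟩
  rw [AlgHom.map_adjoin] at h1
  refine Algebra.adjoin_mono ?_ h1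
  rintro b ⟨c, hc, rfl⟩
  exact hst c hc

omit [CompleteSpace H] [CompleteSpace H'] in
/-- `D` vanishes on an adjoined subalgebra if it vanishes on words -/
theorem D_adjoin {Ω : H} {Ω' : H'} {κ : Type} (y : κ → (H →L[ℂ] H) × (H' →L[ℂ] H'))
    (h : ∀ w : List κ, D Ω Ω' (w.map y).prod = 0) {a : (H →L[ℂ] H) × (H' →L[ℂ] H')}
    (ha : a ∈ Algebra.adjoin ℂ (Set.range y)) : D Ω Ω' a = 0 := by
  have h1 : a ∈ (Algebra.adjoin ℂ (Set.range y)).toSubmodule := ha
  rw [Algebra.adjoin_eq_span] at h1
  clear ha
  induction h1 using Submodule.span_induction with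
  | mem b hb =>
    obtain ⟨l, hl, rfl⟩ := Submonoid.exists_list_of_mem_closure hb
    have : ∃ w : List κ, l = w.map y := by
      clear hb
      revert hl
      intro hl
      induction l with
      | nil => exact ⟨[], rfl⟩
      | cons b l ih =>
        obtain ⟨w, hw⟩ := ih (fun c hc => hl c (List.mem_cons_of_mem _ hc))
        obtain ⟨i, hi⟩ := hl b List.mem_cons_self
        exact ⟨i :: w, by rw [List.map_cons, hw, hi]⟩
    obtain ⟨w, rfl⟩ := this
    exact h w
  | zero =>
    have := D_smul Ω Ω' 0 0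
    simpa using this
  | add b c _ _ hb hc => rw [D_add, hb, hc, add_zero]
  | smul r b _ hb => rw [D_smul, hb, mul_zero]

end FreeLawAux

open FreeLawAux in
/-- freeness determines the joint moments -/
theorem free_moment_eq {n : ℕ} {Ω : H} {Ω' : H'} (hΩ : ‖Ω‖ = 1) (hΩ' : ‖Ω'‖ = 1)
    {X S : Fin n → H →L[ℂ] H} {X' S' : Fin n → H' →L[ℂ] H'}
    (hX : ∀ w, moment Ω X w = moment Ω' X' w)
    (hS : FreeSemicirc Ω X S) (hS' : FreeSemicirc Ω' X' S') (w : List (Fin n ⊕ Fin n)) :
    moment Ω (Sum.elim X S) w = moment Ω' (Sum.elim X' S') w := by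
  set yX : Fin n → (H →L[ℂ] H) × (H' →L[ℂ] H') := fun i => (X i, X' i) with hyX
  set yS : Fin n → (H →L[ℂ] H) × (H' →L[ℂ] H') := fun i => (S i, S' i) with hyS
  have hwfst : ∀ {κ : Type} (f : κ → H →L[ℂ] H) (g : κ → H' →L[ℂ] H') (w : List κ),
      ((w.map fun i => ((f i, g i) : (H →L[ℂ] H) × (H' →L[ℂ] H'))).prod).1 = (w.map f).prod := by
    intro κ f g w
    rw [fst_list_prod, List.map_map]
    rfl
  have hwsnd : ∀ {κ : Type} (f : κ → H →L[ℂ] H) (g : κ → H' →L[ℂ] H') (w : List κ),
      ((w.map fun i => ((f i, g i) : (H →L[ℂ] H) × (H' →L[ℂ] H'))).prod).2 = (w.map g).prod := by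
    intro κ f g w
    rw [snd_list_prod, List.map_map]
    rfl
  let B : Option (Fin n) → Subalgebra ℂ ((H →L[ℂ] H) × (H' →L[ℂ] H')) := fun o =>
    o.elim (Algebra.adjoin ℂ (Set.range yX)) fun j =>
      Algebra.adjoin ℂ (Set.range fun _ : Unit => yS j)
  have hB : ∀ o, ∀ a ∈ B o,
      a.1 ∈ (fun o : Option (Fin n) => o.elim (Algebra.adjoin ℂ (Set.range X))
        fun j => Algebra.adjoin ℂ {S j}) o ∧
      a.2 ∈ (fun o : Option (Fin n) => o.elim (Algebra.adjoin ℂ (Set.range X'))
        fun j => Algebra.adjoin ℂ {S' j}) o ∧ D Ω Ω' a = 0 := by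
    intro o a ha
    rcases o with _ | j
    · refine ⟨?_, ?_, ?_⟩
      · refine adjoin_proj (AlgHom.fst ℂ (H →L[ℂ] H) (H' →L[ℂ] H')) (Set.range yX) (Set.range X)
          ?_ ha
        rintro b ⟨i, rfl⟩
        exact ⟨i, rfl⟩
      · refine adjoin_proj (AlgHom.snd ℂ (H →L[ℂ] H) (H' →L[ℂ] H')) (Set.range yX) (Set.range X')
          ?_ ha
        rintro b ⟨i, rfl⟩
        exact ⟨i, rfl⟩
      · refine D_adjoin yX ?_ ha
        intro w
        unfold D
        rw [hyX, hwfst, hwsnd]
        have := hX w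
        unfold moment at this
        rw [this, sub_self]
    · refine ⟨?_, ?_, ?_⟩
      · refine adjoin_proj (AlgHom.fst ℂ (H →L[ℂ] H) (H' →L[ℂ] H'))
          (Set.range fun _ : Unit => yS j) {S j} ?_ ha
        rintro b ⟨i, rfl⟩
        rfl
      · refine adjoin_proj (AlgHom.snd ℂ (H →L[ℂ] H) (H' →L[ℂ] H'))
          (Set.range fun _ : Unit => yS j) {S' j} ?_ ha
        rintro b ⟨i, rfl⟩
        rfl
      · refine D_adjoin (fun _ : Unit => yS j) ?_ ha
        intro w
        have hw : ∀ {M : Type} [Monoid M] (a : M), (w.map fun _ : Unit => a).prod =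
            a ^ w.length := by
          intro M _ a
          rw [List.map_const', List.prod_replicate]
        unfold D
        rw [hyS, hwfst (fun _ => S j) (fun _ => S' j), hwsnd (fun _ => S j) (fun _ => S' j), hw, hw]
        rcases Nat.even_or_odd' w.length with ⟨p, hp | hp⟩
        · rw [hp, ((hS.2 j).2 p).1, ((hS'.2 j).2 p).1, sub_self]
        · rw [hp, ((hS.2 j).2 p).2, ((hS'.2 j).2 p).2, sub_self]
  -- the word as a product
  let col : Fin n ⊕ Fin n → Option (Fin n) := Sum.elim (fun _ => none) some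
  let Y : Fin n ⊕ Fin n → (H →L[ℂ] H) × (H' →L[ℂ] H') := fun i =>
    (Sum.elim X S i, Sum.elim X' S' i)
  have h1 := main hΩ hΩ' _ _ hS.1 hS'.1 B hB w.length (w.map fun i => (col i, Y i))
    (by simp) (by
      intro p hp
      rw [List.mem_map] at hp
      obtain ⟨i, _, rfl⟩ := hp
      rcases i with i | i
      · exact Algebra.subset_adjoin ⟨i, rfl⟩
      · exact Algebra.subset_adjoin ⟨(), rfl⟩)
  have h2 : ((w.map fun i => (col i, Y i)).map Prod.snd) = w.map Y := by
    rw [List.map_map]
    rfl
  rw [h2] at h1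
  unfold D at h1
  rw [hwfst (Sum.elim X S) (Sum.elim X' S') w, hwsnd (Sum.elim X S) (Sum.elim X' S') w] at h1
  unfold moment
  exact sub_eq_zero.1 h1

end Vale.Agent.P087
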