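import Vale.Agent.P087.Defs2

/-!
# P087: Gaussian expectation of polynomials, integration by parts
-/

namespace Vale.Agent.P087

open scoped ENNReal Topology
open MeasureTheory Filter ProbabilityTheory

/-- iterated product of a measure over `ι` and `κ` is the product over `ι × κ` -/
theorem curry_pi_gen {ι κ : Type} [Fintype ι] [Fintype κ] {X : Type} [MeasurableSpace X]
    (μ : Measure X) [SigmaFinite μ] :
    MeasurePreserving (MeasurableEquiv.curry ι κ X) (Measure.pi fun _ => μ)
      (Measure.pi fun _ => Measure.pi fun _ => μ) := by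
  have h : MeasurePreserving (MeasurableEquiv.curry ι κ X).symm
      (Measure.pi fun _ => Measure.pi fun _ => μ) (Measure.pi fun _ : ι × κ => μ) := by
    refine ⟨(MeasurableEquiv.curry ι κ X).symm.measurable, ?_⟩
    symm
    refine Measure.pi_eq fun s hs => ?_
    rw [Measure.map_apply (MeasurableEquiv.curry ι κ X).symm.measurable
      (MeasurableSet.univ_pi hs)]
    have h1 : (MeasurableEquiv.curry ι κ X).symm ⁻¹' (Set.univ.pi s) =
        Set.univ.pi fun i => Set.univ.pi fun k => s (i, k) := by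
      ext f
      simp only [Set.mem_preimage, Set.mem_univ_pi, MeasurableEquiv.coe_curry_symm]
      constructor
      · intro h i k; exact h (i, k)
      · rintro h ⟨i, k⟩; exact h i k
    rw [h1, Measure.pi_pi]
    simp only [Measure.pi_pi]
    rw [Fintype.prod_prod_type]
  exact h.symm

/-- iterated product of a measure over `ι` and `κ` is the product over `ι × κ` -/
theorem curry_pi {ι κ : Type} [Fintype ι] [Fintype κ] (μ : Measure ℝ) [SigmaFinite μ] :
    MeasurePreserving (MeasurableEquiv.curry ι κ ℝ) (Measure.pi fun _ => μ)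
      (Measure.pi fun _ => Measure.pi fun _ => μ) :=
  curry_pi_gen μ

namespace GaussAux

theorem gint (n : ℕ) : Integrable (fun x : ℝ => x ^ n) (gaussianReal 0 1) := by
  have h := (memLp_id_gaussianReal (μ := 0) (v := 1) (n : NNReal)).integrable_norm_pow' (p := n)
  refine (integrable_norm_iff ?_).1 ?_
  · exact (measurable_id.pow_const n).aestronglyMeasurable
  · simpa using h

theorem gint' (n : ℕ) : Integrable (fun x : ℝ => gaussianPDFReal 0 1 x * x ^ n) := by
  have h := gint n
  rw [gaussianReal_of_var_ne_zero _ one_ne_zero,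
    integrable_withDensity_iff_integrable_smul' (measurable_gaussianPDF _ _)
      (ae_of_all _ fun _ => gaussianPDF_lt_top)] at h
  simpa [toReal_gaussianPDF] using h

theorem pdf_deriv (x : ℝ) : HasDerivAt (gaussianPDFReal 0 1) (-(x * gaussianPDFReal 0 1 x)) x := by
  have h1 : gaussianPDFReal 0 1 = fun x : ℝ =>
      (√(2 * Real.pi * (1 : NNReal)))⁻¹ * Real.exp (-(x - 0) ^ 2 / (2 * (1 : NNReal))) := by
    funext x; rw [gaussianPDFReal]
  have h2 : HasDerivAt (fun x : ℝ => -(x - 0) ^ 2 / (2 * ((1 : NNReal) : ℝ))) (-x) x := by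
    have h3 := (((hasDerivAt_id x).sub_const 0).pow 2).neg.div_const (2 * ((1 : NNReal) : ℝ))
    refine h3.congr_deriv ?_
    simp
    ring
  have h4 := h2.exp.const_mul (√(2 * Real.pi * (1 : NNReal)))⁻¹
  rw [h1]
  refine h4.congr_deriv ?_
  ring

theorem gibp (n : ℕ) : ∫ x, x ^ (n + 1) ∂(gaussianReal 0 1) =
    n * ∫ x, x ^ (n - 1) ∂(gaussianReal 0 1) := by
  rw [integral_gaussianReal_eq_integral_smul one_ne_zero,
    integral_gaussianReal_eq_integral_smul one_ne_zero]
  simp only [smul_eq_mul]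
  have hd : ∀ x : ℝ, HasDerivAt (fun x => gaussianPDFReal 0 1 x * x ^ n)
      (n * (gaussianPDFReal 0 1 x * x ^ (n - 1)) - gaussianPDFReal 0 1 x * x ^ (n + 1)) x := by
    intro x
    refine ((pdf_deriv x).mul (hasDerivAt_pow n x)).congr_deriv ?_
    ring
  have h1 := integral_eq_zero_of_hasDerivAt_of_integrable hd
    (((gint' (n - 1)).const_mul (n : ℝ)).sub (gint' (n + 1))) (gint' n)
  rw [integral_sub ((gint' (n - 1)).const_mul (n : ℝ)) (gint' (n + 1)), integral_const_mul] at h1
  linarith

/-- moments -/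
noncomputable def mo (n : ℕ) : ℂ := ∫ x : ℝ, ((x : ℝ) : ℂ) ^ n ∂(gaussianReal 0 1)

theorem mo_eq (n : ℕ) : mo n = ((∫ x : ℝ, x ^ n ∂(gaussianReal 0 1) : ℝ) : ℂ) := by
  unfold mo
  rw [← integral_complex_ofReal]
  push_cast
  rfl

theorem mo_zero : mo 0 = 1 := by
  rw [mo_eq]; simp

theorem mo_succ (n : ℕ) : mo (n + 1) = n * mo (n - 1) := by
  rw [mo_eq, mo_eq, gibp]; push_cast; rfl

theorem cint (n : ℕ) : Integrable (fun x : ℝ => ((x : ℝ) : ℂ) ^ n) (gaussianReal 0 1) := by
  have := (gint n).ofReal (𝕜 := ℂ)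
  simpa using this

variable {N : Type} [Fintype N] [DecidableEq N]

theorem eval_mono (s : N →₀ ℕ) (c : ℂ) (g : N → ℝ) :
    MvPolynomial.eval (fun α => ((g α : ℝ) : ℂ)) (MvPolynomial.monomial s c) =
      c * ∏ α, ((g α : ℝ) : ℂ) ^ s α := by
  rw [MvPolynomial.eval_monomial, Finsupp.prod_fintype]
  intro i; simp

theorem integrable_eval (f : MvPolynomial N ℂ) :
    Integrable (fun g : N → ℝ => MvPolynomial.eval (fun α => ((g α : ℝ) : ℂ)) f)
      (Measure.pi fun _ => gaussianReal 0 1) := by
  induction f using MvPolynomial.induction_on' with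
  | monomial s c =>
    simp only [eval_mono]
    exact (Integrable.fintype_prod (f := fun α (x : ℝ) => ((x : ℝ) : ℂ) ^ s α)
      fun α => cint _).const_mul c
  | add p q hp hq =>
    simp only [map_add]
    exact hp.add hq

/-- the expectation -/
noncomputable def EE : MvPolynomial N ℂ →ₗ[ℂ] ℂ where
  toFun f := ∫ g : N → ℝ, MvPolynomial.eval (fun α => ((g α : ℝ) : ℂ)) f
    ∂(Measure.pi fun _ => gaussianReal 0 1)
  map_add' p q := by
    simp only [map_add]
    exact integral_add (integrable_eval p) (integrable_eval q)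
  map_smul' c p := by
    simp only [MvPolynomial.smul_eval, RingHom.id_apply]
    rw [integral_const_mul]
    rfl

theorem EE_apply (f : MvPolynomial N ℂ) : EE f =
    ∫ g : N → ℝ, MvPolynomial.eval (fun α => ((g α : ℝ) : ℂ)) f
    ∂(Measure.pi fun _ => gaussianReal 0 1) := rfl

theorem EE_mono (s : N →₀ ℕ) (c : ℂ) : EE (MvPolynomial.monomial s c) = c * ∏ α, mo (s α) := by
  rw [EE_apply]
  simp only [eval_mono]
  rw [integral_const_mul]
  congr 1
  exact integral_fintype_prod_eq_prod (fun α (x : ℝ) => ((x : ℝ) : ℂ) ^ s α)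

theorem EE_ibp (α : N) (f : MvPolynomial N ℂ) :
    EE (MvPolynomial.X α * f) = EE (MvPolynomial.pderiv α f) := by
  induction f using MvPolynomial.induction_on' with
  | monomial s c =>
    rw [MvPolynomial.pderiv_monomial, MvPolynomial.X, MvPolynomial.monomial_mul, EE_mono, EE_mono,
      ← Finset.mul_prod_erase _ _ (Finset.mem_univ α), ← Finset.mul_prod_erase _ _ (Finset.mem_univ α)]
    have h1 : ∀ β ∈ Finset.univ.erase α, mo (((Finsupp.single α 1 + s : N →₀ ℕ)) β) =
        mo (((s - Finsupp.single α 1 : N →₀ ℕ)) β) := by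
      intro β hβ
      have hne : β ≠ α := Finset.ne_of_mem_erase hβ
      rw [Finsupp.add_apply, Finsupp.tsub_apply, Finsupp.single_eq_of_ne hne, zero_add, tsub_zero]
    rw [Finset.prod_congr rfl h1]
    have h2 : ((Finsupp.single α 1 + s : N →₀ ℕ)) α = s α + 1 := by
      rw [Finsupp.add_apply, Finsupp.single_eq_same, add_comm]
    have h3 : ((s - Finsupp.single α 1 : N →₀ ℕ)) α = s α - 1 := by
      rw [Finsupp.tsub_apply, Finsupp.single_eq_same]
    rw [h2, h3, mo_succ]
    ring
  | add p q hp hq => rw [mul_add, map_add, map_add, map_add, hp, hq]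

end GaussAux

theorem gauss_poly (N : Type) [Fintype N] [DecidableEq N] :
    ∃ E : MvPolynomial N ℂ →ₗ[ℂ] ℂ, E 1 = 1 ∧
      (∀ α f, E (MvPolynomial.X α * f) = E (MvPolynomial.pderiv α f)) ∧
      ∀ f, Integrable (fun g : N → ℝ => MvPolynomial.eval (fun α => ((g α : ℝ) : ℂ)) f)
          (Measure.pi fun _ => gaussianReal 0 1) ∧
        E f = ∫ g : N → ℝ, MvPolynomial.eval (fun α => ((g α : ℝ) : ℂ)) f
          ∂(Measure.pi fun _ => gaussianReal 0 1) :=
  ⟨GaussAux.EE, by rw [GaussAux.EE_apply]; simp, GaussAux.EE_ibp,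
    fun f => ⟨GaussAux.integrable_eval f, rfl⟩⟩

end Vale.Agent.P087
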