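import Vale.Agent.P087.MatSysAux

/-! # [J] MatSys.lean : the random matrix model satisfies `MatSys` (P087) -/

namespace Vale.Agent.P087

open scoped ENNReal Topology
open MeasureTheory Filter ProbabilityTheory

namespace MatSysAux

/-- index set of the corner -/
def cS (k q : ℕ) : Finset (Fin k × Fin k) :=
  Finset.univ.filter fun b => (b.1 : ℕ) < q ∧ (b.2 : ℕ) < q

/-- constant basis matrices -/
noncomputable def hBP (N : Type) {k : ℕ} (b : Fin k × Fin k) :
    Matrix (Fin k) (Fin k) (MvPolynomial N ℂ) := (hB b.1 b.2).map MvPolynomial.C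

theorem hBP_complete (N : Type) {k : ℕ} (q : ℕ) (i j i' j' : Fin k) :
    ∑ b ∈ cS k q, hBP N b i j * hBP N b i' j' =
      if i = j' ∧ j = i' ∧ (i : ℕ) < q ∧ (j : ℕ) < q then 1 else 0 := by
  have h := congrArg (MvPolynomial.C (σ := N)) (hB_complete q i j i' j')
  rw [apply_ite MvPolynomial.C, MvPolynomial.C_1, MvPolynomial.C_0] at h
  rw [← h, cS, Finset.sum_filter, map_sum, Fintype.sum_prod_type]
  refine Finset.sum_congr rfl fun r _ => ?_
  rw [map_sum]
  refine Finset.sum_congr rfl fun s _ => ?_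
  rw [apply_ite MvPolynomial.C, MvPolynomial.C_0, MvPolynomial.C_mul]
  rfl

theorem hBP_der (N : Type) {k : ℕ} (b : Fin k × Fin k) (α : N) :
    (hBP N b).map (MvPolynomial.pderiv α) = 0 := by
  ext1 i j
  simp [hBP]

theorem map_sum_smul {N β : Type} [DecidableEq N] {k : ℕ} (S : Finset β) (v : β → N)
    (B : β → Matrix (Fin k) (Fin k) (MvPolynomial N ℂ)) (κ : ℂ) (α : N)
    (hB0 : ∀ b ∈ S, (B b).map (MvPolynomial.pderiv α) = 0) :
    (∑ b ∈ S, (MvPolynomial.C κ * MvPolynomial.X (v b) : MvPolynomial N ℂ) • B b).map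
      (MvPolynomial.pderiv α) =
      ∑ b ∈ S, if v b = α then (MvPolynomial.C κ : MvPolynomial N ℂ) • B b else 0 := by
  ext1 i j
  rw [Matrix.map_apply, Matrix.sum_apply, Matrix.sum_apply, map_sum]
  refine Finset.sum_congr rfl fun b hb => ?_
  have h0 : MvPolynomial.pderiv α (B b i j) = 0 := congrFun (congrFun (hB0 b hb) i) j
  rw [Matrix.smul_apply, smul_eq_mul, Derivation.leibniz, h0, MvPolynomial.pderiv_C_mul,
    MvPolynomial.pderiv_X]
  by_cases h : v b = α
  · rw [if_pos h, h]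
    simp [mul_comm]
  · rw [if_neg h]
    simp [Ne.symm h]

variable {a : ℕ} {C : Type}

/-- the index type of the variables -/
abbrev NN (a : ℕ) (C : Type) (k : ℕ) : Type := ((Fin a ⊕ C) × Fin k) × Fin k

/-- the variables -/
def vx {k : ℕ} (n : Fin a ⊕ C) (b : Fin k × Fin k) : NN a C k := ((n, b.1), b.2)

/-- the Gaussian polynomial matrices -/
noncomputable def GP {k : ℕ} (n : Fin a ⊕ C) (q : ℕ) (κ : ℂ) :
    Matrix (Fin k) (Fin k) (MvPolynomial (NN a C k) ℂ) :=
  ∑ b ∈ cS k q, (MvPolynomial.C κ * MvPolynomial.X (vx n b) : MvPolynomial (NN a C k) ℂ) •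
    hBP (NN a C k) b

/-- the polynomial matrices -/
noncomputable def YP (q k : ℕ) : Fin (a + 1) ⊕ C →
    Matrix (Fin k) (Fin k) (MvPolynomial (NN a C k) ℂ)
  | .inl j => Fin.cases
      (motive := fun _ => Matrix (Fin k) (Fin k) (MvPolynomial (NN a C k) ℂ))
      (eM _ k q) (fun i => GP (.inl i) q (((√(q : ℝ))⁻¹ : ℝ) : ℂ)) j
  | .inr c => GP (.inr c) k (((√(k : ℝ))⁻¹ : ℝ) : ℂ)

theorem YP_zero (q k : ℕ) : YP (a := a) (C := C) q k (.inl 0) = eM _ k q := rfl

theorem YP_succ (q k : ℕ) (i : Fin a) : YP (a := a) (C := C) q k (.inl i.succ) =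
    GP (.inl i) q (((√(q : ℝ))⁻¹ : ℝ) : ℂ) := rfl

theorem YP_inr (q k : ℕ) (c : C) : YP (a := a) (C := C) q k (.inr c) =
    GP (.inr c) k (((√(k : ℝ))⁻¹ : ℝ) : ℂ) := rfl

theorem GP_der [DecidableEq C] {k : ℕ} (n n' : Fin a ⊕ C) (q : ℕ) (κ : ℂ) (b : Fin k × Fin k)
    (hb : n = n' → b ∈ cS k q) :
    (GP n q κ).map (MvPolynomial.pderiv (vx n' b)) =
      if n = n' then (MvPolynomial.C κ : MvPolynomial (NN a C k) ℂ) • hBP _ b else 0 := by
  rw [GP, map_sum_smul _ _ _ _ _ fun b _ => hBP_der _ b _]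
  by_cases h : n = n'
  · subst h
    rw [if_pos rfl, Finset.sum_eq_single b]
    · rw [if_pos rfl]
    · intro b' _ hb'
      rw [if_neg]
      intro h
      apply hb'
      simp only [vx, Prod.mk.injEq, true_and] at h
      exact Prod.ext h.1 h.2
    · exact fun h => absurd (hb rfl) h
  · rw [if_neg h, Finset.sum_eq_zero]
    intro b' _
    rw [if_neg]
    intro h'
    simp only [vx, Prod.mk.injEq] at h'
    exact h h'.1.1

theorem eM_der {N : Type} (k q : ℕ) (α : N) :
    (eM (MvPolynomial N ℂ) k q).map (MvPolynomial.pderiv α) = 0 := by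
  ext1 i j
  rw [Matrix.map_apply, eM, Matrix.diagonal_apply]
  split_ifs <;> simp

theorem YP_der_succ [DecidableEq C] (q k : ℕ) (i : Fin a) (b : Fin k × Fin k)
    (hb : b ∈ cS k q) (j : Fin (a + 1) ⊕ C) :
    (YP (a := a) (C := C) q k j).map (MvPolynomial.pderiv (vx (.inl i) b)) =
      if j = .inl i.succ then (MvPolynomial.C ((((√(q : ℝ))⁻¹ : ℝ) : ℂ)) :
        MvPolynomial (NN a C k) ℂ) • hBP _ b else 0 := by
  rcases j with j | c
  · refine Fin.cases ?_ (fun i' => ?_) j
    · rw [YP_zero, eM_der, if_neg]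
      intro h
      exact Fin.succ_ne_zero i (Sum.inl_injective h).symm
    · rw [YP_succ, GP_der _ _ _ _ _ fun _ => hb]
      by_cases h : i' = i
      · subst h
        rw [if_pos rfl, if_pos rfl]
      · rw [if_neg fun h' => h (Sum.inl_injective h'),
          if_neg fun h' => h (Fin.succ_injective _ (Sum.inl_injective h'))]
  · rw [YP_inr, GP_der _ _ _ _ _ (fun h => by simp at h), if_neg (by simp), if_neg (by simp)]

theorem YP_der_inr [DecidableEq C] (q k : ℕ) (c : C) (b : Fin k × Fin k)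
    (hb : b ∈ cS k k) (j : Fin (a + 1) ⊕ C) :
    (YP (a := a) (C := C) q k j).map (MvPolynomial.pderiv (vx (.inr c) b)) =
      if j = .inr c then (MvPolynomial.C ((((√(k : ℝ))⁻¹ : ℝ) : ℂ)) :
        MvPolynomial (NN a C k) ℂ) • hBP _ b else 0 := by
  rcases j with j | c'
  · refine Fin.cases ?_ (fun i' => ?_) j
    · rw [YP_zero, eM_der, if_neg (by simp)]
    · rw [YP_succ, GP_der _ _ _ _ _ (fun h => by simp at h), if_neg (by simp), if_neg (by simp)]
  · rw [YP_inr, GP_der _ _ _ _ _ fun _ => hb]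
    by_cases h : c' = c
    · subst h
      rw [if_pos rfl, if_pos rfl]
    · rw [if_neg fun h' => h (Sum.inr_injective h'), if_neg fun h' => h (Sum.inr_injective h')]

/-! ### evaluation -/

theorem hBP_eval {N : Type} {k : ℕ} (b : Fin k × Fin k) (g : N → ℂ) :
    (hBP N b).map (MvPolynomial.eval g) = hB b.1 b.2 := by
  ext1 i j
  simp [hBP]

theorem GP_eval {k : ℕ} (n : Fin a ⊕ C) (q : ℕ) (κ : ℂ) (g : NN a C k → ℝ) (i j : Fin k) :
    (GP n q κ).map (MvPolynomial.eval fun α => ((g α : ℝ) : ℂ)) i j =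
      ∑ r : Fin k, ∑ s : Fin k, if (r : ℕ) < q ∧ (s : ℕ) < q then
        κ * ((g (vx n (r, s)) : ℝ) : ℂ) * hB r s i j else 0 := by
  rw [Matrix.map_apply, GP, Matrix.sum_apply, map_sum, cS, Finset.sum_filter,
    Fintype.sum_prod_type]
  refine Finset.sum_congr rfl fun r _ => Finset.sum_congr rfl fun s _ => ?_
  by_cases h : (r : ℕ) < q ∧ (s : ℕ) < q
  · rw [if_pos h, if_pos h, Matrix.smul_apply, smul_eq_mul, map_mul, map_mul,
      MvPolynomial.eval_C, MvPolynomial.eval_X, hBP, Matrix.map_apply, MvPolynomial.eval_C]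
  · rw [if_neg h, if_neg h]

theorem YP_eval (q k : ℕ) (g : NN a C k → ℝ) (j : Fin (a + 1) ⊕ C) :
    (YP q k j).map (MvPolynomial.eval fun α => ((g α : ℝ) : ℂ)) =
      Yv q k (fun n r s => g ((n, r), s)) j := by
  rcases j with j | c
  · refine Fin.cases ?_ (fun i => ?_) j
    · rw [YP_zero]
      ext1 i j
      rw [Matrix.map_apply, eM, Matrix.diagonal_apply, Yv]
      simp only [Fin.cases_zero, Matrix.diagonal_apply]
      split_ifs <;> simp
    · rw [YP_succ]
      have h1 : Yv q k (fun n r s => g ((n, r), s)) (.inl i.succ : Fin (a + 1) ⊕ C) =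
          herm fun r s => if (r : ℕ) < q ∧ (s : ℕ) < q then g ((.inl i, r), s) / √(q : ℝ)
            else 0 := rfl
      rw [h1, herm_eq_sum]
      ext1 i' j'
      rw [GP_eval, Matrix.sum_apply]
      refine Finset.sum_congr rfl fun r _ => ?_
      rw [Matrix.sum_apply]
      refine Finset.sum_congr rfl fun s _ => ?_
      rw [Matrix.smul_apply, smul_eq_mul, vx]
      by_cases h : (r : ℕ) < q ∧ (s : ℕ) < q
      · rw [if_pos h, if_pos h]
        push_cast
        ring
      · rw [if_neg h, if_neg h]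
        simp
  · rw [YP_inr]
    have h1 : Yv q k (fun n r s => g ((n, r), s)) (.inr c : Fin (a + 1) ⊕ C) =
        herm fun r s => g ((.inr c, r), s) / √(k : ℝ) := rfl
    rw [h1, herm_eq_sum]
    ext1 i' j'
    rw [GP_eval, Matrix.sum_apply]
    refine Finset.sum_congr rfl fun r _ => ?_
    rw [Matrix.sum_apply]
    refine Finset.sum_congr rfl fun s _ => ?_
    rw [Matrix.smul_apply, smul_eq_mul, vx, if_pos ⟨r.2, s.2⟩]
    push_cast
    ring

theorem eval_tP {N : Type} {k : ℕ} (A : Matrix (Fin k) (Fin k) (MvPolynomial N ℂ)) (g : N → ℂ) :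
    MvPolynomial.eval g (tP A) = (A.map (MvPolynomial.eval g)).trace / (k : ℂ) := by
  rw [tP, map_mul, MvPolynomial.eval_C, div_eq_inv_mul]
  congr 1
  simp [Matrix.trace, map_sum]

theorem eval_prod {N ι : Type} {k : ℕ} (A : ι → Matrix (Fin k) (Fin k) (MvPolynomial N ℂ))
    (g : N → ℂ) (w : List ι) :
    ((w.map A).prod).map (MvPolynomial.eval g) =
      (w.map fun i => (A i).map (MvPolynomial.eval g)).prod := by
  have h := map_list_prod (MvPolynomial.eval g).mapMatrix (w.map A)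
  rw [List.map_map] at h
  exact h

theorem eval_TW (q k : ℕ) (g : NN a C k → ℝ)
    (ws : List (List (Fin (a + 1) ⊕ C))) :
    MvPolynomial.eval (fun α => ((g α : ℝ) : ℂ)) (ws.map (TW (YP q k))).prod =
      (ws.map fun w => ((w.map (Yv q k fun n r s => g ((n, r), s))).prod.trace / (k : ℂ))).prod := by
  rw [map_list_prod, List.map_map]
  refine congrArg List.prod (List.map_congr_left fun w _ => ?_)
  rw [Function.comp_apply, TW, eval_tP, eval_prod]
  simp only [YP_eval]

/-! ### the measure -/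

theorem mp [Fintype C] (k : ℕ) :
    MeasurePreserving ((MeasurableEquiv.curry ((Fin a ⊕ C) × Fin k) (Fin k) ℝ).trans
      (MeasurableEquiv.curry (Fin a ⊕ C) (Fin k) (Fin k → ℝ)))
      (Measure.pi fun _ => gaussianReal 0 1) (gaussArr (Fin a ⊕ C) k) :=
  (curry_pi_gen (Measure.pi fun _ : Fin k => gaussianReal 0 1)).comp
    (curry_pi (gaussianReal 0 1))

theorem trace_eM {R : Type} [CommRing R] {k q : ℕ} (h : q ≤ k) : (eM R k q).trace = q := by
  rw [eM, Matrix.trace_diagonal, Fin.sum_univ_eq_sum_range (fun r => if r < q then (1 : R) else 0),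
    Finset.sum_ite, Finset.sum_const_zero, add_zero, Finset.sum_const, nsmul_one]
  congr 1
  rw [show (Finset.range k).filter (fun r => r < q) = Finset.range q by
    ext r; simp only [Finset.mem_filter, Finset.mem_range]; omega, Finset.card_range]

theorem eM_full {R : Type} [CommRing R] {k : ℕ} : eM R k k = 1 := by
  rw [eM, ← Matrix.diagonal_one]
  congr 1
  funext r
  simp

theorem eM_eM {R : Type} [CommRing R] {k q : ℕ} : eM R k q * eM R k q = eM R k q := by
  rw [eM, Matrix.diagonal_mul_diagonal]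
  congr 1
  funext r
  split_ifs <;> simp

theorem hB_row {k : ℕ} {q : ℕ} {b : Fin k × Fin k} (hb : b ∈ cS k q) {i : Fin k}
    (hi : ¬ (i : ℕ) < q) (j : Fin k) : hB b.1 b.2 i j = 0 := by
  rw [cS, Finset.mem_filter] at hb
  have h1 : i ≠ b.1 := by rintro rfl; exact hi hb.2.1
  have h2 : i ≠ b.2 := by rintro rfl; exact hi hb.2.2
  rcases lt_trichotomy i j with h | h | h
  · rw [HermBasis.hB_lt _ _ h]; simp [h1, h2]
  · subst h; rw [HermBasis.hB_eq]; simp [h1]
  · rw [HermBasis.hB_gt _ _ h]; simp [h1, h2]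

theorem eM_hBP {N : Type} {k q : ℕ} {b : Fin k × Fin k} (hb : b ∈ cS k q) :
    eM (MvPolynomial N ℂ) k q * hBP N b = hBP N b := by
  ext1 i j
  rw [eM, Matrix.diagonal_mul]
  by_cases h : (i : ℕ) < q
  · simp [h]
  · rw [hBP, Matrix.map_apply, hB_row hb h]; simp

theorem TW_nil {k q : ℕ} (hk0 : (k : ℂ) ≠ 0) : TW (YP (a := a) (C := C) q k) [] = 1 := by
  rw [TW, tP, List.map_nil, List.prod_nil, Matrix.trace_one, Fintype.card_fin,
    ← map_natCast (MvPolynomial.C (R := ℂ)), ← MvPolynomial.C_mul, inv_mul_cancel₀ hk0,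
    MvPolynomial.C_1]

theorem TW_rot {k q : ℕ} (u v : List (Fin (a + 1) ⊕ C)) :
    TW (YP (a := a) (C := C) q k) (u ++ v) = TW (YP (a := a) (C := C) q k) (v ++ u) := by
  rw [TW, TW, tP, tP, List.map_append, List.map_append, List.prod_append, List.prod_append,
    Matrix.trace_mul_comm]

theorem TW_e {k q : ℕ} (hqk : q ≤ k) :
    TW (YP (a := a) (C := C) q k) [.inl 0] = MvPolynomial.C ((k : ℂ)⁻¹ * q) := by
  rw [TW, tP, List.map_cons, List.map_nil, List.prod_cons, List.prod_nil, mul_one, YP_zero,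
        trace_eM hqk, ← map_natCast (MvPolynomial.C (R := ℂ)), ← MvPolynomial.C_mul]

theorem TW_ee {k q : ℕ} (P : List (Fin (a + 1) ⊕ C)) :
    TW (YP (a := a) (C := C) q k) (.inl 0 :: .inl 0 :: P) =
      TW (YP (a := a) (C := C) q k) (.inl 0 :: P) := by
  rw [TW, TW, List.map_cons, List.map_cons, List.prod_cons, List.prod_cons, ← mul_assoc, YP_zero,
    eM_eM]

theorem TW_ex {k q : ℕ} (i : Fin a) (P : List (Fin (a + 1) ⊕ C)) :
    TW (YP (a := a) (C := C) q k) (.inl 0 :: .inl i.succ :: P) =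
      TW (YP (a := a) (C := C) q k) (.inl i.succ :: P) := by
  have h : eM _ k q * YP (a := a) (C := C) q k (.inl i.succ) =
      YP (a := a) (C := C) q k (.inl i.succ) := by
    rw [YP_succ, GP, Finset.mul_sum]
    refine Finset.sum_congr rfl fun b hb => ?_
    rw [Matrix.mul_smul, eM_hBP hb]
  rw [TW, TW, List.map_cons, List.map_cons, List.prod_cons, List.prod_cons, ← mul_assoc, YP_zero,
    h]

theorem E_s [DecidableEq C] {k q : ℕ} (hk0 : (k : ℂ) ≠ 0)
    (E : MvPolynomial (NN a C k) ℂ →ₗ[ℂ] ℂ)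
    (hE : ∀ α f, E (MvPolynomial.X α * f) = E (MvPolynomial.pderiv α f))
    (c : C) (Q : List (Fin (a + 1) ⊕ C)) (ws : List (List (Fin (a + 1) ⊕ C))) :
    E ((((Sum.inr c :: Q) :: ws).map (TW (YP q k))).prod) =
    ((splits (.inr c) Q).map fun p => E (((p.1 :: p.2 :: ws).map (TW (YP q k))).prod)).sum +
    ((k : ℂ) ^ 2)⁻¹ * ∑ l : Fin ws.length, ((splits (.inr c) (ws.get l)).map fun p =>
      E ((((Q ++ p.2 ++ p.1) :: ws.eraseIdx l).map (TW (YP q k))).prod)).sum := by
  have sqk : (((√(k : ℝ))⁻¹ : ℝ) : ℂ) ^ 2 = (k : ℂ)⁻¹ := by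
    rw [← Complex.ofReal_pow, inv_pow, Real.sq_sqrt (Nat.cast_nonneg _)]; push_cast; rfl
  have h := main hk0 E hE (YP (a := a) (C := C) q k) (.inr c) (cS k k)
    (vx (.inr c)) (hBP _) k (hBP_complete _ k) _
    (fun b _ α => hBP_der _ b α) (YP_inr q k c) (fun b hb j => YP_der_inr q k c b hb j) Q ws
  rw [List.map_cons, List.prod_cons, h, sqk, inv_mul_cancel₀ hk0, one_mul, eM_full]
  refine congrArg₂ (· + ·) ?_ ?_
  · refine congrArg List.sum (List.map_congr_left fun p _ => ?_)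
    rw [one_mul, one_mul, List.map_cons, List.map_cons, List.prod_cons, List.prod_cons,
      mul_assoc, TW, TW]
  · rw [show ((k : ℂ) ^ 2)⁻¹ = (k : ℂ)⁻¹ * (k : ℂ)⁻¹ by rw [sq, mul_inv]]
    refine congrArg _ (Finset.sum_congr rfl fun l _ => ?_)
    refine congrArg List.sum (List.map_congr_left fun p _ => ?_)
    rw [one_mul, mul_one, List.map_cons, List.prod_cons, TW, List.map_append, List.map_append,
      List.prod_append, List.prod_append, mul_assoc]

theorem E_x [DecidableEq C] {k q : ℕ} (hk0 : (k : ℂ) ≠ 0) (hq0 : (q : ℂ) ≠ 0)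
    (hkC : (k : ℂ) = a * q)
    (E : MvPolynomial (NN a C k) ℂ →ₗ[ℂ] ℂ)
    (hE : ∀ α f, E (MvPolynomial.X α * f) = E (MvPolynomial.pderiv α f))
    (i : Fin a) (Q : List (Fin (a + 1) ⊕ C)) (ws : List (List (Fin (a + 1) ⊕ C))) :
    E ((((Sum.inl i.succ :: Q) :: ws).map (TW (YP q k))).prod) =
    (a : ℂ) * ((splits (.inl i.succ) Q).map fun p =>
      E ((((.inl 0 :: p.1) :: (.inl 0 :: p.2) :: ws).map (TW (YP q k))).prod)).sum +
    (a : ℂ) * ((k : ℂ) ^ 2)⁻¹ * ∑ l : Fin ws.length,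
      ((splits (.inl i.succ) (ws.get l)).map fun p =>
        E ((((.inl 0 :: Q ++ .inl 0 :: p.2 ++ p.1) :: ws.eraseIdx l).map
          (TW (YP q k))).prod)).sum := by
  have sqq : (((√(q : ℝ))⁻¹ : ℝ) : ℂ) ^ 2 = (q : ℂ)⁻¹ := by
    rw [← Complex.ofReal_pow, inv_pow, Real.sq_sqrt (Nat.cast_nonneg _)]; push_cast; rfl
  have e1 : (q : ℂ)⁻¹ * k = a := by rw [hkC]; field_simp
  have e2 : (q : ℂ)⁻¹ * (k : ℂ)⁻¹ = a * ((k : ℂ) ^ 2)⁻¹ := by
    rw [← e1]; field_simp
  have h := main hk0 E hE (YP (a := a) (C := C) q k) (.inl i.succ) (cS k q)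
    (vx (.inl i)) (hBP _) q (hBP_complete _ q) _
    (fun b _ α => hBP_der _ b α) (YP_succ q k i) (fun b hb j => YP_der_succ q k i b hb j) Q ws
  rw [List.map_cons, List.prod_cons, h, sqq, e1, e2]
  refine congrArg₂ (· + ·) (congrArg _ ?_) ?_
  · refine congrArg List.sum (List.map_congr_left fun p _ => ?_)
    rw [List.map_cons, List.map_cons, List.prod_cons, List.prod_cons,
      mul_assoc, TW, TW, List.map_cons, List.map_cons, List.prod_cons, List.prod_cons, YP_zero]
  · refine congrArg _ (Finset.sum_congr rfl fun l _ => ?_)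
    refine congrArg List.sum (List.map_congr_left fun p _ => ?_)
    rw [List.map_cons, List.prod_cons, TW, List.map_append, List.map_append, List.map_cons,
      List.map_cons, List.prod_append, List.prod_append, List.prod_cons, List.prod_cons, YP_zero]
    simp only [mul_assoc]

end MatSysAux

open MatSysAux

/-- the random matrix moments form a `MatSys` -/
theorem matSys_gauss (a : ℕ) (ha : 1 ≤ a) (C : Type) [Fintype C] [DecidableEq C] (q : ℕ)
    (hq : 1 ≤ q) :
    ∃ M : List (List (Fin (a + 1) ⊕ C)) → ℂ, MatSys (a * q) M ∧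
      ∀ ws, Integrable (fun g => (ws.map fun w => ((w.map (Yv q (a * q) g)).prod.trace /
          ((a * q : ℕ) : ℂ))).prod) (gaussArr (Fin a ⊕ C) (a * q)) ∧
        M ws = ∫ g, (ws.map fun w => ((w.map (Yv q (a * q) g)).prod.trace /
          ((a * q : ℕ) : ℂ))).prod ∂(gaussArr (Fin a ⊕ C) (a * q)) := by
  obtain ⟨k, hk⟩ : ∃ k, k = a * q := ⟨_, rfl⟩
  rw [← hk]
  have hk1 : 1 ≤ k := by rw [hk]; exact Nat.mul_pos ha hq
  have hk0 : (k : ℂ) ≠ 0 := by exact_mod_cast (by omega : k ≠ 0)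
  have hq0 : (q : ℂ) ≠ 0 := by exact_mod_cast (by omega : q ≠ 0)
  have ha0 : (a : ℂ) ≠ 0 := by exact_mod_cast (by omega : a ≠ 0)
  have hqk : q ≤ k := by rw [hk]; exact Nat.le_mul_of_pos_left q ha
  have hkC : (k : ℂ) = a * q := by rw [hk]; push_cast; ring
  obtain ⟨E, hE1, hE2, hE3⟩ := gauss_poly (NN a C k)
  refine ⟨fun ws => E (ws.map (TW (YP q k))).prod, ?_, ?_⟩
  · refine ⟨?_, ?_, ?_, ?_, ?_, ?_, ?_, ?_, ?_⟩
    · show E _ = 1
      rw [List.map_nil, List.prod_nil, hE1]
    · intro ws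
      show E _ = E _
      rw [List.map_cons, List.prod_cons, TW_nil hk0, one_mul]
    · intro ws ws' h
      show E _ = E _
      rw [(h.map (TW (YP q k))).prod_eq]
    · intro u v ws
      show E _ = E _
      rw [List.map_cons, List.prod_cons, List.map_cons, List.prod_cons, TW_rot]
    · intro ws
      show E _ = _ * E _
      rw [List.map_cons, List.prod_cons, TW_e hqk, E_C, hkC]
      congr 1
      field_simp
    · intro P ws
      show E _ = E _
      rw [List.map_cons, List.prod_cons, List.map_cons, List.prod_cons, TW_ee]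
    · intro i P ws
      show E _ = E _
      rw [List.map_cons, List.prod_cons, List.map_cons, List.prod_cons, TW_ex]
    · intro c Q ws
      exact E_s hk0 E hE2 c Q ws
    · intro i Q ws
      exact E_x hk0 hq0 hkC E hE2 i Q ws
  · intro ws
    have h1 := hE3 (ws.map (TW (YP q k))).prod
    simp only [eval_TW] at h1
    have h2 := mp (a := a) (C := C) k
    constructor
    · rw [← h2.integrable_comp_emb (MeasurableEquiv.measurableEmbedding _)]
      exact h1.1
    · rw [← h2.integral_comp']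
      exact h1.2

end Vale.Agent.P087
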