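import Vale.Agent.P087.Splits
import Vale.Agent.P087.HermBasis
import Vale.Agent.P087.GaussPoly

/-! # [J] MatSysAux.lean : Schwinger-Dyson equations of Gaussian matrices (P087) -/

namespace Vale.Agent.P087

open scoped ENNReal Topology
open MeasureTheory Filter ProbabilityTheory

namespace MatSysAux

section trace
variable {R : Type} [CommRing R] {k : ℕ} {β : Type}

/-- corner projection -/
def eM (R : Type) [CommRing R] (k q : ℕ) : Matrix (Fin k) (Fin k) R :=
  Matrix.diagonal fun r => if (r : ℕ) < q then 1 else 0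

theorem T1 (S : Finset β) (B : β → Matrix (Fin k) (Fin k) R) (q : ℕ)
    (hc : ∀ i j i' j', ∑ b ∈ S, B b i j * B b i' j' =
      if i = j' ∧ j = i' ∧ (i : ℕ) < q ∧ (j : ℕ) < q then 1 else 0)
    (P Q : Matrix (Fin k) (Fin k) R) :
    ∑ b ∈ S, (B b * (P * B b * Q)).trace = (eM R k q * P).trace * (eM R k q * Q).trace := by
  have h1 : ∀ b, (B b * (P * B b * Q)).trace =
      ∑ i, ∑ j, ∑ j', ∑ i', (B b i j * B b i' j') * (P j i' * Q j' i) := by
    intro b
    simp only [Matrix.trace, Matrix.diag_apply, Matrix.mul_apply, Finset.sum_mul, Finset.mul_sum]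
    refine Finset.sum_congr rfl fun i _ => Finset.sum_congr rfl fun j _ =>
      Finset.sum_congr rfl fun j' _ => Finset.sum_congr rfl fun i' _ => ?_
    ring
  have h2 : ∑ b ∈ S, (B b * (P * B b * Q)).trace =
      ∑ i : Fin k, ∑ j : Fin k, ∑ j' : Fin k, ∑ i' : Fin k,
        (if i = j' ∧ j = i' ∧ (i : ℕ) < q ∧ (j : ℕ) < q then 1 else 0) *
        (P j i' * Q j' i) := by
    rw [Finset.sum_congr rfl fun b _ => h1 b]
    rw [Finset.sum_comm]
    refine Finset.sum_congr rfl fun i _ => ?_
    rw [Finset.sum_comm]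
    refine Finset.sum_congr rfl fun j _ => ?_
    rw [Finset.sum_comm]
    refine Finset.sum_congr rfl fun j' _ => ?_
    rw [Finset.sum_comm]
    refine Finset.sum_congr rfl fun i' _ => ?_
    rw [← Finset.sum_mul, hc]
  rw [h2]
  have h3 : ∀ i j : Fin k, ∑ j', ∑ i', (if i = j' ∧ j = i' ∧ (i : ℕ) < q ∧ (j : ℕ) < q then
      (1 : R) else 0) * (P j i' * Q j' i) =
      ((if (j : ℕ) < q then 1 else 0) * P j j) * ((if (i : ℕ) < q then 1 else 0) * Q i i) := by
    intro i j
    rw [Finset.sum_eq_single i, Finset.sum_eq_single j]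
    · by_cases h : (i : ℕ) < q <;> by_cases h' : (j : ℕ) < q <;> simp [h, h']
    · intro b _ hb
      rw [if_neg, zero_mul]
      rintro ⟨-, h, -⟩
      exact hb h.symm
    · simp
    · intro b _ hb
      refine Finset.sum_eq_zero fun i' _ => ?_
      rw [if_neg, zero_mul]
      rintro ⟨h, -⟩
      exact hb h.symm
    · simp
  simp only [h3]
  rw [Finset.sum_comm]
  simp only [eM, Matrix.trace, Matrix.diag_apply, Matrix.diagonal_mul]
  rw [Finset.sum_mul_sum]

theorem T2 (S : Finset β) (B : β → Matrix (Fin k) (Fin k) R) (q : ℕ)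
    (hc : ∀ i j i' j', ∑ b ∈ S, B b i j * B b i' j' =
      if i = j' ∧ j = i' ∧ (i : ℕ) < q ∧ (j : ℕ) < q then 1 else 0)
    (P Q : Matrix (Fin k) (Fin k) R) :
    ∑ b ∈ S, (B b * P).trace * (B b * Q).trace = (eM R k q * P * eM R k q * Q).trace := by
  have h1 : ∀ b, (B b * P).trace * (B b * Q).trace =
      ∑ i, ∑ j, ∑ j', ∑ i', (B b i j * B b i' j') * (P j i * Q j' i') := by
    intro b
    simp only [Matrix.trace, Matrix.diag_apply, Matrix.mul_apply]
    rw [Finset.sum_mul]
    refine Finset.sum_congr rfl fun i _ => ?_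
    rw [Finset.sum_mul]
    refine Finset.sum_congr rfl fun j _ => ?_
    rw [Finset.mul_sum]
    simp only [Finset.mul_sum]
    rw [Finset.sum_comm]
    refine Finset.sum_congr rfl fun j' _ => Finset.sum_congr rfl fun i' _ => ?_
    ring
  have h2 : ∑ b ∈ S, (B b * P).trace * (B b * Q).trace =
      ∑ i : Fin k, ∑ j : Fin k, ∑ j' : Fin k, ∑ i' : Fin k,
        (if i = j' ∧ j = i' ∧ (i : ℕ) < q ∧ (j : ℕ) < q then 1 else 0) *
        (P j i * Q j' i') := by
    rw [Finset.sum_congr rfl fun b _ => h1 b]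
    rw [Finset.sum_comm]
    refine Finset.sum_congr rfl fun i _ => ?_
    rw [Finset.sum_comm]
    refine Finset.sum_congr rfl fun j _ => ?_
    rw [Finset.sum_comm]
    refine Finset.sum_congr rfl fun j' _ => ?_
    rw [Finset.sum_comm]
    refine Finset.sum_congr rfl fun i' _ => ?_
    rw [← Finset.sum_mul, hc]
  rw [h2]
  have h3 : ∀ i j : Fin k, ∑ j', ∑ i', (if i = j' ∧ j = i' ∧ (i : ℕ) < q ∧ (j : ℕ) < q then
      (1 : R) else 0) * (P j i * Q j' i') =
      ((if (j : ℕ) < q then 1 else 0) * P j i) * (if (i : ℕ) < q then 1 else 0) * Q i j := by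
    intro i j
    rw [Finset.sum_eq_single i, Finset.sum_eq_single j]
    · by_cases h : (i : ℕ) < q <;> by_cases h' : (j : ℕ) < q <;> simp [h, h']
    · intro b _ hb
      rw [if_neg, zero_mul]
      rintro ⟨-, h, -⟩
      exact hb h.symm
    · simp
    · intro b _ hb
      refine Finset.sum_eq_zero fun i' _ => ?_
      rw [if_neg, zero_mul]
      rintro ⟨h, -⟩
      exact hb h.symm
    · simp
  simp only [h3]
  rw [Finset.sum_comm]
  have h4 : (eM R k q * P * eM R k q * Q).trace = ∑ j : Fin k, ∑ i : Fin k,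
      ((if (j : ℕ) < q then 1 else 0) * P j i) * (if (i : ℕ) < q then 1 else 0) * Q i j := by
    rw [Matrix.trace]
    refine Finset.sum_congr rfl fun j _ => ?_
    rw [Matrix.diag_apply, Matrix.mul_apply]
    refine Finset.sum_congr rfl fun i _ => ?_
    rw [eM, Matrix.mul_diagonal, Matrix.diagonal_mul]
  rw [h4]

end trace

section der
variable {R : Type} [CommRing R] [Algebra ℂ R] {k : ℕ} (d : Derivation ℂ R R)

theorem map_mul_der (A B : Matrix (Fin k) (Fin k) R) :
    (A * B).map d = A.map d * B + A * B.map d := by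
  ext i j
  simp only [Matrix.map_apply, Matrix.mul_apply, Matrix.add_apply, map_sum, Derivation.leibniz,
    smul_eq_mul]
  rw [← Finset.sum_add_distrib]
  refine Finset.sum_congr rfl fun l _ => ?_
  ring

theorem der_trace (A : Matrix (Fin k) (Fin k) R) : d A.trace = (A.map d).trace := by
  simp [Matrix.trace, map_sum]

theorem der_word {ι : Type} [DecidableEq ι] (A : ι → Matrix (Fin k) (Fin k) R) (j : ι)
    (Bm : Matrix (Fin k) (Fin k) R) (h : ∀ i, (A i).map d = if i = j then Bm else 0)
    (w : List ι) :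
    ((w.map A).prod).map d =
      ((splits j w).map fun p => (p.1.map A).prod * Bm * (p.2.map A).prod).sum := by
  induction w with
  | nil =>
    simp only [List.map_nil, List.prod_nil, splits, List.sum_nil]
    ext i j
    by_cases hij : i = j <;> simp [hij]
  | cons i w ih =>
    rw [List.map_cons, List.prod_cons, map_mul_der, ih, h i, sum_splits_cons]
    congr 1
    · by_cases hij : i = j <;> simp [hij]
    · rw [← List.sum_map_mul_left]
      congr 1
      refine List.map_congr_left fun p _ => ?_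
      simp [Matrix.mul_assoc]

theorem der_list {ι : Type} (T : ι → R) (ws : List ι) :
    d (ws.map T).prod =
      ∑ l : Fin ws.length, d (T (ws.get l)) * ((ws.eraseIdx l).map T).prod := by
  induction ws with
  | nil => simp
  | cons w ws ih =>
    rw [List.map_cons, List.prod_cons, Derivation.leibniz, ih]
    rw [show (∑ l : Fin (w :: ws).length, d (T ((w :: ws).get l)) *
      (((w :: ws).eraseIdx l).map T).prod) = ∑ l : Fin (ws.length + 1), d (T ((w :: ws).get l)) *
      (((w :: ws).eraseIdx l).map T).prod from rfl, Fin.sum_univ_succ]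
    simp only [smul_eq_mul, List.get_eq_getElem, Fin.val_zero, List.getElem_cons_zero,
      List.eraseIdx_cons_zero, Fin.val_succ, List.getElem_cons_succ, List.eraseIdx_cons_succ,
      List.map_cons, List.prod_cons]
    rw [Finset.mul_sum, add_comm]
    congr 1
    · ring
    · refine Finset.sum_congr rfl fun l _ => ?_
      ring

end der

theorem trace_cyc {R : Type} [CommRing R] {k : ℕ} (P B Q : Matrix (Fin k) (Fin k) R) :
    (P * B * Q).trace = (B * (Q * P)).trace := by
  rw [Matrix.mul_assoc, Matrix.trace_mul_comm, Matrix.mul_assoc]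

theorem sum_list_comm {β γ R : Type} [AddCommMonoid R] (S : Finset β) (L : List γ)
    (f : β → γ → R) : ∑ b ∈ S, (L.map (f b)).sum = (L.map fun c => ∑ b ∈ S, f b c).sum := by
  induction L with
  | nil => simp
  | cons c L ih => simp [Finset.sum_add_distrib, ih]

section main
variable {N ι β : Type} [DecidableEq N] [DecidableEq ι] {k : ℕ}

/-- normalised trace -/
noncomputable def tP (A : Matrix (Fin k) (Fin k) (MvPolynomial N ℂ)) : MvPolynomial N ℂ :=
  MvPolynomial.C ((k : ℂ)⁻¹) * A.trace

/-- normalised trace of a word -/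
noncomputable def TW (A : ι → Matrix (Fin k) (Fin k) (MvPolynomial N ℂ)) (w : List ι) :
    MvPolynomial N ℂ := tP (w.map A).prod

omit [DecidableEq N] in
theorem E_C (E : MvPolynomial N ℂ →ₗ[ℂ] ℂ) (c : ℂ) (f : MvPolynomial N ℂ) :
    E (MvPolynomial.C c * f) = c * E f := by
  rw [← MvPolynomial.smul_eq_C_mul, map_smul, smul_eq_mul]

omit [DecidableEq N] in
theorem E_list {γ : Type} (E : MvPolynomial N ℂ →ₗ[ℂ] ℂ) (L : List γ)
    (f : γ → MvPolynomial N ℂ) : E (L.map f).sum = (L.map fun c => E (f c)).sum := by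
  rw [map_list_sum, List.map_map]; rfl

omit [DecidableEq N] in
/-- the identity before taking expectations -/
theorem key (A : ι → Matrix (Fin k) (Fin k) (MvPolynomial N ℂ)) (j : ι) (S : Finset β)
    (v : β → N) (B : β → Matrix (Fin k) (Fin k) (MvPolynomial N ℂ)) (q : ℕ)
    (hc : ∀ i j i' j', ∑ b ∈ S, B b i j * B b i' j' =
      if i = j' ∧ j = i' ∧ (i : ℕ) < q ∧ (j : ℕ) < q then 1 else 0) (κ : ℂ)
    (hB0 : ∀ b ∈ S, ∀ α, (B b).map (MvPolynomial.pderiv α) = 0)
    (hd : ∀ b ∈ S, ∀ i, (A i).map (MvPolynomial.pderiv (v b)) =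
      if i = j then (MvPolynomial.C κ : MvPolynomial N ℂ) • B b else 0)
    (Q : List ι) (ws : List (List ι)) :
    ∑ b ∈ S, MvPolynomial.pderiv (v b)
        ((B b * (Q.map A).prod).trace * (ws.map (TW A)).prod) =
      MvPolynomial.C κ * ((splits j Q).map fun p =>
        (eM _ k q * (p.1.map A).prod).trace * (eM _ k q * (p.2.map A).prod).trace *
          (ws.map (TW A)).prod).sum +
      MvPolynomial.C (κ * (k : ℂ)⁻¹) * ∑ l : Fin ws.length, ((splits j (ws.get l)).map fun p =>
        (eM _ k q * (Q.map A).prod * eM _ k q * ((p.2.map A).prod * (p.1.map A).prod)).trace *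
          ((ws.eraseIdx l).map (TW A)).prod).sum := by
  have e1 : ∀ b ∈ S, MvPolynomial.pderiv (v b) ((B b * (Q.map A).prod).trace) =
      MvPolynomial.C κ * ((splits j Q).map fun p =>
        (B b * ((p.1.map A).prod * B b * (p.2.map A).prod)).trace).sum := by
    intro b hb
    rw [der_trace, map_mul_der, hB0 b hb, zero_mul, zero_add,
      der_word _ A j _ (hd b hb)]
    rw [← List.sum_map_mul_left, ← List.sum_map_mul_left, Matrix.trace_list_sum, List.map_map]
    refine congrArg List.sum (List.map_congr_left fun p _ => ?_)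
    simp [Matrix.trace_smul]
  have e2 : ∀ b ∈ S, ∀ w : List ι, MvPolynomial.pderiv (v b) (TW A w) =
      MvPolynomial.C (κ * (k : ℂ)⁻¹) * ((splits j w).map fun p =>
        (B b * ((p.2.map A).prod * (p.1.map A).prod)).trace).sum := by
    intro b hb w
    rw [TW, tP, MvPolynomial.pderiv_C_mul, der_trace, der_word _ A j _ (hd b hb),
      Matrix.trace_list_sum, List.map_map,
      ← List.sum_map_mul_left, ← List.sum_map_mul_left]
    refine congrArg List.sum (List.map_congr_left fun p _ => ?_)
    rw [Function.comp_apply, Matrix.mul_smul, Matrix.smul_mul, Matrix.trace_smul,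
      smul_eq_mul, trace_cyc, MvPolynomial.C_mul]
    ring
  have e3 : ∀ b ∈ S, MvPolynomial.pderiv (v b)
        ((B b * (Q.map A).prod).trace * (ws.map (TW A)).prod) =
      MvPolynomial.C κ * ((splits j Q).map fun p =>
        (B b * ((p.1.map A).prod * B b * (p.2.map A).prod)).trace * (ws.map (TW A)).prod).sum +
      MvPolynomial.C (κ * (k : ℂ)⁻¹) * ∑ l : Fin ws.length, ((splits j (ws.get l)).map fun p =>
        (B b * (Q.map A).prod).trace * (B b * ((p.2.map A).prod * (p.1.map A).prod)).trace *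
          ((ws.eraseIdx l).map (TW A)).prod).sum := by
    intro b hb
    rw [Derivation.leibniz, e1 b hb, der_list, smul_eq_mul, smul_eq_mul, add_comm]
    congr 1
    · rw [List.sum_map_mul_right]
      ring
    · rw [Finset.mul_sum, Finset.mul_sum]
      refine Finset.sum_congr rfl fun l _ => ?_
      rw [e2 b hb, List.sum_map_mul_right, List.sum_map_mul_left]
      ring
  rw [Finset.sum_congr rfl e3, Finset.sum_add_distrib, ← Finset.mul_sum, ← Finset.mul_sum,
    sum_list_comm, Finset.sum_comm]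
  congr 2
  · refine congrArg List.sum (List.map_congr_left fun p _ => ?_)
    rw [← Finset.sum_mul, T1 S B q hc]
  · refine Finset.sum_congr rfl fun l _ => ?_
    rw [sum_list_comm]
    refine congrArg List.sum (List.map_congr_left fun p _ => ?_)
    rw [← Finset.sum_mul, T2 S B q hc]

theorem main (hk : (k : ℂ) ≠ 0)
    (E : MvPolynomial N ℂ →ₗ[ℂ] ℂ)
    (hE : ∀ α f, E (MvPolynomial.X α * f) = E (MvPolynomial.pderiv α f))
    (A : ι → Matrix (Fin k) (Fin k) (MvPolynomial N ℂ)) (j : ι) (S : Finset β)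
    (v : β → N) (B : β → Matrix (Fin k) (Fin k) (MvPolynomial N ℂ)) (q : ℕ)
    (hc : ∀ i j i' j', ∑ b ∈ S, B b i j * B b i' j' =
      if i = j' ∧ j = i' ∧ (i : ℕ) < q ∧ (j : ℕ) < q then 1 else 0) (κ : ℂ)
    (hB0 : ∀ b ∈ S, ∀ α, (B b).map (MvPolynomial.pderiv α) = 0)
    (hA : A j = ∑ b ∈ S, (MvPolynomial.C κ * MvPolynomial.X (v b) : MvPolynomial N ℂ) • B b)
    (hd : ∀ b ∈ S, ∀ i, (A i).map (MvPolynomial.pderiv (v b)) =
      if i = j then (MvPolynomial.C κ : MvPolynomial N ℂ) • B b else 0)
    (Q : List ι) (ws : List (List ι)) :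
    E (TW A (j :: Q) * (ws.map (TW A)).prod) =
      κ ^ 2 * k * ((splits j Q).map fun p => E (tP (eM _ k q * (p.1.map A).prod) *
        tP (eM _ k q * (p.2.map A).prod) * (ws.map (TW A)).prod)).sum +
      κ ^ 2 * (k : ℂ)⁻¹ * ∑ l : Fin ws.length, ((splits j (ws.get l)).map fun p =>
        E (tP (eM _ k q * (Q.map A).prod * eM _ k q * ((p.2.map A).prod * (p.1.map A).prod)) *
          ((ws.eraseIdx l).map (TW A)).prod)).sum := by
  have h1 : TW A (j :: Q) * (ws.map (TW A)).prod = MvPolynomial.C (κ * (k : ℂ)⁻¹) *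
      ∑ b ∈ S, MvPolynomial.X (v b) *
        ((B b * (Q.map A).prod).trace * (ws.map (TW A)).prod) := by
    rw [TW, tP, List.map_cons, List.prod_cons, hA, Finset.sum_mul, Matrix.trace_sum,
      Finset.mul_sum, Finset.sum_mul, Finset.mul_sum]
    refine Finset.sum_congr rfl fun b _ => ?_
    rw [Matrix.smul_mul, Matrix.trace_smul, smul_eq_mul, MvPolynomial.C_mul]
    ring
  rw [h1, E_C, map_sum]
  simp only [hE]
  rw [← map_sum, key A j S v B q hc κ hB0 hd Q ws, map_add, E_C, E_C, E_list, map_sum, mul_add]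
  congr 1
  · rw [← mul_assoc, ← List.sum_map_mul_left, ← List.sum_map_mul_left]
    refine congrArg List.sum (List.map_congr_left fun p _ => ?_)
    rw [show tP (eM _ k q * (p.1.map A).prod) * tP (eM _ k q * (p.2.map A).prod) *
      (ws.map (TW A)).prod = MvPolynomial.C ((k : ℂ)⁻¹ * (k : ℂ)⁻¹) *
        ((eM _ k q * (p.1.map A).prod).trace * (eM _ k q * (p.2.map A).prod).trace *
          (ws.map (TW A)).prod) by rw [tP, tP, MvPolynomial.C_mul]; ring, E_C]
    field_simp
  · rw [← mul_assoc, Finset.mul_sum, Finset.mul_sum]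
    refine Finset.sum_congr rfl fun l _ => ?_
    rw [E_list, ← List.sum_map_mul_left, ← List.sum_map_mul_left]
    refine congrArg List.sum (List.map_congr_left fun p _ => ?_)
    rw [tP, mul_assoc (MvPolynomial.C _), E_C]
    field_simp

end main

end MatSysAux

end Vale.Agent.P087
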