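import Vale.Agent.P087.Defs2

/-!
# [G1] The concrete Fock model (P087)
-/

namespace Vale.Agent.P087

open scoped InnerProductSpace ENNReal

namespace GModel

/-- `ℓ²(I)` -/
noncomputable abbrev Lt (I : Type) := lp (fun _ : I => ℂ) 2

/-- the standard Hilbert basis -/
noncomputable def bas (I : Type) : HilbertBasis I ℂ (Lt I) :=
  HilbertBasis.ofRepr (LinearIsometryEquiv.refl ℂ (Lt I))

section gen
variable {I J : Type} {E F : Type} [NormedAddCommGroup E] [InnerProductSpace ℂ E] [CompleteSpace E]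
  [NormedAddCommGroup F] [InnerProductSpace ℂ F] [CompleteSpace F]

theorem bas_inner [DecidableEq I] (i j : I) : ⟪bas I i, bas I j⟫_ℂ = if i = j then 1 else 0 :=
  orthonormal_iff_ite.1 (bas I).orthonormal i j

/-- the isometry determined by an orthonormal family -/
noncomputable def iso (v : I → E) (hv : Orthonormal ℂ v) : Lt I →L[ℂ] E :=
  hv.orthogonalFamily.linearIsometry.toContinuousLinearMap

theorem iso_bas (v : I → E) (hv : Orthonormal ℂ v) (i : I) : iso v hv (bas I i) = v i := by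
  classical
  have h : bas I i = lp.single 2 i (1 : ℂ) := by
    have := (bas I).repr_self i
    exact this
  rw [h]
  change hv.orthogonalFamily.linearIsometry (lp.single 2 i (1 : ℂ)) = v i
  rw [OrthogonalFamily.linearIsometry_apply_single]
  simp

theorem iso_norm (v : I → E) (hv : Orthonormal ℂ v) (x : Lt I) : ‖iso v hv x‖ = ‖x‖ :=
  hv.orthogonalFamily.linearIsometry.norm_map x

theorem iso_norm_le (v : I → E) (hv : Orthonormal ℂ v) : ‖iso v hv‖ ≤ 1 :=
  ContinuousLinearMap.opNorm_le_bound _ zero_le_one fun x => by rw [iso_norm, one_mul]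

theorem iso_inner (v : I → E) (hv : Orthonormal ℂ v) (x y : Lt I) :
    ⟪iso v hv x, iso v hv y⟫_ℂ = ⟪x, y⟫_ℂ :=
  hv.orthogonalFamily.linearIsometry.inner_map_map x y

omit [CompleteSpace E] in
/-- two operators agreeing on the basis are equal -/
theorem ext_bas {A B : Lt I →L[ℂ] E} (h : ∀ i, A (bas I i) = B (bas I i)) : A = B := by
  apply ContinuousLinearMap.ext_on (s := Set.range (bas I))
  · exact (Submodule.dense_iff_topologicalClosure_eq_top).2 (bas I).dense_span
  · rintro _ ⟨i, rfl⟩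
    exact h i

theorem ext_inner_bas {y z : Lt I} (h : ∀ i, ⟪bas I i, y⟫_ℂ = ⟪bas I i, z⟫_ℂ) : y = z := by
  apply (bas I).repr.injective
  ext i
  rw [(bas I).repr_apply_apply, (bas I).repr_apply_apply, h i]

theorem star_iso_eq (v : I → E) (hv : Orthonormal ℂ v) (y : E) (z : Lt I)
    (h : ∀ i, ⟪v i, y⟫_ℂ = ⟪bas I i, z⟫_ℂ) : ContinuousLinearMap.adjoint (iso v hv) y = z := by
  apply ext_inner_bas
  intro i
  rw [ContinuousLinearMap.adjoint_inner_right, iso_bas, h i]

theorem star_iso_self (v : I → E) (hv : Orthonormal ℂ v) (x : Lt I) :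
    ContinuousLinearMap.adjoint (iso v hv) (iso v hv x) = x := by
  apply ext_inner_bas
  intro i
  rw [ContinuousLinearMap.adjoint_inner_right, iso_inner]

end gen

/-! ### corner operators on `ℓ²(Option (List (Fin a)) × ρ)` -/
section corner
variable (a : ℕ) (ρ : Type)

/-- the basis index of the amplified corner space -/
abbrev Idx := Option (List (Fin a)) × ρ

variable {a ρ}

theorem orth_comp {I J : Type} (f : J → I) (hf : Function.Injective f) :
    Orthonormal ℂ (fun j => bas I (f j)) := (bas I).orthonormal.comp f hf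

theorem g_inj : Function.Injective
    (fun p : List (Fin a) × ρ => ((some p.1, p.2) : Idx a ρ)) := by
  rintro ⟨u, r⟩ ⟨u', r'⟩ h
  simp at h
  simp [h.1, h.2]

theorem f_inj (i : Fin a) : Function.Injective
    (fun p : List (Fin a) × ρ => ((some (i :: p.1), p.2) : Idx a ρ)) := by
  rintro ⟨u, r⟩ ⟨u', r'⟩ h
  simp at h
  simp [h.1, h.2]

variable (a ρ)

/-- inclusion of the corner -/
noncomputable def G : Lt (List (Fin a) × ρ) →L[ℂ] Lt (Idx a ρ) :=
  iso (fun p => bas (Idx a ρ) (some p.1, p.2)) (orth_comp _ g_inj)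

/-- shifted inclusion of the corner -/
noncomputable def Fi (i : Fin a) : Lt (List (Fin a) × ρ) →L[ℂ] Lt (Idx a ρ) :=
  iso (fun p => bas (Idx a ρ) (some (i :: p.1), p.2)) (orth_comp _ (f_inj i))

/-- the projection `e` -/
noncomputable def ee : Lt (Idx a ρ) →L[ℂ] Lt (Idx a ρ) :=
  G a ρ ∘L ContinuousLinearMap.adjoint (G a ρ)

/-- the creation operators of the corner -/
noncomputable def Lo (i : Fin a) : Lt (Idx a ρ) →L[ℂ] Lt (Idx a ρ) :=
  Fi a ρ i ∘L ContinuousLinearMap.adjoint (G a ρ)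

variable {a ρ}

theorem adj_G_some (u : List (Fin a)) (r : ρ) :
    ContinuousLinearMap.adjoint (G a ρ) (bas (Idx a ρ) (some u, r)) =
      bas (List (Fin a) × ρ) (u, r) := by
  classical
  apply star_iso_eq
  rintro ⟨u', r'⟩
  rw [bas_inner, bas_inner]
  simp

theorem adj_G_none (r : ρ) :
    ContinuousLinearMap.adjoint (G a ρ) (bas (Idx a ρ) (none, r)) = 0 := by
  classical
  apply star_iso_eq
  rintro ⟨u', r'⟩
  rw [bas_inner]
  simp

theorem adj_F_cons (i j : Fin a) (u : List (Fin a)) (r : ρ) :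
    ContinuousLinearMap.adjoint (Fi a ρ i) (bas (Idx a ρ) (some (j :: u), r)) =
      if i = j then bas (List (Fin a) × ρ) (u, r) else 0 := by
  classical
  apply star_iso_eq
  rintro ⟨u', r'⟩
  rw [bas_inner]
  by_cases h : i = j
  · rw [if_pos h, bas_inner]; simp [h]
  · simp [h]

theorem adj_F_nil (i : Fin a) (r : ρ) :
    ContinuousLinearMap.adjoint (Fi a ρ i) (bas (Idx a ρ) (some [], r)) = 0 := by
  classical
  apply star_iso_eq
  rintro ⟨u', r'⟩
  rw [bas_inner]
  simp

theorem adj_F_none (i : Fin a) (r : ρ) :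
    ContinuousLinearMap.adjoint (Fi a ρ i) (bas (Idx a ρ) (none, r)) = 0 := by
  classical
  apply star_iso_eq
  rintro ⟨u', r'⟩
  rw [bas_inner]
  simp

theorem G_bas (u : List (Fin a)) (r : ρ) :
    G a ρ (bas _ (u, r)) = bas (Idx a ρ) (some u, r) := iso_bas _ _ _

theorem F_bas (i : Fin a) (u : List (Fin a)) (r : ρ) :
    Fi a ρ i (bas _ (u, r)) = bas (Idx a ρ) (some (i :: u), r) := iso_bas _ _ _

theorem ee_some (u : List (Fin a)) (r : ρ) :
    ee a ρ (bas (Idx a ρ) (some u, r)) = bas (Idx a ρ) (some u, r) := by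
  rw [ee, ContinuousLinearMap.comp_apply, adj_G_some, G_bas]

theorem ee_none (r : ρ) : ee a ρ (bas (Idx a ρ) (none, r)) = 0 := by
  rw [ee, ContinuousLinearMap.comp_apply, adj_G_none, map_zero]

theorem Lo_some (i : Fin a) (u : List (Fin a)) (r : ρ) :
    Lo a ρ i (bas (Idx a ρ) (some u, r)) = bas (Idx a ρ) (some (i :: u), r) := by
  rw [Lo, ContinuousLinearMap.comp_apply, adj_G_some, F_bas]

theorem Lo_none (i : Fin a) (r : ρ) : Lo a ρ i (bas (Idx a ρ) (none, r)) = 0 := by
  rw [Lo, ContinuousLinearMap.comp_apply, adj_G_none, map_zero]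

theorem star_Lo (i : Fin a) :
    star (Lo a ρ i) = G a ρ ∘L ContinuousLinearMap.adjoint (Fi a ρ i) := by
  rw [ContinuousLinearMap.star_eq_adjoint, Lo, ContinuousLinearMap.adjoint_comp,
    ContinuousLinearMap.adjoint_adjoint]

theorem sLo_cons (i j : Fin a) (u : List (Fin a)) (r : ρ) :
    star (Lo a ρ i) (bas (Idx a ρ) (some (j :: u), r)) =
      if i = j then bas (Idx a ρ) (some u, r) else 0 := by
  rw [star_Lo, ContinuousLinearMap.comp_apply, adj_F_cons]
  split_ifs
  · rw [G_bas]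
  · rw [map_zero]

theorem sLo_nil (i : Fin a) (r : ρ) : star (Lo a ρ i) (bas (Idx a ρ) (some [], r)) = 0 := by
  rw [star_Lo, ContinuousLinearMap.comp_apply, adj_F_nil, map_zero]

theorem sLo_none (i : Fin a) (r : ρ) : star (Lo a ρ i) (bas (Idx a ρ) (none, r)) = 0 := by
  rw [star_Lo, ContinuousLinearMap.comp_apply, adj_F_none, map_zero]

theorem star_ee : star (ee a ρ) = ee a ρ := by
  rw [ContinuousLinearMap.star_eq_adjoint, ee, ContinuousLinearMap.adjoint_comp,
    ContinuousLinearMap.adjoint_adjoint]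

theorem ee_mul_ee : ee a ρ * ee a ρ = ee a ρ := by
  apply ext_bas
  rintro ⟨_ | u, r⟩
  · simp [ee_none]
  · simp [ee_some]

theorem ee_mul_Lo (i : Fin a) : ee a ρ * Lo a ρ i = Lo a ρ i := by
  apply ext_bas
  rintro ⟨_ | u, r⟩
  · simp [Lo_none]
  · simp [Lo_some, ee_some]

theorem sLo_mul_Lo (i j : Fin a) :
    star (Lo a ρ i) * Lo a ρ j = if i = j then ee a ρ else 0 := by
  apply ext_bas
  rintro ⟨_ | u, r⟩
  · by_cases h : i = j <;> simp [Lo_none, h, ee_none]
  · by_cases h : i = j <;> simp [Lo_some, h, ee_some, sLo_cons]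

/-- the variables `x_0 = e`, `x_{i+1} = L_i + L_i†` -/
noncomputable def xx (a : ℕ) (ρ : Type) : Fin (a + 1) → Lt (Idx a ρ) →L[ℂ] Lt (Idx a ρ) :=
  Fin.cases (ee a ρ) fun i => Lo a ρ i + star (Lo a ρ i)

theorem xx_zero : xx a ρ 0 = ee a ρ := rfl
theorem xx_succ (i : Fin a) : xx a ρ i.succ = Lo a ρ i + star (Lo a ρ i) := rfl

theorem xx_sa (j : Fin (a + 1)) : IsSelfAdjoint (xx a ρ j) := by
  refine Fin.cases ?_ (fun i => ?_) j
  · exact star_ee
  · rw [xx_succ]; exact IsSelfAdjoint.add_star_self _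

theorem ee_mul_xx (i : Fin a) : ee a ρ * xx a ρ i.succ = xx a ρ i.succ := by
  have h2 : ee a ρ * star (Lo a ρ i) = star (Lo a ρ i) := by
    apply ext_bas
    rintro ⟨_ | _ | ⟨j, u⟩, r⟩
    · simp [sLo_none]
    · simp [sLo_nil]
    · by_cases h : i = j <;> simp [sLo_cons, h, ee_some]
  rw [xx_succ, mul_add, ee_mul_Lo, h2]

theorem norm_Lo (i : Fin a) : ‖Lo a ρ i‖ ≤ 1 := by
  rw [Lo]
  refine (ContinuousLinearMap.opNorm_comp_le _ _).trans ?_
  rw [LinearIsometryEquiv.norm_map]
  exact mul_le_one₀ (iso_norm_le _ _) (norm_nonneg _) (iso_norm_le _ _)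

theorem norm_xx (i : Fin a) : ‖xx a ρ i.succ‖ ≤ 2 := by
  rw [xx_succ]
  refine (norm_add_le _ _).trans ?_
  rw [ContinuousLinearMap.star_eq_adjoint, LinearIsometryEquiv.norm_map]
  linarith [norm_Lo (ρ := ρ) i]

theorem sa_inner {E : Type} [NormedAddCommGroup E] [InnerProductSpace ℂ E] [CompleteSpace E]
    {A : E →L[ℂ] E} (hA : IsSelfAdjoint A) (x y : E) : ⟪x, A y⟫_ℂ = ⟪A x, y⟫_ℂ :=
  (ContinuousLinearMap.isSelfAdjoint_iff_isSymmetric.1 hA x y).symm

theorem xx_none (j : Fin (a + 1)) (r : ρ) : xx a ρ j (bas (Idx a ρ) (none, r)) = 0 := by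
  refine Fin.cases ?_ (fun i => ?_) j
  · rw [xx_zero, ee_none]
  · rw [xx_succ, add_apply, Lo_none, sLo_none, add_zero]

theorem word_none (w : List (Fin (a + 1))) (hw : w ≠ []) (r : ρ) :
    (w.map (xx a ρ)).prod (bas (Idx a ρ) (none, r)) = 0 := by
  induction w with
  | nil => exact absurd rfl hw
  | cons j w ih =>
    rw [List.map_cons, List.prod_cons, mul_apply_eq_comp]
    by_cases h : w = []
    · subst h; simp [xx_none]
    · rw [ih h, map_zero]

/-- coefficients of words applied to the corner vacuum -/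
theorem coeff (v : List (Fin (a + 1))) (r : ρ) (u : List (Fin a)) :
    ⟪bas (Idx a ρ) (some u, r), (v.map (xx a ρ)).prod (bas (Idx a ρ) (some [], r))⟫_ℂ =
      ((vac v u : ℝ) : ℂ) := by
  classical
  induction v generalizing u with
  | nil =>
    simp only [List.map_nil, List.prod_nil, one_apply_eq_self, vac]
    rw [bas_inner]
    by_cases h : u = [] <;> simp [h]
  | cons j v ih =>
    rw [List.map_cons, List.prod_cons, mul_apply_eq_comp]
    rw [sa_inner (xx_sa (ρ := ρ) j)]
    refine Fin.cases ?_ (fun i => ?_) j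
    · rw [xx_zero, ee_some, ih]; rfl
    · rw [xx_succ, ContinuousLinearMap.add_apply, Lo_some, inner_add_left, ih]
      cases u with
      | nil => 
        rw [sLo_nil, inner_zero_left]
        simp [vac]
      | cons i' u' =>
        rw [sLo_cons]
        by_cases h : i = i'
        · simp [vac, h, ih]
        · have h' : ¬ i' = i := fun e => h e.symm
          simp [vac, h, h']

/-- the amplification embedding `k ↦ k ⊗ R` -/
noncomputable def T (R : ρ) : Lt (Idx a Unit) →L[ℂ] Lt (Idx a ρ) :=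
  iso (fun p => bas (Idx a ρ) (p.1, R)) (orth_comp (fun p : Idx a Unit => ((p.1, R) : Idx a ρ)) (by
    rintro ⟨u, r⟩ ⟨u', r'⟩ h
    simp at h
    simp [h]))

theorem T_bas (R : ρ) (k : Option (List (Fin a))) :
    T R (bas (Idx a Unit) (k, ())) = bas (Idx a ρ) (k, R) := iso_bas _ _ _

theorem xx_T (R : ρ) (j : Fin (a + 1)) : xx a ρ j ∘L T R = T R ∘L xx a Unit j := by
  apply ext_bas
  rintro ⟨k, ⟨⟩⟩
  rw [ContinuousLinearMap.comp_apply, ContinuousLinearMap.comp_apply, T_bas]
  refine Fin.cases ?_ (fun i => ?_) j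
  · rw [xx_zero, xx_zero]
    cases k with
    | none => rw [ee_none, ee_none, map_zero]
    | some u => rw [ee_some, ee_some, T_bas]
  · rw [xx_succ, xx_succ, add_apply, add_apply, map_add]
    rcases k with _ | _ | ⟨i', u⟩
    · rw [Lo_none, sLo_none, Lo_none, sLo_none, map_zero]
    · rw [Lo_some, sLo_nil, Lo_some, sLo_nil, map_zero, T_bas]
    · rw [Lo_some, sLo_cons, Lo_some, sLo_cons, T_bas]
      split_ifs
      · rw [T_bas]
      · rw [map_zero]

theorem word_T (R : ρ) (w : List (Fin (a + 1))) (φ : Lt (Idx a Unit)) :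
    (w.map (xx a ρ)).prod (T R φ) = T R ((w.map (xx a Unit)).prod φ) := by
  induction w with
  | nil => simp
  | cons j w ih =>
    rw [List.map_cons, List.prod_cons, mul_apply_eq_comp, ih, List.map_cons, List.prod_cons,
      mul_apply_eq_comp]
    exact congrArg (fun A => A ((w.map (xx a Unit)).prod φ)) (xx_T R j)

theorem T_inner_ne {R R' : ρ} (h : R ≠ R') (φ ψ : Lt (Idx a Unit)) : ⟪T R φ, T R' ψ⟫_ℂ = 0 := by
  classical
  have h0 : ContinuousLinearMap.adjoint (T R) ∘L T R' = (0 : Lt (Idx a Unit) →L[ℂ] Lt (Idx a Unit)) := by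
    apply ext_bas
    rintro ⟨k, ⟨⟩⟩
    rw [ContinuousLinearMap.comp_apply, T_bas]
    apply star_iso_eq
    rintro ⟨k', ⟨⟩⟩
    rw [bas_inner]
    simp [h]
  rw [← ContinuousLinearMap.adjoint_inner_right]
  have := congrArg (fun A => A ψ) h0
  simp only [ContinuousLinearMap.comp_apply] at this
  rw [this]; simp

theorem T_inner [DecidableEq ρ] (R R' : ρ) (φ ψ : Lt (Idx a Unit)) :
    ⟪T R φ, T R' ψ⟫_ℂ = if R = R' then ⟪φ, ψ⟫_ℂ else 0 := by
  split_ifs with h
  · subst h; exact iso_inner _ _ _ _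
  · exact T_inner_ne h _ _

end corner

/-! ### the full model -/
section full
variable (a : ℕ) (C : Type)

/-- tails of basis words -/
abbrev Rt := List (C × Option (List (Fin a)))

/-- the vacuum of the corner space -/
noncomputable def om : Lt (Idx a Unit) :=
  ((√(1 - 1 / (a : ℝ)) : ℝ) : ℂ) • bas (Idx a Unit) (none, ()) +
    ((√(1 / (a : ℝ)) : ℝ) : ℂ) • bas (Idx a Unit) (some [], ())

variable {a C}

theorem om_om (ha : 2 ≤ a) : ⟪om a, om a⟫_ℂ = 1 := by
  have h1 : (0 : ℝ) ≤ 1 - 1 / (a : ℝ) := by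
    have : (1 : ℝ) ≤ a := by exact_mod_cast (by omega : 1 ≤ a)
    rw [sub_nonneg, div_le_one (by linarith)]
    exact this
  have h2 : (0 : ℝ) ≤ 1 / (a : ℝ) := by positivity
  have e1 : ((√(1 - 1 / (a : ℝ)) : ℝ) : ℂ) * ((√(1 - 1 / (a : ℝ)) : ℝ) : ℂ) =
      ((1 - 1 / (a : ℝ) : ℝ) : ℂ) := by
    rw [← Complex.ofReal_mul, Real.mul_self_sqrt h1]
  have e2 : ((√(1 / (a : ℝ)) : ℝ) : ℂ) * ((√(1 / (a : ℝ)) : ℝ) : ℂ) =
      ((1 / (a : ℝ) : ℝ) : ℂ) := by
    rw [← Complex.ofReal_mul, Real.mul_self_sqrt h2]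
  unfold om
  simp only [inner_add_left, inner_add_right, inner_smul_left, inner_smul_right, bas_inner,
    Complex.conj_ofReal]
  simp only [Prod.mk.injEq, reduceCtorEq, and_true, if_true, if_false, mul_one, mul_zero, add_zero,
    zero_add, false_and]
  rw [e1, e2, ← Complex.ofReal_add]
  simp

theorem om_orth (ha : 2 ≤ a) (c : C) : Orthonormal ℂ
    (fun p : Idx a (Rt a C) => T (a := a) (ρ := Rt a C) ((c, p.1) :: p.2) (om a)) := by
  classical
  rw [orthonormal_iff_ite]
  rintro ⟨k, R⟩ ⟨k', R'⟩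
  rw [T_inner, om_om ha]
  simp [Prod.ext_iff]

/-- the creation operators -/
noncomputable def ll (ha : 2 ≤ a) (c : C) :
    Lt (Idx a (Rt a C)) →L[ℂ] Lt (Idx a (Rt a C)) := iso _ (om_orth ha c)

/-- the vacuum -/
noncomputable def Om (a : ℕ) (C : Type) : Lt (Idx a (Rt a C)) := T [] (om a)

theorem ll_bas (ha : 2 ≤ a) (c : C) (k : Option (List (Fin a))) (R : Rt a C) :
    ll ha c (bas (Idx a (Rt a C)) (k, R)) = T ((c, k) :: R) (om a) := iso_bas _ _ _

theorem sll_cons [DecidableEq C] (ha : 2 ≤ a) (c d : C) (k : Option (List (Fin a))) (R : Rt a C)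
    (φ : Lt (Idx a Unit)) :
    star (ll ha c) (T ((d, k) :: R) φ) =
      if c = d then ⟪om a, φ⟫_ℂ • bas (Idx a (Rt a C)) (k, R) else 0 := by
  classical
  rw [ContinuousLinearMap.star_eq_adjoint]
  apply star_iso_eq
  rintro ⟨k', R'⟩
  rw [T_inner]
  by_cases h : c = d
  · subst h
    rw [if_pos rfl, inner_smul_right, bas_inner]
    simp [Prod.ext_iff]
  · simp [h]

theorem sll_nil (ha : 2 ≤ a) (c : C) (φ : Lt (Idx a Unit)) :
    star (ll ha c) (T ([] : Rt a C) φ) = 0 := by
  classical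
  rw [ContinuousLinearMap.star_eq_adjoint]
  apply star_iso_eq
  rintro ⟨k', R'⟩
  rw [T_inner]
  simp

theorem moment_Om (u : List (Fin (a + 1))) :
    moment (Om a C) (xx a (Rt a C)) u = ⟪om a, (u.map (xx a Unit)).prod (om a)⟫_ℂ := by
  classical
  rw [moment, Om, word_T, T_inner, if_pos rfl]

theorem fockRel [DecidableEq C] (ha : 2 ≤ a) : FockRel (Om a C) (xx a (Rt a C)) (ll ha) where
  norm_Ω := by
    classical
    have h : ⟪Om a C, Om a C⟫_ℂ = 1 := by rw [Om, T_inner, if_pos rfl, om_om ha]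
    rw [@norm_eq_sqrt_re_inner ℂ, h]
    simp
  sa := xx_sa
  rel := by
    intro c d u
    apply ext_bas
    rintro ⟨k, R⟩
    rw [mul_apply_eq_comp, mul_apply_eq_comp, ll_bas, word_T, sll_cons, moment_Om]
    split_ifs <;> rfl
  vac := by
    intro c u
    rw [Om, word_T, sll_nil]

theorem moment_xx (ha : 2 ≤ a) (v : List (Fin (a + 1))) (hv : v ≠ []) :
    moment (Om a C) (xx a (Rt a C)) v = ((1 / (a : ℝ) * vac v [] : ℝ) : ℂ) := by
  classical
  have h2 : (0 : ℝ) ≤ 1 / (a : ℝ) := by positivity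
  have e2 : ((√(1 / (a : ℝ)) : ℝ) : ℂ) * ((√(1 / (a : ℝ)) : ℝ) : ℂ) =
      ((1 / (a : ℝ) : ℝ) : ℂ) := by
    rw [← Complex.ofReal_mul, Real.mul_self_sqrt h2]
  rw [moment_Om, om, map_add, map_smul, map_smul, word_none v hv, smul_zero, zero_add,
    inner_smul_right, inner_add_left, inner_smul_left, inner_smul_left, coeff]
  have h0 : ⟪bas (Idx a Unit) (none, ()), (v.map (xx a Unit)).prod
      (bas (Idx a Unit) (some [], ()))⟫_ℂ = 0 := by
    cases v with
    | nil => exact absurd rfl hv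
    | cons j v =>
      rw [List.map_cons, List.prod_cons, mul_apply_eq_comp, sa_inner (xx_sa j), xx_none,
        inner_zero_left]
  rw [h0, mul_zero, zero_add, Complex.conj_ofReal, ← mul_assoc, e2]
  simp

theorem sLo_T (R : Rt a C) (i : Fin a) : star (Lo a (Rt a C) i) (T R (om a)) = 0 := by
  rw [om, map_add, map_smul, map_smul, T_bas, T_bas, map_add, map_smul, map_smul, sLo_none,
    sLo_nil, smul_zero, smul_zero, add_zero]

theorem sLo_Om (i : Fin a) : star (Lo a (Rt a C) i) (Om a C) = 0 := sLo_T _ _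

theorem sLo_ll (ha : 2 ≤ a) (i : Fin a) (c : C) : star (Lo a (Rt a C) i) * ll ha c = 0 := by
  apply ext_bas
  rintro ⟨k, R⟩
  rw [mul_apply_eq_comp, ll_bas, sLo_T]
  rfl

/-- cyclicity, for any closed subspace stable under the letters -/
theorem cyclic (ha : 2 ≤ a) (S : Submodule ℂ (Lt (Idx a (Rt a C))))
    (hcl : IsClosed (S : Set (Lt (Idx a (Rt a C))))) (hΩ : Om a C ∈ S)
    (hx : ∀ j, ∀ ψ ∈ S, xx a (Rt a C) j ψ ∈ S)
    (hl : ∀ c, ∀ ψ ∈ S, (ll ha c + star (ll ha c)) ψ ∈ S) : S = ⊤ := by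
  classical
  have hA : (2 : ℝ) ≤ a := by exact_mod_cast ha
  have hs : ((√(1 / (a : ℝ)) : ℝ) : ℂ) ≠ 0 := by
    rw [Complex.ofReal_ne_zero]
    exact (Real.sqrt_pos.2 (by positivity)).ne'
  have hc : ((√(1 - 1 / (a : ℝ)) : ℝ) : ℂ) ≠ 0 := by
    rw [Complex.ofReal_ne_zero]
    refine (Real.sqrt_pos.2 ?_).ne'
    rw [sub_pos, div_lt_one (by linarith)]
    linarith
  have stepA : ∀ R : Rt a C, T R (om a) ∈ S → ∀ k, bas (Idx a (Rt a C)) (k, R) ∈ S := by
    intro R hR
    have e0 : T R (om a) = ((√(1 - 1 / (a : ℝ)) : ℝ) : ℂ) • bas (Idx a (Rt a C)) (none, R) +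
        ((√(1 / (a : ℝ)) : ℝ) : ℂ) • bas (Idx a (Rt a C)) (some [], R) := by
      rw [om, map_add, map_smul, map_smul, T_bas, T_bas]
    have h1 : bas (Idx a (Rt a C)) (some [], R) ∈ S := by
      have := hx 0 _ hR
      rw [e0, xx_zero, map_add, map_smul, map_smul, ee_none, ee_some, smul_zero, zero_add] at this
      exact (S.smul_mem_iff hs).1 this
    have h2 : bas (Idx a (Rt a C)) (none, R) ∈ S := by
      rw [e0] at hR
      have := (S.add_mem_iff_left (S.smul_mem _ h1)).1 hR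
      exact (S.smul_mem_iff hc).1 this
    have h3 : ∀ u : List (Fin a), bas (Idx a (Rt a C)) (some u, R) ∈ S ∧
        bas (Idx a (Rt a C)) (some u.tail, R) ∈ S := by
      intro u
      induction u with
      | nil => exact ⟨h1, h1⟩
      | cons i u ih =>
        refine ⟨?_, ih.1⟩
        have h4 := hx i.succ _ ih.1
        rw [xx_succ, add_apply, Lo_some] at h4
        have h5 : star (Lo a (Rt a C) i) (bas (Idx a (Rt a C)) (some u, R)) ∈ S := by
          cases u with
          | nil => rw [sLo_nil]; exact S.zero_mem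
          | cons i' u =>
            rw [sLo_cons]
            split_ifs
            · exact ih.2
            · exact S.zero_mem
        exact (S.add_mem_iff_left h5).1 h4
    intro k
    cases k with
    | none => exact h2
    | some u => exact (h3 u).1
  have stepB : ∀ R : Rt a C, (∀ k, bas (Idx a (Rt a C)) (k, R) ∈ S) ∧
      (∀ k, bas (Idx a (Rt a C)) (k, R.tail) ∈ S) := by
    intro R
    induction R with
    | nil => exact ⟨stepA _ hΩ, stepA _ hΩ⟩
    | cons p R ih =>
      obtain ⟨c, k⟩ := p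
      refine ⟨stepA _ ?_, ih.1⟩
      have h4 := hl c _ (ih.1 k)
      rw [add_apply, ll_bas] at h4
      have h5 : star (ll ha c) (bas (Idx a (Rt a C)) (k, R)) ∈ S := by
        cases R with
        | nil => rw [← T_bas, sll_nil]; exact S.zero_mem
        | cons q R =>
          obtain ⟨d, k'⟩ := q
          rw [← T_bas, sll_cons]
          split_ifs
          · exact S.smul_mem _ (ih.2 _)
          · exact S.zero_mem
      exact (S.add_mem_iff_left h5).1 h4
  rw [eq_top_iff, ← (bas (Idx a (Rt a C))).dense_span]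
  apply Submodule.topologicalClosure_minimal _ _ hcl
  rw [Submodule.span_le]
  rintro _ ⟨⟨k, R⟩, rfl⟩
  exact (stepB R).1 k

end full

end GModel

end Vale.Agent.P087
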