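import Vale.Agent.P087.Defs2

/-! Skeleton of the proof (P087). NOT to be imported by final files. -/

namespace Vale.Agent.P087

open scoped InnerProductSpace ENNReal Topology
open MeasureTheory Filter ProbabilityTheory

variable {H : Type} [NormedAddCommGroup H] [InnerProductSpace ℂ H]

/-! ### [A] Splits.lean : combinatorics of `splits` -/
section A
variable {ι : Type} [DecidableEq ι]

/-- characterisation -/
theorem mem_splits {j : ι} {w : List ι} {p : List ι × List ι} :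
    p ∈ splits j w ↔ w = p.1 ++ j :: p.2 := sorry

theorem splits_append (j : ι) (u v : List ι) :
    (splits j (u ++ v)).Perm ((splits j u).map (fun p => (p.1, p.2 ++ v)) ++
      (splits j v).map (fun p => (u ++ p.1, p.2))) := sorry

/-- `w = p' ++ i :: q' ++ j :: q''` in two ways -/
theorem splits_assoc {β : Type} [AddCommMonoid β] (i j : ι) (w : List ι)
    (F : List ι → List ι → List ι → β) :
    ((splits i w).map fun p => ((splits j p.2).map fun q => F p.1 q.1 q.2).sum).sum =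
    ((splits j w).map fun p => ((splits i p.1).map fun q => F q.1 q.2 p.2).sum).sum := sorry

theorem splits_reverse (j : ι) (w : List ι) :
    (splits j w.reverse).Perm ((splits j w).map fun p => (p.2.reverse, p.1.reverse)) := sorry

theorem splits_eq_nil {j : ι} {w : List ι} (h : j ∉ w) : splits j w = [] := sorry

theorem expd_eval {n : ℕ} {C : Type} (b : Fin n → ℝ) (f : Fin n → C) {A : Type} [Ring A]
    [Algebra ℂ A] (y : Fin n ⊕ C → A) (w : List (Fin n)) :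
    (w.map fun j => y (.inl j) + ((b j : ℝ) : ℂ) • y (.inr (f j))).prod =
      ((expd b f w).map fun p => ((p.1 : ℝ) : ℂ) • (p.2.map y).prod).sum := sorry

theorem moment_expd {n : ℕ} {C : Type} (b : Fin n → ℝ) (f : Fin n → C) (Ω : H)
    (y : Fin n ⊕ C → H →L[ℂ] H) (w : List (Fin n)) :
    moment Ω (fun j => y (.inl j) + ((b j : ℝ) : ℂ) • y (.inr (f j))) w =
      ((expd b f w).map fun p => ((p.1 : ℝ) : ℂ) * moment Ω y p.2).sum := sorry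
end A

/-! ### [B] FockAbs.lean : abstract Fock relations -/
section B
variable [CompleteSpace H] {ι C : Type} [DecidableEq ι] [DecidableEq C]

/-- letters `x_i` and `s_c = l_c + l_c†` -/
noncomputable def lett (x : ι → H →L[ℂ] H) (l : C → H →L[ℂ] H) : ι ⊕ C → H →L[ℂ] H :=
  Sum.elim x fun c => l c + star (l c)

/-- general D-formula, for a vacuum-like vector `ψ` -/
theorem FockRel.D_gen {Ω : H} {x : ι → H →L[ℂ] H} {l : C → H →L[ℂ] H} (h : FockRel Ω x l)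
    (ψ : H) (η : C → H) (hψ : ∀ c (u : List ι), star (l c) ((u.map x).prod ψ) = moment Ω x u • η c)
    (w : List (ι ⊕ C)) (hw : ∀ c, .inr c ∈ w → η c = 0) (c : C) :
    star (l c) ((w.map (lett x l)).prod ψ) =
      ((splits (.inr c) w).map fun p => moment Ω (lett x l) p.1 • ((p.2.map (lett x l)).prod ψ)).sum
        + moment Ω (lett x l) w • η c := sorry

theorem FockRel.D {Ω : H} {x : ι → H →L[ℂ] H} {l : C → H →L[ℂ] H} (h : FockRel Ω x l)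
    (w : List (ι ⊕ C)) (c : C) :
    star (l c) ((w.map (lett x l)).prod Ω) =
      ((splits (.inr c) w).map fun p =>
        moment Ω (lett x l) p.1 • ((p.2.map (lett x l)).prod Ω)).sum := sorry

/-- enlarging the variables by some of the semicirculars -/
theorem FockRel.extend {D : Type} [DecidableEq D] {Ω : H} {x : ι → H →L[ℂ] H}
    {l : C ⊕ D → H →L[ℂ] H} (h : FockRel Ω x l) :
    FockRel Ω (lett x fun c => l (.inl c)) (fun d => l (.inr d)) := sorry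

/-- real orthonormal combinations of the creation operators -/
theorem FockRel.combine [Fintype C] {J : Type} [DecidableEq J] {Ω : H} {x : ι → H →L[ℂ] H}
    {l : C → H →L[ℂ] H} (h : FockRel Ω x l) (A : J → C → ℝ)
    (hA : ∀ i j, ∑ c, A i c * A j c = if i = j then 1 else 0) :
    FockRel Ω x (fun j => ∑ c, ((A j c : ℝ) : ℂ) • l c) := sorry

/-- D-formula for `Z_i = x_i + b_i (l_i + l_i†)` -/
theorem FockRel.D_Z {Ω : H} {x : ι → H →L[ℂ] H} {l : ι → H →L[ℂ] H} (h : FockRel Ω x l)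
    (b : ι → ℝ) (v : List ι) (i : ι) :
    star (l i) ((v.map fun j => x j + ((b j : ℝ) : ℂ) • (l j + star (l j))).prod Ω) =
      ((b i : ℝ) : ℂ) • ((splits i v).map fun p =>
        moment Ω (fun j => x j + ((b j : ℝ) : ℂ) • (l j + star (l j))) p.1 •
          (p.2.map fun j => x j + ((b j : ℝ) : ℂ) • (l j + star (l j))).prod Ω).sum := sorry

/-- moments of words of self-adjoint operators -/
theorem moment_reverse {Ω : H} {y : ι → H →L[ℂ] H} (hy : ∀ i, IsSelfAdjoint (y i)) (w : List ι) :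
    moment Ω y w.reverse = (starRingEnd ℂ) (moment Ω y w) := sorry

theorem FockRel.norm_le_one {Ω : H} {x : ι → H →L[ℂ] H} {l : C → H →L[ℂ] H}
    (h : FockRel Ω x l) (c : C) : ‖l c‖ ≤ 1 := sorry

/-- [B2] Free.lean : the semicirculars are free, and free from the algebra generated by `x` -/
theorem freeSemicirc_of_fock {n : ℕ} {Ω : H} {x : ι → H →L[ℂ] H} {l : Fin n → H →L[ℂ] H}
    (h : FockRel Ω x l) (X : Fin n → H →L[ℂ] H)
    (hX : ∀ j, X j ∈ Algebra.adjoin ℂ (Set.range x)) :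
    FreeSemicirc Ω X (fun j => l j + star (l j)) := sorry
end B

/-! ### [C] KeyIneq.lean -/
theorem key_ineq [CompleteSpace H] {n : ℕ} {Ω : H} {x l : Fin n → H →L[ℂ] H} (h : FockRel Ω x l)
    (p : H →L[ℂ] H) (π : ℝ) (hπ : 0 < π) (hp : IsSelfAdjoint p) (hpp : p * p = p)
    (hpx : ∀ i, p * x i = 0) (hpl : ∀ c d, star (l c) * p * l d = if c = d then (π : ℂ) • 1 else 0)
    (hpΩ : ∀ c, star (l c) (p Ω) = 0) (hπΩ : ⟪Ω, p Ω⟫_ℂ = π)
    (σ : Fin n → ℝ) (hσ : ∀ j, 0 < σ j) (i : Fin n) (K : ℝ)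
    (hK : ∀ F : Finset (List (Fin n)),
      ∑ v ∈ F, ‖moment Ω x (i :: v)‖ ^ 2 / ((v.map σ).prod * π ^ (v.length + 1)) ≤ K)
    (ψ : H) (hψ : ψ ∈ L2 Ω fun j => x j + ((√(σ j) : ℝ) : ℂ) • (l j + star (l j))) :
    ‖⟪x i Ω, ψ⟫_ℂ‖ ^ 2 ≤ K * ‖ψ‖ ^ 2 := sorry

/-! ### [D] MBound.lean -/
theorem vac_bound {a : ℕ} (ha : 11 ≤ a) (i : Fin (a + 1)) (σ : Fin (a + 1) → ℝ)
    (hσ : ∀ j, 11 * √(a : ℝ) ≤ σ j) (F : Finset (List (Fin (a + 1)))) :
    ∑ v ∈ F, vac (i :: v) [] ^ 2 / ((v.map σ).prod * (1 - 1 / (a : ℝ)) ^ (v.length + 1)) ≤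
      20 * √(a : ℝ) := sorry

/-! ### [E] VNLemma.lean -/
theorem vn_of_letters [CompleteSpace H] {ι : Type} (Ω : H) (hΩ : ‖Ω‖ = 1) (y : ι → H →L[ℂ] H)
    (hy : ∀ i, IsSelfAdjoint (y i)) (hcyc : L2 Ω y = ⊤)
    (htr : ∀ u v, moment Ω y (u ++ v) = moment Ω y (v ++ u)) :
    ∃ 𝓜 : TracialVN H, 𝓜.Ω = Ω ∧ ∀ i, y i ∈ 𝓜.M := sorry

/-! ### [F] PhiBound.lean : upper bound of the free Fisher information -/
theorem phi_bound [CompleteSpace H] {n : ℕ} {Ω : H} {x l : Fin n → H →L[ℂ] H} (h : FockRel Ω x l)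
    (σ : Fin n → ℝ) (hσ : ∀ j, 0 < σ j) (β : Fin n → ℝ)
    (hβ : ∀ j, ∀ ψ ∈ L2 Ω (fun j => x j + ((√(σ j) : ℝ) : ℂ) • (l j + star (l j))),
      ‖⟪x j Ω, ψ⟫_ℂ‖ ^ 2 ≤ β j * ‖ψ‖ ^ 2) :
    phiStar Ω (fun j => x j + ((√(σ j) : ℝ) : ℂ) • (l j + star (l j))) ≤
      ENNReal.ofReal (∑ j, (1 / σ j - (‖x j Ω‖ ^ 2 - β j) / σ j ^ 2)) := sorry

/-! ### [G] Model.lean : existence of the concrete Fock model -/
theorem model_exists (a : ℕ) (ha : 2 ≤ a) (C : Type) [Fintype C] [DecidableEq C] :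
    ∃ (H : Type) (_ : NormedAddCommGroup H) (_ : InnerProductSpace ℂ H) (_ : CompleteSpace H)
      (Ω : H) (x : Fin (a + 1) → H →L[ℂ] H) (l : C → H →L[ℂ] H),
      FockRel Ω x l ∧ x 0 * x 0 = x 0 ∧ (∀ i : Fin a, x 0 * x i.succ = x i.succ) ∧
      (∀ i : Fin a, ‖x i.succ‖ ≤ 2) ∧
      (∀ v : List (Fin (a + 1)), v ≠ [] → moment Ω x v = ((1 / (a : ℝ) * vac v [] : ℝ) : ℂ)) ∧
      IsLaw (1 / (a : ℝ)) (moment Ω (lett x l)) ∧
      L2 Ω (lett x l) = ⊤ := sorry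

/-! ### [H] GaussPoly.lean -/
/-- iterated product of a measure over `ι` and `κ` is the product over `ι × κ` -/
theorem curry_pi {ι κ : Type} [Fintype ι] [Fintype κ] (μ : Measure ℝ) [SigmaFinite μ] :
    MeasurePreserving (MeasurableEquiv.curry ι κ ℝ) (Measure.pi fun _ => μ)
      (Measure.pi fun _ => Measure.pi fun _ => μ) := sorry

theorem gauss_poly (N : Type) [Fintype N] [DecidableEq N] :
    ∃ E : MvPolynomial N ℂ →ₗ[ℂ] ℂ, E 1 = 1 ∧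
      (∀ α f, E (MvPolynomial.X α * f) = E (MvPolynomial.pderiv α f)) ∧
      ∀ f, Integrable (fun g : N → ℝ => MvPolynomial.eval (fun α => ((g α : ℝ) : ℂ)) f)
          (Measure.pi fun _ => gaussianReal 0 1) ∧
        E f = ∫ g : N → ℝ, MvPolynomial.eval (fun α => ((g α : ℝ) : ℂ)) f
          ∂(Measure.pi fun _ => gaussianReal 0 1) := sorry

/-! ### [I] HermBasis.lean -/
/-- the basis matrices of the parametrisation -/
noncomputable def hB {k : ℕ} (r s : Fin k) : Matrix (Fin k) (Fin k) ℂ :=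
  herm fun r' s' => if r' = r ∧ s' = s then 1 else 0

theorem herm_eq_sum {k : ℕ} (c : Fin k → Fin k → ℝ) :
    herm c = ∑ r, ∑ s, ((c r s : ℝ) : ℂ) • hB r s := sorry

theorem herm_isHermitian {k : ℕ} (c : Fin k → Fin k → ℝ) : (herm c).IsHermitian := sorry

theorem frob_herm {k : ℕ} (c : Fin k → Fin k → ℝ) : frob (herm c) = ∑ r, ∑ s, c r s ^ 2 := sorry

theorem exists_herm {k : ℕ} {A : Matrix (Fin k) (Fin k) ℂ} (hA : A.IsHermitian) :
    ∃ c, herm c = A := sorry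

/-- completeness of the basis matrices of the corner of size `q` -/
theorem hB_complete {k : ℕ} (q : ℕ) (i j i' j' : Fin k) :
    ∑ r : Fin k, ∑ s : Fin k, (if (r : ℕ) < q ∧ (s : ℕ) < q then hB r s i j * hB r s i' j' else 0) =
      if i = j' ∧ j = i' ∧ (i : ℕ) < q ∧ (j : ℕ) < q then 1 else 0 := sorry

/-! ### [J] MatSys.lean -/
/-- the random matrix moments form a `MatSys` -/
theorem matSys_gauss (a : ℕ) (ha : 1 ≤ a) (C : Type) [Fintype C] [DecidableEq C] (q : ℕ)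
    (hq : 1 ≤ q) :
    ∃ M : List (List (Fin (a + 1) ⊕ C)) → ℂ, MatSys (a * q) M ∧
      ∀ ws, Integrable (fun g => (ws.map fun w => ((w.map (Yv q (a * q) g)).prod.trace /
          ((a * q : ℕ) : ℂ))).prod) (gaussArr (Fin a ⊕ C) (a * q)) ∧
        M ws = ∫ g, (ws.map fun w => ((w.map (Yv q (a * q) g)).prod.trace /
          ((a * q : ℕ) : ℂ))).prod ∂(gaussArr (Fin a ⊕ C) (a * q)) := sorry

/-! ### [K] Converge.lean -/
theorem matSys_tendsto {a : ℕ} (ha : 1 ≤ a) {C : Type} [DecidableEq C]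
    (M : ℕ → List (List (Fin (a + 1) ⊕ C)) → ℂ)
    (hM : ∀ q, 1 ≤ q → MatSys (a * q) (M q)) (τ : List (Fin (a + 1) ⊕ C) → ℂ)
    (hτ : IsLaw (1 / (a : ℝ)) τ) (ws : List (List (Fin (a + 1) ⊕ C))) :
    Tendsto (fun q => M q ws) atTop (𝓝 (ws.map τ).prod) := sorry

/-! ### [L] Prob.lean (from J, K) -/
theorem law_tracial {a : ℕ} (ha : 1 ≤ a) {C : Type} [Fintype C] [DecidableEq C]
    (τ : List (Fin (a + 1) ⊕ C) → ℂ) (hτ : IsLaw (1 / (a : ℝ)) τ)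
    (u v : List (Fin (a + 1) ⊕ C)) : τ (u ++ v) = τ (v ++ u) := sorry

theorem prob_tendsto {a : ℕ} (ha : 1 ≤ a) {C : Type} [Fintype C] [DecidableEq C]
    (τ : List (Fin (a + 1) ⊕ C) → ℂ) (hτ : IsLaw (1 / (a : ℝ)) τ)
    (w : List (Fin (a + 1) ⊕ C)) (ε : ℝ) (hε : 0 < ε) :
    Tendsto (fun q : ℕ => gaussArr (Fin a ⊕ C) (a * q)
      {g | ε ≤ ‖(w.map (Yv q (a * q) g)).prod.trace / ((a * q : ℕ) : ℂ) - τ w‖}) atTop (𝓝 0) := sorry

/-! ### [M] Packing.lean -/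
theorem card_le_of_sep {E : Type} [NormedAddCommGroup E] [NormedSpace ℝ E] [FiniteDimensional ℝ E]
    (s : Finset E) (ρ θ : ℝ) (hρ : 0 ≤ ρ) (hθ : 0 < θ) (hs : ∀ c ∈ s, ‖c‖ ≤ ρ)
    (h : ∀ c ∈ s, ∀ d ∈ s, c ≠ d → θ ≤ ‖c - d‖) :
    (s.card : ℝ) ≤ (1 + 2 * ρ / θ) ^ (Module.finrank ℝ E) := sorry

/-! ### [N] NetProj.lean (from M) -/
theorem exists_net_proj (k r : ℕ) (θ : ℝ) (hθ : 0 < θ) (hθ1 : θ ≤ 1) :
    ∃ 𝒩 : Finset (Matrix (Fin k) (Fin k) ℂ),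
      (∀ E ∈ 𝒩, E.IsHermitian ∧ E * E = E ∧ E.trace = r) ∧
      (𝒩.card : ℝ) ≤ (5 / θ) ^ (2 * k * r) ∧
      ∀ F : Matrix (Fin k) (Fin k) ℂ, F.IsHermitian → F * F = F → F.trace = r →
        ∃ E ∈ 𝒩, frob (F - E) ≤ θ ^ 2 * k := sorry

/-! ### [O] NormBound.lean (from M) -/
theorem norm_bound (k q : ℕ) (hq : 1 ≤ q) (hqk : q ≤ k) :
    (Measure.pi fun _ : Fin k => Measure.pi fun _ : Fin k => gaussianReal 0 1)
      {g | ¬ ∀ v : EuclideanSpace ℂ (Fin k), ‖Matrix.toEuclideanLin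
        (herm fun r s => if (r : ℕ) < q ∧ (s : ℕ) < q then g r s / √(q : ℝ) else 0) v‖ ≤
          6 * ‖v‖} ≤ ENNReal.ofReal (2 * (81 * Real.exp (-(9 / 2))) ^ q) := sorry

/-! ### [P] GaussVol.lean -/
theorem vol_ball {k : ℕ} (E : Matrix (Fin k) (Fin k) ℂ) (hE : E.IsHermitian) (α b : ℝ) (hα : 0 < α) :
    volume {c : Fin k → Fin k → ℝ | frob (herm c - E) ≤ b} ≤
      ENNReal.ofReal (Real.exp (α * b / 2) * (2 * Real.pi / α) ^ ((k : ℝ) ^ 2 / 2)) := sorry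

theorem vol_slice {k r : ℕ} (E : Matrix (Fin k) (Fin k) ℂ) (hE : E.IsHermitian) (hEE : E * E = E)
    (hr : E.trace = r) (α β b b' : ℝ) (hα : 0 < α) (hβ : 0 < β) :
    volume {c : Fin k → Fin k → ℝ | frob (herm c - E * herm c * E) ≤ b ∧
        frob (E * herm c * E) ≤ b'} ≤
      ENNReal.ofReal (Real.exp (α * b / 2 + β * b' / 2) *
        (2 * Real.pi / α) ^ (((k : ℝ) ^ 2 - (r : ℝ) ^ 2) / 2) *
        (2 * Real.pi / β) ^ ((r : ℝ) ^ 2 / 2)) := sorry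

/-! ### [Q] MatIneq.lean : microstates almost contain a projection -/
/-- facts about the law `μ` of the counterexample used in the upper bound (`δ = 1/a`,
`ε = a⁻⁴`, `t = 1`). -/
structure UpFacts (a : ℕ) (μ : List (Fin (a + 1)) → ℂ) : Prop where
  f1 : ‖μ [0, 0]‖ ≤ 1 / (a : ℝ) + 1 / (a : ℝ) ^ 4
  f2 : ∃ r : ℝ, μ [0, 0] + 75 * μ [0, 0, 0, 0] - 314 * μ [0, 0, 0, 0, 0] +
    478 * μ [0, 0, 0, 0, 0, 0] - 320 * μ [0, 0, 0, 0, 0, 0, 0] +
      80 * μ [0, 0, 0, 0, 0, 0, 0, 0] = (r : ℂ) ∧ r ≤ 1 / (a : ℝ) ^ 4 * (1 + 25 / (a : ℝ) ^ 2)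
  f3 : ∀ i : Fin a, μ [0, i.succ, 0, i.succ] = ((1 / (a : ℝ) + 1 / (a : ℝ) ^ 2 : ℝ) : ℂ)
  f4 : ∀ i : Fin a, μ [i.succ, i.succ] = ((1 / (a : ℝ) + 1 : ℝ) : ℂ)
  f5 : ∀ i : Fin a, ‖μ [i.succ, i.succ, i.succ, i.succ]‖ ≤ 8
  f6 : ∀ i : Fin a, ‖μ [0, i.succ, i.succ, 0, i.succ, i.succ]‖ ≤ 1024

theorem exists_good_proj {a : ℕ} (ha : 100 ≤ a) (μ : List (Fin (a + 1)) → ℂ) (hμ : UpFacts a μ)
    {k : ℕ} (hk : 1 ≤ k) (A : Fin (a + 1) → Matrix (Fin k) (Fin k) ℂ)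
    (hA : ∀ j, (A j).IsHermitian)
    (hm : ∀ w : List (Fin (a + 1)), 1 ≤ w.length → w.length ≤ 8 →
      ‖(w.map A).prod.trace / (k : ℂ) - μ w‖ < 1 / (10 ^ 4 * (a : ℝ) ^ 6)) :
    ∃ (r : ℕ) (E₀ : Matrix (Fin k) (Fin k) ℂ), (r : ℝ) ≤ 2 * k / a ∧ E₀.IsHermitian ∧
      E₀ * E₀ = E₀ ∧ E₀.trace = r ∧
      ∀ E : Matrix (Fin k) (Fin k) ℂ, E.IsHermitian → E * E = E → E.trace = r →
        frob (E₀ - E) ≤ (1 / (a : ℝ) ^ 4) ^ 2 * k →
        frob (A 0 - E) ≤ k * (1 / (a : ℝ) ^ 4) * (1 + 30 / (a : ℝ) ^ 2) ∧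
        ∀ i : Fin a, frob (A i.succ - E * A i.succ * E) ≤ k * (1 + 50 / (a : ℝ) ^ 2) ∧
          frob (E * A i.succ * E) ≤ 2 * k / a := sorry

/-! ### [R] LawFacts.lean -/
/-- the counterexample tuple -/
noncomputable def bW (a : ℕ) : Fin (a + 1) → ℝ :=
  Fin.cases (1 / (a : ℝ) ^ 2) fun _ => 1

theorem upFacts_model [CompleteSpace H] {a : ℕ} (ha : 100 ≤ a) {Ω : H}
    {x l : Fin (a + 1) → H →L[ℂ] H}
    (h : FockRel Ω x l) (hx0 : x 0 * x 0 = x 0) (hx : ∀ i : Fin a, x 0 * x i.succ = x i.succ)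
    (hxn : ∀ i : Fin a, ‖x i.succ‖ ≤ 2)
    (hlaw : IsLaw (1 / (a : ℝ)) (moment Ω (lett x l)))
    (htr : ∀ u v, moment Ω (lett x l) (u ++ v) = moment Ω (lett x l) (v ++ u)) :
    UpFacts a (moment Ω fun j => x j + ((bW a j : ℝ) : ℂ) • (l j + star (l j))) := sorry

/-! ### [S] Upper.lean (from N, P, Q) -/
/-- the upper bound for the microstates entropy -/
noncomputable def Uup (a : ℕ) : ℝ :=
  (4 / (a : ℝ)) * Real.log (5 * (a : ℝ) ^ 4) +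
  (1 / 2) * (1 + 30 / (a : ℝ) ^ 2) + (1 / 2) * Real.log (2 * Real.pi * (1 / (a : ℝ) ^ 4)) +
  a * ((1 / 2) * (1 + 50 / (a : ℝ) ^ 2) + 1 / (a : ℝ) ^ 2 + (1 / 2) * Real.log (2 * Real.pi) +
    2 / (a : ℝ) ^ 2 * Real.log a)

theorem chi_upper {a : ℕ} (ha : 100 ≤ a) (μ : List (Fin (a + 1)) → ℂ) (hμ : UpFacts a μ) (R : ℝ) :
    chiR μ R ≤ ((Uup a : ℝ) : EReal) := sorry

/-! ### [T] Lower.lean (from L, O) -/
theorem chi_lower {a : ℕ} (ha : 1 ≤ a) (τ : List (Fin (a + 1) ⊕ Fin (a + 1)) → ℂ)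
    (hτ : IsLaw (1 / (a : ℝ)) τ) (b : Fin (a + 1) → ℝ) (hb : ∀ j, 0 < b j) (hb1 : ∀ j, b j ≤ 1) :
    ⊥ < chiR (fun w => ((expd b id w).map fun p => ((p.1 : ℝ) : ℂ) * τ p.2).sum) 13 := sorry

/-! ### [U] ChiStarLower.lean (from C, D, F, G) -/
/-- the lower bound for the non-microstates entropy -/
noncomputable def Llow (a : ℕ) : ℝ :=
  (1 / 2) * Real.log (2 * Real.pi * Real.exp 1 * (1 / (a : ℝ) ^ 4)) +
  a * ((1 / 2) * Real.log (2 * Real.pi * Real.exp 1)) +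
  (a / 2) * ((1 / (a : ℝ)) - (1 / (a : ℝ)) ^ 2 * (20 * √(a : ℝ))) / (1 + 11 * √(a : ℝ))

/-- purely analytic part -/
theorem chiStar_ge_of_phi {a : ℕ} (ha : 11 ≤ a) (Ω : H) (W S : Fin (a + 1) → H →L[ℂ] H)
    (h1 : ∀ t : ℝ, 0 < t → phiStar Ω (fun j => W j + ((√t : ℝ) : ℂ) • S j) ≤
      ENNReal.ofReal (∑ j, 1 / (bW a j ^ 2 + t)))
    (h2 : ∀ t : ℝ, 11 * √(a : ℝ) ≤ t → phiStar Ω (fun j => W j + ((√t : ℝ) : ℂ) • S j) ≤
      ENNReal.ofReal ((∑ j, 1 / (bW a j ^ 2 + t)) -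
        a * (1 / (a : ℝ) - (1 / (a : ℝ)) ^ 2 * (20 * √(a : ℝ))) / (1 + t) ^ 2)) :
    ((Llow a : ℝ) : EReal) ≤ chiStar Ω W S := sorry

/-! ### [V] Numeric.lean -/
theorem Uup_lt_Llow : ∀ᶠ a : ℕ in atTop, Uup a < Llow a := sorry

end Vale.Agent.P087
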