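import Vale.Agent.P087.Defs2

/-! Skeleton for the independence of the choice of `S` (P087). NOT to be imported. -/

namespace Vale.Agent.P087

open scoped InnerProductSpace ENNReal Topology
open MeasureTheory Filter

variable {H H' : Type} [NormedAddCommGroup H] [InnerProductSpace ℂ H] [CompleteSpace H]
  [NormedAddCommGroup H'] [InnerProductSpace ℂ H'] [CompleteSpace H']

/-! ### [X1] FreeLaw.lean -/
/-- freeness determines the joint moments -/
theorem free_moment_eq {n : ℕ} {Ω : H} {Ω' : H'} (hΩ : ‖Ω‖ = 1) (hΩ' : ‖Ω'‖ = 1)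
    {X S : Fin n → H →L[ℂ] H} {X' S' : Fin n → H' →L[ℂ] H'}
    (hX : ∀ w, moment Ω X w = moment Ω' X' w)
    (hS : FreeSemicirc Ω X S) (hS' : FreeSemicirc Ω' X' S') (w : List (Fin n ⊕ Fin n)) :
    moment Ω (Sum.elim X S) w = moment Ω' (Sum.elim X' S') w := sorry

/-! ### [X2] PhiLaw.lean -/
/-- the free Fisher information depends only on the moments -/
theorem phiStar_congr {n : ℕ} {Ω : H} {Ω' : H'} {Z : Fin n → H →L[ℂ] H} {Z' : Fin n → H' →L[ℂ] H'}
    (hZ : ∀ j, IsSelfAdjoint (Z j)) (hZ' : ∀ j, IsSelfAdjoint (Z' j))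
    (h : ∀ w, moment Ω Z w = moment Ω' Z' w) : phiStar Ω Z = phiStar Ω' Z' := sorry

/-! ### [X3] -/
theorem chiStar_congr {n : ℕ} {Ω : H} {Ω' : H'} (hΩ : ‖Ω‖ = 1) (hΩ' : ‖Ω'‖ = 1)
    {X S : Fin n → H →L[ℂ] H} {X' S' : Fin n → H' →L[ℂ] H'}
    (hXs : ∀ j, IsSelfAdjoint (X j)) (hXs' : ∀ j, IsSelfAdjoint (X' j))
    (hX : ∀ w, moment Ω X w = moment Ω' X' w)
    (hS : FreeSemicirc Ω X S) (hS' : FreeSemicirc Ω' X' S') :
    chiStar Ω X S = chiStar Ω' X' S' := sorry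

end Vale.Agent.P087
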